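import Vale.Agent.P203.Cox2

/-!
# P203 Apt: convex functions on apartments (TASK, pure Coxeter group theory)
`g w` is the vector of heights of the chamber `w`; the vertex `(w, t)` is the functional `v ↦ rho w⁻¹ v t`.
* `convex`: induction on `ℓ x`, `x = x' s` with `s` a right descent (`rdesc_mem`): `g (w x') = rho s (g (w x)) + k • ee s`
  (apply the hypothesis at `w x'` and use `rho s (ee s) = -ee s`, `s * s = 1`), so
  `rho x' (g (w x')) = rho x (g (w x)) + k • rho x' (ee s)` with `rho x' (ee s) ≥ 0`.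
  Consequence used below: `∑ u, g w u * rho x⁻¹ (ee u) t' ≤ g (w x) t'` (`convex` at `w x`, `x⁻¹`, and `sum_ee`), where
  `rho x⁻¹ (ee u) ≥ 0` iff `u` is not a left descent of `x`. Also `g (w s) t = g w t` for `s ≠ t`.
* `ap_neg`: induction on `ℓ x` generalizing `w`, `t`. If there are a left descent `s` of `x` and `t'' ≠ s` in `U` with `g w t'' < 0`, move to
  `(w, t'')`, `(w s, t'')` and use `s x`. Otherwise, if `x ≠ 1`, `t` is the only left descent and the only negative coordinate, so all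
  terms of the sum are `≥ 0`, absurd.
* `ap_nonneg`: by `exists_rmin` applied to `(w⁻¹ w')⁻¹` write `w' = w v x`, `v ∈ W_{U - t}`, `x` without left descent in `U - t`.
* `ap_zero`: induction on `ℓ x` generalizing `w`, `t`. If some left descent `s ≠ t` exists move to `(w s, t)` (same functional). Else
  `t` is the only left descent (or `x = 1`). If `g w t'' = 0` for some `t'' ≠ t` in `U` move to `(w, t'')` (not antipodal: test on
  `v = rho w (ee t'')`), then to `(w t, t'')`. Else the sum gives `rho x⁻¹ (ee u) t' = 0` for `u ≠ t`, so the functionals are proportional with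
  `m = rho x⁻¹ (ee t) t' ≤ 0`, and `m ≠ 0` (test on `v = rho (w x) (ee t')`): antipodal, absurd.
-/

namespace Vale.Agent.P203

variable {B : Type} [Fintype B] [DecidableEq B] {W : Type*} [Group W] {M : CoxeterMatrix B}
  (cs : CoxeterSystem M W)

/-- Apartment functions. -/
def ApF (U : Finset B) (g : W → B → ℝ) : Prop := ∀ w ∈ WP cs U, Supp U (g w) ∧
  ∀ t ∈ U, ∃ k : ℝ, 0 ≤ k ∧ g (w * cs.simple t) = rho cs (cs.simple t) (g w) + k • ee t

/-- The vertices `(w, t)` and `(w', t')` are antipodal. -/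
def Anti (U : Finset B) (w : W) (t : B) (w' : W) (t' : B) : Prop :=
  ∃ m : ℝ, m < 0 ∧ ∀ v, Supp U v → rho cs w'⁻¹ v t' = m * rho cs w⁻¹ v t

variable {cs} {U : Finset B} {g : W → B → ℝ} {w w' x : W} {t t' : B}

theorem ApF.convex (h : ApF cs U g) (hw : w ∈ WP cs U) (hx : x ∈ WP cs U) :
    rho cs x (g (w * x)) ≤ g w := by
  induction hn : cs.length x using Nat.strong_induction_on generalizing x with
  | _ n ih =>
    by_cases h1 : x = 1
    · rw [h1, mul_one, rho_one]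
    obtain ⟨s, hs⟩ := cs.exists_rightDescent_of_ne_one h1
    have hsU := rdesc_mem cs hx hs
    have hx' := mul_mem hx (simple_mem cs hsU)
    obtain ⟨k, hk, e⟩ := (h _ (mul_mem hw hx')).2 s hsU
    rw [mul_assoc, cs.simple_mul_simple_cancel_right] at e
    rw [e, map_add, map_smul, ← rho_mul]
    refine le_trans (add_le_of_nonpos_right ?_) (ih _ (hn ▸ hs) hx' rfl)
    exact smul_nonpos_of_nonneg_of_nonpos hk (rho_ee_nonpos cs hs)

theorem apt_expand (x : W) (v : B → ℝ) (t' : B) :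
    rho cs x v t' = ∑ u, v u * rho cs x (ee u) t' := by
  conv_lhs => rw [sum_ee v, map_sum, Finset.sum_apply]
  simp only [map_smul, Pi.smul_apply, smul_eq_mul]

theorem ApF.apt_sum (h : ApF cs U g) (hw : w ∈ WP cs U) (hx : x ∈ WP cs U) (t' : B) :
    ∑ u, g w u * rho cs x⁻¹ (ee u) t' ≤ g (w * x) t' := by
  have := h.convex (mul_mem hw hx) (inv_mem hx) t'
  rwa [mul_inv_cancel_right, apt_expand] at this

theorem ApF.apt_ne (h : ApF cs U g) (hw : w ∈ WP cs U) {s : B} (hs : s ∈ U) (hst : s ≠ t) :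
    g (w * cs.simple s) t = g w t := by
  obtain ⟨k, -, e⟩ := (h w hw).2 s hs
  rw [e, Pi.add_apply, Pi.smul_apply, rho_simple_ne cs hst.symm, ee_apply, if_neg hst.symm,
    smul_zero, add_zero]

theorem apt_nonneg {u : B} (h : ¬ cs.IsLeftDescent x u) : 0 ≤ rho cs x⁻¹ (ee u) :=
  rho_ee_nonneg cs fun h' => h (cs.isRightDescent_inv_iff.1 h')

theorem apt_nonpos {u : B} (h : cs.IsLeftDescent x u) : rho cs x⁻¹ (ee u) ≤ 0 :=
  rho_ee_nonpos cs (cs.isRightDescent_inv_iff.2 h)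

omit [Fintype B] [DecidableEq B] in
theorem apt_cancel (w x : W) (s : B) : w * cs.simple s * (cs.simple s * x) = w * x := by
  rw [mul_assoc, cs.simple_mul_simple_cancel_left]

theorem apt_fun (w : W) {s : B} (hst : s ≠ t) (v : B → ℝ) :
    rho cs (w * cs.simple s)⁻¹ v t = rho cs w⁻¹ v t := by
  rw [mul_inv_rev, cs.inv_simple, rho_mul, rho_simple_ne cs hst.symm]

theorem ApF.ap_neg (h : ApF cs U g) {Q : W → B → Prop}
    (h1 : ∀ w ∈ WP cs U, ∀ t ∈ U, ∀ t' ∈ U, g w t < 0 → g w t' < 0 → Q w t → Q w t')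
    (h2 : ∀ w ∈ WP cs U, ∀ t ∈ U, ∀ s ∈ U, s ≠ t → g w t < 0 → Q w t → Q (w * cs.simple s) t)
    (hw : w ∈ WP cs U) (hx : x ∈ WP cs U) (ht : t ∈ U) (ht' : t' ∈ U) (h0 : g w t < 0)
    (h0' : g (w * x) t' < 0) (hQ : Q w t) : Q (w * x) t' := by
  induction hn : cs.length x using Nat.strong_induction_on generalizing w x t with
  | _ n ih =>
    by_cases hA : ∃ s, cs.IsLeftDescent x s ∧ ∃ u ∈ U, s ≠ u ∧ g w u < 0
    · obtain ⟨s, hs, u, hu, hsu, hu0⟩ := hA
      have hsU := ldesc_mem cs hx hs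
      rw [← apt_cancel (cs := cs) w x s] at h0' ⊢
      exact ih _ (hn ▸ hs) (mul_mem hw (simple_mem cs hsU)) (mul_mem (simple_mem cs hsU) hx) hu
        ((h.apt_ne hw hsU hsu).trans_lt hu0) h0'
        (h2 w hw u hu s hsU hsu hu0 (h1 w hw t ht u hu h0 hu0 hQ)) rfl
    by_cases hx1 : x = 1
    · rw [hx1, mul_one] at h0' ⊢
      exact h1 w hw t ht t' ht' h0 h0' hQ
    obtain ⟨s, hs⟩ := cs.exists_leftDescent_of_ne_one hx1
    obtain rfl : s = t := by_contra fun hst => hA ⟨s, hs, t, ht, hst, h0⟩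
    refine absurd ((Finset.sum_nonneg fun u _ => ?_).trans (h.apt_sum hw hx t')) (not_le.2 h0')
    by_cases hu : u ∈ U
    · by_cases hus : u = s
      · rw [hus]
        exact mul_nonneg_of_nonpos_of_nonpos h0.le (apt_nonpos hs t')
      · exact mul_nonneg (not_lt.1 fun h3 => hA ⟨s, hs, u, hu, Ne.symm hus, h3⟩)
          (apt_nonneg (fun h3 => hA ⟨u, h3, s, ht, hus, h0⟩) t')
    · rw [(h w hw).1 u hu, zero_mul]

theorem ApF.ap_nonneg (h : ApF cs U g) (hw : w ∈ WP cs U) (h0 : g w t = 0)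
    (h1 : ∀ v ∈ WP cs (U.erase t), 0 ≤ g (w * v)) (hw' : w' ∈ WP cs U) : 0 ≤ g w' := by
  obtain ⟨u, v, hu, hv, e⟩ := exists_rmin cs (U.erase t) (w'⁻¹ * w)
  have hs := WP_mono cs (Finset.erase_subset t U)
  have e1 : u = w'⁻¹ * w * v⁻¹ := by rw [e, mul_inv_cancel_right]
  have hU : u ∈ WP cs U := e1 ▸ mul_mem (mul_mem (inv_mem hw') hw) (inv_mem (hs hv))
  have e2 : w' * u = w * v⁻¹ := by rw [e1, mul_assoc, mul_inv_cancel_left]
  have h3 : g (w * v⁻¹) t = 0 := by
    refine WP_ind cs (p := fun y => g (w * y) t = 0) (by rwa [mul_one]) ?_ (inv_mem hv)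
    intro y s hy hs' ih
    rw [← mul_assoc, h.apt_ne (mul_mem hw (hs hy)) (Finset.mem_of_mem_erase hs')
      (Finset.ne_of_mem_erase hs'), ih]
  refine le_trans ?_ (h.convex hw' hU)
  rw [e2]
  refine rho_nonneg cs hu (fun s hs' => ?_) (h1 _ (inv_mem hv))
  by_cases hst : s = t
  · rw [hst, h3]
  · exact (h _ (mul_mem hw (inv_mem (hs hv)))).1 s fun h4 => hs' (Finset.mem_erase.2 ⟨hst, h4⟩)

theorem ApF.ap_zero (h : ApF cs U g) (hg : ∀ w ∈ WP cs U, 0 ≤ g w) {Q : W → B → Prop}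
    (h1 : ∀ w ∈ WP cs U, ∀ t ∈ U, ∀ t' ∈ U, g w t = 0 → g w t' = 0 → Q w t → Q w t')
    (h2 : ∀ w ∈ WP cs U, ∀ t ∈ U, ∀ s ∈ U, s ≠ t → Q w t → Q (w * cs.simple s) t)
    (hw : w ∈ WP cs U) (hx : x ∈ WP cs U) (ht : t ∈ U) (ht' : t' ∈ U) (h0 : g w t = 0)
    (h0' : g (w * x) t' = 0) (ha : ¬ Anti cs U w t (w * x) t') (hQ : Q w t) : Q (w * x) t' := by
  induction hn : cs.length x using Nat.strong_induction_on generalizing w x t with
  | _ n ih =>
    have step : ∀ s u, cs.IsLeftDescent x s → u ∈ U → s ≠ u → g w u = 0 →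
        ¬ Anti cs U w u (w * x) t' → Q (w * x) t' := fun s u hs hu hsu hu0 hna => by
      have hsU := ldesc_mem cs hx hs
      have h3 := ih (cs.length (cs.simple s * x)) (hn ▸ hs) (mul_mem hw (simple_mem cs hsU))
        (mul_mem (simple_mem cs hsU) hx) hu ((h.apt_ne hw hsU hsu).trans hu0)
      rw [apt_cancel] at h3
      refine h3 h0' (fun ⟨m, hm, h4⟩ => hna ⟨m, hm, fun v hv => ?_⟩)
        (h2 w hw u hu s hsU hsu (h1 w hw t ht u hu h0 hu0 hQ)) rfl
      rw [h4 v hv, apt_fun w hsu]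
    by_cases hA : ∃ s, cs.IsLeftDescent x s ∧ s ≠ t
    · obtain ⟨s, hs, hst⟩ := hA
      exact step s t hs ht hst h0 ha
    by_cases hx1 : x = 1
    · rw [hx1, mul_one] at h0' ⊢
      exact h1 w hw t ht t' ht' h0 h0' hQ
    obtain ⟨s, hs⟩ := cs.exists_leftDescent_of_ne_one hx1
    obtain rfl : s = t := by_contra fun hst => hA ⟨s, hs, hst⟩
    have hp : ∀ u, u ≠ s → 0 ≤ rho cs x⁻¹ (ee u) t' := fun u hu =>
      apt_nonneg (fun h3 => hA ⟨u, h3, hu⟩) t'
    by_cases hB : ∃ u ∈ U, u ≠ s ∧ g w u = 0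
    · obtain ⟨u, hu, hus, hu0⟩ := hB
      refine step s u hs hu hus.symm hu0 fun ⟨m, hm, h4⟩ => ?_
      have h5 := h4 _ ((supp_ee hu).rho cs hw)
      rw [mul_inv_rev, rho_mul, rho_inv_self, ee_apply, if_pos rfl, mul_one] at h5
      exact absurd (h5 ▸ hp u hus) (not_le.2 hm)
    have h3 : ∀ u ∈ Finset.univ, 0 ≤ g w u * rho cs x⁻¹ (ee u) t' := fun u _ => by
      by_cases hus : u = s
      · rw [hus, h0, zero_mul]
      · exact mul_nonneg (hg w hw u) (hp u hus)
    have h4 := (Finset.sum_eq_zero_iff_of_nonneg h3).1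
      (le_antisymm ((h.apt_sum hw hx t').trans h0'.le) (Finset.sum_nonneg h3))
    have h5 : ∀ v, Supp U v →
        rho cs (w * x)⁻¹ v t' = rho cs x⁻¹ (ee s) t' * rho cs w⁻¹ v s := fun v hv => by
      rw [mul_inv_rev, rho_mul, apt_expand, Finset.sum_eq_single s, mul_comm]
      · intro u _ hus
        by_cases hu : u ∈ U
        · rw [(mul_eq_zero.1 (h4 u (Finset.mem_univ u))).resolve_left
            fun h6 => hB ⟨u, hu, hus, h6⟩, mul_zero]
        · rw [hv.rho cs (inv_mem hw) u hu, zero_mul]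
      · exact fun h6 => absurd (Finset.mem_univ s) h6
    refine absurd ⟨_, lt_of_le_of_ne (apt_nonpos hs t') fun h6 => ?_, h5⟩ ha
    have h7 := h5 _ ((supp_ee ht').rho cs (mul_mem hw hx))
    rw [rho_inv_self, ee_apply, if_pos rfl, h6, zero_mul] at h7
    exact one_ne_zero h7

end Vale.Agent.P203
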