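import Vale.Agent.P203.Cox2

/-!
# P203 PF: the Perron-Frobenius dichotomy (TASK)
Recall `cor M u v = 2 * bil M v (ee u)` (`two_bil_ee`, `two_bil`, `bil_symm`, `bil_rho`).
* `pf_dich`: for `U` nonempty minimise `x ↦ bil x x` on the compact set `{x ≥ 0, Supp U x, ∑ x = 1}`; let `q` be the minimum at `x`.
  Moving towards `ee t` gives `q ≤ bil x (ee t)` for `t ∈ U`, with equality on the support of `x` (the `x`-average is `q`). If
  `0 < q` then `x` is a theta (`x t = 0` would give `cor t x ≤ 0`). Else `cor t x ≤ 0` for all `t`. (`U = ∅`: `θ = 0`.)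
* `pf_split`: among the `δ ≥ 0` with `Supp U δ`, `cor u δ ≤ 0` for `u ∈ U` (`δ = 0` allowed) take one whose support `D` has maximal
  cardinality. `D` is closed in `U` (else add `ε • ee t`). Apply `pf_dich` to `U \ D`; in the second case `δ + δ₂` is larger.
* `sph_of_theta`: `bil` is positive semidefinite on vectors supported in `U` (weighted AM-GM with `θ`). Let `κ > 0` be a lower bound
  of `cor u θ`. For `w ∈ W_U`, by induction on the length, `2 * bil (θ - rho w θ) θ ≥ κ ^ 2 * ℓ w`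
  (`rho (w s) θ = rho w θ - cor s θ • β`, `β = rho w (ee s) ≥ 0`, `bil β β = 1` gives `∑ β ≥ 1`, `2 * bil β θ ≥ κ * ∑ β`).
  And `bil (θ + rho w θ) (θ + rho w θ) ≥ 0` bounds it above. Use `sph_of_bdd`.
* `not_sph_of_delta`: `δ ≤ rho w δ` on `W_D` by induction on the length, but `rho w0 δ ≤ 0` (`rho_nonpos`).
-/

namespace Vale.Agent.P203

variable {B : Type} [Fintype B] [DecidableEq B] {W : Type*} [Group W] {M : CoxeterMatrix B}

/-- `U` is a union of components of `T`. -/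
def Closed (M : CoxeterMatrix B) (T U : Finset B) : Prop :=
  U ⊆ T ∧ ∀ u ∈ U, ∀ t ∈ T, t ∉ U → aa M u t = 0

/-- A positive strictly dominant vector. -/
def IsTheta (M : CoxeterMatrix B) (U : Finset B) (θ : B → ℝ) : Prop :=
  Supp U θ ∧ ∀ u ∈ U, 0 < θ u ∧ 0 < cor M u θ

/-- A positive antidominant vector. -/
def IsDelta (M : CoxeterMatrix B) (U : Finset B) (δ : B → ℝ) : Prop :=
  U.Nonempty ∧ Supp U δ ∧ ∀ u ∈ U, 0 < δ u ∧ cor M u δ ≤ 0

variable {T U D : Finset B} {θ δ : B → ℝ}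

omit [Fintype B] in
theorem Closed.refl (T : Finset B) : Closed M T T := ⟨subset_rfl, fun _ _ _ h h' => absurd h h'⟩

omit [Fintype B] in
theorem Closed.trans (h : Closed M T U) (h' : Closed M U D) : Closed M T D :=
  ⟨h'.1.trans h.1, fun u hu t ht hD => by
    by_cases h1 : t ∈ U
    · exact h'.2 u hu t h1 hD
    · exact h.2 u (h'.1 hu) t ht h1⟩

omit [Fintype B] in
theorem Closed.sdiff (h : Closed M T U) : Closed M T (T \ U) :=
  ⟨Finset.sdiff_subset, fun u hu t ht hD => by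
    rw [Finset.mem_sdiff] at hu hD
    rw [aa_symm]
    exact h.2 t (by tauto) u hu.1 hu.2⟩

omit [Fintype B] in
theorem Closed.erase (h : Closed M T U) (t : B) : Closed M (T.erase t) (U.erase t) :=
  ⟨Finset.erase_subset_erase t h.1, fun u hu s hs hD => by
    rw [Finset.mem_erase] at hu hs hD
    exact h.2 u hu.2 s hs.2 (by tauto)⟩

omit [Fintype B] in
theorem Closed.erase' (h : Closed M T U) {t : B} (ht : t ∉ U) : Closed M (T.erase t) U := by
  have := h.erase t
  rwa [Finset.erase_eq_of_notMem ht] at this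

theorem pf_lim {a c : ℝ} (h : ∀ ε : ℝ, 0 < ε → ε ≤ 1 → 0 ≤ a + ε * c) : 0 ≤ a := by
  refine le_of_forall_pos_le_add fun η hη => ?_
  have h0 : 0 < η / (|c| + 1) := by positivity
  have h1 := h (min 1 (η / (|c| + 1))) (lt_min one_pos h0) (min_le_left _ _)
  have h2 : min 1 (η / (|c| + 1)) * c ≤ η / (|c| + 1) * (|c| + 1) :=
    (mul_le_mul_of_nonneg_left (le_abs_self c) (lt_min one_pos h0).le).trans
      (mul_le_mul (min_le_right _ _) (by linarith) (abs_nonneg c) h0.le)
  rw [div_mul_cancel₀ _ (by positivity)] at h2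
  linarith

theorem pf_cor_le {x : B → ℝ} (hx : ∀ s, 0 ≤ x s) (u : B) : cor M u x ≤ 2 * x u :=
  sub_le_self _ (Finset.sum_nonneg fun s _ => mul_nonneg (aa_nonneg u s) (hx s))

theorem pf_one_le {x : B → ℝ} (hx : 0 ≤ x) (h : bil M x x = 1) : 1 ≤ ∑ u, x u := by
  have h0 : 0 ≤ ∑ u, x u := Finset.sum_nonneg fun u _ => hx u
  have h1 : 2 * bil M x x ≤ ∑ u, x u * (2 * ∑ u, x u) := by
    rw [two_bil]
    refine Finset.sum_le_sum fun u _ => mul_le_mul_of_nonneg_left ?_ (hx u)
    have := Finset.single_le_sum (f := x) (fun s _ => hx s) (Finset.mem_univ u)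
    linarith [pf_cor_le (M := M) hx u]
  rw [← Finset.sum_mul, h] at h1
  nlinarith

theorem pf_psd (h : IsTheta M U θ) {x : B → ℝ} (hx : Supp U x) : 0 ≤ bil M x x := by
  have h0 : ∀ s, 0 ≤ θ s := fun s => by
    by_cases h1 : s ∈ U
    · exact (h.2 s h1).1.le
    · exact (h.1 s h1).ge
  obtain ⟨r, hr⟩ : ∃ r : B → ℝ, ∀ s, x s = r s * θ s := ⟨fun s => x s / θ s, fun s => by
    by_cases h1 : s ∈ U
    · rw [div_mul_cancel₀ _ (h.2 s h1).1.ne']
    · rw [hx s h1, h.1 s h1, mul_zero]⟩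
  have h1 : ∑ u, ∑ s, aa M u s * θ u * θ s * r s ^ 2 = ∑ u, ∑ s, aa M u s * θ u * θ s * r u ^ 2 := by
    rw [Finset.sum_comm]
    exact Finset.sum_congr rfl fun u _ => Finset.sum_congr rfl fun s _ => by rw [aa_symm]; ring
  have h2 : 2 * ∑ u, ∑ s, aa M u s * θ u * θ s * (r u * r s) ≤
      ∑ u, ∑ s, aa M u s * θ u * θ s * r u ^ 2 + ∑ u, ∑ s, aa M u s * θ u * θ s * r s ^ 2 := by
    simp only [Finset.mul_sum, ← Finset.sum_add_distrib]
    refine Finset.sum_le_sum fun u _ => Finset.sum_le_sum fun s _ => ?_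
    have := mul_nonneg (mul_nonneg (mul_nonneg (aa_nonneg (M := M) u s) (h0 u)) (h0 s))
      (sq_nonneg (r u - r s))
    linarith
  have h3 : 0 ≤ ∑ u, r u ^ 2 * θ u * cor M u θ := Finset.sum_nonneg fun u _ => by
    by_cases h1 : u ∈ U
    · exact mul_nonneg (mul_nonneg (sq_nonneg _) (h0 u)) (h.2 u h1).2.le
    · rw [h.1 u h1, mul_zero, zero_mul]
  have h4 : ∑ u, r u ^ 2 * θ u * cor M u θ =
      ∑ u, 2 * (r u * θ u) ^ 2 - ∑ u, ∑ s, aa M u s * θ u * θ s * r u ^ 2 := by
    rw [← Finset.sum_sub_distrib]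
    refine Finset.sum_congr rfl fun u _ => ?_
    rw [cor, mul_sub, Finset.mul_sum]
    congr 1
    · ring
    · exact Finset.sum_congr rfl fun s _ => by ring
  have h5 : 2 * bil M x x =
      ∑ u, 2 * (r u * θ u) ^ 2 - ∑ u, ∑ s, aa M u s * θ u * θ s * (r u * r s) := by
    rw [two_bil, ← Finset.sum_sub_distrib]
    refine Finset.sum_congr rfl fun u _ => ?_
    rw [cor, mul_sub, Finset.mul_sum, hr u]
    congr 1
    · ring
    · exact Finset.sum_congr rfl fun s _ => by rw [hr s]; ring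
  linarith

theorem pf_ind (cs : CoxeterSystem M W) {p : W → Prop} (h1 : p 1)
    (h2 : ∀ w s, w ∈ WP cs T → s ∈ T → ¬ cs.IsRightDescent w s → p w → p (w * cs.simple s))
    {w : W} (hw : w ∈ WP cs T) : p w := by
  induction hn : cs.length w using Nat.strong_induction_on generalizing w with
  | _ n ih =>
    by_cases h : w = 1
    · rw [h]
      exact h1
    obtain ⟨s, hs⟩ := cs.exists_rightDescent_of_ne_one h
    have h3 := rdesc_mem cs hw hs
    have h4 := mul_mem hw (simple_mem cs h3)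
    have h5 := h2 _ s h4 h3 (cs.isRightDescent_iff_not_isRightDescent_mul.1 hs)
      (ih _ (hn ▸ hs) h4 rfl)
    rwa [cs.simple_mul_simple_cancel_right] at h5

theorem IsDelta.two (h : IsDelta M D δ) (s : B) : ∃ u ∈ D, u ≠ s := by
  by_contra hc
  have h1 : ∀ u ∈ D, u = s := fun u hu => by
    by_contra h2
    exact hc ⟨u, hu, h2⟩
  obtain ⟨u, hu⟩ := h.1
  have h2 := h.2.2 u hu
  have h3 : ∑ t, aa M u t * δ t = 0 := Finset.sum_eq_zero fun t _ => by
    by_cases ht : t ∈ D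
    · rw [h1 t ht, ← h1 u hu, aa_self, zero_mul]
    · rw [h.2.1 t ht, mul_zero]
  rw [cor, h3] at h2
  linarith [h2.1, h2.2]

theorem pf_dich (M : CoxeterMatrix B) (U : Finset B) : (∃ θ, IsTheta M U θ) ∨
    ∃ δ, δ ≠ 0 ∧ 0 ≤ δ ∧ Supp U δ ∧ ∀ u, cor M u δ ≤ 0 := by
  rcases U.eq_empty_or_nonempty with rfl | ⟨t0, ht0⟩
  · exact Or.inl ⟨0, fun _ _ => rfl, fun u hu => absurd hu (Finset.notMem_empty u)⟩
  have hK : IsCompact (stdSimplex ℝ B ∩ {x | Supp U x}) := by
    refine (isCompact_stdSimplex ℝ B).inter_right ?_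
    have e : {x : B → ℝ | Supp U x} = ⋂ s, ⋂ _ : s ∉ U, {x : B → ℝ | x s = 0} := by
      ext x
      simp only [Set.mem_ofPred_eq, Set.mem_iInter, Supp]
    rw [e]
    exact isClosed_iInter fun s => isClosed_iInter fun _ =>
      isClosed_eq (continuous_apply s) continuous_const
  have hee : ∀ t ∈ U, ee t ∈ stdSimplex ℝ B ∩ {x | Supp U x} := fun t ht =>
    ⟨⟨ee_nonneg t, by simp [ee_apply]⟩, supp_ee ht⟩
  have hc : Continuous fun x : B → ℝ => bil M x x := by
    simp only [bil_apply]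
    fun_prop
  obtain ⟨x, ⟨⟨hx0, hx1⟩, hxU⟩, hmin⟩ := hK.exists_isMinOn ⟨_, hee t0 ht0⟩ hc.continuousOn
  have key : ∀ t ∈ U, 2 * bil M x x ≤ cor M t x := by
    intro t ht
    rw [← two_bil_ee, ← sub_nonneg]
    refine pf_lim (c := bil M (ee t - x) (ee t - x)) fun ε h0 h1 => ?_
    have hy : x + ε • (ee t - x) ∈ stdSimplex ℝ B ∩ {x | Supp U x} := by
      refine ⟨⟨fun s => ?_, ?_⟩, fun s hs => ?_⟩
      · have := hx0 s
        have h2 : 0 ≤ ee t s := ee_nonneg t s
        simp only [Pi.add_apply, Pi.smul_apply, Pi.sub_apply, smul_eq_mul]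
        nlinarith
      · simp only [Pi.add_apply, Pi.smul_apply, Pi.sub_apply, smul_eq_mul,
          Finset.sum_add_distrib, ← Finset.mul_sum, Finset.sum_sub_distrib, hx1, (hee t ht).1.2]
        ring
      · simp only [Pi.add_apply, Pi.smul_apply, Pi.sub_apply, smul_eq_mul, hxU s hs,
          supp_ee ht s hs]
        ring
    have h2 : bil M x x ≤ bil M (x + ε • (ee t - x)) (x + ε • (ee t - x)) := hmin hy
    have h3 : bil M (x + ε • (ee t - x)) (x + ε • (ee t - x)) = bil M x x +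
        ε * (2 * bil M x (ee t) - 2 * bil M x x + ε * bil M (ee t - x) (ee t - x)) := by
      simp only [map_add, map_smul, map_sub, LinearMap.add_apply, LinearMap.smul_apply,
        LinearMap.sub_apply, smul_eq_mul, bil_symm (ee t) x]
      ring
    rw [h3, le_add_iff_nonneg_right] at h2
    exact nonneg_of_mul_nonneg_right h2 h0 |> fun h => by linarith
  rcases lt_or_ge 0 (bil M x x) with hq | hq
  · refine Or.inl ⟨x, hxU, fun u hu => ?_⟩
    have h1 := key u hu
    have h2 := pf_cor_le (M := M) hx0 u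
    constructor <;> linarith
  · refine Or.inr ⟨x, fun h => ?_, hx0, hxU, fun u => ?_⟩
    · rw [h] at hx1
      simp at hx1
    · have h1 : ∑ t, x t * (cor M t x - 2 * bil M x x) = 0 := by
        simp only [mul_sub, Finset.sum_sub_distrib, ← Finset.sum_mul, hx1, ← two_bil]
        ring
      have h2 : ∀ t ∈ Finset.univ, 0 ≤ x t * (cor M t x - 2 * bil M x x) := fun t _ => by
        by_cases ht : t ∈ U
        · exact mul_nonneg (hx0 t) (sub_nonneg.2 (key t ht))
        · rw [hxU t ht, zero_mul]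
      rcases mul_eq_zero.1 ((Finset.sum_eq_zero_iff_of_nonneg h2).1 h1 u (Finset.mem_univ u))
        with h3 | h3
      · have := pf_cor_le (M := M) hx0 u
        linarith
      · linarith

theorem pf_split (M : CoxeterMatrix B) (U : Finset B) : ∃ D, Closed M U D ∧
    (D = ∅ ∨ ∃ δ, IsDelta M D δ) ∧ ∃ θ, IsTheta M (U \ D) θ := by
  classical
  obtain ⟨D, hD, hmax⟩ := Finset.exists_max_image
    (Finset.univ.filter fun D : Finset B => ∃ δ : B → ℝ, (0 ≤ δ ∧ Supp U δ ∧ ∀ u, cor M u δ ≤ 0) ∧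
      D = Finset.univ.filter fun s => 0 < δ s) Finset.card
    ⟨_, Finset.mem_filter.2 ⟨Finset.mem_univ _, 0, ⟨le_rfl, fun _ _ => rfl,
      fun u => by simp [cor]⟩, rfl⟩⟩
  obtain ⟨δ, ⟨h0, hU, hc⟩, hD⟩ := (Finset.mem_filter.1 hD).2
  have hm : ∀ s, s ∈ D ↔ 0 < δ s := fun s => by simp [hD]
  have key : ∀ ρ : B → ℝ, 0 ≤ ρ → Supp U ρ → (∀ u, cor M u (δ + ρ) ≤ 0) → ∀ s, 0 < ρ s → s ∈ D := by
    intro ρ r0 rU rc s hs
    have h1 := hmax (Finset.univ.filter fun s => 0 < (δ + ρ) s) (Finset.mem_filter.2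
      ⟨Finset.mem_univ _, δ + ρ, ⟨add_nonneg h0 r0, fun s hs => by
        rw [Pi.add_apply, hU s hs, rU s hs, add_zero], rc⟩, rfl⟩)
    have h2 : D ⊆ Finset.univ.filter fun s => 0 < (δ + ρ) s := fun s hs =>
      Finset.mem_filter.2 ⟨Finset.mem_univ _, add_pos_of_pos_of_nonneg ((hm s).1 hs) (r0 s)⟩
    rw [Finset.eq_of_subset_of_card_le h2 h1]
    exact Finset.mem_filter.2 ⟨Finset.mem_univ _, add_pos_of_nonneg_of_pos (h0 s) hs⟩
  have hz : Supp D δ := fun s hs => le_antisymm (not_lt.1 fun h => hs ((hm s).2 h)) (h0 s)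
  refine ⟨D, ⟨fun s hs => ?_, fun u hu t ht htD => ?_⟩, ?_, ?_⟩
  · by_contra h
    exact ((hm s).1 hs).ne' (hU s h)
  · by_contra h
    have h1 : 0 < aa M t u * δ u :=
      mul_pos (lt_of_le_of_ne (aa_nonneg t u) (by rw [aa_symm]; exact Ne.symm h)) ((hm u).1 hu)
    have h2 : aa M t u * δ u ≤ ∑ s, aa M t s * δ s :=
      Finset.single_le_sum (f := fun s => aa M t s * δ s)
        (fun s _ => mul_nonneg (aa_nonneg t s) (h0 s)) (Finset.mem_univ u)
    have h3 : 0 < -cor M t δ / 2 := by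
      rw [cor, hz t htD]
      linarith
    refine htD (key ((-cor M t δ / 2) • ee t) (smul_nonneg h3.le (ee_nonneg t))
      (fun s hs => by rw [Pi.smul_apply, supp_ee ht s hs, smul_zero]) (fun r => ?_) t ?_)
    · rw [cor_add, cor_smul]
      by_cases hr : r = t
      · rw [hr, cor_ee_self]
        linarith
      · rw [cor_ee hr]
        have := mul_nonneg h3.le (aa_nonneg (M := M) r t)
        linarith [hc r]
    · rw [Pi.smul_apply, ee_apply, if_pos rfl, smul_eq_mul, mul_one]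
      exact h3
  · rcases D.eq_empty_or_nonempty with h | h
    · exact Or.inl h
    · exact Or.inr ⟨δ, h, hz, fun u hu => ⟨(hm u).1 hu, hc u⟩⟩
  · rcases pf_dich M (U \ D) with h | ⟨ρ, r1, r0, rU, rc⟩
    · exact h
    · exfalso
      obtain ⟨s, hs⟩ := Function.ne_iff.1 r1
      have h1 := key ρ r0 (fun s hs => rU s fun h => hs (Finset.mem_sdiff.1 h).1)
        (fun u => by rw [cor_add]; linarith [hc u, rc u]) s (lt_of_le_of_ne (r0 s) (Ne.symm hs))
      exact hs (rU s fun h => (Finset.mem_sdiff.1 h).2 h1)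

theorem sph_of_theta (cs : CoxeterSystem M W) (h : IsTheta M U θ) : Sph cs U := by
  rcases U.eq_empty_or_nonempty with rfl | hne
  · exact sph_empty cs
  obtain ⟨u0, hu0, hmin⟩ := Finset.exists_min_image U (fun u => cor M u θ) hne
  have hκ := (h.2 u0 hu0).2
  set κ := cor M u0 θ with hκdef
  have key : ∀ w ∈ WP cs U, κ ^ 2 * cs.length w ≤ 2 * bil M θ θ - 2 * bil M θ (rho cs w θ) := by
    intro w hw
    refine pf_ind cs (p := fun w =>
      κ ^ 2 * cs.length w ≤ 2 * bil M θ θ - 2 * bil M θ (rho cs w θ)) ?_ ?_ hw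
    · simp
    · intro w s hw hs hd ih
      have b0 := rho_ee_nonneg cs hd
      have bU := Supp.rho cs hw (supp_ee hs)
      have b1 := pf_one_le (M := M) b0 (by rw [bil_rho, bil_ee_self])
      have b2 : κ * ∑ u, rho cs w (ee s) u ≤ 2 * bil M θ (rho cs w (ee s)) := by
        rw [two_bil, Finset.mul_sum]
        refine Finset.sum_le_sum fun u _ => ?_
        by_cases hu : u ∈ U
        · rw [mul_comm]
          exact mul_le_mul_of_nonneg_left (hmin u hu) (b0 u)
        · rw [bU u hu, mul_zero, zero_mul]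
      have b3 : κ ≤ 2 * bil M θ (rho cs w (ee s)) := by nlinarith
      have b4 : κ * κ ≤ cor M s θ * (2 * bil M θ (rho cs w (ee s))) :=
        mul_le_mul (hmin s hs) b3 hκ.le (h.2 s hs).2.le
      rw [cs.not_isRightDescent_iff.1 hd, rho_mul, rho_simple, map_sub, map_smul, map_sub, map_smul,
        smul_eq_mul]
      push_cast
      nlinarith
  refine sph_of_bdd cs ⌈4 * bil M θ θ / κ ^ 2⌉₊ fun w hw => ?_
  have h1 := pf_psd h (x := θ + rho cs w θ) fun s hs => by
    rw [Pi.add_apply, h.1 s hs, Supp.rho cs hw h.1 s hs, add_zero]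
  simp only [map_add, LinearMap.add_apply, bil_rho, bil_symm (rho cs w θ) θ] at h1
  refine Nat.cast_le.1 (le_trans (α := ℝ) ?_ (Nat.le_ceil _))
  rw [le_div_iff₀ (by positivity)]
  linarith [key w hw]

theorem not_sph_of_delta (cs : CoxeterSystem M W) (h : IsDelta M D δ) : ¬ Sph cs D := by
  intro hs
  have h0 : 0 ≤ δ := fun s => by
    by_cases h1 : s ∈ D
    · exact (h.2.2 s h1).1.le
    · exact (h.2.1 s h1).ge
  have key : δ ≤ rho cs (w0 cs D) δ := by
    refine pf_ind cs (p := fun w => δ ≤ rho cs w δ) (by rw [rho_one]) ?_ (w0_mem cs D)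
    intro w s _ hs hd ih
    rw [rho_mul, rho_simple, map_sub, map_smul]
    exact ih.trans (le_sub_self_iff _ |>.2
      (smul_nonpos_of_nonpos_of_nonneg (h.2.2 s hs).2 (rho_ee_nonneg cs hd)))
  obtain ⟨u, hu⟩ := h.1
  exact (h.2.2 u hu).1.not_ge
    (key.trans (rho_nonpos cs (fun t ht => w0_rdesc cs hs ht) h.2.1 h0) u)

theorem theta_of_sph (cs : CoxeterSystem M W) (h : Sph cs U) : ∃ θ, IsTheta M U θ := by
  obtain ⟨D, h1, h2 | ⟨δ, h2⟩, h3⟩ := pf_split M U
  · simpa [h2] using h3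
  · exact absurd (h.mono h1.1) (not_sph_of_delta cs h2)

end Vale.Agent.P203
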