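import Vale.Agent.P203.Cox3
import Vale.Agent.P203.PF

/-!
# P203 Art: the Artin group, positive lifts, the Ore property (TASK)
* `braid_sg`: `PresentedGroup.mk_eq_one_iff`/`PresentedGroup.one_of_mem`. `lift_wordProd` is `matsumoto` for `sg`.
* `lift_coset`: `exists_rmin`, `RMin.length_mul`, `lift_mul`.
* Ore: `sg t * Δ = Δ * sg t'` from `w0_conj` (`Δ = sg t * lift (s t * w0) = lift (w0 * s t') * sg t'`). So for `p ∈ Pos T` there
  is `p' ∈ Pos T` with `p * Δ = Δ * p'`. By `AP_ind`: every `a ∈ AP T` has `a * Δ ^ K ∈ Pos T` for some `K`. For `ore_left`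
  use in the same way `Δ ^ K * a ∈ Pos T` (left induction, or invert `w0_conj`).
* `join`: `AP_ind`, generators of `U` and `T \ U` commute (`aa_eq_zero_iff`, the braid relation with `m = 2`).
-/

namespace Vale.Agent.P203

open CoxeterSystem

variable {B : Type} [Fintype B] [DecidableEq B] {W : Type*} [Group W] {M : CoxeterMatrix B}

/-- The standard generators. -/
def sg (M : CoxeterMatrix B) (s : B) : Art M := PresentedGroup.of s

/-- The product of a positive word. -/
def wd (M : CoxeterMatrix B) (l : List B) : Art M := (l.map (sg M)).prod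

/-- Standard parabolic subgroup. -/
def AP (M : CoxeterMatrix B) (T : Finset B) : Subgroup (Art M) :=
  Subgroup.closure (sg M '' (T : Set B))

/-- Positive elements. -/
def Pos (M : CoxeterMatrix B) (T : Finset B) : Submonoid (Art M) :=
  Submonoid.closure (sg M '' (T : Set B))

omit [Fintype B] [DecidableEq B] in
theorem exists_artLift {G : Type*} [Group G] {g : B → G} (hg : Braid M g) :
    ∃ φ : Art M →* G, ∀ s, φ (sg M s) = g s := by
  refine ⟨PresentedGroup.toGroup (f := g) ?_, fun s => PresentedGroup.toGroup.of _⟩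
  rintro _ ⟨s, t, h, hm, rfl⟩
  simp only [map_mul, map_inv, map_list_prod, List.map_map]
  have : (FreeGroup.lift g) ∘ FreeGroup.of = g := funext fun x => FreeGroup.lift_apply_of
  rw [this, hg s t h hm, mul_inv_cancel]

omit [Fintype B] [DecidableEq B] in
theorem braid_simple (cs : CoxeterSystem M W) : Braid M cs.simple := fun s t _ _ => by
  have := cs.wordProd_braidWord_eq s t
  rwa [braidWord, braidWord, M.symmetric t s] at this

omit [Fintype B] [DecidableEq B] in
theorem braid_const {G : Type*} [Monoid G] (g : G) : Braid M fun _ => g := fun s t _ _ => by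
  simp [List.map_const']

/-- The projection to the Coxeter group. -/
noncomputable def pr (cs : CoxeterSystem M W) : Art M →* W := (exists_artLift (braid_simple cs)).choose

/-- The length homomorphism. -/
noncomputable def len (a : Art M) : ℤ :=
  Multiplicative.toAdd ((exists_artLift (braid_const (M := M) (Multiplicative.ofAdd (1 : ℤ)))).choose a)

/-- The positive lift. -/
noncomputable def lift (cs : CoxeterSystem M W) (w : W) : Art M := wd M (cs.exists_isReduced w).choose

/-- The Garside element. -/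
noncomputable def Dl (cs : CoxeterSystem M W) (T : Finset B) : Art M := lift cs (w0 cs T)

variable (cs : CoxeterSystem M W) {T R U : Finset B} {a b : Art M} {s t : B} {u v w x y : W}

theorem braid_sg : Braid M (sg M) := by
  intro s t h hm
  have h1 := PresentedGroup.mk_eq_mk_of_mul_inv_mem (rels := braidRels M) ⟨s, t, h, hm, rfl⟩
  rw [map_list_prod, map_list_prod, List.map_map, List.map_map] at h1
  exact h1

theorem wd_nil : wd M [] = 1 := rfl

theorem wd_cons (s : B) (l : List B) : wd M (s :: l) = sg M s * wd M l := by simp [wd]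

theorem wd_append (l l' : List B) : wd M (l ++ l') = wd M l * wd M l' := by simp [wd]

theorem pr_sg (s : B) : pr cs (sg M s) = cs.simple s := by
  exact (exists_artLift (braid_simple cs)).choose_spec s

theorem pr_wd (l : List B) : pr cs (wd M l) = cs.wordProd l := by
  induction l with
  | nil => rw [wd_nil, map_one, wordProd_nil]
  | cons s l ih => rw [wd_cons, map_mul, ih, pr_sg, wordProd_cons]

theorem len_one : len (1 : Art M) = 0 := by
  rw [len, map_one, toAdd_one]

theorem len_mul (a b : Art M) : len (a * b) = len a + len b := by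
  rw [len, map_mul, toAdd_mul, len, len]

theorem len_inv (a : Art M) : len a⁻¹ = -len a := by
  rw [len, map_inv, toAdd_inv, len]

theorem len_sg (s : B) : len (sg M s) = 1 := by
  rw [len, (exists_artLift (braid_const (M := M) (Multiplicative.ofAdd (1 : ℤ)))).choose_spec s,
    toAdd_ofAdd]

theorem len_wd (l : List B) : len (wd M l) = l.length := by
  induction l with
  | nil => rw [wd_nil, len_one, List.length_nil, Nat.cast_zero]
  | cons s l ih =>
    rw [wd_cons, len_mul, ih, len_sg, List.length_cons]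
    push_cast
    ring

theorem sg_mem_AP (ht : t ∈ T) : sg M t ∈ AP M T := Subgroup.subset_closure ⟨t, ht, rfl⟩

theorem sg_mem_Pos (ht : t ∈ T) : sg M t ∈ Pos M T := Submonoid.subset_closure ⟨t, ht, rfl⟩

theorem AP_mono (h : T ⊆ R) : AP M T ≤ AP M R := Subgroup.closure_mono (Set.image_mono h)

theorem Pos_mono (h : T ⊆ R) : Pos M T ≤ Pos M R := Submonoid.closure_mono (Set.image_mono h)

theorem AP_of_Pos (h : a ∈ Pos M T) : a ∈ AP M T := Subgroup.le_closure_toSubmonoid _ h

theorem mem_AP_univ (a : Art M) : a ∈ AP M Finset.univ := by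
  refine PresentedGroup.generated_by _ _ (fun j => ?_) a
  exact sg_mem_AP (Finset.mem_univ j)

theorem AP_ind {p : Art M → Prop} (h1 : p 1)
    (h2 : ∀ a t, a ∈ AP M T → t ∈ T → p a → p (a * sg M t))
    (h3 : ∀ a t, a ∈ AP M T → t ∈ T → p a → p (a * (sg M t)⁻¹)) (ha : a ∈ AP M T) : p a := by
  induction ha using Subgroup.closure_induction_right with
  | one => exact h1
  | mul_right x hx y hy ih => obtain ⟨t, ht, rfl⟩ := hy; exact h2 x t hx ht ih
  | mul_inv_cancel x hx y hy ih => obtain ⟨t, ht, rfl⟩ := hy; exact h3 x t hx ht ih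

theorem mem_Pos : a ∈ Pos M T ↔ ∃ l : List B, (∀ t ∈ l, t ∈ T) ∧ a = wd M l := by
  constructor
  · intro ha
    induction ha using Submonoid.closure_induction_left with
    | one => exact ⟨[], by simp, rfl⟩
    | mul_left x hx y _ ih =>
      obtain ⟨t, ht, rfl⟩ := hx
      obtain ⟨l, hl, rfl⟩ := ih
      exact ⟨t :: l, List.forall_mem_cons.2 ⟨ht, hl⟩, (wd_cons t l).symm⟩
  · rintro ⟨l, hl, rfl⟩
    induction l with
    | nil => exact one_mem _
    | cons t l ih =>
      rw [wd_cons]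
      exact mul_mem (sg_mem_Pos (List.forall_mem_cons.1 hl).1) (ih (List.forall_mem_cons.1 hl).2)

theorem Pos_ind {p : Art M → Prop} (h1 : p 1)
    (h2 : ∀ a t, a ∈ Pos M T → t ∈ T → p a → p (a * sg M t)) (ha : a ∈ Pos M T) : p a := by
  induction ha using Submonoid.closure_induction_right with
  | one => exact h1
  | mul_right x hx y hy ih => obtain ⟨t, ht, rfl⟩ := hy; exact h2 x t hx ht ih

theorem Pos_indL {p : Art M → Prop} (h1 : p 1)
    (h2 : ∀ a t, a ∈ Pos M T → t ∈ T → p a → p (sg M t * a)) (ha : a ∈ Pos M T) : p a := by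
  induction ha using Submonoid.closure_induction_left with
  | one => exact h1
  | mul_left x hx y hy ih => obtain ⟨t, ht, rfl⟩ := hx; exact h2 y t hy ht ih

theorem Pos_cases (ha : a ∈ Pos M T) : a = 1 ∨ ∃ b ∈ Pos M T, ∃ t ∈ T, a = b * sg M t := by
  exact Pos_ind (p := fun a => a = 1 ∨ ∃ b ∈ Pos M T, ∃ t ∈ T, a = b * sg M t) (Or.inl rfl)
    (fun b t hb ht _ => Or.inr ⟨b, hb, t, ht, rfl⟩) ha

theorem Pos_casesL (ha : a ∈ Pos M T) : a = 1 ∨ ∃ b ∈ Pos M T, ∃ t ∈ T, a = sg M t * b := by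
  exact Pos_indL (p := fun a => a = 1 ∨ ∃ b ∈ Pos M T, ∃ t ∈ T, a = sg M t * b) (Or.inl rfl)
    (fun b t hb ht _ => Or.inr ⟨b, hb, t, ht, rfl⟩) ha

theorem len_nonneg (ha : a ∈ Pos M T) : 0 ≤ len a := by
  obtain ⟨l, -, rfl⟩ := mem_Pos.1 ha
  rw [len_wd]
  exact Nat.cast_nonneg _

theorem eq_one_of_len (ha : a ∈ Pos M T) (h : len a ≤ 0) : a = 1 := by
  rcases Pos_cases ha with h1 | ⟨b, hb, t, -, rfl⟩
  · exact h1
  · rw [len_mul, len_sg] at h
    have := len_nonneg hb
    omega

theorem pr_mem (ha : a ∈ AP M T) : pr cs a ∈ WP cs T := by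
  refine AP_ind (p := fun a => pr cs a ∈ WP cs T) ?_ ?_ ?_ ha
  · rw [map_one]
    exact one_mem _
  · intro a t _ ht ih
    rw [map_mul, pr_sg]
    exact mul_mem ih (simple_mem cs ht)
  · intro a t _ ht ih
    rw [map_mul, map_inv, pr_sg]
    exact mul_mem ih (inv_mem (simple_mem cs ht))

theorem lift_wordProd {l : List B} (hl : cs.IsReduced l) : lift cs (cs.wordProd l) = wd M l := by
  have h := (cs.exists_isReduced (cs.wordProd l)).choose_spec
  exact matsumoto cs braid_sg h.1 hl h.2.symm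

theorem lift_one : lift cs 1 = 1 := by
  have h : cs.IsReduced [] := by simp [CoxeterSystem.IsReduced]
  have h2 := lift_wordProd cs h
  rwa [wordProd_nil] at h2

theorem lift_simple (s : B) : lift cs (cs.simple s) = sg M s := by
  have h : cs.IsReduced [s] := by simp [CoxeterSystem.IsReduced]
  have h2 := lift_wordProd cs h
  rwa [wordProd_singleton, wd_cons, wd_nil, mul_one] at h2

theorem pr_lift (w : W) : pr cs (lift cs w) = w := by
  rw [lift, pr_wd]
  exact (cs.exists_isReduced w).choose_spec.2.symm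

theorem len_lift (w : W) : len (lift cs w) = cs.length w := by
  obtain ⟨l, hl, rfl⟩ := cs.exists_isReduced w
  rw [lift_wordProd cs hl, len_wd, hl.eq]

theorem lift_mul (h : cs.length (x * y) = cs.length x + cs.length y) :
    lift cs (x * y) = lift cs x * lift cs y := by
  obtain ⟨l, hl, rfl⟩ := cs.exists_isReduced x
  obtain ⟨l', hl', rfl⟩ := cs.exists_isReduced y
  have h2 : cs.IsReduced (l ++ l') := by
    rw [CoxeterSystem.IsReduced, wordProd_append, h, hl.eq, hl'.eq, List.length_append]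
  rw [← wordProd_append, lift_wordProd cs h2, lift_wordProd cs hl, lift_wordProd cs hl', wd_append]

theorem lift_up (h : ¬ cs.IsRightDescent w s) :
    lift cs (w * cs.simple s) = lift cs w * sg M s := by
  rw [lift_mul cs (by rw [cs.not_isRightDescent_iff.1 h, length_simple]), lift_simple]

theorem lift_down (h : cs.IsRightDescent w s) :
    lift cs (w * cs.simple s) = lift cs w * (sg M s)⁻¹ := by
  have h2 := lift_up cs (cs.isRightDescent_iff_not_isRightDescent_mul.1 h)
  rw [simple_mul_simple_cancel_right] at h2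
  rw [h2, mul_inv_cancel_right]

theorem lift_upL (h : ¬ cs.IsLeftDescent w s) :
    lift cs (cs.simple s * w) = sg M s * lift cs w := by
  rw [lift_mul cs (by rw [cs.not_isLeftDescent_iff.1 h, length_simple, add_comm]), lift_simple]

theorem lift_downL (h : cs.IsLeftDescent w s) :
    lift cs w = sg M s * lift cs (cs.simple s * w) := by
  have h2 := lift_upL cs (cs.isLeftDescent_iff_not_isLeftDescent_mul.1 h)
  rwa [simple_mul_simple_cancel_left] at h2

theorem lift_mem_Pos (hw : w ∈ WP cs T) : lift cs w ∈ Pos M T := by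
  obtain ⟨l, hl, rfl⟩ := cs.exists_isReduced w
  rw [lift_wordProd cs hl]
  exact mem_Pos.2 ⟨l, reduced_mem cs hl hw, rfl⟩

theorem lift_coset (w : W) (hv : v ∈ WP cs T) : (lift cs w)⁻¹ * lift cs (w * v) ∈ AP M T := by
  obtain ⟨u, v0, hu, hv0, rfl⟩ := exists_rmin cs T w
  rw [mul_assoc, lift_mul cs (hu.length_mul cs hv0), lift_mul cs (hu.length_mul cs (mul_mem hv0 hv)),
    mul_inv_rev, mul_assoc, inv_mul_cancel_left]
  exact mul_mem (inv_mem (AP_of_Pos (lift_mem_Pos cs hv0)))
    (AP_of_Pos (lift_mem_Pos cs (mul_mem hv0 hv)))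

theorem Dl_mem (T : Finset B) : Dl cs T ∈ Pos M T := lift_mem_Pos cs (w0_mem cs T)

theorem Dl_empty : Dl cs (∅ : Finset B) = 1 := by rw [Dl, w0_empty, lift_one]

theorem Dl_right (hT : Sph cs T) (hx : x ∈ WP cs T) :
    Dl cs T = lift cs (w0 cs T * x⁻¹) * lift cs x := by
  have h := length_w0_mul cs hT (inv_mem hx)
  rw [length_inv] at h
  rw [← lift_mul cs (by rw [inv_mul_cancel_right, h]), inv_mul_cancel_right, Dl]

theorem Dl_left (hT : Sph cs T) (hx : x ∈ WP cs T) :
    Dl cs T = lift cs x * lift cs (x⁻¹ * w0 cs T) := by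
  have h := length_mul_w0 cs hT (inv_mem hx)
  rw [length_inv, add_comm] at h
  rw [← lift_mul cs (by rw [mul_inv_cancel_left, h]), mul_inv_cancel_left, Dl]

theorem art_conj (hT : Sph cs T) (hs : s ∈ T) (ht : t ∈ T)
    (h : cs.simple s * w0 cs T = w0 cs T * cs.simple t) :
    sg M s * Dl cs T = Dl cs T * sg M t := by
  have h1 := lift_downL cs (w0_ldesc cs hT hs)
  rw [h, lift_down cs (w0_rdesc cs hT ht), ← mul_assoc, eq_mul_inv_iff_mul_eq] at h1
  exact h1.symm

theorem art_move {D : Art M} (h : ∀ t ∈ T, ∃ t' ∈ T, sg M t * D = D * sg M t') (K : ℕ)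
    (ha : a ∈ Pos M T) : ∃ p ∈ Pos M T, a * D ^ K = D ^ K * p := by
  have h1 : ∀ a ∈ Pos M T, ∃ p ∈ Pos M T, a * D = D * p := by
    intro a ha
    refine Pos_ind (p := fun a => ∃ p ∈ Pos M T, a * D = D * p)
      ⟨1, one_mem _, by rw [one_mul, mul_one]⟩ ?_ ha
    rintro b t - ht ⟨p, hp, e⟩
    obtain ⟨t', ht', e'⟩ := h t ht
    exact ⟨p * sg M t', mul_mem hp (sg_mem_Pos ht'), by
      rw [mul_assoc, e', ← mul_assoc, e, mul_assoc]⟩
  induction K with
  | zero => exact ⟨a, ha, by rw [pow_zero, one_mul, mul_one]⟩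
  | succ K ih =>
    obtain ⟨p, hp, e⟩ := ih
    obtain ⟨q, hq, e'⟩ := h1 p hp
    exact ⟨q, hq, by rw [pow_succ, ← mul_assoc, e, mul_assoc, e', mul_assoc]⟩

theorem art_pow (hT : Sph cs T) (ha : a ∈ AP M T) : ∃ K : ℕ, a * Dl cs T ^ K ∈ Pos M T := by
  have h1 : ∀ t ∈ T, ∃ t' ∈ T, sg M t * Dl cs T = Dl cs T * sg M t' := fun t ht => by
    obtain ⟨t', ht', h⟩ := w0_conj cs hT ht
    exact ⟨t', ht', art_conj cs hT ht ht' h⟩
  refine AP_ind (p := fun a => ∃ K : ℕ, a * Dl cs T ^ K ∈ Pos M T)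
    ⟨0, by rw [pow_zero, mul_one]; exact one_mem _⟩ ?_ ?_ ha
  · rintro b t - ht ⟨K, hK⟩
    obtain ⟨p, hp, e⟩ := art_move h1 K (sg_mem_Pos ht)
    exact ⟨K, by rw [mul_assoc, e, ← mul_assoc]; exact mul_mem hK hp⟩
  · rintro b t - ht ⟨K, hK⟩
    have h2 : (sg M t)⁻¹ * Dl cs T ∈ Pos M T := by
      rw [Dl, lift_downL cs (w0_ldesc cs hT ht), inv_mul_cancel_left]
      exact lift_mem_Pos cs (mul_mem (simple_mem cs ht) (w0_mem cs T))
    obtain ⟨p, hp, e⟩ := art_move h1 K h2
    refine ⟨K + 1, ?_⟩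
    rw [pow_succ', mul_assoc, ← mul_assoc (sg M t)⁻¹, e, ← mul_assoc]
    exact mul_mem hK hp

include cs in
theorem ore_right (hT : Sph cs T) (ha : a ∈ AP M T) :
    ∃ p ∈ Pos M T, ∃ q ∈ Pos M T, a = p * q⁻¹ := by
  obtain ⟨K, hK⟩ := art_pow cs hT ha
  exact ⟨_, hK, _, pow_mem (Dl_mem cs T) K, (mul_inv_cancel_right _ _).symm⟩

include cs in
theorem ore_left (hT : Sph cs T) (ha : a ∈ AP M T) :
    ∃ p ∈ Pos M T, ∃ q ∈ Pos M T, a = p⁻¹ * q := by
  obtain ⟨K, hK⟩ := art_pow cs hT ha
  have h1 : ∀ t ∈ T, ∃ t' ∈ T, sg M t * (Dl cs T)⁻¹ = (Dl cs T)⁻¹ * sg M t' := by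
    intro t ht
    obtain ⟨t', ht', h⟩ := w0_conj cs hT ht
    have h2 : cs.simple t' * w0 cs T = w0 cs T * cs.simple t := by
      have h3 := congrArg (·⁻¹) h
      simp only [mul_inv_rev, inv_simple, w0_inv cs hT] at h3
      exact h3.symm
    refine ⟨t', ht', ?_⟩
    rw [mul_inv_eq_iff_eq_mul, mul_assoc, art_conj cs hT ht' ht h2, inv_mul_cancel_left]
  obtain ⟨p, hp, e⟩ := art_move h1 K hK
  refine ⟨_, pow_mem (Dl_mem cs T) K, p, hp, ?_⟩
  rw [← inv_pow, ← e, inv_pow, mul_inv_cancel_right]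

theorem sg_comm (h : aa M s t = 0) : sg M s * sg M t = sg M t * sg M s := by
  by_cases hst : s = t
  · rw [hst]
  · have hm := (aa_eq_zero_iff hst).1 h
    have h2 := braid_sg (M := M) s t hst (by omega)
    rw [hm] at h2
    simpa [alternatingWord] using h2

theorem join (h : Closed M T U) (ha : a ∈ AP M T) :
    ∃ p ∈ AP M U, ∃ q ∈ AP M (T \ U), a = p * q := by
  have hc : ∀ t ∈ U, ∀ q ∈ AP M (T \ U), Commute q (sg M t) := by
    intro t ht q hq
    have h1 : ∀ u ∈ T \ U, Commute (sg M u) (sg M t) := fun u hu =>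
      (sg_comm (h.2 t ht u (Finset.mem_sdiff.1 hu).1 (Finset.mem_sdiff.1 hu).2)).symm
    exact AP_ind (p := fun q => Commute q (sg M t)) (Commute.one_left _)
      (fun _ u _ hu ih => ih.mul_left (h1 u hu))
      (fun _ u _ hu ih => ih.mul_left (h1 u hu).inv_left) hq
  refine AP_ind (p := fun a => ∃ p ∈ AP M U, ∃ q ∈ AP M (T \ U), a = p * q)
    ⟨1, one_mem _, 1, one_mem _, (one_mul 1).symm⟩ ?_ ?_ ha
  · rintro _ t - ht ⟨p, hp, q, hq, rfl⟩
    by_cases hu : t ∈ U
    · refine ⟨p * sg M t, mul_mem hp (sg_mem_AP hu), q, hq, ?_⟩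
      rw [mul_assoc, (hc t hu q hq).eq, mul_assoc]
    · exact ⟨p, hp, q * sg M t, mul_mem hq (sg_mem_AP (Finset.mem_sdiff.2 ⟨ht, hu⟩)),
        mul_assoc _ _ _⟩
  · rintro _ t - ht ⟨p, hp, q, hq, rfl⟩
    by_cases hu : t ∈ U
    · refine ⟨p * (sg M t)⁻¹, mul_mem hp (inv_mem (sg_mem_AP hu)), q, hq, ?_⟩
      rw [mul_assoc, (hc t hu q hq).inv_right.eq, mul_assoc]
    · exact ⟨p, hp, q * (sg M t)⁻¹,
        mul_mem hq (inv_mem (sg_mem_AP (Finset.mem_sdiff.2 ⟨ht, hu⟩))), mul_assoc _ _ _⟩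

end Vale.Agent.P203
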