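import Vale.Agent.P203.Sys
import Vale.Agent.P203.Apt

/-!
# P203 Bth: the chambers of level at most `J` (TASK)
Use `loc`, `Out.coset (Closed.refl _)`, `Out.sub`, `Lv_coset`, `st_sg`, `st_sg_inv` of `Sys`.
* `InB.down`, `dom_pos`: `Pos_ind` with `E.down`, `E.dom_tau`, `E.f_tau`.
* `apF`: for an ascent `t` of `w` (`lift_up`) the coefficient is `k = h' t + h t - ∑ s, aa t s * h s`, which is the sum of the three
  nonnegative terms `F' t + F t - ∑ aa * F - Fr` (`E.sub`), `Fr - cor t μ`, `∑ s ∉ U, aa t s * (F s - μ s)`. For a descent apply this to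
  `w s` and use `rho s (rho s v) = v`, `rho s (ee s) = -ee s`.
* `drop`: at `x = st (c Δ)` every `t ∈ T` has `ntop L x t`, because `c Δ σ_t⁻¹ = c * lift (w0 * s t)` (`lift_down`, `w0_rdesc`) is in `InB T L`;
  `E.zero` with `theta_of_sph`. `exists_inB`: descend from the bound `E.bdd` (`Int.le_induction_down` or induction on `(L - J).toNat`).
* `word_le`: induction on `l` (first letter): `f (tau t y) · J = rho (s t) (f y · J) + k • ee t` with `k ≥ 0` by `E.sub`, and `t` is not a
  left descent of the rest.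
* `up`: let `e = c Δ_R⁻¹`. Only `u ∈ R` matter. Show `InB R L e → InB R (L - 1) e` for `J < L`. Otherwise `E.zero` gives `t ∈ R` with `¬ ntop L (st e) t`,
  `E.top` gives `y`. Take a reduced word `l` of `w = s t * w0 R = w0 R * s t'` (`w0_conj`, `reduced_mem`). Iterating `dom_tau` (`E.down` for `y`),
  `dom L (st (e * wd l)) (l.foldl .. y)`; `e * wd l = c σ_t'⁻¹` has `F · L = 0` on `R`, so by `word_le` and `dom_le` the vector
  `rho w⁻¹ (f y t L • ee t) = -(f y t L) • rho w0 (ee t) ≥ 0`, supported in `R`, vanishes: absurd (`rho_ee_ne_zero`).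
-/

namespace Vale.Agent.P203.St

variable {B : Type} [Fintype B] [DecidableEq B] {W : Type*} [Group W] {M : CoxeterMatrix B}
  (cs : CoxeterSystem M W) {E : St M} {T U R : Finset B} {J L : ℤ} {μ : B → ℝ} {a b c c' e : Art M}
  {s t u : B}

theorem bth_step (h : E.InB U J c) (ho : E.Out U J c) (ht : t ∈ U) : E.InB U J (c * sg M t) := by
  intro u hu
  by_cases hut : u = t
  · subst hut
    have := E.down (E.st c) u J (loc ho (fun v hv _ => h v hv) hu) ho.1 (h u hu)
    rwa [← E.st_sg] at this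
  · have := h u hu
    rwa [Lv, show E.F c u = E.F (c * sg M t) u from funext fun j => by
      rw [F, F, E.st_sg, E.f_tau _ u t hut]] at this

theorem InB.down (h : E.InB U J c) (ho : E.Out U J c) (hb : b ∈ Pos M U) : E.InB U J (c * b) := by
  refine Pos_ind (p := fun b => E.InB U J (c * b)) (by rwa [mul_one]) ?_ hb
  intro a t ha ht ih
  rw [← mul_assoc]
  exact bth_step ih (ho.coset (Closed.refl U) (AP_of_Pos ha)) ht

theorem dom_pos (h : E.dom J (E.st c) (E.st c')) (ho : E.Out U J c) (ho' : E.Out U J c')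
    (hc : E.InB U J c) (hc' : E.InB U J c') (hb : b ∈ Pos M U) :
    E.dom J (E.st (c * b)) (E.st (c' * b)) := by
  refine Pos_ind (p := fun b => E.dom J (E.st (c * b)) (E.st (c' * b))) (by rwa [mul_one, mul_one])
    ?_ hb
  intro a t ha ht ih
  rw [← mul_assoc, ← mul_assoc, E.st_sg, E.st_sg]
  exact E.dom_tau J _ _ t ih (hc.down ho ha t ht) (hc'.down ho' ha t ht)

/-- Deletion of a square does not increase the heights. -/
theorem del_le (ho : E.Out U J e) (he : E.InB U J e) (ht : t ∈ U) (hb : b ∈ Pos M U) (s : B) :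
    E.F (e * sg M t * b) s J ≤ E.F (e * sg M t * sg M t * b) s J := by
  have o1 := ho.coset (Closed.refl U) (sg_mem_AP ht)
  have o2 := o1.coset (Closed.refl U) (sg_mem_AP ht)
  have i1 := bth_step he ho ht
  have i2 := bth_step i1 o1 ht
  have h1 : E.ntop J (E.st (e * sg M t)) t := by
    rw [E.st_sg]; exact E.ntop_tau J _ t (he t ht)
  have h2 := E.dom_del J _ t h1 (i1 t ht)
  rw [← E.st_sg] at h2
  exact E.dom_le J _ _ s (dom_pos h2 o2 o1 i2 i1 hb)

theorem bth_ap_up (h : E.Adm U J μ c) (ht : t ∈ U) : ∃ k : ℝ, 0 ≤ k ∧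
    E.hh U J μ (c * sg M t) = rho cs (cs.simple t) (E.hh U J μ c) + k • ee t := by
  refine ⟨E.hh U J μ (c * sg M t) t - rho cs (cs.simple t) (E.hh U J μ c) t, ?_, ?_⟩
  · have h1 := E.sub (E.st c) t J
    have h2 := h.2.1 t ht
    have h3 : ∑ s, aa M t s * E.hh U J μ c s ≤ ∑ s, (aa M t s * E.F c s J - aa M t s * μ s) := by
      refine Finset.sum_le_sum fun s _ => ?_
      rw [← mul_sub]
      by_cases hs : s ∈ U
      · rw [hh_mem hs]
      · rw [supp_hh s hs, mul_zero]
        by_cases h0 : aa M t s = 0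
        · rw [h0, zero_mul]
        · exact mul_nonneg (aa_nonneg t s) (sub_nonneg.2 (h.2.2 s hs ⟨t, ht, h0⟩))
    rw [Finset.sum_sub_distrib] at h3
    rw [rho_simple_self, hh_mem ht, hh_mem ht]
    rw [← E.st_sg] at h1
    simp only [cor, F, Fr] at h1 h2 h3 ⊢
    linarith
  · funext s
    by_cases hs : s = t
    · subst hs
      simp [ee_apply]
    · rw [Pi.add_apply, rho_simple_ne cs hs, Pi.smul_apply, ee_apply, if_neg hs, smul_zero, add_zero]
      simp only [hh, F, E.st_sg, E.f_tau _ s t hs]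

theorem bth_ap_down (h : E.Adm U J μ c) (ht : t ∈ U) : ∃ k : ℝ, 0 ≤ k ∧
    E.hh U J μ (c * (sg M t)⁻¹) = rho cs (cs.simple t) (E.hh U J μ c) + k • ee t := by
  obtain ⟨k, hk, h1⟩ := bth_ap_up cs (h.coset (Closed.refl U) (inv_mem (sg_mem_AP ht))) ht
  refine ⟨k, hk, ?_⟩
  rw [inv_mul_cancel_right] at h1
  have h2 := rho_neg cs 1 t
  rw [one_mul, rho_one] at h2
  rw [h1, map_add, map_smul, ← rho_mul, cs.simple_mul_simple_self, rho_one, h2, smul_neg,
    neg_add_cancel_right]

theorem apF (h : E.Adm U J μ e) : ApF cs U fun w => E.hh U J μ (e * lift cs w) := by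
  intro w hw
  refine ⟨supp_hh, fun t ht => ?_⟩
  have h1 := h.coset (Closed.refl U) (AP_of_Pos (lift_mem_Pos cs hw))
  by_cases hd : cs.IsRightDescent w t
  · simpa only [lift_down cs hd, mul_assoc] using bth_ap_down cs h1 ht
  · simpa only [lift_up cs hd, mul_assoc] using bth_ap_up cs h1 ht

theorem bth_lv_pred {g : ℤ → ℝ} (h : LvF g L) (h0 : g L = 0) : LvF g (L - 1) := fun j hj => by
  rcases (show j = L ∨ L < j by omega) with rfl | h1
  · exact h0
  · exact h j h1

include cs in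
theorem bth_zero (hT : Sph cs T) (ho : E.Out T (L - 1) c) (h : E.InB T L c)
    (hn : ∀ t ∈ T, E.ntop L (E.st c) t) : E.InB T (L - 1) c := by
  obtain ⟨θ, hθ⟩ := theta_of_sph cs hT
  intro t ht
  exact bth_lv_pred (h t ht) (E.zero L _ T θ hθ hn
    (fun r hr s hs h0 => ho.2 s hs ⟨r, hr, h0⟩ L (by omega)) (ho.1 L (by omega)) t ht)

theorem drop (hT : Sph cs T) (ho : E.Out T (L - 1) c) (h : E.InB T L c) :
    E.InB T (L - 1) (c * Dl cs T) := by
  have ho' : E.Out T L c := ho.mono (by omega)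
  refine bth_zero cs hT (ho.coset (Closed.refl T) (AP_of_Pos (Dl_mem cs T)))
    (h.down ho' (Dl_mem cs T)) fun t ht => ?_
  rw [← st_sg_inv (c * Dl cs T) t]
  refine E.ntop_tau L _ t ?_
  have h1 := h.down ho' (lift_mem_Pos cs (mul_mem (w0_mem cs T) (simple_mem cs ht))) t ht
  rwa [lift_down cs (w0_rdesc cs hT ht), ← mul_assoc] at h1

theorem bth_bdd (c : Art M) (T : Finset B) (J : ℤ) : ∃ n : ℕ, E.InB T (J + n) c := by
  obtain ⟨L, h, -⟩ := E.bdd (E.st c)
  exact ⟨(L - J).toNat, fun u _ => (h u).mono (by omega)⟩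

include cs in
theorem exists_inB (hT : Sph cs T) (ho : E.Out T J c) : ∃ b ∈ Pos M T, E.InB T J (c * b) := by
  obtain ⟨n, hn⟩ := bth_bdd (E := E) c T J
  induction n generalizing c with
  | zero => exact ⟨1, one_mem _, by simpa using hn⟩
  | succ n ih =>
    have h1 := drop cs hT (ho.mono (by push_cast; omega)) hn
    rw [show J + ((n + 1 : ℕ) : ℤ) - 1 = J + n by push_cast; ring] at h1
    obtain ⟨b, hb, h2⟩ := ih (ho.coset (Closed.refl T) (AP_of_Pos (Dl_mem cs T))) h1
    exact ⟨Dl cs T * b, mul_mem (Dl_mem cs T) hb, by rwa [← mul_assoc]⟩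

include cs in
theorem exists_inB' (hU : Sph cs U) (ho : E.Out U J c) (h : E.Lv c t J) :
    ∃ b ∈ AP M (U.erase t), E.InB U J (c * b) := by
  have h1 : E.Out (U.erase t) J c := ho.sub (Finset.erase_subset t U) fun u hu hu' => by
    obtain rfl : u = t := by
      by_contra h2
      exact hu' (Finset.mem_erase.2 ⟨h2, hu⟩)
    exact h
  obtain ⟨b, hb, h2⟩ := exists_inB cs (hU.mono (Finset.erase_subset t U)) h1
  refine ⟨b, AP_of_Pos hb, fun u hu => ?_⟩
  by_cases h3 : u = t
  · subst h3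
    exact (Lv_coset (AP_of_Pos hb) (Finset.notMem_erase u U)).2 h
  · exact h2 u (Finset.mem_erase.2 ⟨h3, hu⟩)

theorem bth_tau (J : ℤ) (y : E.X) (t : B) : ∃ k : ℝ, 0 ≤ k ∧ (fun s => E.f (E.tau t y) s J) =
    rho cs (cs.simple t) (fun s => E.f y s J) + k • ee t := by
  refine ⟨E.f (E.tau t y) t J - rho cs (cs.simple t) (fun s => E.f y s J) t, ?_, ?_⟩
  · have h1 := E.sub y t J
    have h2 := E.fr_nonneg y J
    rw [rho_simple_self]
    linarith
  · funext s
    by_cases hs : s = t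
    · subst hs
      simp [ee_apply]
    · rw [Pi.add_apply, rho_simple_ne cs hs, Pi.smul_apply, ee_apply, if_neg hs, smul_zero,
        add_zero, E.f_tau _ s t hs]

theorem word_le (J : ℤ) {l : List B} (hl : cs.IsReduced l) (y : E.X) :
    rho cs (cs.wordProd l)⁻¹ (fun s => E.f y s J) ≤
      fun s => E.f (l.foldl (fun x t => E.tau t x) y) s J := by
  induction l generalizing y with
  | nil => rw [cs.wordProd_nil, inv_one, rho_one]; exact le_rfl
  | cons t l ih =>
    have hl' : cs.IsReduced l := by simpa using hl.drop 1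
    have h1 : ¬ cs.IsRightDescent (cs.wordProd l)⁻¹ t := by
      rw [cs.isRightDescent_inv_iff, CoxeterSystem.IsLeftDescent, ← cs.wordProd_cons, hl, hl']
      simp
    obtain ⟨k, hk, h2⟩ := bth_tau cs J y t
    have h3 := ih hl' (E.tau t y)
    rw [h2, map_add, map_smul] at h3
    rw [cs.wordProd_cons, mul_inv_rev, cs.inv_simple, rho_mul, List.foldl_cons]
    exact (le_add_of_nonneg_right (smul_nonneg hk (rho_ee_nonneg cs h1))).trans h3

theorem bth_iter (l : List B) (hl : ∀ t ∈ l, t ∈ R) {y : E.X} (ho : E.Out R L e)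
    (h : E.InB R L e) (hd : E.dom L (E.st e) y) (h1 : ∀ s, LvF (E.f y s) L)
    (h2 : LvF (E.fr y) L) : E.dom L (E.st (e * wd M l)) (l.foldl (fun x t => E.tau t x) y) := by
  induction l generalizing e y with
  | nil => rwa [wd_nil, mul_one]
  | cons t l ih =>
    have ht : t ∈ R := hl t List.mem_cons_self
    rw [wd_cons, ← mul_assoc, List.foldl_cons]
    refine ih (fun r hr => hl r (List.mem_cons_of_mem _ hr))
      (ho.coset (Closed.refl R) (sg_mem_AP ht)) (bth_step h ho ht) ?_ (fun s => ?_) ?_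
    · rw [E.st_sg]
      exact E.dom_tau L _ _ t hd (h t ht) (h1 t)
    · by_cases hs : s = t
      · subst hs
        exact E.down y s L (fun r _ => h1 r) h2 (h1 s)
      · rw [E.f_tau _ s t hs]
        exact h1 s
    · rw [E.fr_tau]
      exact h2

theorem bth_up_step (hR : Sph cs R) (ho : E.Out R J c) (h : E.InB R J c)
    (h' : ∀ t ∈ R, E.Lv (c * (sg M t)⁻¹) t J) (hL : J < L)
    (he : E.InB R L (c * (Dl cs R)⁻¹)) : E.InB R (L - 1) (c * (Dl cs R)⁻¹) := by
  have ho' := ho.coset (Closed.refl R) (inv_mem (AP_of_Pos (Dl_mem cs R)))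
  refine bth_zero cs hR (ho'.mono (by omega)) he fun t ht => ?_
  by_contra hn
  obtain ⟨y, hd, y1, y2, y3, y4⟩ := E.top L _ t hn
  obtain ⟨t', ht', hw⟩ := w0_conj cs hR ht
  obtain ⟨l, hl, hl'⟩ := cs.exists_isReduced (cs.simple t * w0 cs R)
  have hm : cs.simple t * w0 cs R ∈ WP cs R := mul_mem (simple_mem cs ht) (w0_mem cs R)
  have h1 := bth_iter l (reduced_mem cs hl (hl' ▸ hm)) (ho'.mono hL.le) he hd y1 y2
  have h2 : c * (Dl cs R)⁻¹ * wd M l = c * (sg M t')⁻¹ := by
    rw [← lift_wordProd cs hl, ← hl', hw, lift_down cs (w0_rdesc cs hR ht'), Dl, ← mul_assoc,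
      inv_mul_cancel_right]
  rw [h2] at h1
  have h3 := word_le cs L hl y
  have h4 : (fun s => E.f y s L) = E.f y t L • ee t := by
    funext s
    rw [Pi.smul_apply, ee_apply]
    by_cases hs : s = t
    · rw [if_pos hs, hs, smul_eq_mul, mul_one]
    · rw [if_neg hs, smul_zero, y4 s hs]
  have h5 : 0 ≤ rho cs (cs.wordProd l)⁻¹ (ee t) := by
    rw [← hl', mul_inv_rev, cs.inv_simple, w0_inv cs hR, rho_neg, neg_nonneg]
    exact rho_ee_nonpos cs (w0_rdesc cs hR ht)
  have h6 : Supp R (rho cs (cs.wordProd l)⁻¹ (ee t)) :=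
    Supp.rho cs (inv_mem (hl' ▸ hm)) (supp_ee ht)
  refine rho_ee_ne_zero cs (cs.wordProd l)⁻¹ t (le_antisymm (fun s => ?_) h5)
  by_cases hs : s ∈ R
  · have h7 := (h3 s).trans (E.dom_le L _ _ s h1)
    have h8 : E.F (c * (sg M t')⁻¹) s L = 0 := by
      by_cases h9 : s = t'
      · subst h9
        exact h' s hs L hL
      · rw [F_coset (T := {t'}) (inv_mem (sg_mem_AP (Finset.mem_singleton_self t')))
          (by simpa using h9)]
        exact h s hs L hL
    rw [h4, map_smul, Pi.smul_apply, smul_eq_mul] at h7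
    rw [F] at h8
    rw [h8] at h7
    exact nonpos_of_mul_nonpos_right h7 y3
  · exact (h6 s hs).le

theorem up (hR : Sph cs R) (hU : R ⊆ U) (ho : E.Out U J c) (h : E.InB U J c)
    (h' : ∀ t ∈ R, E.Lv (c * (sg M t)⁻¹) t J) : E.InB U J (c * (Dl cs R)⁻¹) := by
  have ho' : E.Out R J c := ho.sub hU fun u hu _ => h u hu
  have hR' : E.InB R J (c * (Dl cs R)⁻¹) := by
    obtain ⟨n, hn⟩ := bth_bdd (E := E) (c * (Dl cs R)⁻¹) R J
    induction n with
    | zero => simpa using hn
    | succ n ih =>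
      have h1 := bth_up_step cs hR ho' (fun u hu => h u (hU hu)) h' (by push_cast; omega) hn
      rw [show J + ((n + 1 : ℕ) : ℤ) - 1 = J + n by push_cast; ring] at h1
      exact ih h1
  intro u hu
  by_cases h1 : u ∈ R
  · exact hR' u h1
  · exact (Lv_coset (inv_mem (AP_of_Pos (Dl_mem cs R))) h1).2 (h u hu)

end Vale.Agent.P203.St
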