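import Vale.Agent.P203.Cox1

/-!
# P203 Cox2: parabolic subgroups, minimal coset representatives, longest elements (done)
Everything follows from root positivity in `Cox1` (`not_descent_iff`, `descent_iff`, `rho_out`, `Supp.rho`,
`rho_nonneg`, `rho_nonpos`); no exchange condition is needed.
* `rdesc_mem`: if `t ∉ T` the coordinate `t` of `rho w (ee t)` is `1` (`rho_out`). Left version by inversion.
* `reduced_mem`: induction on the list (the first letter is a left descent).
* `RMin.length_mul`: induction on `ℓ v`; `v = v' s` with `s ∈ T` a right descent;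
  `rho (u v') (ee s) = rho u (rho v' (ee s)) ≥ 0`.
* `length_of_desc`: the same with `rho_nonpos`.
* `sph_of_bdd`: finitely many words of length `≤ N` (`List.finite_length_le`).
* `w0`: an element of maximal length of the finite group has all `t ∈ T` as descents on both sides;
  `w0_unique`: `length_of_desc` for `w` and `w0` gives `ℓ w = ℓ w0` and `ℓ (w * w0⁻¹..) = 0`.
* `w0_conj`: `w0 * s t * w0` has length one (`length_w0_mul`, `length_mul_w0`), so it is `s t'`, and `t'` is a descent.
-/

namespace Vale.Agent.P203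

variable {B : Type} [Fintype B] [DecidableEq B] {W : Type*} [Group W] {M : CoxeterMatrix B}
  (cs : CoxeterSystem M W)

/-- No right descent in `T`. -/
def RMin (T : Finset B) (u : W) : Prop := ∀ t ∈ T, ¬ cs.IsRightDescent u t

open Classical in
/-- The longest element of `W_T` (junk value `1` if there is none). -/
noncomputable def w0 (T : Finset B) : W :=
  if h : ∃ w ∈ WP cs T, ∀ t ∈ T, cs.IsRightDescent w t then h.choose else 1

variable {T R : Finset B} {u v w x : W} {s t : B}

theorem rdesc_mem (hw : w ∈ WP cs T) (h : cs.IsRightDescent w t) : t ∈ T := by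
  by_contra ht
  have h1 := rho_ee_nonpos cs h t
  rw [rho_out cs hw _ ht, ee_apply, if_pos rfl] at h1
  simp only [Pi.zero_apply] at h1
  linarith

theorem ldesc_mem (hw : w ∈ WP cs T) (h : cs.IsLeftDescent w t) : t ∈ T := by
  exact rdesc_mem cs (inv_mem hw) (cs.isRightDescent_inv_iff.2 h)

theorem wordProd_mem {l : List B} (h : ∀ t ∈ l, t ∈ T) : cs.wordProd l ∈ WP cs T := by
  induction l with
  | nil => rw [cs.wordProd_nil]; exact one_mem _
  | cons a l ih =>
    rw [cs.wordProd_cons]
    exact mul_mem (simple_mem cs (h a List.mem_cons_self))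
      (ih fun t ht => h t (List.mem_cons_of_mem _ ht))

theorem reduced_mem {l : List B} (hl : cs.IsReduced l) (h : cs.wordProd l ∈ WP cs T) :
    ∀ t ∈ l, t ∈ T := by
  induction l with
  | nil => simp
  | cons a l ih =>
    have h1 : cs.IsReduced l := by simpa using hl.drop 1
    have h2 : cs.IsLeftDescent (cs.wordProd (a :: l)) a := by
      rw [cs.isLeftDescent_iff, hl.eq, cs.wordProd_cons, cs.simple_mul_simple_cancel_left, h1.eq,
        List.length_cons]
    have ha : a ∈ T := ldesc_mem cs h h2
    have h3 : cs.wordProd l ∈ WP cs T := by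
      have := mul_mem (simple_mem cs ha) h
      rwa [cs.wordProd_cons, cs.simple_mul_simple_cancel_left] at this
    intro t ht
    rcases List.mem_cons.1 ht with rfl | ht
    · exact ha
    · exact ih h1 h3 t ht

theorem WP_empty : w ∈ WP cs ∅ ↔ w = 1 := by
  simp [WP]

/-- Induction on `W_T` along reduced words. -/
theorem cox2_ind {p : W → Prop} (h1 : p 1)
    (h2 : ∀ v s, v ∈ WP cs T → s ∈ T → ¬ cs.IsRightDescent v s → p v → p (v * cs.simple s))
    (hv : v ∈ WP cs T) : p v := by
  induction hn : cs.length v using Nat.strong_induction_on generalizing v with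
  | _ n ih =>
    by_cases h : v = 1
    · exact h ▸ h1
    obtain ⟨s, hs⟩ := cs.exists_rightDescent_of_ne_one h
    have hsT := rdesc_mem cs hv hs
    have hm := mul_mem hv (simple_mem cs hsT)
    have := h2 _ s hm hsT (cs.isRightDescent_iff_not_isRightDescent_mul.1 hs)
      (ih _ (hn ▸ hs) hm rfl)
    rwa [cs.simple_mul_simple_cancel_right] at this

theorem RMin.length_mul (hu : RMin cs T u) (hv : v ∈ WP cs T) :
    cs.length (u * v) = cs.length u + cs.length v := by
  refine cox2_ind cs (p := fun v => cs.length (u * v) = cs.length u + cs.length v) (by simp) ?_ hv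
  intro v s hv hs hd ih
  have h1 : ¬ cs.IsRightDescent (u * v) s := by
    rw [not_descent_iff, rho_mul]
    exact rho_nonneg cs hu ((supp_ee hs).rho cs hv) (rho_ee_nonneg cs hd)
  rw [cs.not_isRightDescent_iff] at h1 hd
  rw [← mul_assoc, h1, hd, ih, add_assoc]

theorem exists_rmin (T : Finset B) (w : W) : ∃ u v, RMin cs T u ∧ v ∈ WP cs T ∧ w = u * v := by
  induction hn : cs.length w using Nat.strong_induction_on generalizing w with
  | _ n ih =>
    by_cases h : RMin cs T w
    · exact ⟨w, 1, h, one_mem _, (mul_one w).symm⟩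
    · simp only [RMin, not_forall, not_not] at h
      obtain ⟨t, ht, hd⟩ := h
      obtain ⟨u, v, hu, hv, e⟩ := ih _ (hn ▸ hd) (w * cs.simple t) rfl
      refine ⟨u, v * cs.simple t, hu, mul_mem hv (simple_mem cs ht), ?_⟩
      rw [← mul_assoc, ← e, cs.simple_mul_simple_cancel_right]

theorem rmin_iff : RMin cs T u ↔ ∀ v ∈ WP cs T, cs.length u ≤ cs.length (u * v) := by
  refine ⟨fun h v hv => ?_, fun h t ht hd => ?_⟩
  · rw [RMin.length_mul cs h hv]
    omega
  · exact absurd hd (not_lt.2 (h _ (simple_mem cs ht)))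

theorem length_of_desc (hw : ∀ t ∈ T, cs.IsRightDescent w t) (hx : x ∈ WP cs T) :
    cs.length (w * x) + cs.length x = cs.length w := by
  refine cox2_ind cs (p := fun x => cs.length (w * x) + cs.length x = cs.length w) (by simp) ?_ hx
  intro v s hv hs hd ih
  have h1 : cs.IsRightDescent (w * v) s := by
    rw [descent_iff, rho_mul]
    exact rho_nonpos cs hw ((supp_ee hs).rho cs hv) (rho_ee_nonneg cs hd)
  rw [cs.isRightDescent_iff] at h1
  rw [cs.not_isRightDescent_iff] at hd
  rw [← mul_assoc, hd]
  omega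

theorem sph_of_bdd (N : ℕ) (h : ∀ x ∈ WP cs T, cs.length x ≤ N) : Sph cs T := by
  have h1 : ((WP cs T : Set W)).Finite := by
    refine ((List.finite_length_le B N).image cs.wordProd).subset fun x hx => ?_
    obtain ⟨l, hl, rfl⟩ := cs.exists_isReduced x
    exact ⟨l, (hl.eq cs).ge.trans (h _ hx), rfl⟩
  exact h1.to_subtype

theorem sph_of_desc (hw : ∀ t ∈ T, cs.IsRightDescent w t) : Sph cs T := by
  refine sph_of_bdd cs (cs.length w) fun x hx => ?_
  have := length_of_desc cs hw hx
  omega

theorem Sph.mono {cs : CoxeterSystem M W} (h : Sph cs R) (hT : T ⊆ R) : Sph cs T := by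
  have : Finite (WP cs R) := h
  exact Finite.of_injective _ (Subgroup.inclusion_injective (WP_mono cs hT))

theorem sph_empty : Sph cs ∅ := by
  exact sph_of_desc cs (w := 1) (by simp)

theorem cox2_exists (hT : Sph cs T) : ∃ w ∈ WP cs T, ∀ t ∈ T, cs.IsRightDescent w t := by
  have : Finite (WP cs T) := hT
  obtain ⟨w, hw⟩ := Finite.exists_max fun x : WP cs T => cs.length (x : W)
  refine ⟨w, w.2, fun t ht => ?_⟩
  have h1 := hw ⟨w * cs.simple t, mul_mem w.2 (simple_mem cs ht)⟩
  have h2 := cs.length_mul_simple (w : W) t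
  rw [cs.isRightDescent_iff]
  simp only at h1
  omega

theorem cox2_unique (hw : w ∈ WP cs T) (hd : ∀ t ∈ T, cs.IsRightDescent w t) (hv : v ∈ WP cs T)
    (hd' : ∀ t ∈ T, cs.IsRightDescent v t) : w = v := by
  have h1 := length_of_desc cs hd (inv_mem hv)
  have h2 := length_of_desc cs hd' hw
  rw [cs.length_inv] at h1
  have h3 : cs.length (w * v⁻¹) = 0 := by omega
  exact mul_inv_eq_one.1 (cs.length_eq_zero_iff.1 h3)

theorem w0_mem (T : Finset B) : w0 cs T ∈ WP cs T := by
  unfold w0
  split_ifs with h
  · exact h.choose_spec.1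
  · exact one_mem _

theorem w0_rdesc (hT : Sph cs T) (ht : t ∈ T) : cs.IsRightDescent (w0 cs T) t := by
  have h := cox2_exists cs hT
  unfold w0
  rw [dif_pos h]
  exact h.choose_spec.2 t ht

theorem w0_unique (hw : w ∈ WP cs T) (hd : ∀ t ∈ T, cs.IsRightDescent w t) : w = w0 cs T := by
  have hT := sph_of_desc cs hd
  exact cox2_unique cs hw hd (w0_mem cs T) fun t ht => w0_rdesc cs hT ht

theorem w0_inv (hT : Sph cs T) : (w0 cs T)⁻¹ = w0 cs T := by
  refine w0_unique cs (inv_mem (w0_mem cs T)) fun t ht => ?_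
  rw [cs.isRightDescent_inv_iff]
  have h1 := length_of_desc cs (fun t ht => w0_rdesc cs hT ht)
    (mul_mem (simple_mem cs ht) (w0_mem cs T))
  have h2 := cs.length_simple_mul (w0 cs T) t
  rw [cs.isLeftDescent_iff]
  omega

theorem w0_ldesc (hT : Sph cs T) (ht : t ∈ T) : cs.IsLeftDescent (w0 cs T) t := by
  rw [← cs.isRightDescent_inv_iff, w0_inv cs hT]
  exact w0_rdesc cs hT ht

theorem w0_empty : w0 cs ∅ = 1 := by
  exact (WP_empty cs).1 (w0_mem cs ∅)

theorem length_w0_mul (hT : Sph cs T) (hx : x ∈ WP cs T) :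
    cs.length (w0 cs T * x) + cs.length x = cs.length (w0 cs T) := by
  exact length_of_desc cs (fun t ht => w0_rdesc cs hT ht) hx

theorem length_mul_w0 (hT : Sph cs T) (hx : x ∈ WP cs T) :
    cs.length (x * w0 cs T) + cs.length x = cs.length (w0 cs T) := by
  have h := length_w0_mul cs hT (inv_mem hx)
  rw [← cs.length_inv (w0 cs T * x⁻¹), mul_inv_rev, inv_inv, w0_inv cs hT, cs.length_inv] at h
  exact h

theorem w0_conj (hT : Sph cs T) (ht : t ∈ T) :
    ∃ t' ∈ T, cs.simple t * w0 cs T = w0 cs T * cs.simple t' := by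
  have hm := mul_mem (simple_mem cs ht) (w0_mem cs T)
  have h1 := length_w0_mul cs hT hm
  have h2 := cs.isLeftDescent_iff.1 (w0_ldesc cs hT ht)
  obtain ⟨t', e⟩ := cs.length_eq_one_iff.1
    (show cs.length (w0 cs T * (cs.simple t * w0 cs T)) = 1 by omega)
  have h3 : cs.simple t' ∈ WP cs T := e ▸ mul_mem (w0_mem cs T) hm
  refine ⟨t', rdesc_mem cs h3 ?_, ?_⟩
  · rw [cs.isRightDescent_iff]
    simp
  · rw [← e, ← mul_assoc]
    nth_rw 2 [← w0_inv cs hT]
    rw [inv_mul_cancel, one_mul]

/-- If all `t ∈ T` are right descents of `w` then `w * w0 T` is the minimal element of the coset. -/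
theorem rmin_mul_w0 (hw : ∀ t ∈ T, cs.IsRightDescent w t) : RMin cs T (w * w0 cs T) := by
  have hT := sph_of_desc cs hw
  rw [rmin_iff]
  intro v hv
  have h1 := length_of_desc cs hw (w0_mem cs T)
  have h2 := length_of_desc cs hw (mul_mem (w0_mem cs T) hv)
  have h3 := length_w0_mul cs hT hv
  rw [mul_assoc]
  omega

/-- The longest element of the coset of a minimal element. -/
theorem RMin.desc_mul_w0 (hT : Sph cs T) (hu : RMin cs T u) (ht : t ∈ T) :
    cs.IsRightDescent (u * w0 cs T) t := by
  have h1 := RMin.length_mul cs hu (w0_mem cs T)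
  have h2 := RMin.length_mul cs hu (mul_mem (w0_mem cs T) (simple_mem cs ht))
  have h3 := cs.isRightDescent_iff.1 (w0_rdesc cs hT ht)
  rw [cs.isRightDescent_iff, mul_assoc]
  omega

end Vale.Agent.P203
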