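import Vale.Agent.P203.Cox2

/-!
# P203 Cox3: dihedral parabolic subgroups and Matsumoto's theorem (TASK)
* `alt_reduced`: induction on `k` with `alternatingWord_succ` (`alternatingWord i j (k+1)` is
  `alternatingWord j i k` followed by `j`); `(gd M).rho_alt cs` and `not_descent_iff` (note `rho cs = (gd M).rho cs`,
  `(gd M).al = ee`) show that `j` is not a right descent of the product of `alternatingWord j i k` if `k + 1 ≤ m` or `m = 0`.
* `sph_pair_ne_zero`: if `m = 0` the lengths in `W_{s,t}` are unbounded (`length_w0_mul`).
* `w0_pair`: the braid word is reduced, and `wordProd_braidWord_eq` shows that `s` and `t` are right descents; `w0_unique`.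
* `matsumoto`: strong induction on the length. Write `l = l₁ ++ [s]`, `l' = l₂ ++ [t]`. If `s = t` cancel. Else both are right
  descents of `w`; `sph_of_desc`, `u = w * w0 {s,t}` has `ℓ w = ℓ u + m` (`length_of_desc`); take a reduced word `p` of `u`; then
  `p ++ alternatingWord s t m` (ends with `t`) and `p ++ alternatingWord t s m` (ends with `s`) are reduced words of `w`.
-/

namespace Vale.Agent.P203

open CoxeterSystem

variable {B : Type} [Fintype B] [DecidableEq B] {W : Type*} [Group W] {M : CoxeterMatrix B}
  (cs : CoxeterSystem M W)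

/-- The family `g` satisfies the braid relations. -/
def Braid (M : CoxeterMatrix B) {G : Type*} [Monoid G] (g : B → G) : Prop :=
  ∀ s t, s ≠ t → M s t ≠ 0 →
    ((alternatingWord s t (M s t)).map g).prod = ((alternatingWord t s (M s t)).map g).prod

omit [Fintype B] [DecidableEq B] in
theorem cox3_mem_alt (s t : B) (k : ℕ) : ∀ x ∈ alternatingWord s t k, x = s ∨ x = t := by
  induction k generalizing s t with
  | zero => simp [alternatingWord]
  | succ k ih =>
    intro x hx
    rw [alternatingWord_succ, List.concat_eq_append, List.mem_append, List.mem_singleton] at hx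
    rcases hx with hx | hx
    · exact (ih t s x hx).symm
    · exact Or.inr hx

omit [Fintype B] [DecidableEq B] in
theorem cox3_red_init {l : List B} {s : B} (h : cs.IsReduced (l ++ [s])) : cs.IsReduced l := by
  simpa using h.take l.length

omit [Fintype B] [DecidableEq B] in
theorem cox3_desc {l : List B} {s : B} (h : cs.IsReduced (l ++ [s])) :
    cs.IsRightDescent (cs.wordProd (l ++ [s])) s := by
  have h1 := (cox3_red_init cs h).eq
  have h2 := h.eq
  rw [IsRightDescent, h2, cs.wordProd_append, cs.wordProd_singleton,
    cs.simple_mul_simple_cancel_right, h1]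
  simp

omit [Fintype B] [DecidableEq B] in
theorem cox3_alt_succ {s t : B} {m : ℕ} (hm : m ≠ 0) :
    alternatingWord s t m = alternatingWord t s (m - 1) ++ [t] := by
  obtain ⟨k, rfl⟩ := Nat.exists_eq_succ_of_ne_zero hm
  rw [alternatingWord_succ, List.concat_eq_append]
  rfl

omit [Fintype B] [DecidableEq B] in
theorem cox3_alt_mem {T : Finset B} {s t : B} (hs : s ∈ T) (ht : t ∈ T) (k : ℕ) :
    ∀ x ∈ alternatingWord s t k, x ∈ T := by
  intro x hx
  rcases cox3_mem_alt s t k x hx with rfl | rfl
  · exact hs
  · exact ht

theorem alt_reduced {s t : B} (h : s ≠ t) {k : ℕ} (hk : M s t ≠ 0 → k ≤ M s t) :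
    cs.IsReduced (alternatingWord s t k) := by
  induction k generalizing s t with
  | zero => simp [alternatingWord, CoxeterSystem.IsReduced]
  | succ k ih =>
    have hk' : M t s ≠ 0 → k + 1 ≤ M t s := by
      rw [M.symmetric t s]
      exact hk
    have h1 := (ih h.symm fun h0 => (Nat.le_succ k).trans (hk' h0)).eq
    obtain ⟨x, y, hx, hy, h2⟩ := (gd M).rho_alt cs h.symm hk'
    have h3 : ¬ cs.IsRightDescent (cs.wordProd (alternatingWord t s k)) t := by
      rw [not_descent_iff]
      have h4 : rho cs (cs.wordProd (alternatingWord t s k)) (ee t) = x • ee t + y • ee s := h2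
      rw [h4]
      exact add_nonneg (smul_nonneg hx (ee_nonneg t)) (smul_nonneg hy (ee_nonneg s))
    rw [cs.not_isRightDescent_iff] at h3
    rw [CoxeterSystem.IsReduced, length_alternatingWord, alternatingWord_succ, cs.wordProd_concat, h3, h1,
      length_alternatingWord]

theorem sph_ne_zero {T : Finset B} (hT : Sph cs T) {s t : B} (hs : s ∈ T) (ht : t ∈ T) :
    M s t ≠ 0 := by
  by_cases h : s = t
  · subst h
    rw [M.diagonal]
    exact one_ne_zero
  intro h0
  have h1 := (alt_reduced cs h (k := cs.length (w0 cs T) + 1) fun h' => absurd h0 h').eq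
  have h2 := length_w0_mul cs hT
    (wordProd_mem cs (cox3_alt_mem hs ht (cs.length (w0 cs T) + 1)))
  rw [h1, length_alternatingWord] at h2
  omega

theorem w0_pair {s t : B} (h : s ≠ t) (hm : M s t ≠ 0) :
    cs.wordProd (alternatingWord s t (M s t)) = w0 cs {s, t} ∧ Sph cs {s, t} := by
  have hm' : M t s ≠ 0 := by rwa [M.symmetric]
  have hd : ∀ x ∈ ({s, t} : Finset B),
      cs.IsRightDescent (cs.wordProd (alternatingWord s t (M s t))) x := by
    intro x hx
    rcases Finset.mem_insert.1 hx with rfl | hx
    · have h1 := alt_reduced cs h.symm (k := M t x) fun _ => le_rfl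
      have h2 : cs.wordProd (alternatingWord x t (M x t)) =
          cs.wordProd (alternatingWord t x (M t x)) := cs.wordProd_braidWord_eq x t
      rw [h2]
      rw [cox3_alt_succ hm'] at h1 ⊢
      exact cox3_desc cs h1
    · rw [Finset.mem_singleton.1 hx]
      have h1 := alt_reduced cs h (k := M s t) fun _ => le_rfl
      rw [cox3_alt_succ hm] at h1 ⊢
      exact cox3_desc cs h1
  exact ⟨w0_unique cs (wordProd_mem cs (cox3_alt_mem (by simp) (by simp) _)) hd,
    sph_of_desc cs hd⟩

include cs in
theorem matsumoto {G : Type*} [Monoid G] {g : B → G} (hg : Braid M g) {l l' : List B}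
    (hl : cs.IsReduced l) (hl' : cs.IsReduced l') (h : cs.wordProd l = cs.wordProd l') :
    (l.map g).prod = (l'.map g).prod := by
  induction hn : l.length using Nat.strong_induction_on generalizing l l' with
  | _ n ih =>
    have hlen : l'.length = l.length := by rw [← hl.eq, ← hl'.eq, h]
    rcases List.eq_nil_or_concat l with rfl | ⟨l₁, s, rfl⟩
    · rw [List.length_eq_zero_iff.1 hlen]
    rcases List.eq_nil_or_concat l' with rfl | ⟨l₂, t, rfl⟩
    · simp at hlen
    simp only [List.concat_eq_append] at hl hl' h hn hlen ⊢
    have cancel : ∀ (a b : List B) (x : B), a.length + 1 = n → cs.IsReduced (a ++ [x]) →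
        cs.IsReduced (b ++ [x]) → cs.wordProd (a ++ [x]) = cs.wordProd (b ++ [x]) →
        ((a ++ [x]).map g).prod = ((b ++ [x]).map g).prod := by
      intro a b x ha h1 h2 h3
      rw [cs.wordProd_append, cs.wordProd_append] at h3
      rw [List.map_append, List.map_append, List.prod_append, List.prod_append,
        ih a.length (by omega) (cox3_red_init cs h1) (cox3_red_init cs h2)
          (mul_right_cancel h3) rfl]
    have hn1 : l₁.length + 1 = n := by simpa using hn
    have hn2 : l₂.length + 1 = n := by
      rw [← hn, ← hlen]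
      simp
    by_cases hst : s = t
    · subst hst
      exact cancel l₁ l₂ s hn1 hl hl' h
    set w := cs.wordProd (l₁ ++ [s]) with hw
    have hd : ∀ x ∈ ({s, t} : Finset B), cs.IsRightDescent w x := by
      intro x hx
      rcases Finset.mem_insert.1 hx with rfl | hx
      · exact cox3_desc cs hl
      · rw [Finset.mem_singleton.1 hx, h]
        exact cox3_desc cs hl'
    have hS := sph_of_desc cs hd
    have hm : M s t ≠ 0 := sph_ne_zero cs hS (by simp) (by simp)
    have hm' : M t s ≠ 0 := by rwa [M.symmetric]
    have e1 := (w0_pair cs hst hm).1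
    have e2 : cs.wordProd (alternatingWord t s (M s t)) = w0 cs {s, t} := by
      rw [← e1, M.symmetric s t]
      have := cs.wordProd_braidWord_eq t s
      rwa [braidWord, braidWord, M.symmetric s t] at this
    have hl0 : cs.length (w0 cs {s, t}) = M s t := by
      rw [← e1, (alt_reduced cs hst fun _ => le_rfl).eq, length_alternatingWord]
    have hu := length_of_desc cs hd (w0_mem cs {s, t})
    obtain ⟨p, hp, hpu⟩ := cs.exists_isReduced (w * w0 cs {s, t})
    have hww : w * w0 cs {s, t} * w0 cs {s, t} = w := by
      nth_rw 2 [← w0_inv cs hS]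
      rw [mul_inv_cancel_right]
    have hwl : cs.length w = n := by rw [hw, hl.eq, hn]
    have hpl : p.length + M s t = n := by rw [← hp.eq, ← hpu, ← hl0, hu, hwl]
    have k1 : cs.wordProd (p ++ alternatingWord s t (M s t)) = w := by
      rw [cs.wordProd_append, ← hpu, e1, hww]
    have k2 : cs.wordProd (p ++ alternatingWord t s (M s t)) = w := by
      rw [cs.wordProd_append, ← hpu, e2, hww]
    have r1 : cs.IsReduced (p ++ alternatingWord s t (M s t)) := by
      rw [CoxeterSystem.IsReduced, k1, hwl, List.length_append, length_alternatingWord, hpl]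
    have r2 : cs.IsReduced (p ++ alternatingWord t s (M s t)) := by
      rw [CoxeterSystem.IsReduced, k2, hwl, List.length_append, length_alternatingWord, hpl]
    have c1 : ((l₁ ++ [s]).map g).prod = ((p ++ alternatingWord t s (M s t)).map g).prod := by
      rw [cox3_alt_succ hm, ← List.append_assoc] at r2 k2 ⊢
      exact cancel _ _ s hn1 hl r2 k2.symm
    have c2 : ((l₂ ++ [t]).map g).prod = ((p ++ alternatingWord s t (M s t)).map g).prod := by
      rw [cox3_alt_succ hm, ← List.append_assoc] at r1 k1 ⊢
      exact cancel _ _ t hn2 hl' r1 (h.symm.trans k1.symm)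
    rw [c1, c2, List.map_append, List.map_append, List.prod_append, List.prod_append,
      hg s t hst hm]

end Vale.Agent.P203
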