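import Vale.Agent.P203.DBr0

/-!
# P203 DBraid: the braid relation up to quasi-isomorphism (TASK)
`R1 = tau {s} R`, `R2 = tau {t} R1`, `R3 = tau {s} R2`; `o = swap s t`; `ι x = (((x, 0), 0), 0)`.
Elements of the model are `y = (x, v)`. Define `φ : Mor (bm R o) R3` with `p2 = 0`:
* `p0 k y = ι x` for `k ≠ s, t`.
* `p0 t y = (w, 0)` with `w : R2.X = ((a s t x, 0), fun k => if k = s then (x, α) else (β k, 0))`, where
  `α k = if Adj s k ∧ k ≠ t then v s k else 0`, `β k = if Adj t k ∧ k ≠ s then v t k else 0`.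
* `p0 s y = (((0, single t x), 0), fun k => if k = t then ((x, 0), fun k' => (β k', 0)) else ((α k, 0), 0))`.
* `p1 s t y = ι (bg o s y)`, `p1 t s y = (((x, α), 0), 0)`, all other `p1 j k = 0`.
Facts: `R1.it..`: writing `i1 = R.it s`, `i2 = R1.it t`, `i3 = R2.it s`:
`i3 (p0 s y) = ((a t s x, single t g + α), 0)` with `g = bg o s y`, `i1` of its first component is `bp o s y`;
`(i2 w).1 = bp o t y`. The arrows to and from `k ≠ s, t` commute strictly, for `s → t` and `t → s` the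
defect is the boundary of `p1`, and the `p2_d` identity holds with `p2 = 0`.
`Qis` by `Mor.qis_of_htpy` with `K = 0`:
* at `t`, `z = (((y', _), m), _)` with `m s = (x, u)`: `r z = (x, v)`, `v s k = [k ≠ t] u k`,
  `v t k = [k ≠ s] ((m k).1 + a t k (u t))`, other `v r' = 0`; `K' z = ι (u t)`.
* at `s`, `z = ((u', _), m)` with `m t = ((y', _), m')`, `u = m' s : R1.X`: `r z = (y', v)`,
  `v s k = [k ≠ t] ((m k).1.1 + a s k (i1 u))`, `v t k = [k ≠ s] (m' k).1`; `K' z = ((u, 0), 0)`.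
* elsewhere `r z = (z.1.1.1, 0)`, `K' = 0`.
-/

namespace Vale.Agent.P203

variable {V : Type} [Fintype V] [DecidableEq V] {G : SimpleGraph V} [DecidableRel G.Adj]

omit [Fintype V] [DecidableEq V] [DecidableRel G.Adj] in
theorem ind_single (s : V) : Ind G {s} := fun i hi j hj h => by
  rw [Finset.mem_singleton] at hi hj
  exact h.ne (hi.trans hj.symm)

/-- `o` swaps `s` and `t`. -/
structure Sw (G : SimpleGraph V) (o : V → V) (s t : V) : Prop where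
  sw : IsSw G o
  adj : G.Adj s t
  hs : o s = t
  ht : o t = s
  hk : ∀ k, k ≠ s → k ≠ t → o k = k

omit [Fintype V] [DecidableRel G.Adj] in
theorem Sw.symm {o : V → V} {s t : V} (H : Sw G o s t) : Sw G o t s :=
  ⟨H.sw, H.adj.symm, H.ht, H.hs, fun k h1 h2 => H.hk k h2 h1⟩

omit [Fintype V] [DecidableRel G.Adj] in
theorem Sw.ne {o : V → V} {s t : V} (H : Sw G o s t) : o s ≠ s := H.hs ▸ H.adj.ne'

namespace Rep

variable (R : Rep G) (o : V → V) (s t : V)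

/-- Ambient spaces. -/
abbrev X1 := R.X × (V → R.X)
/-- Ambient spaces. -/
abbrev X2 := R.X1 × (V → R.X1)
/-- Ambient spaces. -/
abbrev X3 := R.X2 × (V → R.X2)
/-- The threefold mutation. -/
abbrev D3 : Raw V R.X3 := ((R.raw.mu G s).mu G t).mu G s

/-- The neighbours of `s` other than `t`. -/
def al : R.BX →ₗ[kk] (V → R.X) := LinearMap.pi fun k => if G.Adj s k ∧ k ≠ t then R.bc s k else 0

theorem al_apply (y : R.BX) (k : V) :
    R.al s t y k = if G.Adj s k ∧ k ≠ t then y.2 s k else 0 := ite_app _ _ _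

/-- Inclusion. -/
def io : R.X →ₗ[kk] R.X3 := LinearMap.inl _ _ _ ∘ₗ LinearMap.inl _ _ _ ∘ₗ LinearMap.inl _ _ _

/-- The map at `s`. -/
def pS : R.BX →ₗ[kk] R.X3 := lin (fun y => (((0, Pi.single t y.1), 0), fun k => if k = t then
    ((y.1, 0), fun k' => (R.al t s y k', 0)) else ((R.al s t y k, 0), 0))) fun y y' => by
  refine Prod.ext (by simp [Pi.single_add]) (funext fun k => ?_)
  by_cases hk : k = t <;> simp [hk, funext_iff]

/-- The map at `t`. -/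
def pT : R.BX →ₗ[kk] R.X3 := lin (fun y => (((R.a s t y.1, 0), fun k => if k = s then
    (y.1, R.al s t y) else (R.al t s y k, 0)), 0)) fun y y' => by
  refine Prod.ext (Prod.ext (by simp) (funext fun k => ?_)) (by simp)
  by_cases hk : k = s <;> simp [hk]

/-- First component of the morphism. -/
def q0 (k : V) : R.BX →ₗ[kk] R.X3 :=
  if k = s then R.pS s t else if k = t then R.pT s t else R.io ∘ₗ R.b1

/-- Second component of the morphism. -/
def q1 (j k : V) : R.BX →ₗ[kk] R.X3 :=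
  if j = s ∧ k = t then R.io ∘ₗ R.bg o s
  else if j = t ∧ k = s then LinearMap.inl _ _ _ ∘ₗ LinearMap.inl _ _ _ ∘ₗ R.b1.prod (R.al s t) else 0

variable {o s t} (y : R.BX)

omit [DecidableEq V] [DecidableRel G.Adj] in
theorem raw_d : R.raw.d = R.d := rfl
omit [DecidableEq V] [DecidableRel G.Adj] in
theorem raw_a : R.raw.a = R.a := rfl
omit [DecidableEq V] [DecidableRel G.Adj] in
theorem raw_h : R.raw.h = R.h := rfl

theorem q0_s : R.q0 s t s y = (((0, Pi.single t y.1), 0), fun k => if k = t then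
    ((y.1, 0), fun k' => (R.al t s y k', 0)) else ((R.al s t y k, 0), 0)) := by
  rw [q0, if_pos rfl]; rfl

theorem q0_t (h : t ≠ s) : R.q0 s t t y = (((R.a s t y.1, 0), fun k => if k = s then
    (y.1, R.al s t y) else (R.al t s y k, 0)), 0) := by
  rw [q0, if_neg h, if_pos rfl]; rfl

theorem q0_o {k : V} (h : k ≠ s) (h' : k ≠ t) : R.q0 s t k y = (((y.1, 0), 0), 0) := by
  rw [q0, if_neg h, if_neg h']; rfl

theorem q1_st : R.q1 o s t s t y = (((R.bg o s y, 0), 0), 0) := by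
  rw [q1, if_pos ⟨rfl, rfl⟩]; rfl

theorem q1_ts (h : t ≠ s) : R.q1 o s t t s y = (((y.1, R.al s t y), 0), 0) := by
  rw [q1, if_neg fun h' => h h'.1, if_pos ⟨rfl, rfl⟩]; rfl

theorem q1_o {j k : V} (h : ¬(j = s ∧ k = t)) (h' : ¬(j = t ∧ k = s)) : R.q1 o s t j k = 0 := by
  rw [q1, if_neg h, if_neg h']

theorem sum_al : ∑ k, R.a k s (R.al s t y k) = ∑ k, if k ≠ t then R.a k s (y.2 s k) else 0 := by
  refine Finset.sum_congr rfl fun k _ => ?_
  by_cases h : G.Adj s k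
  · by_cases h' : k = t <;> simp [al_apply, h, h']
  · simp [R.a_zero fun h' : G.Adj k s => h h'.symm]

theorem sum_al' : (∑ k, if k ≠ t then R.a k s (R.al s t y k) else 0) =
    ∑ k, if k ≠ t then R.a k s (y.2 s k) else 0 := by
  rw [← sum_al]
  refine Finset.sum_congr rfl fun k _ => ?_
  by_cases h' : k = t <;> simp [al_apply, h']

theorem it_al (H : Sw G o s t) : R.raw.it s (y.1, R.al s t y) = R.bg o t y := by
  rw [Raw.it_apply, bg_apply, H.ht, ← sum_al]; rfl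

theorem it_single (j : V) (x : R.X) : R.raw.it s (0, Pi.single j x) = R.a j s x := by
  rw [Raw.it_apply, map_zero, zero_add, ← R.inn_single, inn_apply]; rfl

theorem al_d (H : Sw G o s t) (k : V) : R.al s t (R.bmD o t y) k =
    R.d k (R.al s t y k) + R.a s k y.1 + (Pi.single t (R.a s t y.1) : V → R.X) k := by
  rw [R.bmD_in _ H.symm.ne, H.ht]
  by_cases h : k = t
  · simp [al_apply, h]
  · by_cases h' : G.Adj s k
    · simp [al_apply, h, h', H.adj.ne]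
    · simp [al_apply, h, h', R.a_zero h']

theorem al_d' (H : Sw G o s t) {k : V} (h : k ≠ t) : R.al s t (R.bmD o s y) k =
    R.d k (R.al s t y k) + R.a s k (R.a t s y.1) := by
  rw [R.bmD_in _ H.ne, H.hs]
  by_cases h' : G.Adj s k
  · simp [al_apply, h, h', H.adj.ne]
  · simp [al_apply, h', R.a_zero h']

theorem al_t : R.al s t y t = 0 := by simp [al_apply]

theorem al_s : R.al s t y s = 0 := by simp [al_apply]

theorem dsingle (j : V) (x : R.X) :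
    (fun k => R.d k ((Pi.single j x : V → R.X) k)) = Pi.single j (R.d j x) := R.dV_single j x

theorem br_p0d (H : Sw G o s t) (i : V) :
    (R.D3 s t).d i (R.q0 s t i y) = R.q0 s t i (R.bmD o i y) := by
  have h1 := H.adj.ne
  have h2 := H.adj.ne'
  by_cases hs : i = s
  · subst hs
    have e : (R.bmD o i y).1 = R.d t y.1 := by rw [R.bmD_in _ H.ne, H.hs]
    rw [q0_s, q0_s, Raw.mu_d, if_pos rfl, e]
    refine Prod.ext (by simp [Raw.mu_d, h1, raw_d, dsingle]) (funext fun k => ?_)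
    by_cases hk : k = t
    · subst hk
      simp only [Raw.mu_d, Raw.mu_a, h2, if_true, if_false, H.adj, raw_d, raw_a]
      refine Prod.ext (by simp) (funext fun k' => ?_)
      by_cases hk' : k' = i
      · simp [hk', al_t, H.adj.symm, Prod.ext_iff, funext_iff]
      · simp [hk', R.al_d _ H.symm]
    · by_cases hk' : k = i
      · simp [hk', Raw.mu_d, Raw.mu_a, h1, al_s, Prod.ext_iff, funext_iff]
      · simp [hk, hk', Raw.mu_d, Raw.mu_a, h1, raw_d, raw_a, it_single, R.al_d' _ H hk]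
  by_cases ht : i = t
  · subst ht
    have e : (R.bmD o i y).1 = R.d s y.1 := by rw [R.bmD_in _ H.symm.ne, H.ht]
    rw [R.q0_t _ h2, R.q0_t _ h2, Raw.mu_d, if_neg h2, Raw.mu_d, if_pos rfl, e]
    refine Prod.ext (Prod.ext (by simp [Raw.mu_d, h2, raw_d, R.da]) (funext fun k => ?_)) rfl
    by_cases hk : k = s
    · simp [hk, Raw.mu_d, Raw.mu_a, H.adj.symm, raw_d, raw_a, funext_iff, R.al_d _ H]
    · simp [hk, Raw.mu_d, Raw.mu_a, h2, raw_d, raw_a, R.al_d' _ H.symm hk]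
  · simp [R.q0_o _ hs ht, Raw.mu_d, hs, ht, raw_d, R.bmD_out _ (H.hk i hs ht)]

theorem al_a (H : Sw G o s t) : R.al s t (R.bmA o s t y) = R.al s t y := by
  funext k
  rw [R.bmA_in _ H.ne H.symm.ne H.hs.symm]
  by_cases h : G.Adj s k ∧ k ≠ t <;> simp [al_apply, h, H.adj.ne]

theorem al_a' (H : Sw G o s t) {k : V} (h : k ≠ s) :
    R.al t s (R.bmA o s t y) k = R.a t k (R.bg o s y) := by
  rw [R.bmA_in _ H.ne H.symm.ne H.hs.symm]
  by_cases h' : G.Adj t k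
  · simp [al_apply, h, h', H.adj.ne']
  · simp [al_apply, h', R.a_zero h']

theorem i2_s (H : Sw G o s t) : (R.raw.mu G s).it t ((y.1, 0), fun k => (R.al t s y k, 0)) =
    (R.bg o s y, 0) := by
  rw [Raw.it2 _ H.adj.ne', bg_apply, H.hs, ← sum_al']
  simp [al_t, raw_h, raw_a, Prod.mk_zero_zero]

theorem i3_s (H : Sw G o s t) : ((R.raw.mu G s).mu G t).it s (R.q0 s t s y) =
    ((R.a t s y.1, Pi.single t (R.bg o s y) + R.al s t y), 0) := by
  rw [Raw.it3 _ H.adj, q0_s]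
  refine Prod.ext (Prod.ext (R.it_single _ _) (funext fun k => ?_)) rfl
  by_cases h : k = t
  · simp [h, R.i2_s _ H, al_t]
  · by_cases h' : G.Adj s k <;> simp [h, h', al_apply]

theorem i1_s (H : Sw G o s t) :
    R.raw.it s (R.a t s y.1, Pi.single t (R.bg o s y) + R.al s t y) = R.bp o s y := by
  rw [bp_apply, H.hs, ← sum_al, Raw.it_apply, ← R.inn_single s t (R.bg o s y), inn_apply]
  simp only [Pi.add_apply, map_add, Finset.sum_add_distrib, raw_a, raw_h]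
  abel

theorem i2_t (H : Sw G o s t) : (R.raw.mu G s).it t (R.q0 s t t y).1 = (R.bp o t y, 0) := by
  rw [Raw.it2 _ H.adj.ne', R.q0_t _ H.adj.ne', bp_apply, H.ht, ← sum_al', ← R.it_al _ H,
    add_right_comm]
  simp only [if_true, raw_a, raw_h]
  congr 3
  refine Finset.sum_congr rfl fun k _ => ?_
  by_cases h : k = s <;> simp [h]

theorem br_st (H : Sw G o s t) :
    (R.D3 s t).d t (R.q1 o s t s t y) + R.q1 o s t s t (R.bmD o s y) =
      (R.D3 s t).a s t (R.q0 s t s y) + R.q0 s t t (R.bmA o s t y) := by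
  have h2 := H.adj.ne'
  have e : (R.bmA o s t y).1 = R.a t s y.1 := by rw [R.bmA_in _ H.ne H.symm.ne H.hs.symm]
  rw [Raw.mu_a, if_neg h2, if_pos rfl, R.i3_s _ H, q1_st, q1_st, R.q0_t _ h2, R.bg_d H.ne, H.hs, e,
    R.al_a _ H]
  simp only [Raw.mu_d, Raw.mu_a, h2, if_true, if_false, H.adj, raw_d, raw_a]
  refine Prod.ext (Prod.ext (by simp [add_self_left2]) (funext fun k => ?_)) (by simp)
  by_cases hk : k = s
  · simp [hk, H.adj.symm, add_assoc, Prod.ext_iff, funext_iff]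
  · simp [hk, R.al_a' _ H hk]

theorem br_ts (H : Sw G o s t) :
    (R.D3 s t).d s (R.q1 o s t t s y) + R.q1 o s t t s (R.bmD o t y) =
      (R.D3 s t).a t s (R.q0 s t t y) + R.q0 s t s (R.bmA o t s y) := by
  have h1 := H.adj.ne
  have h2 := H.adj.ne'
  have e : (R.bmA o t s y).1 = R.a s t y.1 := by rw [R.bmA_in _ H.symm.ne H.ne H.ht.symm]
  have e' : (R.bmD o t y).1 = R.d s y.1 := by rw [R.bmD_in _ H.symm.ne, H.ht]
  rw [R.q1_ts _ h2, R.q1_ts _ h2, R.q0_t _ h2, q0_s, e, e', R.al_a _ H.symm]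
  simp only [Raw.mu_d, Raw.mu_a, h1, if_true, if_false, H.adj.symm, raw_d, raw_a]
  refine Prod.ext (Prod.ext (Prod.ext (by simp) (funext fun k => ?_)) (by simp)) (funext fun k => ?_)
  · simp [R.al_d _ H, add_self_left2]
  by_cases hk : k = t
  · subst hk
    refine Prod.ext (by simp [H.adj, h2]) (funext fun k' => ?_)
    by_cases hk' : k' = s <;> simp [hk', H.adj, al_t, funext_iff]
  · by_cases hk' : k = s
    · simp [hk', h1, al_s, funext_iff]
    · simp [hk, hk', R.it_al _ H, R.al_a' _ H.symm hk]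

theorem br_p1d (H : Sw G o s t) (j k : V) :
    (R.D3 s t).d k (R.q1 o s t j k y) + R.q1 o s t j k (R.bmD o j y) =
      (R.D3 s t).a j k (R.q0 s t j y) + R.q0 s t k (R.bmA o j k y) := by
  have h1 := H.adj.ne
  have h2 := H.adj.ne'
  by_cases a1 : j = s ∧ k = t
  · rw [a1.1, a1.2]; exact R.br_st y H
  by_cases a2 : j = t ∧ k = s
  · rw [a2.1, a2.2]; exact R.br_ts y H
  rw [R.q1_o a1 a2, LinearMap.zero_apply, LinearMap.zero_apply, map_zero, add_zero]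
  by_cases ha : G.Adj j k
  swap
  · rw [R.bmA_zero H.sw ha, map_zero, add_zero]
    simp [Raw.mu_a, ha, raw_a, R.a_zero ha, Prod.mk_zero_zero]
  by_cases hj : j = s
  · subst hj
    have b1 : k ≠ t := fun h => a1 ⟨rfl, h⟩
    rw [Raw.mu_a, if_neg ha.ne', if_pos rfl, R.i3_s _ H, R.bmA_from _ H.ne (H.hk k ha.ne' b1),
      R.q0_o _ ha.ne' b1]
    simp [Raw.mu_a, b1, h1, ha.ne', R.i1_s _ H, raw_a, Prod.ext_iff]
  by_cases hj' : j = t
  · subst hj'
    have b1 : k ≠ s := fun h => a2 ⟨rfl, h⟩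
    rw [Raw.mu_a, if_neg b1, if_neg h2, Raw.mu_a, if_neg ha.ne', if_pos rfl, R.i2_t _ H,
      R.bmA_from _ H.symm.ne (H.hk k b1 ha.ne'), R.q0_o _ b1 ha.ne']
    simp [Raw.mu_a, b1, h2, raw_a, Prod.ext_iff]
  rw [R.q0_o _ hj hj']
  by_cases hk : k = s
  · subst hk
    rw [R.bmA_to _ (H.hk j hj hj') H.ne ha, q0_s, Raw.mu_a, if_pos rfl, if_pos ha]
    refine Prod.ext (by simp [Prod.mk_zero_zero]) (funext fun k' => ?_)
    by_cases b : k' = j
    · simp [b, hj', al_apply, ha.symm]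
    · by_cases b' : k' = t <;> simp [b, b', al_apply, h2, Ne.symm hj', Prod.ext_iff, funext_iff]
  by_cases hk' : k = t
  · subst hk'
    rw [R.bmA_to _ (H.hk j hj hj') H.symm.ne ha, R.q0_t _ h2, Raw.mu_a, if_neg hk, if_neg hj,
      Raw.mu_a, if_pos rfl, if_pos ha]
    refine Prod.ext (Prod.ext (by simp [Prod.mk_zero_zero]) (funext fun k' => ?_)) (by simp)
    by_cases b : k' = j
    · simp [b, hj, al_apply, ha.symm]
    · by_cases b' : k' = s <;> simp [b, b', al_apply, h1, Ne.symm hj, Prod.ext_iff, funext_iff]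
  · simp [R.bmA_out _ (H.hk j hj hj') (H.hk k hk hk'), R.q0_o _ hk hk', Raw.mu_a, hj, hj', hk, hk',
      raw_a, Prod.ext_iff]

theorem br_p2d (H : Sw G o s t) (i : V) :
    0 = (R.D3 s t).h i (R.q0 s t i y) + R.q0 s t i (R.bmH o i y) +
      ∑ j, ((R.D3 s t).a j i (R.q1 o s t i j y) + R.q1 o s t j i (R.bmA o i j y)) := by
  have h1 := H.adj.ne
  have h2 := H.adj.ne'
  by_cases hs : i = s
  · subst hs
    have e : (R.bmA o i t y).1 = R.a t i y.1 := by rw [R.bmA_in _ H.ne H.symm.ne H.hs.symm]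
    rw [Finset.sum_eq_single t (fun j _ hj => by simp [R.q1_o, hj, h1]) (by simp), Raw.mu_h,
      if_pos rfl, R.i3_s _ H, R.bmH_in _ H.ne, q0_s, q1_st, R.q1_ts _ h2, e, R.al_a _ H, Raw.mu_a,
      if_pos rfl, if_pos H.adj.symm]
    refine Prod.ext (by simp [Prod.ext_iff, add_right_comm]) (funext fun k => ?_)
    by_cases hk : k = t <;> simp [hk, al_apply, Prod.ext_iff, funext_iff]
  by_cases ht : i = t
  · subst ht
    rw [Finset.sum_eq_single s (fun j _ hj => by simp [R.q1_o, hj, h2]) (by simp), Raw.mu_h,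
      if_neg h2, Raw.mu_h, if_pos rfl, R.i2_t _ H, R.bmH_in _ H.symm.ne, R.q0_t _ h2, q1_st,
      R.q1_ts _ h2, Raw.mu_a, if_neg h2, if_pos rfl, Raw.it3 _ H.adj, R.it_al _ H,
      R.bp_eq H.symm.ne (by rw [H.ht, H.hs]), H.ht, Raw.mu_a, if_pos rfl, if_pos H.adj]
    refine Prod.ext (Prod.ext (by simp [add_assoc]) (funext fun k => ?_)) (by simp)
    by_cases hk : k = s <;> simp [hk, al_apply, Prod.ext_iff, funext_iff]
  · simp [R.q1_o, hs, ht, R.q0_o _ hs ht, R.bmH_out _ (H.hk i hs ht), Raw.mu_h, raw_h, Prod.ext_iff]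

theorem al_gr {n : ℤ} {j : V} (H : Sw G o s t) (hj : o j ≠ j) {y : R.BX} (hy : y ∈ R.bmG o j n)
    (k : V) : R.al s t y k = y.2 s k ∧ R.al s t y k ∈ R.gr k n := by
  have h := ((R.bmG_in _ hj).1 hy).2 s k
  rw [H.hs, al_apply] at *
  split_ifs with h'
  · exact ⟨rfl, h.1 ⟨H.adj.ne', h'⟩⟩
  · exact ⟨(h.2 fun h'' => h' h''.2).symm, zero_mem _⟩

theorem al_nadj {k : V} (h : ¬G.Adj s k) : R.al s t y k = 0 := by simp [al_apply, h]

variable {n : ℤ}

theorem gr1_s {z : R.X1} : z ∈ (R.raw.mu G s).gr s n ↔ z.1 ∈ R.gr s (n + 1) ∧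
    ∀ k, (G.Adj s k → z.2 k ∈ R.gr k n) ∧ (¬G.Adj s k → z.2 k = 0) := Raw.mu_gr_in _ _ _

theorem gr1_o {j : V} (h : j ≠ s) {z : R.X1} :
    z ∈ (R.raw.mu G s).gr j n ↔ z.1 ∈ R.gr j n ∧ z.2 = 0 := Raw.mu_gr_out _ _ _ h

theorem gr_io {j : V} (h : j ≠ s) (h' : j ≠ t) {z : R.X3} : z ∈ (R.D3 s t).gr j n ↔
    ((z.1.1.1 ∈ R.gr j n ∧ z.1.1.2 = 0) ∧ z.1.2 = 0) ∧ z.2 = 0 := by
  rw [Raw.mu_gr_out _ _ _ h, Raw.mu_gr_out _ _ _ h', R.gr1_o h]

theorem xal_gr (H : Sw G o s t) {y : R.BX} (hy : y ∈ R.bmG o t n) :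
    (y.1, R.al s t y) ∈ (R.raw.mu G s).gr s n :=
  R.gr1_s.2 ⟨H.ht ▸ ((R.bmG_in _ H.symm.ne).1 hy).1, fun k =>
    ⟨fun _ => (R.al_gr H H.symm.ne hy k).2, R.al_nadj y⟩⟩

theorem br_p0gr (H : Sw G o s t) (i : V) (hy : y ∈ R.bmG o i n) :
    R.q0 s t i y ∈ (R.D3 s t).gr i n := by
  have h1 := H.adj.ne
  have h2 := H.adj.ne'
  by_cases hs : i = s
  · subst hs
    have hx : y.1 ∈ R.gr t (n + 1) := H.hs ▸ ((R.bmG_in _ H.ne).1 hy).1
    rw [q0_s, Raw.mu_gr_in, Raw.mu_gr_out _ _ _ h1, gr1_s]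
    refine ⟨⟨⟨zero_mem _, R.mem_vg.1 (R.single_vg H.adj hx)⟩, rfl⟩, fun k => ⟨fun hk => ?_,
      fun hk => ?_⟩⟩
    · by_cases b : k = t
      · subst b
        simp only [if_true]
        rw [Raw.mu_gr_in, R.gr1_o h2]
        refine ⟨⟨hx, rfl⟩, fun k' => ⟨fun _ => ?_, fun hk' => by simp only [R.al_nadj y hk']; rfl⟩⟩
        by_cases b' : k' = i
        · simp only [b', al_t]
          exact zero_mem _
        · exact (R.gr1_o b').2 ⟨(R.al_gr H.symm H.ne hy k').2, rfl⟩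
      · simp only [if_neg b]
        rw [Raw.mu_gr_out _ _ _ b, R.gr1_o hk.ne']
        exact ⟨⟨(R.al_gr H H.ne hy k).2, rfl⟩, rfl⟩
    · simp only [if_neg fun b : k = t => hk (b ▸ H.adj), R.al_nadj y hk]
      rfl
  by_cases ht : i = t
  · subst ht
    have hx : y.1 ∈ R.gr s (n + 1) := H.ht ▸ ((R.bmG_in _ H.symm.ne).1 hy).1
    rw [R.q0_t _ h2, Raw.mu_gr_out _ _ _ h2, Raw.mu_gr_in, R.gr1_o h2]
    refine ⟨⟨⟨R.a_gr _ _ _ _ hx, rfl⟩, fun k => ⟨fun hk => ?_, fun hk => ?_⟩⟩, rfl⟩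
    · by_cases b : k = s
      · subst b
        simp only [if_true]
        exact R.xal_gr H hy
      · simp only [if_neg b]
        exact (R.gr1_o b).2 ⟨(R.al_gr H.symm H.symm.ne hy k).2, rfl⟩
    · simp only [if_neg fun b : k = s => hk (b ▸ H.adj.symm), R.al_nadj y hk]
      rfl
  · rw [R.q0_o _ hs ht, R.gr_io hs ht]
    exact ⟨⟨⟨((R.bmG_out _ (H.hk i hs ht)).1 hy).1, rfl⟩, rfl⟩, rfl⟩

theorem io_gr (h : t ≠ s) {x : R.X} (hx : x ∈ R.gr t (n + 1)) :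
    (((x, 0), 0), 0) ∈ (R.D3 s t).gr t n := by
  rw [Raw.mu_gr_out _ _ _ h, Raw.mu_gr_in, R.gr1_o h]
  exact ⟨⟨⟨hx, rfl⟩, fun k => ⟨fun _ => zero_mem _, fun _ => rfl⟩⟩, rfl⟩

theorem io_gr' (h : s ≠ t) {u : R.X1} (hu : u ∈ (R.raw.mu G s).gr s (n + 1)) :
    ((u, 0), 0) ∈ (R.D3 s t).gr s n := by
  rw [Raw.mu_gr_in, Raw.mu_gr_out _ _ _ h]
  exact ⟨⟨hu, rfl⟩, fun k => ⟨fun _ => zero_mem _, fun _ => rfl⟩⟩

theorem br_p1gr (H : Sw G o s t) (j k : V) (hy : y ∈ R.bmG o j (n + 1)) :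
    R.q1 o s t j k y ∈ (R.D3 s t).gr k n := by
  by_cases a1 : j = s ∧ k = t
  · obtain ⟨rfl, rfl⟩ := a1
    rw [q1_st]
    exact R.io_gr H.adj.ne' (H.hs ▸ R.bg_gr H.sw H.ne hy)
  by_cases a2 : j = t ∧ k = s
  · obtain ⟨rfl, rfl⟩ := a2
    rw [R.q1_ts _ H.adj.ne']
    exact R.io_gr' H.adj.ne (R.xal_gr H hy)
  · rw [R.q1_o a1 a2]
    exact zero_mem _

variable (s t) in
/-- Elements of the model from their coordinates. -/
def mk2 (x : R.X) (v w : V → R.X) : R.BX := (x, fun r k => if r = s then (if k ≠ t then v k else 0)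
  else if r = t then (if k ≠ s then w k else 0) else 0)

omit [DecidableRel G.Adj] in
theorem mk2_add (x x' : R.X) (v w v' w' : V → R.X) : R.mk2 s t (x + x') (fun k => v k + v' k)
    (fun k => w k + w' k) = R.mk2 s t x v w + R.mk2 s t x' v' w' := by
  refine Prod.ext rfl (funext fun r => funext fun k => ?_)
  simp only [mk2, Prod.snd_add, Pi.add_apply]
  split_ifs <;> simp

omit [DecidableRel G.Adj] in
theorem mk2_congr {x x' : R.X} {v w v' w' : V → R.X} (h1 : x = x') (h2 : ∀ k, k ≠ t → v k = v' k)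
    (h3 : ∀ k, k ≠ s → w k = w' k) : R.mk2 s t x v w = R.mk2 s t x' v' w' := by
  refine Prod.ext h1 (funext fun r => funext fun k => ?_)
  simp only [mk2]
  split_ifs with a b c d
  exacts [h2 k b, rfl, h3 k d, rfl, rfl]

theorem mk2_gr (H : Sw G o s t) {j : V} (hj : o j ≠ j) {x : R.X} {v w : V → R.X}
    (hx : x ∈ R.gr (o j) (n + 1))
    (hv : ∀ k, k ≠ t → (G.Adj s k → v k ∈ R.gr k n) ∧ (¬G.Adj s k → v k = 0))
    (hw : ∀ k, k ≠ s → (G.Adj t k → w k ∈ R.gr k n) ∧ (¬G.Adj t k → w k = 0)) :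
    R.mk2 s t x v w ∈ R.bmG o j n := by
  refine (R.bmG_in _ hj).2 ⟨hx, fun r k => ?_⟩
  simp only [mk2]
  split_ifs with a b c d
  · rw [a, H.hs]
    exact ⟨fun h => (hv k b).1 h.2.1, fun h => (hv k b).2 fun h' => h ⟨H.adj.ne', h', b⟩⟩
  · exact ⟨fun _ => zero_mem _, fun _ => rfl⟩
  · rw [c, H.ht]
    exact ⟨fun h => (hw k d).1 h.2.1, fun h => (hw k d).2 fun h' => h ⟨H.adj.ne, h', d⟩⟩
  · exact ⟨fun _ => zero_mem _, fun _ => rfl⟩
  · exact ⟨fun _ => zero_mem _, fun _ => rfl⟩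

theorem mk2_eq (H : Sw G o s t) {j : V} (hj : o j ≠ j) {y : R.BX} (hy : y ∈ R.bmG o j n) :
    R.mk2 s t y.1 (R.al s t y) (R.al t s y) = y := by
  refine Prod.ext rfl (funext fun r => funext fun k => ?_)
  have a1 := (R.al_gr H hj hy k).1
  have a2 := (R.al_gr H.symm hj hy k).1
  simp only [mk2]
  split_ifs with a b c d
  · rw [a, a1]
  · rw [a, ← a1, not_not.1 b, al_t]
  · rw [c, a2]
  · rw [c, ← a2, not_not.1 d, al_t]
  · exact ((((R.bmG_in _ hj).1 hy).2 r k).2 fun h => h.1 (H.hk r a c)).symm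

theorem al_mk2 (x : R.X) (v w : V → R.X) (k : V) :
    R.al s t (R.mk2 s t x v w) k = if G.Adj s k ∧ k ≠ t then v k else 0 := by
  by_cases h : G.Adj s k ∧ k ≠ t <;> simp [al_apply, mk2, h]

theorem al_mk2' (h : t ≠ s) (x : R.X) (v w : V → R.X) (k : V) :
    R.al t s (R.mk2 s t x v w) k = if G.Adj t k ∧ k ≠ s then w k else 0 := by
  by_cases h' : G.Adj t k ∧ k ≠ s <;> simp [al_apply, mk2, h, h']

theorem mk2_dt (H : Sw G o s t) (x : R.X) (v w : V → R.X) : R.bmD o t (R.mk2 s t x v w) =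
    R.mk2 s t (R.d s x) (fun k => R.d k (v k) + R.a s k x)
      fun k => R.d k (w k) + R.a t k (R.a s t x) := by
  rw [R.bmD_in _ H.symm.ne, H.ht]
  refine Prod.ext rfl (funext fun r => funext fun k => ?_)
  by_cases a : r = s
  · by_cases b : k = t <;> simp [mk2, a, b, H.adj.ne]
  · by_cases c : r = t <;> by_cases b : k = s <;> simp [mk2, a, b, c, H.adj.ne']

theorem mk2_ds (H : Sw G o s t) (x : R.X) (v w : V → R.X) : R.bmD o s (R.mk2 s t x v w) =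
    R.mk2 s t (R.d t x) (fun k => R.d k (v k) + R.a s k (R.a t s x))
      fun k => R.d k (w k) + R.a t k x := by
  rw [R.bmD_in _ H.ne, H.hs]
  refine Prod.ext rfl (funext fun r => funext fun k => ?_)
  by_cases a : r = s
  · by_cases b : k = t <;> simp [mk2, a, b, H.adj.ne]
  · by_cases c : r = t <;> by_cases b : k = s <;> simp [mk2, a, b, c, H.adj.ne']

variable (s t) in
/-- Homotopy inverse at `t`. -/
def rT : R.X3 →ₗ[kk] R.BX := lin (fun z => R.mk2 s t (z.1.2 s).1 (z.1.2 s).2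
    fun k => (z.1.2 k).1 + R.a t k ((z.1.2 s).2 t)) fun z z' => by
  rw [← mk2_add]
  exact R.mk2_congr rfl (fun _ _ => rfl) fun k _ => by simp [add_add_add_comm]

variable (s t) in
/-- Homotopy inverse at `s`. -/
def rS : R.X3 →ₗ[kk] R.BX := lin (fun z => R.mk2 s t (z.2 t).1.1
    (fun k => (z.2 k).1.1 + R.a s k (R.raw.it s ((z.2 t).2 s))) fun k => ((z.2 t).2 k).1)
    fun z z' => by
  rw [← mk2_add]
  exact R.mk2_congr rfl (fun k _ => by simp [add_add_add_comm]) fun _ _ => rfl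

variable (s t) in
/-- Homotopy at `t`. -/
def kT : R.X3 →ₗ[kk] R.X3 := lin (fun z => ((((z.1.2 s).2 t, 0), 0), 0)) fun z z' => by simp

variable (s t) in
/-- Homotopy at `s`. -/
def kS : R.X3 →ₗ[kk] R.X3 := lin (fun z => (((z.2 t).2 s, 0), 0)) fun z z' => by simp

omit [DecidableRel G.Adj] in
theorem rT_apply (z : R.X3) : R.rT s t z = R.mk2 s t (z.1.2 s).1 (z.1.2 s).2
    fun k => (z.1.2 k).1 + R.a t k ((z.1.2 s).2 t) := rfl

omit [DecidableRel G.Adj] in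
theorem rS_apply (z : R.X3) : R.rS s t z = R.mk2 s t (z.2 t).1.1
    (fun k => (z.2 k).1.1 + R.a s k (R.raw.it s ((z.2 t).2 s))) fun k => ((z.2 t).2 k).1 := rfl

omit [DecidableEq V] [DecidableRel G.Adj] in
theorem kT_apply (z : R.X3) : R.kT s t z = ((((z.1.2 s).2 t, 0), 0), 0) := rfl

omit [DecidableEq V] [DecidableRel G.Adj] in
theorem kS_apply (z : R.X3) : R.kS s t z = (((z.2 t).2 s, 0), 0) := rfl

theorem qT_d (H : Sw G o s t) (z : R.X3) :
    R.bmD o t (R.rT s t z) = R.rT s t ((R.D3 s t).d t z) := by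
  have h2 := H.adj.ne'
  rw [rT_apply, rT_apply, R.mk2_dt H]
  refine R.mk2_congr ?_ (fun k hk => ?_) fun k hk => ?_
  · simp [Raw.mu_d, Raw.mu_a, h2, raw_d]
  · simp [Raw.mu_d, Raw.mu_a, h2, raw_d, raw_a, H.adj.symm, hk]
  · simp only [Raw.mu_d, Raw.mu_a, h2, raw_d, raw_a, H.adj.symm, hk, if_true, if_false,
      Prod.fst_add, Prod.snd_add, Pi.add_apply, Pi.single_eq_same, map_add, R.da]
    refine DBm_c2 ?_
    match_scalars <;> decide

theorem qT_r (H : Sw G o s t) (hy : y ∈ R.bmG o t n) : R.rT s t (R.q0 s t t y) = y := by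
  rw [rT_apply, R.q0_t _ H.adj.ne']
  exact (R.mk2_congr (by simp) (fun k _ => by simp) fun k hk => by simp [hk, al_t]).trans
    (R.mk2_eq H H.symm.ne hy)

theorem qT_gr (H : Sw G o s t) {z : R.X3} (hz : z ∈ (R.D3 s t).gr t n) :
    (z.1.1.2 = 0 ∧ z.2 = 0) ∧ z.1.2 s ∈ (R.raw.mu G s).gr s n ∧ ∀ k, k ≠ s →
      (G.Adj t k → (z.1.2 k).1 ∈ R.gr k n) ∧ (¬G.Adj t k → (z.1.2 k).1 = 0) ∧ (z.1.2 k).2 = 0 := by
  rw [Raw.mu_gr_out _ _ _ H.adj.ne', Raw.mu_gr_in, R.gr1_o H.adj.ne'] at hz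
  obtain ⟨⟨h1, h2⟩, h3⟩ := hz
  refine ⟨⟨h1.2, h3⟩, (h2 s).1 H.adj.symm, fun k hk => ⟨fun a => ((R.gr1_o hk).1 ((h2 k).1 a)).1,
    fun a => congrArg Prod.fst ((h2 k).2 a), ?_⟩⟩
  by_cases a : G.Adj t k
  · exact ((R.gr1_o hk).1 ((h2 k).1 a)).2
  · exact congrArg Prod.snd ((h2 k).2 a)

theorem qT_rgr (H : Sw G o s t) {z : R.X3} (hz : z ∈ (R.D3 s t).gr t n) :
    R.rT s t z ∈ R.bmG o t n := by
  obtain ⟨-, h1, h2⟩ := R.qT_gr H hz
  rw [gr1_s] at h1
  exact R.mk2_gr H H.symm.ne (H.ht.symm ▸ h1.1) (fun k _ => h1.2 k) fun k hk =>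
    ⟨fun a => add_mem ((h2 k hk).1 a) (R.a_gr _ _ _ _ ((h1.2 t).1 H.adj)),
      fun a => by rw [(h2 k hk).2.1 a, R.a_zero a, add_zero]⟩

theorem qT_h (H : Sw G o s t) {z : R.X3} (hz : z ∈ (R.D3 s t).gr t n) :
    R.q0 s t t (R.rT s t z) + z =
      (R.D3 s t).d t (R.kT s t z) + R.kT s t ((R.D3 s t).d t z) := by
  have h2 := H.adj.ne'
  obtain ⟨⟨a1, a2⟩, a3, a4⟩ := R.qT_gr H hz
  rw [gr1_s] at a3
  rw [R.q0_t _ h2, kT_apply, kT_apply, rT_apply]
  simp only [Raw.mu_d, Raw.mu_a, h2, raw_d, raw_a, H.adj.symm, if_true, if_false]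
  refine Prod.ext (Prod.ext (Prod.ext ?_ (by simp [a1])) (funext fun k => ?_)) (by simp [a2])
  · simp [mk2, add_assoc, add_self_left2]
  by_cases hk : k = s
  · subst hk
    refine Prod.ext (by simp [mk2]) (funext fun k' => ?_)
    by_cases b : k' = t
    · simp [b, al_t, H.adj.symm]
    · by_cases c : G.Adj k k'
      · simp [b, c, al_mk2, H.adj.symm]
      · simp [b, c, al_mk2, (a3.2 k').2 c, H.adj.symm]
  · refine Prod.ext ?_ (by simp [hk, (a4 k hk).2.2])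
    by_cases c : G.Adj t k
    · simp [hk, c, R.al_mk2' h2, add_right_comm]
    · simp [hk, c, R.al_mk2' h2, (a4 k hk).2.1 c, R.a_zero c]

theorem it_d1 (u : R.X1) : R.raw.it s ((R.raw.mu G s).d s u) = R.d s (R.raw.it s u) := by
  rw [Raw.mu_d, if_pos rfl]
  exact R.it_d s u.1 u.2

theorem qS_d (H : Sw G o s t) (z : R.X3) :
    R.bmD o s (R.rS s t z) = R.rS s t ((R.D3 s t).d s z) := by
  have h1 := H.adj.ne
  have h2 := H.adj.ne'
  have e1 : ((R.D3 s t).d s z).2 t = ((R.raw.mu G s).mu G t).d t (z.2 t) +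
      (0, Pi.single s z.1.1) := by
    rw [Raw.mu_d, if_pos rfl]
    simp only [Raw.mu_a, if_true, H.adj]
  have e2 : (((R.D3 s t).d s z).2 t).2 s = (R.raw.mu G s).d s ((z.2 t).2 s) +
      (0, Pi.single t (z.2 t).1.1) + z.1.1 := by
    rw [e1, Raw.mu_d, if_pos rfl]
    simp [Raw.mu_a, H.adj.symm]
  rw [rS_apply, rS_apply, R.mk2_ds H, e2, e1]
  refine R.mk2_congr ?_ (fun k hk => ?_) fun k hk => ?_
  · simp [Raw.mu_d, h2, raw_d]
  · simp only [map_add, it_d1, it_single, R.da]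
    by_cases b : k = s
    · simp [b, Raw.mu_d, Raw.mu_a, h1, raw_d, R.a_zero (G.irrefl (v := s))]
    · simp only [Raw.mu_d, Raw.mu_a, h1, raw_d, raw_a, hk, b, if_true, if_false, Prod.fst_add]
      refine DBm_c2 ?_
      match_scalars <;> decide
  · simp [Raw.mu_d, Raw.mu_a, h2, raw_d, raw_a, hk]

theorem qS_r (H : Sw G o s t) (hy : y ∈ R.bmG o s n) : R.rS s t (R.q0 s t s y) = y := by
  rw [rS_apply, q0_s]
  exact (R.mk2_congr (by simp) (fun k hk => by simp [hk, al_t, Prod.mk_zero_zero])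
    fun k _ => by simp).trans (R.mk2_eq H H.ne hy)

theorem qS_gr (H : Sw G o s t) {z : R.X3} (hz : z ∈ (R.D3 s t).gr s n) :
    z.1.2 = 0 ∧ (z.2 t).1.1 ∈ R.gr t (n + 1) ∧ (z.2 t, 0) ∈ (R.D3 s t).gr t n ∧ ∀ k, k ≠ t →
      (G.Adj s k → (z.2 k).1.1 ∈ R.gr k n) ∧ (¬G.Adj s k → (z.2 k).1.1 = 0) ∧
        z.2 k = (((z.2 k).1.1, 0), 0) := by
  rw [Raw.mu_gr_in, Raw.mu_gr_out _ _ _ H.adj.ne] at hz
  obtain ⟨⟨-, h1⟩, h2⟩ := hz
  have h3 := (h2 t).1 H.adj
  refine ⟨h1, ((R.gr1_o H.adj.ne').1 ((Raw.mu_gr_in _ _ _).1 h3).1).1,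
    (Raw.mu_gr_out _ _ _ H.adj.ne').2 ⟨h3, rfl⟩, fun k hk => ?_⟩
  by_cases a : G.Adj s k
  · have h4 := (h2 k).1 a
    rw [Raw.mu_gr_out _ _ _ hk, R.gr1_o a.ne'] at h4
    exact ⟨fun _ => h4.1.1, fun b => absurd a b, Prod.ext (Prod.ext rfl h4.1.2) h4.2⟩
  · rw [(h2 k).2 a]
    exact ⟨fun _ => zero_mem _, fun _ => rfl, rfl⟩

theorem qS_rgr (H : Sw G o s t) {z : R.X3} (hz : z ∈ (R.D3 s t).gr s n) :
    R.rS s t z ∈ R.bmG o s n := by
  obtain ⟨-, h1, h2, h3⟩ := R.qS_gr H hz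
  obtain ⟨-, h4, h5⟩ := R.qT_gr H h2
  rw [gr1_s] at h4
  exact R.mk2_gr H H.ne (H.hs.symm ▸ h1) (fun k hk =>
    ⟨fun a => add_mem ((h3 k hk).1 a) (R.a_gr _ _ _ _ (R.it_gr h4.1 (R.mem_vg.2 h4.2))),
      fun a => by rw [(h3 k hk).2.1 a, R.a_zero a, add_zero]⟩)
    fun k hk => ⟨(h5 k hk).1, (h5 k hk).2.1⟩

theorem qS_h (H : Sw G o s t) {z : R.X3} (hz : z ∈ (R.D3 s t).gr s n) :
    R.q0 s t s (R.rS s t z) + z =
      (R.D3 s t).d s (R.kS s t z) + R.kS s t ((R.D3 s t).d s z) := by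
  have h1 := H.adj.ne
  have h2 := H.adj.ne'
  obtain ⟨a1, -, a2, a3⟩ := R.qS_gr H hz
  obtain ⟨⟨a4, -⟩, -, a5⟩ := R.qT_gr H a2
  rw [q0_s, kS_apply, kS_apply, rS_apply]
  refine Prod.ext (Prod.ext ?_ (by simp [Raw.mu_d, h1, a1])) (funext fun k => ?_)
  · simp [Raw.mu_d, Raw.mu_a, h1, H.adj, H.adj.symm, mk2, Prod.ext_iff, funext_iff, add_assoc,
      add_self_left2]
  by_cases hk : k = t
  · subst hk
    refine Prod.ext (by simpa [Raw.mu_d, Raw.mu_a, mk2, Prod.ext_iff, h2] using a4) (funext fun k' => ?_)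
    by_cases b : k' = s
    · simp [b, al_t, Raw.mu_d, Raw.mu_a, H.adj, Prod.mk_zero_zero, funext_iff]
    · have c1 : ((z.2 k).2 k').2 = 0 := (a5 k' b).2.2
      by_cases c : G.Adj k k'
      · simp [b, c, R.al_mk2' h2, Raw.mu_d, Raw.mu_a, H.adj, Prod.ext_iff, c1]
      · have c2 : ((z.2 k).2 k').1 = 0 := (a5 k' b).2.1 c
        simp [b, c, R.al_mk2' h2, Raw.mu_d, Raw.mu_a, H.adj, Prod.ext_iff, c1, c2]
  · rw [Prod.snd_add, Pi.add_apply, (a3 k hk).2.2]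
    by_cases c : G.Adj s k
    · simp [hk, c, c.ne', al_mk2, Raw.mu_d, Raw.mu_a, h1, raw_a, add_right_comm]
    · simp [hk, c, al_mk2, Raw.mu_d, Raw.mu_a, h1, raw_a, (a3 k hk).2.1 c, R.a_zero c,
        Prod.mk_zero_zero, ← Pi.zero_def]

/-- Homotopy inverse elsewhere. -/
def rO : R.X3 →ₗ[kk] R.BX := lin (fun z => (z.1.1.1, 0)) fun z z' => by simp

omit [DecidableEq V] [DecidableRel G.Adj] in
theorem rO_apply (z : R.X3) : R.rO z = (z.1.1.1, 0) := rfl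

theorem qO_d {i : V} (hi : o i = i) (hs : i ≠ s) (ht : i ≠ t) (z : R.X3) :
    R.bmD o i (R.rO z) = R.rO ((R.D3 s t).d i z) := by
  simp [rO_apply, R.bmD_out _ hi, Raw.mu_d, hs, ht, raw_d]

theorem qO_r {i : V} (hi : o i = i) (hs : i ≠ s) (ht : i ≠ t) (hy : y ∈ R.bmG o i n) :
    R.rO (R.q0 s t i y) = y := by
  rw [R.q0_o _ hs ht]
  exact Prod.ext rfl ((R.bmG_out _ hi).1 hy).2.symm

theorem qO_h {i : V} (hs : i ≠ s) (ht : i ≠ t) {z : R.X3} (hz : z ∈ (R.D3 s t).gr i n) :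
    R.q0 s t i (R.rO z) = z := by
  obtain ⟨⟨⟨-, h1⟩, h2⟩, h3⟩ := (R.gr_io hs ht).1 hz
  rw [R.q0_o _ hs ht]
  exact Prod.ext (Prod.ext (Prod.ext rfl h1.symm) h2.symm) h3.symm

theorem zero_eq (f : R.X3 →ₗ[kk] R.X3) : f 0 + 0 = 0 := by rw [map_zero, add_zero]

theorem zero_eq' (f : R.BX →ₗ[kk] R.BX) {y y' : R.BX} (h : y' = y) : y' + y = f 0 + 0 := by
  rw [map_zero, add_zero, h, add_self2]

variable (s t) in
/-- The threefold mutation. -/
abbrev R3 : Rep G := ((R.tau {s} (ind_single s)).tau {t} (ind_single t)).tau {s} (ind_single s)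

theorem r3_raw : R.D3 s t = (R.R3 s t).raw :=
  ((raw_tau _ _ _).trans (congrArg (fun D => Raw.mu D G s) ((raw_tau _ _ _).trans
    (congrArg (fun D => Raw.mu D G t) (raw_tau _ _ _))))).symm

/-- The morphism. -/
def brM (H : Sw G o s t) : Mor (R.bm o H.sw) (R.R3 s t) where
  p0 := R.q0 s t
  p1 := R.q1 o s t
  p2 := 0
  p1_adj i j hij := R.q1_o (fun a => hij (a.1 ▸ a.2 ▸ H.adj)) fun a => hij (a.1 ▸ a.2 ▸ H.adj.symm)
  p0_d i y := by
    have := R.br_p0d y H i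
    rwa [r3_raw] at this
  p1_d i j y := by
    have := R.br_p1d y H i j
    rwa [r3_raw] at this
  p2_d i y := by
    have := (R.zero_eq ((R.D3 s t).d i)).trans (R.br_p2d y H i)
    rwa [r3_raw] at this
  p0_gr i _ y hy := by
    have := R.br_p0gr y H i hy
    rwa [r3_raw] at this
  p1_gr i j _ y hy := by
    have := R.br_p1gr y H i j hy
    rwa [r3_raw] at this
  p2_gr _ _ _ _ := zero_mem _

theorem br_htpy (H : Sw G o s t) (i : V) :
    ∃ (r : R.X3 →ₗ[kk] R.BX) (K : R.BX →ₗ[kk] R.BX) (K' : R.X3 →ₗ[kk] R.X3),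
      (∀ n z, z ∈ (R.D3 s t).gr i n →
        r z ∈ R.bmG o i n ∧ R.bmD o i (r z) = r ((R.D3 s t).d i z)) ∧
      (∀ n y, y ∈ R.bmG o i (n + 1) → K y ∈ R.bmG o i n) ∧
      (∀ n z, z ∈ (R.D3 s t).gr i (n + 1) → K' z ∈ (R.D3 s t).gr i n) ∧
      (∀ n y, y ∈ R.bmG o i n → r (R.q0 s t i y) + y = R.bmD o i (K y) + K (R.bmD o i y)) ∧
      ∀ n z, z ∈ (R.D3 s t).gr i n →
        R.q0 s t i (r z) + z = (R.D3 s t).d i (K' z) + K' ((R.D3 s t).d i z) := by
  by_cases hs : i = s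
  · subst hs
    exact ⟨R.rS i t, 0, R.kS i t, fun n z hz => ⟨R.qS_rgr H hz, R.qS_d H z⟩,
      fun _ _ _ => zero_mem _, fun n z hz => R.io_gr' H.adj.ne (R.qT_gr H (R.qS_gr H hz).2.2.1).2.1,
      fun n y hy => R.zero_eq' (R.bmD o i) (R.qS_r y H hy), fun n z hz => R.qS_h H hz⟩
  by_cases ht : i = t
  · subst ht
    exact ⟨R.rT s i, 0, R.kT s i, fun n z hz => ⟨R.qT_rgr H hz, R.qT_d H z⟩,
      fun _ _ _ => zero_mem _, fun n z hz => R.io_gr H.adj.ne'
        (((R.gr1_s.1 (R.qT_gr H hz).2.1).2 i).1 H.adj),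
      fun n y hy => R.zero_eq' (R.bmD o i) (R.qT_r y H hy), fun n z hz => R.qT_h H hz⟩
  have hi := H.hk i hs ht
  exact ⟨R.rO, 0, 0, fun n z hz => ⟨(R.bmG_out _ hi).2 ⟨((R.gr_io hs ht).1 hz).1.1.1, rfl⟩,
    R.qO_d hi hs ht z⟩, fun _ _ _ => zero_mem _, fun _ _ _ => zero_mem _,
    fun n y hy => R.zero_eq' (R.bmD o i) (R.qO_r y hi hs ht hy),
    fun n z hz => ((congrArg (· + z) (R.qO_h hs ht hz)).trans (add_self2 _)).trans
      (R.zero_eq ((R.D3 s t).d i)).symm⟩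

theorem brM_qis (H : Sw G o s t) : (R.brM H).Qis := by
  refine Mor.qis_of_htpy _ fun i => ?_
  have := R.br_htpy H i
  rwa [r3_raw] at this

end Rep

theorem braid_rel {s t : V} (h : G.Adj s t) (R : Rep G) :
    Rel (R.bm (Equiv.swap s t) ⟨s, t, h, rfl⟩)
      (((R.tau {s} (ind_single s)).tau {t} (ind_single t)).tau {s} (ind_single s)) := by
  have H : Sw G (Equiv.swap s t) s t := ⟨⟨s, t, h, rfl⟩, h, Equiv.swap_apply_left _ _,
    Equiv.swap_apply_right _ _, fun _ => Equiv.swap_apply_of_ne_of_ne⟩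
  exact ⟨R.brM H, R.brM_qis H⟩

end Vale.Agent.P203
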