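import Vale.Agent.P203.DMod

/-!
# P203 DCoh: cohomology of quasi-isomorphisms, of mutations, of trivial representations (TASK)
Use `cl_surj`, `cl_eq`, `cl_eq_zero`, `cl_sum`, `ind`, `ind_cl`, `coh_a` of `DMod`.
* `rel_dom`: `ind (p0 i)` is bijective (`Qis` with `x = 0`, resp. with `y` a primitive of `p0 x`; shift `n`),
  and commutes with the arrows by `p1_d`. For the converse use `LinearEquiv.ofBijective .. .symm`.
* `isPhi_tau`: `e j = ind (inl)` for `j ∉ I`, `e j = 0` for `j ∈ I`. Choose cocycles for `v` (zero at non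
  neighbours, giving `w ∈ vg i n`); then the sum is the class of `(0, w)`, which is a coboundary iff
  `w = dV w' + out x` with `d x = 0`. Last clause: `it i (0, w) = inn i w`.
* `ntop_tau`: a cocycle `(x, v)` has `x = d x'`; add `tauD (x', 0)`.
* `zero_up`: a cocycle `x` of degree `n + 1` has `out x = dV v` with `v ∈ vg i n`; `(x, v)` is a cocycle of `tau`,
  so it is `(0, w)` plus a coboundary.
-/

namespace Vale.Agent.P203.Rep

variable {V : Type} [Fintype V] [DecidableEq V] {G : SimpleGraph V} [DecidableRel G.Adj]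

omit [DecidableEq V] [DecidableRel G.Adj] in
theorem dcoh_Bc (R : Rep G) {i : V} {n : ℤ} {x : R.X} :
    x ∈ R.Bc i (n + 1) ↔ ∃ y ∈ R.gr i n, R.d i y = x := by
  rw [Bc, add_sub_cancel_right]
  rfl

omit [DecidableEq V] [DecidableRel G.Adj] in
theorem dcoh_congr (R : Rep G) {i : V} {n : ℤ} {x y : R.X} {hx : x ∈ R.Zc i n} {hy : y ∈ R.Zc i n}
    (h : x = y) : R.cl x hx = R.cl y hy := by
  subst h
  rfl

theorem rel_dom {R R' : Rep G} (h : Rel R R') (n : ℤ) :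
    (R.coh n).Dom (R'.coh n) ∧ (R'.coh n).Dom (R.coh n) := by
  obtain ⟨φ, hφ⟩ := h
  obtain ⟨m, rfl⟩ : ∃ m, n = m + 1 + 1 := ⟨n - 2, by ring⟩
  have hz : ∀ i, ∀ x ∈ R.Zc i (m + 1 + 1), φ.p0 i x ∈ R'.Zc i (m + 1 + 1) := fun i x hx =>
    R'.mem_Zc.2 ⟨φ.p0_gr _ _ _ hx.1, by rw [φ.p0_d, (R.mem_Zc.1 hx).2, map_zero]⟩
  have hb : ∀ i, ∀ x ∈ R.Bc i (m + 1 + 1), φ.p0 i x ∈ R'.Bc i (m + 1 + 1) := by
    rintro i _ ⟨y, hy, rfl⟩
    exact ⟨φ.p0 i y, φ.p0_gr _ _ _ hy, φ.p0_d _ _⟩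
  let ψ : ∀ i, (R.coh (m + 1 + 1)).H i →ₗ[kk] (R'.coh (m + 1 + 1)).H i :=
    fun i => ind (φ.p0 i) (hz i) (hb i)
  have hψ : ∀ i x hx, ψ i (R.cl x hx) = R'.cl (φ.p0 i x) (hz i x hx) := fun _ _ _ => rfl
  have h1 : ∀ i, Function.Surjective (ψ i) := fun i c => by
    obtain ⟨y, hy, rfl⟩ := R'.cl_surj c
    obtain ⟨x', hx', y', hy', h2, h3⟩ := hφ i (m + 1) 0 y (zero_mem _) hy.1 (map_zero _)
      (by rw [(R'.mem_Zc.1 hy).2, map_zero])
    refine ⟨R.cl x' (R.mem_Zc.2 ⟨hx', h2.symm⟩), ?_⟩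
    rw [hψ]
    exact R'.cl_eq.2 (R'.dcoh_Bc.2 ⟨y', hy', by rw [h3, add_self_left2]⟩)
  have h2 : ∀ i, Function.Injective (ψ i) := fun i => by
    refine (injective_iff_map_eq_zero _).2 fun c hc => ?_
    obtain ⟨x, hx, rfl⟩ := R.cl_surj c
    rw [hψ] at hc
    obtain ⟨y, hy, h3⟩ := R'.dcoh_Bc.1 (R'.cl_eq_zero.1 hc)
    obtain ⟨x', hx', -, -, h4, -⟩ := hφ i m x y hx.1 hy (R.mem_Zc.1 hx).2 h3
    exact R.cl_eq_zero.2 (R.dcoh_Bc.2 ⟨x', hx', h4.symm⟩)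
  have h3 : ∀ i j x, ψ j ((R.coh (m + 1 + 1)).a i j x) = (R'.coh (m + 1 + 1)).a i j (ψ i x) := by
    intro i j c
    obtain ⟨x, hx, rfl⟩ := R.cl_surj c
    rw [coh_a, hψ, hψ, coh_a]
    refine R'.cl_eq.2 (R'.dcoh_Bc.2 ⟨φ.p1 i j x, φ.p1_gr _ _ _ _ hx.1, ?_⟩)
    have := φ.p1_d i j x
    rwa [(R.mem_Zc.1 hx).2, map_zero, add_zero, add_comm] at this
  refine ⟨⟨ψ, h1, h3⟩, fun i => (LinearEquiv.ofBijective (ψ i) ⟨h2 i, h1 i⟩).symm,
    fun i => (LinearEquiv.ofBijective (ψ i) ⟨h2 i, h1 i⟩).symm.surjective, fun i j y => ?_⟩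
  obtain ⟨x, rfl⟩ := h1 i y
  have h4 : ∀ i x, (LinearEquiv.ofBijective (ψ i) ⟨h2 i, h1 i⟩).symm (ψ i x) = x := fun i x =>
    (LinearEquiv.ofBijective (ψ i) ⟨h2 i, h1 i⟩).symm_apply_apply x
  rw [← h3]
  exact (h4 j _).trans (congrArg _ (h4 i x).symm)

theorem coh_bdd (R : Rep G) : ∃ N, ∀ i n, N < n → (R.coh n).dim i = 0 := by
  obtain ⟨N, hN⟩ := R.bdd
  refine ⟨N, fun i n hn => Mod.dim_eq_zero.2 fun c => ?_⟩
  obtain ⟨x, hx, rfl⟩ := R.cl_surj c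
  have h1 : x = 0 := by simpa [hN i n hn] using hx.1
  subst h1
  exact R.cl_eq_zero.2 (zero_mem _)

section
variable (R : Rep G) {I : Finset V} (hI : Ind G I) {n : ℤ} {i j : V}

theorem dcoh_Z_out (hj : j ∉ I) {y : R.X × (V → R.X)} :
    y ∈ (R.tau I hI).Zc j n ↔ y.1 ∈ R.Zc j n ∧ y.2 = 0 := by
  change y ∈ R.tauG I j n ∧ R.tauD I j y = 0 ↔ (_ ∧ _) ∧ _
  rw [R.tauG_out _ hj, R.tauD_out _ hj, Prod.mk_eq_zero]
  tauto

theorem dcoh_B_out (hj : j ∉ I) {y : R.X × (V → R.X)} :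
    y ∈ (R.tau I hI).Bc j n ↔ y.1 ∈ R.Bc j n ∧ y.2 = 0 := by
  change (∃ z ∈ R.tauG I j (n - 1), R.tauD I j z = y) ↔ _
  constructor
  · rintro ⟨z, hz, rfl⟩
    rw [R.tauD_out _ hj]
    exact ⟨⟨z.1, ((R.tauG_out _ hj).1 hz).1, rfl⟩, rfl⟩
  · rintro ⟨⟨x, hx, h1⟩, h2⟩
    refine ⟨(x, 0), (R.tauG_out _ hj).2 ⟨hx, rfl⟩, ?_⟩
    rw [R.tauD_out _ hj]
    exact Prod.ext h1 h2.symm

theorem dcoh_Z_in (hi : i ∈ I) {y : R.X × (V → R.X)} :
    y ∈ (R.tau I hI).Zc i n ↔ y.1 ∈ R.Zc i (n + 1) ∧ y.2 ∈ R.vg i n ∧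
      R.dV y.2 + R.out i y.1 = 0 := by
  change y ∈ R.tauG I i n ∧ R.tauD I i y = 0 ↔ (_ ∧ _) ∧ _
  rw [R.tauG_in _ hi, R.tauD_in _ hi, Prod.mk_eq_zero]
  tauto

theorem dcoh_B_in (hi : i ∈ I) {y : R.X × (V → R.X)} :
    y ∈ (R.tau I hI).Bc i n ↔ ∃ x ∈ R.gr i n, ∃ w ∈ R.vg i (n - 1),
      R.d i x = y.1 ∧ R.dV w + R.out i x = y.2 := by
  change (∃ z ∈ R.tauG I i (n - 1), R.tauD I i z = y) ↔ _
  constructor
  · rintro ⟨z, hz, rfl⟩
    rw [R.tauG_in _ hi, sub_add_cancel] at hz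
    rw [R.tauD_in _ hi]
    exact ⟨z.1, hz.1, z.2, hz.2, rfl, rfl⟩
  · rintro ⟨x, hx, w, hw, h1, h2⟩
    refine ⟨(x, w), (R.tauG_in _ hi).2 ⟨by rwa [sub_add_cancel], hw⟩, ?_⟩
    rw [R.tauD_in _ hi]
    exact Prod.ext h1 h2

theorem dcoh_Z0 (hi : i ∈ I) {w : V → R.X} (hw : w ∈ R.vg i n) (hd : R.dV w = 0) :
    ((0 : R.X), w) ∈ (R.tau I hI).Zc i n :=
  (R.dcoh_Z_in hI hi).2 ⟨zero_mem _, hw, by simp [hd]⟩

/-- truncation of a family of cocycles to the neighbours of `i` -/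
theorem dcoh_trunc (z : V → R.X) (hz : ∀ j, G.Adj i j → z j ∈ R.Zc j n) :
    (fun k => if G.Adj i k then z k else 0) ∈ R.vg i n ∧
      R.dV (fun k => if G.Adj i k then z k else 0) = 0 := by
  refine ⟨R.mem_vg.2 fun k => ⟨fun hk => by simpa [hk] using (hz k hk).1, fun hk => if_neg hk⟩,
    funext fun k => ?_⟩
  by_cases hk : G.Adj i k
  · simpa [hk] using (R.mem_Zc.1 (hz k hk)).2
  · simp [hk]

theorem dcoh_sum (hi : i ∈ I) {w : V → R.X} (hw : w ∈ R.vg i n) (hd : R.dV w = 0)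
    (u : ∀ j, ((R.tau I hI).coh n).H j)
    (hu : ∀ j, G.Adj i j → ∃ h, u j = (R.tau I hI).cl (w j, (0 : V → R.X)) h) :
    ∑ j, ((R.tau I hI).coh n).a j i (u j) = (R.tau I hI).cl (0, w) (R.dcoh_Z0 hI hi hw hd) := by
  have h1 : ∀ j, ((0 : R.X), (Pi.single j (w j) : V → R.X)) ∈ (R.tau I hI).Zc i n := fun j => by
    by_cases hj : G.Adj i j
    · refine R.dcoh_Z0 hI hi (R.single_vg hj ((R.mem_vg.1 hw j).1 hj)) ?_
      rw [dV_single, show R.d j (w j) = 0 from congrFun hd j, Pi.single_zero]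
    · rw [(R.mem_vg.1 hw j).2 hj, Pi.single_zero]
      exact zero_mem _
  have h2 : ∀ j, ((R.tau I hI).coh n).a j i (u j) = (R.tau I hI).cl _ (h1 j) := fun j => by
    by_cases hj : G.Adj i j
    · obtain ⟨h, e⟩ := hu j hj
      rw [e]
      exact ((R.tau I hI).coh_a n j i _ h).trans (dcoh_congr _ (R.tauA_to _ hi hj.symm))
    · rw [((R.tau I hI).coh n).a_adj j i fun h => hj h.symm, LinearMap.zero_apply]
      refine ((R.tau I hI).cl_eq_zero.2 ?_).symm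
      rw [(R.mem_vg.1 hw j).2 hj, Pi.single_zero]
      exact zero_mem _
  rw [Finset.sum_congr rfl fun j _ => h2 j]
  refine ((R.tau I hI).cl_sum _ _ h1).trans (dcoh_congr _ ?_)
  change (∑ k, ((0 : R.X), (Pi.single k (w k) : V → R.X)) : R.X × (V → R.X)) = _
  ext
  · simp [Prod.fst_sum]
  · simp [Prod.snd_sum, Finset.sum_apply, Pi.single_apply]

end

theorem isPhi_tau (R : Rep G) {I : Finset V} (hI : Ind G I) (n : ℤ) :
    Mod.IsPhi I (R.coh n) ((R.tau I hI).coh n) := by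
  have hz : ∀ j, j ∉ I → ∀ x ∈ R.Zc j n, ((x, 0) : R.X × (V → R.X)) ∈ (R.tau I hI).Zc j n :=
    fun j hj x hx => (R.dcoh_Z_out hI hj).2 ⟨hx, rfl⟩
  have hb : ∀ j, j ∉ I → ∀ x ∈ R.Bc j n, ((x, 0) : R.X × (V → R.X)) ∈ (R.tau I hI).Bc j n :=
    fun j hj x hx => (R.dcoh_B_out hI hj).2 ⟨hx, rfl⟩
  let e : ∀ j, (R.coh n).H j →ₗ[kk] ((R.tau I hI).coh n).H j := fun j =>
    if h : j ∈ I then 0 else ind (R' := R.tau I hI) (LinearMap.inl kk R.X (V → R.X)) (hz j h) (hb j h)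
  have he : ∀ j (hj : j ∉ I) x hx, e j (R.cl x hx) = (R.tau I hI).cl (x, 0) (hz j hj x hx) :=
    fun j hj x hx => by
      have h : e j = ind (R' := R.tau I hI) (LinearMap.inl kk R.X (V → R.X)) (hz j hj) (hb j hj) :=
        dif_neg hj
      rw [h]
      rfl
  have key : ∀ i (hi : i ∈ I) (z : V → R.X) (hz' : ∀ j, z j ∈ R.Zc j n),
      ∑ j, ((R.tau I hI).coh n).a j i (e j (R.cl (z j) (hz' j))) =
        (R.tau I hI).cl (0, fun k => if G.Adj i k then z k else 0) (R.dcoh_Z0 hI hi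
          (R.dcoh_trunc z fun j _ => hz' j).1 (R.dcoh_trunc z fun j _ => hz' j).2) := by
    intro i hi z hz'
    refine R.dcoh_sum hI hi (R.dcoh_trunc z fun j _ => hz' j).1 (R.dcoh_trunc z fun j _ => hz' j).2
      _ fun j hj => ?_
    have hjI : j ∉ I := fun h => hI i hi j h hj
    simp only [if_pos hj]
    exact ⟨hz j hjI _ (hz' j), he j hjI _ _⟩
  refine ⟨e, fun j hj => ⟨(injective_iff_map_eq_zero _).2 fun c hc => ?_, fun c => ?_⟩,
    fun j k c hj hk => ?_, fun i hi v => ?_, fun i hi k hk v => ?_⟩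
  · obtain ⟨x, hx, rfl⟩ := R.cl_surj c
    rw [he j hj] at hc
    exact R.cl_eq_zero.2 ((R.dcoh_B_out hI hj).1 ((R.tau I hI).cl_eq_zero.1 hc)).1
  · obtain ⟨y, hy, rfl⟩ := (R.tau I hI).cl_surj c
    obtain ⟨h1, h2⟩ := (R.dcoh_Z_out hI hj).1 hy
    exact ⟨R.cl _ h1, (he j hj _ _).trans (dcoh_congr _ (Prod.ext rfl h2.symm))⟩
  · obtain ⟨x, hx, rfl⟩ := R.cl_surj c
    rw [coh_a, he k hk, he j hj]
    exact (((R.tau I hI).coh_a n j k _ _).trans (dcoh_congr _ (R.tauA_out (x, 0) hk hj))).symm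
  · choose z hz' hv using fun j => R.cl_surj (v j)
    obtain rfl : v = fun j => R.cl (z j) (hz' j) := funext hv
    rw [key i hi z hz']
    refine (R.tau I hI).cl_eq_zero.trans ((R.dcoh_B_in hI hi).trans ⟨?_, ?_⟩)
    · rintro ⟨x, hx, w, hw, h1, h2⟩
      refine ⟨R.cl x (R.mem_Zc.2 ⟨hx, h1⟩), fun j hj => ?_⟩
      rw [coh_a]
      refine R.cl_eq.2 ⟨w j, (R.mem_vg.1 hw j).1 hj, ?_⟩
      have h3 := congrFun h2 j
      simp only [Pi.add_apply, dV_apply, out_apply, if_pos hj] at h3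
      rw [← h3, add_assoc, add_self2, add_zero]
    · rintro ⟨c, hc⟩
      obtain ⟨x, hx, rfl⟩ := R.cl_surj c
      have h1 : ∀ j, ∃ u, (G.Adj i j → u ∈ R.gr j (n - 1)) ∧ (¬G.Adj i j → u = 0) ∧
          R.d j u + R.a i j x = if G.Adj i j then z j else 0 := fun j => by
        by_cases hj : G.Adj i j
        · obtain ⟨u, hu, h2⟩ := R.cl_eq.1 ((hc j hj).trans (R.coh_a n i j x hx))
          exact ⟨u, fun _ => hu, fun h => absurd hj h, by
            rw [h2, if_pos hj, add_assoc, add_self2, add_zero]⟩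
        · exact ⟨0, fun h => absurd h hj, fun _ => rfl, by simp [hj, R.a_zero hj]⟩
      choose u h2 h3 h4 using h1
      exact ⟨x, hx.1, u, R.mem_vg.2 fun k => ⟨h2 k, h3 k⟩, (R.mem_Zc.1 hx).2, funext h4⟩
  · choose z hz' hv using fun j => R.cl_surj (v j)
    obtain rfl : v = fun j => R.cl (z j) (hz' j) := funext hv
    rw [key i hi z hz']
    have h1 : ∑ j, (R.coh n).a j i (R.cl (z j) (hz' j)) = R.cl _ _ :=
      R.cl_sum Finset.univ (fun j => R.a j i (z j)) fun j => R.a_Zc j i n _ (hz' j)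
    rw [h1, coh_a, he k hk]
    refine ((R.tau I hI).coh_a n i k _ _).trans (dcoh_congr _ ((R.tauA_from _ hk hi).trans ?_))
    rw [it_apply, map_zero, zero_add, inn_apply]
    congr 2
    refine Finset.sum_congr rfl fun j _ => ?_
    by_cases hj : G.Adj i j
    · simp only [if_pos hj]
    · rw [R.a_zero fun h => hj h.symm, R.a_zero fun h => hj h.symm]

theorem ntop_tau (R : Rep G) {I : Finset V} (hI : Ind G I) {n : ℤ} {i : V} (hi : i ∈ I)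
    (h : (R.coh (n + 1)).dim i = 0) : ((R.tau I hI).coh n).NTop i := by
  intro c
  obtain ⟨y, hy, rfl⟩ := (R.tau I hI).cl_surj c
  obtain ⟨h1, h2, h3⟩ := (R.dcoh_Z_in hI hi).1 hy
  obtain ⟨x, hx, h4⟩ := R.dcoh_Bc.1 (R.cl_eq_zero.1 (Mod.dim_eq_zero.1 h (R.cl _ h1)))
  have hw : y.2 + R.out i x ∈ R.vg i n := add_mem h2 (R.out_vg hx)
  have hd : R.dV (y.2 + R.out i x) = 0 := by rw [map_add, dV_out, h4, h3]
  have h5 : ∀ j, G.Adj i j → (((y.2 + R.out i x) j, 0) : R.X × (V → R.X)) ∈ (R.tau I hI).Zc j n :=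
    fun j hj => (R.dcoh_Z_out hI fun h => hI i hi j h hj).2
      ⟨R.mem_Zc.2 ⟨(R.mem_vg.1 hw j).1 hj, congrFun hd j⟩, rfl⟩
  refine ⟨fun j => if hj : G.Adj i j then (R.tau I hI).cl _ (h5 j hj) else 0, ?_⟩
  rw [R.dcoh_sum hI hi hw hd _ fun j hj => ⟨_, dif_pos hj⟩]
  refine (R.tau I hI).cl_eq.2 ((R.dcoh_B_in hI hi).2 ⟨x, hx, 0, zero_mem _, ?_, ?_⟩)
  · exact h4.trans (add_zero _).symm
  · rw [map_zero, zero_add]
    exact (add_self_left2 _ _).symm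

theorem zero_up (R : Rep G) {I : Finset V} (hI : Ind G I) {n : ℤ} {i : V} (hi : i ∈ I)
    (h : ((R.tau I hI).coh n).NTop i) (h0 : ∀ j, G.Adj i j → (R.coh (n + 1)).dim j = 0) :
    (R.coh (n + 1)).dim i = 0 := by
  refine Mod.dim_eq_zero.2 fun c => ?_
  obtain ⟨x, hx, rfl⟩ := R.cl_surj c
  have h1 : ∀ j, ∃ u, (G.Adj i j → u ∈ R.gr j n) ∧ (¬G.Adj i j → u = 0) ∧
      R.d j u + R.a i j x = 0 := fun j => by
    by_cases hj : G.Adj i j
    · obtain ⟨u, hu, h2⟩ := R.dcoh_Bc.1 (R.cl_eq_zero.1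
        (Mod.dim_eq_zero.1 (h0 j hj) (R.cl _ (R.a_Zc i j _ x hx))))
      exact ⟨u, fun _ => hu, fun h => absurd hj h, by rw [h2, add_self2]⟩
    · exact ⟨0, fun h => absurd h hj, fun _ => rfl, by simp [R.a_zero hj]⟩
  choose v h2 h3 h4 using h1
  have h5 : ((x, v) : R.X × (V → R.X)) ∈ (R.tau I hI).Zc i n :=
    (R.dcoh_Z_in hI hi).2 ⟨hx, R.mem_vg.2 fun k => ⟨h2 k, h3 k⟩, funext h4⟩
  obtain ⟨u, hu⟩ := h ((R.tau I hI).cl _ h5)
  choose y hy hu' using fun j => (R.tau I hI).cl_surj (u j)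
  have h6 : ∀ j, G.Adj i j → (y j).1 ∈ R.Zc j n ∧ (y j).2 = 0 := fun j hj =>
    (R.dcoh_Z_out hI fun h => hI i hi j h hj).1 (hy j)
  obtain ⟨h7, h8⟩ := R.dcoh_trunc (fun j => (y j).1) fun j hj => (h6 j hj).1
  rw [R.dcoh_sum hI hi h7 h8 u fun j hj => by
    have h9 : y j = ((if G.Adj i j then (y j).1 else 0, 0) : R.X × (V → R.X)) :=
      Prod.ext (if_pos hj).symm (h6 j hj).2
    exact ⟨h9 ▸ hy j, (hu' j).trans (dcoh_congr _ h9)⟩] at hu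
  obtain ⟨x', hx', -, -, h9, -⟩ := (R.dcoh_B_in hI hi).1 ((R.tau I hI).cl_eq.1 hu)
  exact R.cl_eq_zero.2 (R.dcoh_Bc.2 ⟨x', hx', h9.trans (add_zero x)⟩)

/-- There is a representation with one dimensional cohomology at the vertices of `Q` in degree `J`,
and zero arrows (ambient space `kk`, all maps zero, `gr i n = ⊤` or `⊥`). -/
theorem exists_triv (G : SimpleGraph V) (Q : Finset V) (J : ℤ) : ∃ R : Rep G,
    (∀ i n, (R.coh n).dim i = if i ∈ Q ∧ n = J then 1 else 0) ∧ ∀ i ∈ Q, ¬ (R.coh J).NTop i := by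
  let R : Rep G :=
    { X := kk
      d := 0
      a := 0
      h := 0
      gr := fun i n => if i ∈ Q ∧ n = J then ⊤ else ⊥
      a_adj := fun _ _ _ => rfl
      dd := fun _ _ => rfl
      da := fun _ _ _ => rfl
      dh := fun _ _ => by simp
      d_gr := fun _ _ _ _ => zero_mem _
      a_gr := fun _ _ _ _ _ => zero_mem _
      h_gr := fun _ _ _ _ => zero_mem _
      fin := fun _ _ => inferInstance
      bdd := ⟨J, fun i n hn => if_neg fun h => hn.ne' h.2⟩ }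
  have h1 : ∀ i n, (R.coh n).dim i = if i ∈ Q ∧ n = J then 1 else 0 := by
    intro i n
    by_cases h : i ∈ Q ∧ n = J
    · have h2 : (1 : kk) ∈ R.Zc i n := R.mem_Zc.2 ⟨by simp [R, h], rfl⟩
      rw [if_pos h]
      refine finrank_eq_one_iff'.2 ⟨R.cl _ h2, fun h3 => ?_, fun c => ?_⟩
      · obtain ⟨y, -, h4⟩ := R.cl_eq_zero.1 h3
        exact zero_ne_one (α := kk) h4
      · obtain ⟨x, hx, rfl⟩ := R.cl_surj c
        exact ⟨x, (show R.cl (x • (1 : kk)) (Submodule.smul_mem _ _ h2) = _ from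
          dcoh_congr _ (mul_one x))⟩
    · rw [if_neg h]
      refine Mod.dim_eq_zero.2 fun c => ?_
      obtain ⟨x, hx, rfl⟩ := R.cl_surj c
      have h3 : x = 0 := by simpa [R, h] using hx.1
      subst h3
      exact R.cl_eq_zero.2 (zero_mem _)
  refine ⟨R, h1, fun i hi h => ?_⟩
  have h2 := h1 i J
  rw [if_pos ⟨hi, rfl⟩, Mod.dim_eq_zero.2 fun y => ?_] at h2
  · exact zero_ne_one h2
  · obtain ⟨v, rfl⟩ := h y
    refine Finset.sum_eq_zero fun j _ => ?_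
    obtain ⟨x, hx, e⟩ := R.cl_surj (v j)
    rw [e, coh_a]
    exact R.cl_eq_zero.2 (zero_mem _)

end Vale.Agent.P203.Rep
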