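import Vale.Agent.P203.DMorV

/-!
# P203 DSig: `sig` preserves quasi-isomorphisms (TASK)
Given `φ : Mor R R'` define `φ'` on `y = (x, v)` (characteristic two, use `add_self2`):
* `ψ i x = (φ.p2 i x, fun k => φ.p1 i k x)`; for `i ∈ I` it satisfies
  `sigD (ψ x) + ψ (d x) = ot i (p0 i x) + φ'.p0 i (ot i x)` (prove this first).
* `φ'.p0 j y = (p0 j x + ∑ k, p1 k j (v k), fun k => p0 k (v k))` for `j ∈ I`, `(p0 j x, 0)` otherwise.
* `φ'.p1 j k y = 0` if `j ∈ I`; `ot k (p1 j k x) + ψ k (a j k x)` if `j ∉ I`, `k ∈ I`;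
  `(p1 j k x, 0)` if both are outside.
* `φ'.p2 j y = ψ j x` for `j ∈ I`, `(p2 j x, 0)` otherwise.
`Qis` at `j ∈ I` (five lemma by hand): let `y = (x, v)` be a cycle, `z = (u, w)`, `d z = φ' y`. First use
`Qis φ` at each neighbour `k` (choose; `0` at non neighbours, `mem_vg`): `v = dV v'`, `w = p0 v' + dV w'`.
Subtract `sigD (0, v')` from `y` and `φ'.p0 (0, v') + sigD (0, w')` from `z`: second components vanish.
Then use `Qis φ` at `j` in degree one less (`n - 1 + 1 = n`).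
-/

namespace Vale.Agent.P203

variable {V : Type} [Fintype V] [DecidableEq V] {G : SimpleGraph V} [DecidableRel G.Adj]

namespace Mor

variable {R R' : Rep G} (φ : Mor R R') {I : Finset V} {j k : V}

/-- The homotopy `ψ` for `sig`. -/
def sPsi (i : V) : R.X →ₗ[kk] R'.X × (V → R'.X) := (φ.p2 i).prod (φ.p1out i)

/-- `p0` for `sig`. -/
def sP0 (I : Finset V) (j : V) : R.X × (V → R.X) →ₗ[kk] R'.X × (V → R'.X) :=
  if j ∈ I then (φ.p0 j ∘ₗ LinearMap.fst _ _ _ + φ.p1in j ∘ₗ LinearMap.snd _ _ _).prod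
    (φ.p0V ∘ₗ LinearMap.snd _ _ _)
  else LinearMap.inl _ _ _ ∘ₗ φ.p0 j ∘ₗ LinearMap.fst _ _ _

/-- `p1` for `sig`. -/
def sP1 (I : Finset V) (j k : V) : R.X × (V → R.X) →ₗ[kk] R'.X × (V → R'.X) :=
  if j ∈ I then 0 else if k ∈ I then
    (R'.ot k ∘ₗ φ.p1 j k + φ.sPsi k ∘ₗ R.a j k) ∘ₗ LinearMap.fst _ _ _
  else LinearMap.inl _ _ _ ∘ₗ φ.p1 j k ∘ₗ LinearMap.fst _ _ _

/-- `p2` for `sig`. -/
def sP2 (I : Finset V) (j : V) : R.X × (V → R.X) →ₗ[kk] R'.X × (V → R'.X) :=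
  if j ∈ I then φ.sPsi j ∘ₗ LinearMap.fst _ _ _
  else LinearMap.inl _ _ _ ∘ₗ φ.p2 j ∘ₗ LinearMap.fst _ _ _

section
omit [DecidableRel G.Adj]
variable (y : R.X × (V → R.X))

omit [DecidableEq V] in
theorem sPsi_apply (i : V) (x : R.X) : φ.sPsi i x = (φ.p2 i x, φ.p1out i x) := rfl
theorem sP0_in (h : j ∈ I) : φ.sP0 I j y = (φ.p0 j y.1 + φ.p1in j y.2, φ.p0V y.2) := by
  rw [sP0, if_pos h]; rfl
theorem sP0_out (h : j ∉ I) : φ.sP0 I j y = (φ.p0 j y.1, 0) := by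
  rw [sP0, if_neg h]; rfl
theorem sP1_from (h : j ∈ I) : φ.sP1 I j k y = 0 := by
  rw [sP1, if_pos h]; rfl
theorem sP1_to (h : j ∉ I) (h' : k ∈ I) :
    φ.sP1 I j k y = R'.ot k (φ.p1 j k y.1) + φ.sPsi k (R.a j k y.1) := by
  rw [sP1, if_neg h, if_pos h']; rfl
theorem sP1_out (h : j ∉ I) (h' : k ∉ I) : φ.sP1 I j k y = (φ.p1 j k y.1, 0) := by
  rw [sP1, if_neg h, if_neg h']; rfl
theorem sP1_adj (h : ¬ G.Adj j k) : φ.sP1 I j k = 0 := by
  rw [sP1, φ.p1_adj j k h, R.a_adj j k h]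
  split_ifs <;> simp
theorem sP1_zero (h : ¬ G.Adj j k) : φ.sP1 I j k y = 0 := by rw [φ.sP1_adj h]; rfl
theorem sP2_in (h : j ∈ I) : φ.sP2 I j y = φ.sPsi j y.1 := by
  rw [sP2, if_pos h]; rfl
theorem sP2_out (h : j ∉ I) : φ.sP2 I j y = (φ.p2 j y.1, 0) := by
  rw [sP2, if_neg h]; rfl

theorem sPsi_d (h : j ∈ I) (x : R.X) : R'.sigD I j (φ.sPsi j x) + φ.sPsi j (R.d j x) =
    R'.ot j (φ.p0 j x) + φ.sP0 I j (R.ot j x) := by
  rw [R'.sigD_in _ h, φ.sP0_in _ h]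
  simp only [sPsi_apply, Rep.ot_apply, Prod.mk_add_mk, Prod.mk.injEq]
  refine ⟨?_, φ.p1out_d j x⟩
  linear_combination (norm := (apply one2_dmv; match_scalars <;> decide)) φ.p2_d' j x

theorem sP0_d (j : V) (y : R.X × (V → R.X)) :
    R'.sigD I j (φ.sP0 I j y) = φ.sP0 I j (R.sigD I j y) := by
  by_cases hj : j ∈ I
  · rw [φ.sP0_in _ hj, φ.sP0_in _ hj, R'.sigD_in _ hj, R.sigD_in _ hj]
    refine Prod.ext ?_ (φ.p0V_d _)
    simp only [map_add, φ.p0_d]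
    linear_combination (norm := (apply one2_dmv; match_scalars <;> decide)) φ.p1in_d j y.2
  · rw [φ.sP0_out _ hj, φ.sP0_out _ hj, R'.sigD_out _ hj, R.sigD_out _ hj]
    exact Prod.ext (φ.p0_d _ _) rfl
end

theorem sPsi_gr (h : j ∈ I) {n : ℤ} {x : R.X} (hx : x ∈ R.gr j (n + 1)) :
    φ.sPsi j x ∈ R'.sigG I j n :=
  (R'.sigG_in _ h).2 ⟨φ.p2_gr _ _ _ (by simpa using hx), φ.p1out_vg hx⟩

theorem sP1_d (hI : Ind G I) (j k : V) (y : R.X × (V → R.X)) :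
    R'.sigD I k (φ.sP1 I j k y) + φ.sP1 I j k (R.sigD I j y) =
      R'.sigA I j k (φ.sP0 I j y) + φ.sP0 I k (R.sigA I j k y) := by
  by_cases hjk : G.Adj j k
  swap
  · simp [φ.sP1_zero _ hjk, Rep.sigA_zero _ _ hjk]
  by_cases hj : j ∈ I
  · have hk : k ∉ I := fun hk => hI j hj k hk hjk
    simp [φ.sP1_from _ hj, Rep.sigA_from _ _ hj hjk, φ.sP0_in _ hj, φ.sP0_out _ hk]
  by_cases hk : k ∈ I
  · rw [φ.sP1_to _ hj hk, φ.sP1_to _ hj hk, R'.sigA_to _ hj hk, R.sigA_to _ hj hk,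
      R.sigD_out _ hj, φ.sP0_out _ hj, map_add, R'.sigD_ot hk]
    have h1 := congrArg (R'.ot k) (φ.p1_d j k y.1)
    have h2 := φ.sPsi_d hk (R.a j k y.1)
    simp only [map_add, R.da] at h1 h2 ⊢
    linear_combination (norm := (apply one2_dmv; match_scalars <;> decide)) h1 + h2
  · rw [φ.sP1_out _ hj hk, φ.sP1_out _ hj hk, R'.sigA_out _ hj hk, R.sigA_out _ hj hk,
      R'.sigD_out _ hk, R.sigD_out _ hj, φ.sP0_out _ hj, φ.sP0_out _ hk]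
    exact Prod.ext (φ.p1_d j k y.1) rfl

theorem sP2_d (hI : Ind G I) (j : V) (y : R.X × (V → R.X)) :
    R'.sigD I j (φ.sP2 I j y) + φ.sP2 I j (R.sigD I j y) =
      R'.sigH I j (φ.sP0 I j y) + φ.sP0 I j (R.sigH I j y) +
        ∑ k, (R'.sigA I k j (φ.sP1 I j k y) + φ.sP1 I k j (R.sigA I j k y)) := by
  by_cases hj : j ∈ I
  · have (k : V) : R'.sigA I k j (φ.sP1 I j k y) + φ.sP1 I k j (R.sigA I j k y) =
        R'.ot j (φ.p1 k j (y.2 k)) + φ.sPsi j (R.a k j (y.2 k)) := by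
      rw [φ.sP1_from _ hj, map_zero, zero_add]
      by_cases hk : G.Adj j k
      · rw [φ.sP1_to _ (fun hk' => hI j hj k hk' hk) hj, R.sigA_from _ hj hk]
      · have hk' : ¬ G.Adj k j := fun h => hk h.symm
        simp [φ.sP1_zero _ hk', φ.p1_zero hk', R.a_zero hk']
    simp only [this, Finset.sum_add_distrib, ← map_sum, ← p1in_apply, ← Rep.inn_apply]
    rw [φ.sP2_in _ hj, φ.sP2_in _ hj, R.sigD_in _ hj, R'.sigH_in _ hj, R.sigH_in _ hj,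
      φ.sP0_in y hj]
    simp only [map_add]
    linear_combination (norm := (apply one2_dmv; match_scalars <;> decide)) φ.sPsi_d hj y.1
  · have (k : V) : R'.sigA I k j (φ.sP1 I j k y) + φ.sP1 I k j (R.sigA I j k y) =
        (R'.a k j (φ.p1 j k y.1) + φ.p1 k j (R.a j k y.1), 0) := by
      by_cases hk : G.Adj j k
      swap
      · simp [φ.sP1_zero _ hk, φ.p1_zero hk, R.a_zero hk, R.sigA_zero _ hk, Prod.ext_iff]
      by_cases hk' : k ∈ I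
      · simp [φ.sP1_to _ hj hk', φ.sP1_from _ hk', R'.sigA_from _ hk' hk.symm, Rep.ot_apply,
          sPsi_apply]
      · rw [φ.sP1_out _ hj hk', R.sigA_out _ hj hk', φ.sP1_out _ hk' hj, R'.sigA_out _ hk' hj]
        simp
    simp only [this, φ.sP2_out _ hj, R'.sigD_out _ hj, R.sigD_out _ hj, R'.sigH_out _ hj,
      R.sigH_out _ hj, φ.sP0_out _ hj]
    ext
    · simp [Prod.fst_sum, φ.p2_d]
    · simp [Prod.snd_sum]

theorem sP0_gr (j : V) (n : ℤ) (y : R.X × (V → R.X)) (hy : y ∈ R.sigG I j n) :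
    φ.sP0 I j y ∈ R'.sigG I j n := by
  by_cases hj : j ∈ I
  · rw [Rep.sigG_in _ _ hj] at hy ⊢
    rw [φ.sP0_in _ hj]
    exact ⟨add_mem (φ.p0_gr _ _ _ hy.1) (φ.p1in_vg (by simpa using hy.2)), φ.p0V_vg hy.2⟩
  · rw [Rep.sigG_out _ _ hj] at hy ⊢
    rw [φ.sP0_out _ hj]
    exact ⟨φ.p0_gr _ _ _ hy.1, rfl⟩

theorem sP1_gr (j k : V) (n : ℤ) (y : R.X × (V → R.X)) (hy : y ∈ R.sigG I j (n + 1)) :
    φ.sP1 I j k y ∈ R'.sigG I k n := by
  by_cases hj : j ∈ I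
  · rw [φ.sP1_from _ hj]; exact zero_mem _
  rw [Rep.sigG_out _ _ hj] at hy
  by_cases hk : k ∈ I
  · rw [φ.sP1_to _ hj hk]
    exact add_mem (R'.ot_gr hk (φ.p1_gr _ _ _ _ hy.1)) (φ.sPsi_gr hk (R.a_gr _ _ _ _ hy.1))
  · rw [φ.sP1_out _ hj hk, Rep.sigG_out _ _ hk]
    exact ⟨φ.p1_gr _ _ _ _ hy.1, rfl⟩

theorem sP2_gr (j : V) (n : ℤ) (y : R.X × (V → R.X)) (hy : y ∈ R.sigG I j (n + 1 + 1)) :
    φ.sP2 I j y ∈ R'.sigG I j n := by
  by_cases hj : j ∈ I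
  · rw [Rep.sigG_in _ _ hj] at hy
    rw [φ.sP2_in _ hj]
    exact φ.sPsi_gr hj (by simpa using hy.1)
  · rw [Rep.sigG_out _ _ hj] at hy ⊢
    rw [φ.sP2_out _ hj]
    exact ⟨φ.p2_gr _ _ _ hy.1, rfl⟩

/-- The morphism induced on `sig`. -/
def sig (hI : Ind G I) : Mor (R.sig I hI) (R'.sig I hI) where
  p0 := φ.sP0 I
  p1 := φ.sP1 I
  p2 := φ.sP2 I
  p1_adj _ _ h := φ.sP1_adj h
  p0_d := φ.sP0_d
  p1_d := φ.sP1_d hI
  p2_d := φ.sP2_d hI
  p0_gr := φ.sP0_gr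
  p1_gr := φ.sP1_gr
  p2_gr := φ.sP2_gr

theorem sig_qis (hI : Ind G I) (hφ : φ.Qis) : (φ.sig hI).Qis := by
  rintro j n ⟨x, v⟩ ⟨u, w⟩ hy hz h1 h2
  change (x, v) ∈ R.sigG I j (n + 1 + 1) at hy
  change (u, w) ∈ R'.sigG I j (n + 1) at hz
  change R.sigD I j (x, v) = 0 at h1
  change R'.sigD I j (u, w) = φ.sP0 I j (x, v) at h2
  change ∃ y' ∈ R.sigG I j (n + 1), ∃ z' ∈ R'.sigG I j n,
    (x, v) = R.sigD I j y' ∧ (u, w) = φ.sP0 I j y' + R'.sigD I j z'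
  by_cases hj : j ∈ I
  · simp only [Rep.sigG_in _ _ hj, Rep.sigD_in _ _ hj, φ.sP0_in _ hj, Prod.mk_eq_zero,
      Prod.mk.injEq, add_sub_cancel_right] at hy hz h1 h2
    obtain ⟨v', hv', w', hw', e3, e4⟩ := φ.qisV hφ hy.2 hz.2 h1.2 h2.2
    obtain ⟨x', hx', u', hu', e1, e2⟩ := hφ j (n - 1) (x + R.inn j v')
      (u + φ.p1in j v' + R'.inn j w')
      (by simpa using add_mem hy.1 (R.inn_vg hv'))
      (by simpa using add_mem (add_mem hz.1 (φ.p1in_vg hv')) (R'.inn_vg hw'))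
      (by rw [map_add, ← R.inn_dV, ← e3, h1.1]) (by
        have h3 := φ.p1in_d j v'
        have h4 := congrArg (R'.inn j) e4
        rw [← e3] at h3
        simp only [map_add, R'.inn_dV] at h4 ⊢
        linear_combination (norm := (apply one2_dmv; match_scalars <;> decide)) h2.1 + h3 + h4)
    refine ⟨(x', v'), (R.sigG_in _ hj).2 ⟨by simpa using hx', hv'⟩, (u', w'),
      (R'.sigG_in _ hj).2 ⟨hu', hw'⟩, ?_, ?_⟩
    · rw [R.sigD_in _ hj]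
      refine Prod.ext ?_ e3
      dsimp only
      linear_combination (norm := (apply one2_dmv; match_scalars <;> decide)) e1
    · rw [R'.sigD_in _ hj, φ.sP0_in _ hj]
      refine Prod.ext ?_ e4
      simp only [Prod.fst_add]
      linear_combination (norm := (apply one2_dmv; match_scalars <;> decide)) e2
  · simp only [Rep.sigG_out _ _ hj, Rep.sigD_out _ _ hj, φ.sP0_out _ hj, Prod.mk_eq_zero,
      Prod.mk.injEq] at hy hz h1 h2
    obtain ⟨x', hx', u', hu', e1, e2⟩ := hφ j n x u hy.1 hz.1 h1.1 h2.1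
    refine ⟨(x', 0), (R.sigG_out _ hj).2 ⟨hx', rfl⟩, (u', 0), (R'.sigG_out _ hj).2 ⟨hu', rfl⟩,
      ?_, ?_⟩
    · rw [R.sigD_out _ hj]
      exact Prod.ext e1 hy.2
    · rw [R'.sigD_out _ hj, φ.sP0_out _ hj]
      exact Prod.ext e2 (hz.2.trans (add_zero _).symm)

end Mor

theorem sig_rel {I : Finset V} (hI : Ind G I) {R R' : Rep G} (h : Rel R R') :
    Rel (R.sig I hI) (R'.sig I hI) := by
  obtain ⟨φ, hφ⟩ := h
  exact ⟨φ.sig hI, φ.sig_qis hI hφ⟩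

end Vale.Agent.P203
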