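import Vale.Agent.P203.DRep

/-!
# P203 DUnit: `sig` and `tau` are inverse, and unions (TASK)
All four maps are strict: use `Mor.strict` and `Mor.qis_of_htpy` (give `r`, `K`, `K'` at each vertex).
* unit, at `i ∈ I`: `x ↦ ((x, 0), fun k => if Adj i k then (a i k x, 0) else 0)` (the `if` can be dropped,
  `a i k x = 0` otherwise); at `j ∉ I`: `x ↦ ((x, 0), 0)`. `r ((x, v), w) = x`, `K = 0`,
  `K' ((x, v), w) = (0, fun k => (v k, 0))` at `i ∈ I`, `K' = 0` outside.
* counit, at `i ∈ I`: `((x, v), w) ↦ x + ∑ k, a k i (w k).1`; at `j ∉ I`: `((x, v), w) ↦ x`.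
  `r x = ((x, 0), 0)`, `K' = 0`, `K ((x, v), w) = ((0, fun k => (w k).1), 0)` at `i ∈ I`, `K = 0` outside.
* empty: `x ↦ (x, 0)`, `r = fst`.
* union: `((x, v), w) ↦ (x, fun k => (w k).1)` at `i ∈ I`, `(x, v)` at `i ∈ I'`, `(x, 0)` elsewhere.
  It is bijective on the graded pieces: `r (x, v) = ((x, 0), fun k => (v k, 0))`, resp. `((x, v), 0)`,
  `((x, 0), 0)`; `K = K' = 0`. Neighbours of a vertex of `I ∪ I'` are outside `I ∪ I'`.
-/

namespace Vale.Agent.P203

variable {V : Type} [Fintype V] [DecidableEq V] {G : SimpleGraph V} [DecidableRel G.Adj]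

namespace Rep

section
variable (R : Rep G) {I : Finset V} (hI : Ind G I)

/-- First component in `tau`. -/
def tF : (R.tau I hI).X →ₗ[kk] R.X := LinearMap.fst _ _ _
/-- Second component in `tau`. -/
def tS : (R.tau I hI).X →ₗ[kk] (V → R.X) := LinearMap.snd _ _ _
/-- First inclusion in `tau`. -/
def tL : R.X →ₗ[kk] (R.tau I hI).X := LinearMap.inl _ _ _
/-- Second inclusion in `tau`. -/
def tR : (V → R.X) →ₗ[kk] (R.tau I hI).X := LinearMap.inr _ _ _
/-- First component in `sig`. -/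
def sF : (R.sig I hI).X →ₗ[kk] R.X := LinearMap.fst _ _ _
/-- Second component in `sig`. -/
def sS : (R.sig I hI).X →ₗ[kk] (V → R.X) := LinearMap.snd _ _ _
/-- First inclusion in `sig`. -/
def sL : R.X →ₗ[kk] (R.sig I hI).X := LinearMap.inl _ _ _
/-- Second inclusion in `sig`. -/
def sR : (V → R.X) →ₗ[kk] (R.sig I hI).X := LinearMap.inr _ _ _

@[simp] theorem tF_tL (x : R.X) : R.tF hI (R.tL hI x) = x := rfl
@[simp] theorem tS_tL (x : R.X) : R.tS hI (R.tL hI x) = 0 := rfl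
@[simp] theorem tF_tR (x : V → R.X) : R.tF hI (R.tR hI x) = 0 := rfl
@[simp] theorem tS_tR (x : V → R.X) : R.tS hI (R.tR hI x) = x := rfl
@[simp] theorem sF_sL (x : R.X) : R.sF hI (R.sL hI x) = x := rfl
@[simp] theorem sS_sL (x : R.X) : R.sS hI (R.sL hI x) = 0 := rfl
@[simp] theorem sF_sR (x : V → R.X) : R.sF hI (R.sR hI x) = 0 := rfl
@[simp] theorem sS_sR (x : V → R.X) : R.sS hI (R.sR hI x) = x := rfl

theorem t_ext {y z : (R.tau I hI).X} (h1 : R.tF hI y = R.tF hI z)
    (h2 : ∀ k, R.tS hI y k = R.tS hI z k) : y = z := Prod.ext h1 (funext h2)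
theorem s_ext {y z : (R.sig I hI).X} (h1 : R.sF hI y = R.sF hI z)
    (h2 : ∀ k, R.sS hI y k = R.sS hI z k) : y = z := Prod.ext h1 (funext h2)

variable {j k : V} {n : ℤ}

section
variable (y : (R.tau I hI).X)
theorem tF_d : R.tF hI ((R.tau I hI).d j y) = R.d j (R.tF hI y) := by
  by_cases h : j ∈ I
  · exact congrArg Prod.fst (R.tauD_in y h)
  · exact congrArg Prod.fst (R.tauD_out y h)
theorem tS_d : R.tS hI ((R.tau I hI).d j y) k =
    if j ∈ I then R.d k (R.tS hI y k) + R.a j k (R.tF hI y) else 0 := by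
  split_ifs with h
  · exact congrFun (congrArg Prod.snd (R.tauD_in y h)) k
  · exact congrFun (congrArg Prod.snd (R.tauD_out y h)) k
theorem tF_a : R.tF hI ((R.tau I hI).a j k y) = if k ∈ I then 0 else if j ∈ I then
    R.a j k (R.h j (R.tF hI y) + R.inn j (R.tS hI y)) else R.a j k (R.tF hI y) := by
  split_ifs with h h'
  · by_cases h'' : G.Adj j k
    · exact congrArg Prod.fst (R.tauA_to y h h'')
    · exact congrArg Prod.fst (R.tauA_zero y h'')
  · exact congrArg Prod.fst (R.tauA_from y h h')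
  · exact congrArg Prod.fst (R.tauA_out y h h')
theorem tS_a : R.tS hI ((R.tau I hI).a j k y) =
    if k ∈ I ∧ G.Adj j k then Pi.single j (R.tF hI y) else 0 := by
  split_ifs with h
  · exact congrArg Prod.snd (R.tauA_to y h.1 h.2)
  · by_cases h1 : G.Adj j k
    · have hk : k ∉ I := fun hk => h ⟨hk, h1⟩
      by_cases hj : j ∈ I
      · exact congrArg Prod.snd (R.tauA_from y hk hj)
      · exact congrArg Prod.snd (R.tauA_out y hk hj)
    · exact congrArg Prod.snd (R.tauA_zero y h1)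
theorem tF_h : R.tF hI ((R.tau I hI).h j y) =
    if j ∈ I then R.h j (R.tF hI y) + R.inn j (R.tS hI y) else R.h j (R.tF hI y) := by
  split_ifs with h
  · exact congrArg Prod.fst (R.tauH_in y h)
  · exact congrArg Prod.fst (R.tauH_out y h)
theorem tS_h : R.tS hI ((R.tau I hI).h j y) = 0 := by
  by_cases h : j ∈ I
  · exact congrArg Prod.snd (R.tauH_in y h)
  · exact congrArg Prod.snd (R.tauH_out y h)
theorem t_gr_in (h : j ∈ I) : y ∈ (R.tau I hI).gr j n ↔
    R.tF hI y ∈ R.gr j (n + 1) ∧ R.tS hI y ∈ R.vg j n := R.tauG_in y h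
theorem t_gr_out (h : j ∉ I) : y ∈ (R.tau I hI).gr j n ↔
    R.tF hI y ∈ R.gr j n ∧ R.tS hI y = 0 := R.tauG_out y h
end

theorem tF_inn (h : j ∈ I) (w : V → (R.tau I hI).X) : R.tF hI ((R.tau I hI).inn j w) = 0 := by
  simp [inn_apply, map_sum, tF_a, h]
theorem tS_inn (h : j ∈ I) (w : V → (R.tau I hI).X) :
    R.tS hI ((R.tau I hI).inn j w) k = if G.Adj j k then R.tF hI (w k) else 0 := by
  simp only [inn_apply, map_sum, tS_a, h, true_and, Finset.sum_apply]
  rw [Finset.sum_eq_single k (fun l _ hl => by split_ifs <;> simp [hl.symm]) (by simp)]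
  by_cases hk : G.Adj j k
  · simp [hk, hk.symm]
  · rw [if_neg hk, if_neg fun h' => hk h'.symm]; rfl

section
variable (y : (R.sig I hI).X)
theorem sF_d : R.sF hI ((R.sig I hI).d j y) =
    if j ∈ I then R.d j (R.sF hI y) + R.inn j (R.sS hI y) else R.d j (R.sF hI y) := by
  split_ifs with h
  · exact congrArg Prod.fst (R.sigD_in y h)
  · exact congrArg Prod.fst (R.sigD_out y h)
theorem sS_d : R.sS hI ((R.sig I hI).d j y) k = if j ∈ I then R.d k (R.sS hI y k) else 0 := by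
  split_ifs with h
  · exact congrFun (congrArg Prod.snd (R.sigD_in y h)) k
  · exact congrFun (congrArg Prod.snd (R.sigD_out y h)) k
theorem sF_a : R.sF hI ((R.sig I hI).a j k y) = if j ∈ I then (if G.Adj j k then R.sS hI y k else 0)
    else if k ∈ I then R.h k (R.a j k (R.sF hI y)) else R.a j k (R.sF hI y) := by
  split_ifs with h h' h'
  · exact congrArg Prod.fst (R.sigA_from y h h')
  · exact congrArg Prod.fst (R.sigA_zero y h')
  · exact congrArg Prod.fst (R.sigA_to y h h')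
  · exact congrArg Prod.fst (R.sigA_out y h h')
theorem sS_a (l : V) : R.sS hI ((R.sig I hI).a j k y) l =
    if j ∉ I ∧ k ∈ I then R.a k l (R.a j k (R.sF hI y)) else 0 := by
  split_ifs with h
  · exact congrFun (congrArg Prod.snd (R.sigA_to y h.1 h.2)) l
  · by_cases hj : j ∈ I
    · by_cases h1 : G.Adj j k
      · exact congrFun (congrArg Prod.snd (R.sigA_from y hj h1)) l
      · exact congrFun (congrArg Prod.snd (R.sigA_zero y h1)) l
    · exact congrFun (congrArg Prod.snd (R.sigA_out y hj fun hk => h ⟨hj, hk⟩)) l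
theorem sF_h : R.sF hI ((R.sig I hI).h j y) = R.h j (R.sF hI y) := by
  by_cases h : j ∈ I
  · exact congrArg Prod.fst (R.sigH_in y h)
  · exact congrArg Prod.fst (R.sigH_out y h)
theorem sS_h : R.sS hI ((R.sig I hI).h j y) k = if j ∈ I then R.a j k (R.sF hI y) else 0 := by
  split_ifs with h
  · exact congrFun (congrArg Prod.snd (R.sigH_in y h)) k
  · exact congrFun (congrArg Prod.snd (R.sigH_out y h)) k
theorem s_gr_in (h : j ∈ I) : y ∈ (R.sig I hI).gr j n ↔
    R.sF hI y ∈ R.gr j (n - 1) ∧ R.sS hI y ∈ R.vg j n := R.sigG_in y h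
theorem s_gr_out (h : j ∉ I) : y ∈ (R.sig I hI).gr j n ↔
    R.sF hI y ∈ R.gr j n ∧ R.sS hI y = 0 := R.sigG_out y h
end

theorem sF_inn (h : j ∈ I) (w : V → (R.sig I hI).X) :
    R.sF hI ((R.sig I hI).inn j w) = R.h j (R.inn j fun l => R.sF hI (w l)) := by
  simp only [inn_apply, map_sum, sF_a, h, if_true]
  refine Finset.sum_congr rfl fun l _ => ?_
  by_cases hl : l ∈ I
  · simp [hl, hI l hl j h, R.a_zero (hI l hl j h)]
  · rw [if_neg hl]
theorem sS_inn (h : j ∈ I) (w : V → (R.sig I hI).X) :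
    R.sS hI ((R.sig I hI).inn j w) k = R.a j k (R.inn j fun l => R.sF hI (w l)) := by
  simp only [inn_apply, map_sum, Finset.sum_apply, sS_a, h, and_true]
  refine Finset.sum_congr rfl fun l _ => ?_
  by_cases hl : l ∈ I
  · simp [hl, R.a_zero (hI l hl j h)]
  · rw [if_pos hl]

omit [DecidableRel G.Adj] in
theorem inn_zero_fun : R.inn j (fun _ => 0) = 0 := map_zero (R.inn j)

/-- The unit. -/
def unitP (i : V) : R.X →ₗ[kk] ((R.tau I hI).sig I hI).X :=
  if i ∈ I then (R.tau I hI).sL hI ∘ₗ R.tL hI +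
    (R.tau I hI).sR hI ∘ₗ (R.tL hI).compLeft V ∘ₗ R.out i
  else (R.tau I hI).sL hI ∘ₗ R.tL hI

theorem unitP_F (i : V) (x : R.X) : (R.tau I hI).sF hI (R.unitP hI i x) = R.tL hI x := by
  unfold unitP; split_ifs <;> simp
theorem unitP_S (i : V) (x : R.X) : (R.tau I hI).sS hI (R.unitP hI i x) k =
    if i ∈ I then R.tL hI (R.a i k x) else 0 := by
  unfold unitP; split_ifs <;> simp

/-- The counit. -/
def counitP (i : V) : ((R.sig I hI).tau I hI).X →ₗ[kk] R.X :=
  if i ∈ I then R.sF hI ∘ₗ (R.sig I hI).tF hI +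
    R.inn i ∘ₗ (R.sF hI).compLeft V ∘ₗ (R.sig I hI).tS hI
  else R.sF hI ∘ₗ (R.sig I hI).tF hI

theorem counitP_in {i : V} (h : i ∈ I) (y : ((R.sig I hI).tau I hI).X) : R.counitP hI i y =
    R.sF hI ((R.sig I hI).tF hI y) + R.inn i fun k => R.sF hI ((R.sig I hI).tS hI y k) := by
  rw [counitP, if_pos h]; rfl
theorem counitP_out {i : V} (h : i ∉ I) (y : ((R.sig I hI).tau I hI).X) : R.counitP hI i y =
    R.sF hI ((R.sig I hI).tF hI y) := by
  rw [counitP, if_neg h]; rfl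

end

end Rep

open _root_.Vale.Agent.P203.Rep

theorem unit_rel {I : Finset V} (hI : Ind G I) (R : Rep G) : Rel R ((R.tau I hI).sig I hI) := by
  refine ⟨Mor.strict (R.unitP hI) ?_ ?_ ?_ ?_, Mor.qis_of_htpy _ fun i => ?_⟩
  · intro i x
    by_cases h : i ∈ I
    · refine s_ext _ hI (t_ext _ hI ?_ fun k => ?_) fun k => t_ext _ hI ?_ fun l => ?_
      · simp [sF_d, h, unitP_F, tF_d, tF_inn]
      · by_cases hk : G.Adj i k <;>
          simp [sF_d, h, unitP_F, unitP_S, tS_d, tS_inn, hk, R.a_zero]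
      · simp [sS_d, h, unitP_S, tF_d, R.da]
      · by_cases hk : k ∈ I
        · simp [sS_d, h, unitP_S, R.a_zero (hI i h k hk)]
        · simp [sS_d, h, unitP_S, tS_d, hk]
    · refine s_ext _ hI (t_ext _ hI ?_ fun k => ?_) fun k => ?_
      · simp [sF_d, h, unitP_F, tF_d]
      · simp [sF_d, h, unitP_F, tS_d]
      · simp [sS_d, h, unitP_S]
  · intro i j x
    by_cases hij : G.Adj i j
    swap
    · rw [Rep.a_zero _ hij, R.a_zero hij, map_zero]
    by_cases hi : i ∈ I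
    · have hj : j ∉ I := fun hj => hI i hi j hj hij
      refine s_ext _ hI ?_ fun k => ?_
      · simp [sF_a, hi, hij, unitP_F, unitP_S]
      · simp [sS_a, hi, hj, unitP_S]
    by_cases hj : j ∈ I
    · refine s_ext _ hI (t_ext _ hI ?_ fun k => ?_) fun k => t_ext _ hI ?_ fun l => ?_
      · simp [sF_a, hi, hj, hij, unitP_F, tF_h, tF_a, tS_a, inn_single]
      · simp [sF_a, hi, hj, unitP_F, tS_h]
      · by_cases hk : k ∈ I
        · simp [sS_a, hi, hj, hk, unitP_F, unitP_S, tF_a, R.a_zero (hI j hj k hk)]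
        · simp [sS_a, hi, hj, hk, hij, unitP_F, unitP_S, tF_a, tS_a, inn_single]
      · by_cases hk : k ∈ I
        · simp [sS_a, hi, hj, unitP_S, tS_a, hI j hj k hk]
        · simp [sS_a, hi, hj, hk, unitP_S, tS_a]
    · refine s_ext _ hI (t_ext _ hI ?_ fun k => ?_) fun k => ?_
      · simp [sF_a, hi, hj, unitP_F, tF_a]
      · simp [sF_a, hi, hj, unitP_F, tS_a]
      · simp [sS_a, hj, unitP_S]
  · intro i x
    refine s_ext _ hI (t_ext _ hI ?_ fun k => ?_) fun k => ?_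
    · simp [sF_h, unitP_F, tF_h]
    · simp [sF_h, unitP_F, tS_h]
    · by_cases h : i ∈ I
      · refine t_ext _ hI ?_ fun l => ?_
        · by_cases hk : k ∈ I
          · simp [sS_h, h, hk, unitP_F, unitP_S, tF_a, R.a_zero (hI i h k hk)]
          · simp [sS_h, h, hk, unitP_F, unitP_S, tF_a]
        · by_cases hk : k ∈ I
          · simp [sS_h, h, unitP_S, tS_a, hI i h k hk]
          · simp [sS_h, h, hk, unitP_S, tS_a]
      · simp [sS_h, h, unitP_S]
  · intro i n x hx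
    by_cases h : i ∈ I
    · rw [s_gr_in _ _ _ h, t_gr_in _ _ _ h, unitP_F, mem_vg (R.tau I hI)]
      refine ⟨⟨by simpa using hx, zero_mem _⟩, fun k => ⟨fun hk => ?_, fun hk => ?_⟩⟩
      · rw [unitP_S, if_pos h, t_gr_out _ _ _ fun hk' => hI i h k hk' hk]
        exact ⟨R.a_gr _ _ _ _ hx, rfl⟩
      · simp [unitP_S, R.a_zero hk]
    · rw [s_gr_out _ _ _ h, t_gr_out _ _ _ h, unitP_F]
      exact ⟨⟨hx, rfl⟩, funext fun k => by simp [unitP_S, h]⟩
  · by_cases h : i ∈ I
    · refine ⟨R.tF hI ∘ₗ (R.tau I hI).sF hI, 0, (R.tau I hI).sR hI ∘ₗ (R.tL hI).compLeft V ∘ₗ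
        R.tS hI ∘ₗ (R.tau I hI).sF hI, fun n y hy => ?_, fun _ _ _ => zero_mem _,
        fun n y hy => ?_, fun n x _ => ?_, fun n y hy => ?_⟩
      · rw [s_gr_in _ _ _ h, t_gr_in _ _ _ h] at hy
        exact ⟨by simpa using hy.1.1, by simp [sF_d, h, tF_d, tF_inn]⟩
      · rw [s_gr_in _ _ _ h, t_gr_in _ _ _ h, add_sub_cancel_right] at hy
        rw [s_gr_in _ _ _ h, mem_vg]
        refine ⟨zero_mem _, fun k => ⟨fun hk => ?_, fun hk => ?_⟩⟩
        · rw [t_gr_out _ _ _ fun hk' => hI i h k hk' hk]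
          exact ⟨(R.mem_vg.1 hy.1.2 k).1 hk, rfl⟩
        · simp [(R.mem_vg.1 hy.1.2 k).2 hk]
      · simp [Mor.strict, unitP_F]
      · rw [s_gr_in _ _ _ h, t_gr_in _ _ _ h, mem_vg, mem_vg] at hy
        refine s_ext _ hI (t_ext _ hI ?_ fun k => ?_) fun k => ?_
        · simp [Mor.strict, unitP_F, sF_d, h, tF_inn]
        · by_cases hk : G.Adj i k
          · simp [Mor.strict, unitP_F, sF_d, h, tS_inn, hk]
          · simp [Mor.strict, unitP_F, sF_d, h, tS_inn, hk, (hy.1.2 k).2 hk]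
        · by_cases hk : G.Adj i k
          · have hk' : k ∉ I := fun hk' => hI i h k hk' hk
            have h2 := ((t_gr_out _ _ _ hk').1 ((hy.2 k).1 hk)).2
            refine t_ext _ hI ?_ fun l => ?_
            · simp [Mor.strict, unitP_S, sF_d, sS_d, h, tS_inn, tF_d, tS_d, hk, add_assoc,
                add_self_left2]
            · simp [Mor.strict, unitP_S, sS_d, h, tS_d, hk', h2]
          · simp [Mor.strict, unitP_S, sF_d, sS_d, h, tS_inn, tS_d, hk, (hy.1.2 k).2 hk,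
              (hy.2 k).2 hk, R.a_zero hk]
    · refine ⟨R.tF hI ∘ₗ (R.tau I hI).sF hI, 0, 0, fun n y hy => ?_, fun _ _ _ => zero_mem _,
        fun _ _ _ => zero_mem _, fun n x _ => ?_, fun n y hy => ?_⟩
      · rw [s_gr_out _ _ _ h, t_gr_out _ _ _ h] at hy
        exact ⟨hy.1.1, by simp [sF_d, h, tF_d]⟩
      · simp [Mor.strict, unitP_F]
      · rw [s_gr_out _ _ _ h, t_gr_out _ _ _ h] at hy
        refine s_ext _ hI (t_ext _ hI ?_ fun k => ?_) fun k => ?_
        · simp [Mor.strict, unitP_F]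
        · simp [Mor.strict, unitP_F, hy.1.2]
        · simp [Mor.strict, unitP_S, h, hy.2]

theorem counit_rel {I : Finset V} (hI : Ind G I) (R : Rep G) : Rel ((R.sig I hI).tau I hI) R := by
  refine ⟨Mor.strict (R.counitP hI) ?_ ?_ ?_ ?_, Mor.qis_of_htpy _ fun i => ?_⟩
  · intro i y
    by_cases h : i ∈ I
    · rw [counitP_in _ _ h, counitP_in _ _ h, tF_d, sF_d, if_pos h, map_add, add_assoc,
        ← R.inn_dV, ← map_add, inn_apply, inn_apply]
      refine congrArg _ (Finset.sum_congr rfl fun k _ => ?_)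
      by_cases hk : G.Adj i k
      · have hk' : k ∉ I := fun hk' => hI i h k hk' hk
        simp [tS_d, sF_d, sF_a, h, hk, hk', add_comm, add_self_left2]
      · rw [R.a_zero fun h' => hk h'.symm, R.a_zero fun h' => hk h'.symm]
    · rw [counitP_out _ _ h, counitP_out _ _ h, tF_d, sF_d, if_neg h]
  · intro i j y
    by_cases hij : G.Adj i j
    swap
    · rw [Rep.a_zero _ hij, Rep.a_zero _ hij, map_zero]
    by_cases hj : j ∈ I
    · have hi : i ∉ I := fun hi => hI i hi j hj hij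
      rw [counitP_out _ _ hi, counitP_in _ _ hj, tF_a, if_pos hj, tS_a, if_pos ⟨hj, hij⟩, map_zero,
        zero_add, ← R.inn_single]
      congr 1
      funext k
      by_cases hk : k = i
      · subst hk; simp
      · simp [hk]
    by_cases hi : i ∈ I
    · simp [counitP_in _ _ hi, counitP_out _ _ hj, tF_a, sF_a, hi, hj, hij, sS_h, sS_inn]
    · simp [counitP_out _ _ hi, counitP_out _ _ hj, tF_a, sF_a, hi, hj]
  · intro i y
    by_cases h : i ∈ I
    · simp [counitP_in _ _ h, tF_h, tS_h, h, sF_h, sF_inn, inn_zero_fun]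
    · simp [counitP_out _ _ h, tF_h, h, sF_h]
  · intro i n y hy
    by_cases h : i ∈ I
    · rw [t_gr_in _ _ _ h, s_gr_in _ _ _ h, add_sub_cancel_right, mem_vg (R.sig I hI)] at hy
      rw [counitP_in _ _ h]
      refine add_mem hy.1.1 (R.inn_vg (R.mem_vg.2 fun k => ⟨fun hk => ?_, fun hk => ?_⟩))
      · exact ((s_gr_out _ _ _ fun hk' => hI i h k hk' hk).1 ((hy.2 k).1 hk)).1
      · simp [(hy.2 k).2 hk]
    · rw [t_gr_out _ _ _ h, s_gr_out _ _ _ h] at hy
      rw [counitP_out _ _ h]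
      exact hy.1.1
  · by_cases h : i ∈ I
    · refine ⟨(R.sig I hI).tL hI ∘ₗ R.sL hI, (R.sig I hI).tL hI ∘ₗ R.sR hI ∘ₗ
        (R.sF hI).compLeft V ∘ₗ (R.sig I hI).tS hI, 0, fun n x hx => ⟨?_, ?_⟩,
        fun n y hy => ?_, fun _ _ _ => zero_mem _, fun n y hy => ?_, fun n x _ => ?_⟩
      · rw [t_gr_in _ _ _ h, s_gr_in _ _ _ h, add_sub_cancel_right]
        exact ⟨⟨hx, zero_mem _⟩, zero_mem _⟩
      · refine t_ext _ hI (s_ext _ hI ?_ fun k => ?_) fun k => s_ext _ hI ?_ fun l => ?_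
        · simp [tF_d, sF_d]
        · simp [tF_d, sS_d]
        · simp [tS_d, sF_a, h]
        · simp [tS_d, sS_a, h]
      · rw [t_gr_in _ _ _ h, s_gr_in _ _ _ h, mem_vg (R.sig I hI)] at hy
        rw [t_gr_in _ _ _ h, s_gr_in _ _ _ h]
        refine ⟨⟨zero_mem _, R.mem_vg.2 fun k => ⟨fun hk => ?_, fun hk => ?_⟩⟩, zero_mem _⟩
        · exact ((s_gr_out _ _ _ fun hk' => hI i h k hk' hk).1 ((hy.2 k).1 hk)).1
        · simp [(hy.2 k).2 hk]
      · rw [t_gr_in _ _ _ h, s_gr_in _ _ _ h, mem_vg, mem_vg] at hy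
        refine t_ext _ hI (s_ext _ hI ?_ fun k => ?_) fun k => ?_
        · simp only [Mor.strict, counitP_in _ _ h, tF_d, sF_d, h, map_add, LinearMap.comp_apply,
            tF_tL, sF_sL, sF_sR, sS_sR, if_true, map_zero, zero_add, add_zero]
          rw [add_right_comm, add_self2, zero_add]
          rfl
        · by_cases hk : G.Adj i k
          · have hk' : k ∉ I := fun hk' => hI i h k hk' hk
            simp [tF_d, sS_d, tS_d, sF_d, sF_a, h, hk, hk', add_self_left2]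
          · simp [tF_d, sS_d, tS_d, sF_a, h, hk, (hy.1.2 k).2 hk, (hy.2 k).2 hk]
        · by_cases hk : G.Adj i k
          · have hk' : k ∉ I := fun hk' => hI i h k hk' hk
            have h2 := ((s_gr_out _ _ _ hk').1 ((hy.2 k).1 hk)).2
            refine s_ext _ hI ?_ fun l => ?_
            · simp [tS_d, sF_a, h, hk]
            · simp [tS_d, sS_a, h, h2]
          · simp [tS_d, h, (hy.2 k).2 hk, Rep.a_zero _ hk]
      · simp [Mor.strict, counitP_in _ _ h, inn_zero_fun]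
    · refine ⟨(R.sig I hI).tL hI ∘ₗ R.sL hI, 0, 0, fun n x hx => ⟨?_, ?_⟩,
        fun _ _ _ => zero_mem _, fun _ _ _ => zero_mem _, fun n y hy => ?_, fun n x _ => ?_⟩
      · rw [t_gr_out _ _ _ h, s_gr_out _ _ _ h]
        exact ⟨⟨hx, rfl⟩, rfl⟩
      · refine t_ext _ hI (s_ext _ hI ?_ fun k => ?_) fun k => ?_
        · simp [tF_d, sF_d]
        · simp [tF_d, sS_d]
        · simp [tS_d, h]
      · rw [t_gr_out _ _ _ h, s_gr_out _ _ _ h] at hy
        refine t_ext _ hI (s_ext _ hI ?_ fun k => ?_) fun k => ?_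
        · simp [Mor.strict, counitP_out _ _ h]
        · simp [hy.1.2]
        · simp [hy.2]
      · simp [Mor.strict, counitP_out _ _ h]

theorem empty_rel (h : Ind G ∅) (R : Rep G) : Rel R (R.tau ∅ h) := by
  refine ⟨Mor.strict (fun _ => R.tL h) ?_ ?_ ?_ ?_, Mor.qis_of_htpy _ fun i => ?_⟩
  · intro i x
    exact t_ext _ h (by simp [tF_d]) fun k => by simp [tS_d]
  · intro i j x
    exact t_ext _ h (by simp [tF_a]) fun k => by simp [tS_a]
  · intro i x
    exact t_ext _ h (by simp [tF_h]) fun k => by simp [tS_h]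
  · intro i n x hx
    exact (t_gr_out _ _ _ (Finset.notMem_empty i)).2 ⟨hx, rfl⟩
  · refine ⟨R.tF h, 0, 0, fun n y hy => ⟨?_, (tF_d _ _ _).symm⟩, fun _ _ _ => zero_mem _,
      fun _ _ _ => zero_mem _, fun n x _ => by simp [Mor.strict], fun n y hy => ?_⟩
    · exact ((t_gr_out _ _ _ (Finset.notMem_empty i)).1 hy).1
    · have h2 := ((t_gr_out _ _ _ (Finset.notMem_empty i)).1 hy).2
      exact t_ext _ h (by simp [Mor.strict]) fun k => by simp [Mor.strict, h2]

/-- The comparison map for unions. -/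
def Rep.unionP {I I' : Finset V} (hI : Ind G I) (hI' : Ind G I') (h : Ind G (I ∪ I')) (R : Rep G)
    (i : V) : ((R.tau I' hI').tau I hI).X →ₗ[kk] (R.tau (I ∪ I') h).X :=
  R.tL h ∘ₗ R.tF hI' ∘ₗ (R.tau I' hI').tF hI + R.tR h ∘ₗ
    (if i ∈ I then (R.tF hI').compLeft V ∘ₗ (R.tau I' hI').tS hI
    else if i ∈ I' then R.tS hI' ∘ₗ (R.tau I' hI').tF hI else 0)

/-- The inverse comparison map. -/
def Rep.unionR {I I' : Finset V} (hI : Ind G I) (hI' : Ind G I') (h : Ind G (I ∪ I')) (R : Rep G)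
    (i : V) : (R.tau (I ∪ I') h).X →ₗ[kk] ((R.tau I' hI').tau I hI).X :=
  (R.tau I' hI').tL hI ∘ₗ R.tL hI' ∘ₗ R.tF h +
    (if i ∈ I then (R.tau I' hI').tR hI ∘ₗ (R.tL hI').compLeft V ∘ₗ R.tS h
    else if i ∈ I' then (R.tau I' hI').tL hI ∘ₗ R.tR hI' ∘ₗ R.tS h else 0)

section
variable {I I' : Finset V} (hI : Ind G I) (hI' : Ind G I') (h : Ind G (I ∪ I')) (R : Rep G) (i : V)

theorem unionP_F (y : ((R.tau I' hI').tau I hI).X) :
    R.tF h (Rep.unionP hI hI' h R i y) = R.tF hI' ((R.tau I' hI').tF hI y) := by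
  simp [Rep.unionP]
theorem unionP_S (y : ((R.tau I' hI').tau I hI).X) : R.tS h (Rep.unionP hI hI' h R i y) =
    fun k => if i ∈ I then R.tF hI' ((R.tau I' hI').tS hI y k)
      else if i ∈ I' then R.tS hI' ((R.tau I' hI').tF hI y) k else 0 := by
  funext k
  unfold Rep.unionP
  split_ifs <;> simp
theorem unionR_FF (y : (R.tau (I ∪ I') h).X) :
    R.tF hI' ((R.tau I' hI').tF hI (Rep.unionR hI hI' h R i y)) = R.tF h y := by
  unfold Rep.unionR
  split_ifs <;> simp
theorem unionR_FS (y : (R.tau (I ∪ I') h).X) :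
    R.tS hI' ((R.tau I' hI').tF hI (Rep.unionR hI hI' h R i y)) =
      if i ∉ I ∧ i ∈ I' then R.tS h y else 0 := by
  unfold Rep.unionR
  by_cases h1 : i ∈ I <;> by_cases h2 : i ∈ I' <;> simp [h1, h2]
theorem unionR_S (y : (R.tau (I ∪ I') h).X) (k : V) :
    (R.tau I' hI').tS hI (Rep.unionR hI hI' h R i y) k =
      if i ∈ I then R.tL hI' (R.tS h y k) else 0 := by
  unfold Rep.unionR
  split_ifs <;> simp

theorem union_inn (hi : i ∈ I) (hi' : i ∉ I') (h : Ind G (I ∪ I')) (w : V → (R.tau I' hI').X) :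
    R.tF hI' ((R.tau I' hI').inn i w) = R.inn i fun k => R.tF hI' (w k) := by
  simp only [inn_apply, map_sum, tF_a, hi', if_false]
  refine Finset.sum_congr rfl fun k _ => ?_
  split_ifs with hk
  · have := h k (by simp [hk]) i (by simp [hi])
    rw [R.a_zero this, R.a_zero this]
  · rfl
end

theorem union_rel {I I' : Finset V} (hI : Ind G I) (hI' : Ind G I') (h : Ind G (I ∪ I'))
    (hd : Disjoint I I') (R : Rep G) : Rel ((R.tau I' hI').tau I hI) (R.tau (I ∪ I') h) := by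
  have hn : ∀ {i}, i ∈ I → i ∉ I' := fun hi => Finset.disjoint_left.1 hd hi
  have hu : ∀ {i k}, i ∈ I ∨ i ∈ I' → G.Adj i k → k ∉ I ∧ k ∉ I' := fun {i k} hi hk =>
    ⟨fun hk' => h i (Finset.mem_union.2 hi) k (by simp [hk']) hk,
      fun hk' => h i (Finset.mem_union.2 hi) k (by simp [hk']) hk⟩
  refine ⟨Mor.strict (Rep.unionP hI hI' h R) ?_ ?_ ?_ ?_, Mor.qis_of_htpy _ fun i =>
    ⟨Rep.unionR hI hI' h R i, 0, 0, fun n y hy => ⟨?_, ?_⟩, fun _ _ _ => zero_mem _,
      fun _ _ _ => zero_mem _, fun n y hy => ?_, fun n y hy => ?_⟩⟩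
  · intro i y
    refine t_ext _ h (by simp [tF_d, unionP_F]) fun k => ?_
    by_cases hi : i ∈ I
    · by_cases hk : G.Adj i k
      · simp [tS_d, tF_d, tF_a, unionP_F, unionP_S, hi, hn hi, (hu (.inl hi) hk).2]
      · simp [tS_d, tF_d, unionP_S, hi, Rep.a_zero _ hk]
    · by_cases hi' : i ∈ I' <;> simp [tS_d, tF_d, unionP_F, unionP_S, hi, hi']
  · intro i j y
    by_cases hij : G.Adj i j
    swap
    · rw [Rep.a_zero _ hij, Rep.a_zero _ hij, map_zero]
    by_cases hj : j ∈ I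
    · obtain ⟨hi, hi'⟩ := hu (.inl hj) hij.symm
      refine t_ext _ h (by simp [tF_a, unionP_F, hj]) fun k => ?_
      by_cases hk : k = i
      · subst hk; simp [tS_a, unionP_F, unionP_S, hj, hij]
      · simp [tS_a, unionP_S, hj, hij, hk]
    by_cases hj' : j ∈ I'
    · obtain ⟨hi, hi'⟩ := hu (.inr hj') hij.symm
      exact t_ext _ h (by simp [tF_a, unionP_F, hj, hj', hi])
        fun k => by simp [tS_a, tF_a, unionP_F, unionP_S, hj, hj', hij, hi]
    refine t_ext _ h ?_ fun k => by simp [tS_a, unionP_S, hj, hj']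
    by_cases hi : i ∈ I
    · simp [tF_a, tF_h, unionP_F, unionP_S, hj, hj', hi, hn hi, union_inn hI' R i hi (hn hi) h]
    · by_cases hi' : i ∈ I' <;> simp [tF_a, unionP_F, unionP_S, hj, hj', hi, hi']
  · intro i y
    by_cases hi : i ∈ I
    · exact t_ext _ h (by simp [tF_h, unionP_F, unionP_S, hi, hn hi,
        union_inn hI' R i hi (hn hi) h]) fun k => by simp [tS_h, unionP_S, hi]
    · refine t_ext _ h ?_ fun k => by simp [tS_h, tF_h, unionP_S, hi]
      by_cases hi' : i ∈ I' <;> simp [tF_h, unionP_F, unionP_S, hi, hi']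
  · intro i n y hy
    by_cases hi : i ∈ I
    · rw [t_gr_in _ _ _ hi, t_gr_out _ _ _ (hn hi), mem_vg] at hy
      rw [t_gr_in _ _ _ (by simp [hi]), unionP_F, unionP_S]
      refine ⟨hy.1.1, R.mem_vg.2 fun k => ⟨fun hk => ?_, fun hk => ?_⟩⟩
      · rw [if_pos hi]
        exact ((t_gr_out _ _ _ (hu (.inl hi) hk).2).1 ((hy.2 k).1 hk)).1
      · simp [hi, (hy.2 k).2 hk]
    by_cases hi' : i ∈ I'
    · rw [t_gr_out _ _ _ hi, t_gr_in _ _ _ hi'] at hy
      rw [t_gr_in _ _ _ (by simp [hi']), unionP_F, unionP_S]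
      simpa [hi, hi'] using hy.1
    · rw [t_gr_out _ _ _ hi, t_gr_out _ _ _ hi'] at hy
      rw [t_gr_out _ _ _ (by simp [hi, hi']), unionP_F, unionP_S]
      exact ⟨hy.1.1, funext fun k => by simp [hi, hi']⟩
  · by_cases hi : i ∈ I
    · rw [t_gr_in _ _ _ (by simp [hi]), mem_vg] at hy
      rw [t_gr_in _ _ _ hi, t_gr_out _ _ _ (hn hi), unionR_FF, unionR_FS, mem_vg]
      refine ⟨⟨hy.1, by simp [hi]⟩, fun k => ⟨fun hk => ?_, fun hk => ?_⟩⟩
      · rw [unionR_S, if_pos hi, t_gr_out _ _ _ (hu (.inl hi) hk).2]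
        exact ⟨(hy.2 k).1 hk, rfl⟩
      · simp [unionR_S, (hy.2 k).2 hk]
    by_cases hi' : i ∈ I'
    · rw [t_gr_in _ _ _ (by simp [hi'])] at hy
      rw [t_gr_out _ _ _ hi, t_gr_in _ _ _ hi', unionR_FF, unionR_FS, if_pos ⟨hi, hi'⟩]
      exact ⟨hy, funext fun k => by simp [unionR_S, hi]⟩
    · rw [t_gr_out _ _ _ (by simp [hi, hi'])] at hy
      rw [t_gr_out _ _ _ hi, t_gr_out _ _ _ hi', unionR_FF, unionR_FS]
      exact ⟨⟨hy.1, by simp [hi']⟩, funext fun k => by simp [unionR_S, hi]⟩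
  · refine t_ext _ hI (t_ext _ hI' (by simp [tF_d, unionR_FF]) fun k => ?_) fun k => ?_
    · by_cases hi : i ∈ I
      · simp [tF_d, tS_d, unionR_FS, hi, hn hi]
      · by_cases hi' : i ∈ I' <;> simp [tF_d, tS_d, unionR_FF, unionR_FS, hi, hi']
    · by_cases hi : i ∈ I
      · rw [t_gr_in _ _ _ (by simp [hi]), mem_vg] at hy
        by_cases hk : G.Adj i k
        · have hk' := (hu (.inl hi) hk).2
          exact t_ext _ hI' (by simp [tS_d, tF_d, tF_a, unionR_FF, unionR_S, hi, hn hi, hk'])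
            fun l => by simp [tS_d, tS_a, unionR_S, hi, hk']
        · simp [tS_d, unionR_S, hi, Rep.a_zero _ hk, (hy.2 k).2 hk]
      · simp [tS_d, unionR_S, hi]
  · refine t_ext _ hI (t_ext _ hI' (by simp [Mor.strict, unionR_FF, unionP_F]) fun k => ?_)
      fun k => ?_
    · by_cases hi : i ∈ I
      · rw [t_gr_in _ _ _ hi, t_gr_out _ _ _ (hn hi)] at hy
        simp [unionR_FS, hi, hy.1.2]
      by_cases hi' : i ∈ I'
      · simp [Mor.strict, unionR_FS, unionP_S, hi, hi']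
      · rw [t_gr_out _ _ _ hi, t_gr_out _ _ _ hi'] at hy
        simp [unionR_FS, hi', hy.1.2]
    · by_cases hi : i ∈ I
      · rw [t_gr_in _ _ _ hi, mem_vg] at hy
        by_cases hk : G.Adj i k
        · have h2 := ((t_gr_out _ _ _ (hu (.inl hi) hk).2).1 ((hy.2 k).1 hk)).2
          exact t_ext _ hI' (by simp [Mor.strict, unionR_S, unionP_S, hi])
            fun l => by simp [unionR_S, hi, h2]
        · simp [Mor.strict, unionR_S, unionP_S, hi, (hy.2 k).2 hk]
      · rw [t_gr_out _ _ _ hi] at hy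
        simp [unionR_S, hi, hy.2]
  · refine t_ext _ h (by simp [Mor.strict, unionR_FF, unionP_F]) fun k => ?_
    by_cases hi : i ∈ I
    · simp [Mor.strict, unionR_S, unionP_S, hi]
    by_cases hi' : i ∈ I'
    · simp [Mor.strict, unionR_FS, unionP_S, hi, hi']
    · rw [t_gr_out _ _ _ (by simp [hi, hi'])] at hy
      simp [Mor.strict, unionP_S, hi, hi', hy.2]

end Vale.Agent.P203
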