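import Vale.Agent.P203.DTau
import Vale.Agent.P203.DSig
import Vale.Agent.P203.DUnit
import Vale.Agent.P203.DBraid
import Vale.Agent.P203.DCoh

/-!
# P203 DAct: the action on classes, and invariants of classes (done)
-/

namespace Vale.Agent.P203

variable {V : Type} [Fintype V] [DecidableEq V] {G : SimpleGraph V} [DecidableRel G.Adj]

/-- The mutation as a permutation of the classes. -/
def tauP (I : Finset V) (hI : Ind G I) : Equiv.Perm (Cls G) where
  toFun := Quot.map (fun R => R.tau I hI) fun _ _ h => tau_rel hI h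
  invFun := Quot.map (fun R => R.sig I hI) fun _ _ h => sig_rel hI h
  left_inv := Quot.ind fun R => (Quot.sound (unit_rel hI R)).symm
  right_inv := Quot.ind fun R => Quot.sound (counit_rel hI R)

theorem tauP_mk (I : Finset V) (hI : Ind G I) (R : Rep G) :
    tauP I hI (Quot.mk _ R) = Quot.mk _ (R.tau I hI) := rfl

theorem tauP_empty (h : Ind G ∅) : tauP ∅ h = 1 :=
  Equiv.ext (Quot.ind fun R => (Quot.sound (empty_rel h R)).symm)

theorem tauP_union {I I' : Finset V} (hI : Ind G I) (hI' : Ind G I') (h : Ind G (I ∪ I'))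
    (hd : Disjoint I I') : tauP (I ∪ I') h = tauP I hI * tauP I' hI' :=
  Equiv.ext (Quot.ind fun R => (Quot.sound (union_rel hI hI' h hd R)).symm)

theorem tauP_congr {I I' : Finset V} (hI : Ind G I) (hI' : Ind G I') (h : I = I') :
    tauP I hI = tauP I' hI' := by subst h; rfl

/-- Mutation at one vertex. -/
def tau1 (G : SimpleGraph V) [DecidableRel G.Adj] (i : V) : Equiv.Perm (Cls G) :=
  tauP {i} (ind_single i)

theorem tau1_comm {i j : V} (h : i ≠ j) (h' : ¬ G.Adj i j) :
    tau1 G i * tau1 G j = tau1 G j * tau1 G i := by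
  have h1 : Ind G ({i} ∪ {j}) := by
    intro a ha b hb
    simp only [Finset.mem_union, Finset.mem_singleton] at ha hb
    rcases ha with rfl | rfl <;> rcases hb with rfl | rfl
    exacts [G.irrefl, h', fun h => h' h.symm, G.irrefl]
  have h2 : Ind G ({j} ∪ {i}) := by rwa [Finset.union_comm]
  rw [tau1, tau1, ← tauP_union _ _ h1 (by simpa using h), ← tauP_union _ _ h2 (by simpa using h.symm)]
  exact tauP_congr _ _ (Finset.union_comm _ _)

theorem tau1_braid {i j : V} (h : G.Adj i j) :
    tau1 G i * tau1 G j * tau1 G i = tau1 G j * tau1 G i * tau1 G j := by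
  refine Equiv.ext (Quot.ind fun R => ?_)
  have e : R.bm (Equiv.swap i j) ⟨i, j, h, rfl⟩ = R.bm (Equiv.swap j i) ⟨j, i, h.symm, rfl⟩ := by
    have key : ∀ (o o' : V → V) (ho : IsSw G o) (ho' : IsSw G o'), o = o' →
        R.bm o ho = R.bm o' ho' := by
      rintro o _ ho ho' rfl; rfl
    exact key _ _ _ _ (by rw [Equiv.swap_comm])
  exact (Quot.sound (braid_rel h R)).symm.trans (e ▸ Quot.sound (braid_rel h.symm R))

theorem tauP_list (l : List V) (hl : l.Nodup) (h : Ind G l.toFinset) :
    tauP l.toFinset h = (l.map (tau1 G)).prod := by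
  induction l with
  | nil => exact tauP_empty _
  | cons i l ih =>
    rw [List.nodup_cons] at hl
    have h1 : Ind G l.toFinset := fun a ha b hb =>
      h a (by simp [List.mem_toFinset.1 ha]) b (by simp [List.mem_toFinset.1 hb])
    have e : (i :: l).toFinset = {i} ∪ l.toFinset := by ext; simp
    rw [List.map_cons, List.prod_cons, ← ih hl.2 h1, tau1,
      ← tauP_union _ _ (e ▸ h) (by simpa using hl.1)]
    exact tauP_congr _ _ e

theorem dom_of_eq {R R' : Rep G} (h : (Quot.mk _ R : Cls G) = Quot.mk _ R') (n : ℤ) :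
    (R.coh n).Dom (R'.coh n) := by
  have : ∀ R R' : Rep G, Relation.EqvGen Rel R R' →
      (R.coh n).Dom (R'.coh n) ∧ (R'.coh n).Dom (R.coh n) := by
    intro R R' h
    induction h with
    | rel _ _ h => exact Rep.rel_dom h n
    | refl => exact ⟨Mod.Dom.refl _, Mod.Dom.refl _⟩
    | symm _ _ _ ih => exact ih.symm
    | trans _ _ _ _ _ h1 h2 => exact ⟨h1.1.trans h2.1, h2.2.trans h1.2⟩
  exact (this R R' (Quot.eqvGen_exact h)).1

/-- Dimension of cohomology of a class. -/
noncomputable def cdim (x : Cls G) (i : V) (n : ℤ) : ℕ := (x.out.coh n).dim i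

/-- Quotient relation on classes. -/
def cdom (n : ℤ) (x y : Cls G) : Prop := (x.out.coh n).Dom (y.out.coh n)

/-- No top, on classes. -/
def cntop (n : ℤ) (x : Cls G) (i : V) : Prop := (x.out.coh n).NTop i

theorem cdim_mk (R : Rep G) (i : V) (n : ℤ) : cdim (Quot.mk _ R) i n = (R.coh n).dim i :=
  le_antisymm ((dom_of_eq (Quot.out_eq _).symm n).dim_le i) ((dom_of_eq (Quot.out_eq _) n).dim_le i)

theorem cdom_mk (n : ℤ) (R R' : Rep G) :
    cdom n (Quot.mk _ R) (Quot.mk _ R') ↔ (R.coh n).Dom (R'.coh n) :=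
  ⟨fun h => ((dom_of_eq (Quot.out_eq _).symm n).trans h).trans (dom_of_eq (Quot.out_eq _) n),
    fun h => ((dom_of_eq (Quot.out_eq _) n).trans h).trans (dom_of_eq (Quot.out_eq _).symm n)⟩

theorem cntop_mk (n : ℤ) (R : Rep G) (i : V) : cntop n (Quot.mk _ R) i ↔ (R.coh n).NTop i :=
  ⟨fun h => (dom_of_eq (Quot.out_eq _) n).ntop h, fun h => (dom_of_eq (Quot.out_eq _).symm n).ntop h⟩

end Vale.Agent.P203
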