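import Vale.Agent.P203.DBm0

/-!
# P203 DBm: the symmetric model is a representation (TASK)
Use the `bm*_in/out/to/from` lemmas and `IsSw.spec`.
For `o r ≠ r` put `t = o r`. Key identities (characteristic two; prove them first, for every `r` with
`o r ≠ r`; split `∑ k, a k t (a t k x)` from `R.dh` into `k = r` and `k ≠ r`):
* `bg r (bmD r y) = d t (bg r y) + a r t (a t r y.1)`
* `bp r (bmD r y) = d r (bp r y)`
* `bg t (bmA r t y) = h r (a t r y.1) + ∑ k ≠ t, a k r (y.2 r k)`, so `bp r y = bg t (bmA r t y) + a t r (bg r y)`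
* for `o k = k`, `Adj k r`: `bp r (0, single r (single k x)) = a k r x`.
`dh` at `r`: both sides equal `(a r t (a t r y.1), fun r' k => [r' = r, k ≠ t] a r k (a t r g) + [r' = t, k ≠ r] a t k g)`
with `g = bg r y`.
-/

namespace Vale.Agent.P203

variable {V : Type} [Fintype V] [DecidableEq V] {G : SimpleGraph V} [DecidableRel G.Adj]

omit [DecidableRel G.Adj] in
theorem DBm_split {X : Type} [AddCommGroup X] (f : V → X) (r : V) :
    ∑ k, f k = f r + ∑ k, if k ≠ r then f k else 0 := by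
  rw [← Finset.sum_filter, Finset.filter_ne', Finset.add_sum_erase _ _ (Finset.mem_univ r)]

theorem DBm_c2 {X : Type} [AddCommGroup X] [Module kk X] {x y : X} (h : (1 : kk) • x = y) :
    x = y := by rwa [one_smul] at h

namespace Rep

variable (R : Rep G) {o : V → V} {r j k : V} {n : ℤ}

omit [DecidableRel G.Adj] in
theorem bg_d (hr : o r ≠ r) (y : R.BX) : R.bg o r (R.bmD o r y) =
    R.d (o r) (R.bg o r y) + R.a r (o r) (R.a (o r) r y.1) := by
  have h1 := R.dh (o r) y.1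
  have h2 : ∀ k, (if k ≠ r then R.a k (o r) ((R.bmD o r y).2 (o r) k) else 0) =
      R.d (o r) (if k ≠ r then R.a k (o r) (y.2 (o r) k) else 0) +
        if k ≠ r then R.a k (o r) (R.a (o r) k y.1) else 0 := fun k => by
    by_cases h : k = r <;> simp [R.bmD_in y hr, h, hr, R.da]
  rw [DBm_split _ r] at h1
  rw [bg_apply, bg_apply, Finset.sum_congr rfl fun k _ => h2 k, Finset.sum_add_distrib, ← map_sum,
    map_add, R.bmD_in y hr]
  linear_combination (norm := match_scalars <;> decide) (1 : kk) • h1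

omit [DecidableRel G.Adj] in
theorem bp_d (hr : o r ≠ r) (y : R.BX) : R.bp o r (R.bmD o r y) = R.d r (R.bp o r y) := by
  have h1 := R.dh r (R.a (o r) r y.1)
  have h2 : ∀ k, (if k ≠ o r then R.a k r ((R.bmD o r y).2 r k) else 0) =
      R.d r (if k ≠ o r then R.a k r (y.2 r k) else 0) +
        if k ≠ o r then R.a k r (R.a r k (R.a (o r) r y.1)) else 0 := fun k => by
    by_cases h : k = o r <;> simp [R.bmD_in y hr, h, hr.symm, R.da]
  rw [DBm_split _ (o r), R.da] at h1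
  rw [bp_apply, bp_apply, Finset.sum_congr rfl fun k _ => h2 k, Finset.sum_add_distrib, ← map_sum,
    R.bg_d hr, R.bmD_in y hr]
  simp only [map_add, R.da]
  linear_combination (norm := match_scalars <;> decide) (1 : kk) • h1

theorem bp_eq (hr : o r ≠ r) (h2 : o (o r) = r) (y : R.BX) :
    R.bp o r y = R.bg o (o r) (R.bmA o r (o r) y) + R.a (o r) r (R.bg o r y) := by
  rw [bp_apply, R.bg_apply _ (o r), h2, R.bmA_in y hr (by rw [h2]; exact hr.symm) rfl]
  congr 2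
  refine Finset.sum_congr rfl fun k _ => ?_
  by_cases h : k = o r <;> simp [h, hr.symm]

omit [DecidableRel G.Adj] in
theorem bp_single (hr : o r ≠ r) (hk : k ≠ o r) (x : R.X) :
    R.bp o r (0, Pi.single r (Pi.single k x)) = R.a k r x := by
  rw [bp_apply, bg_apply, Finset.sum_eq_single k (fun k' _ h => by simp [h]) (by simp)]
  simp [hr, hk]

theorem bmA_adj (ho : IsSw G o) (h : ¬ G.Adj j k) : R.bmA o j k = 0 := by
  rw [bmA, if_neg h, R.a_adj j k h]
  split_ifs with h1 h2 h3 h4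
  · simp
  · rfl
  · simp
  · exact absurd (h4 ▸ (ho.spec h1).2.1) h
  · rfl

theorem bmA_zero (ho : IsSw G o) (h : ¬ G.Adj j k) (y : R.BX) : R.bmA o j k y = 0 := by
  rw [R.bmA_adj ho h]; rfl

omit [Fintype V] [DecidableRel G.Adj] in
theorem DBm_both (ho : IsSw G o) (h : G.Adj j k) (hj : o j ≠ j) (hk : o k ≠ k) : k = o j :=
  (((ho.spec hj).2.2 k).1 hk).resolve_left h.ne'

theorem bm_da (ho : IsSw G o) (j k : V) (y : R.BX) :
    R.bmD o k (R.bmA o j k y) = R.bmA o j k (R.bmD o j y) := by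
  by_cases hjk : G.Adj j k
  swap
  · simp [R.bmA_zero ho hjk]
  by_cases hj : o j = j <;> by_cases hk : o k = k
  · simp [R.bmA_out _ hj hk, R.bmD_out _ hj, R.bmD_out _ hk, R.da]
  · rw [R.bmA_to _ hj hk hjk, R.bmA_to _ hj hk hjk, R.bmD_in _ hk, R.bmD_out _ hj]
    refine Prod.ext (map_zero _) (funext fun r' => funext fun k' => ?_)
    by_cases h1 : r' = k <;> by_cases h2 : k' = j <;> simp [h1, h2]
  · rw [R.bmA_from _ hj hk, R.bmA_from _ hj hk, R.bmD_out _ hk, R.bp_d hj, R.da]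
  · obtain rfl := DBm_both ho hjk hj hk
    rw [R.bmA_in _ hj hk rfl, R.bmA_in _ hj hk rfl, R.bmD_in _ hk, R.bg_d hj, R.bmD_in _ hj,
      (ho.spec hj).1]
    refine Prod.ext (R.da _ _ _) (funext fun r' => funext fun k' => ?_)
    by_cases h1 : r' = j
    · by_cases h2 : k' = o j <;> simp [h1, h2, Ne.symm hj]
    · by_cases h3 : r' = o j <;> by_cases h2 : k' = j <;> simp [h1, h2, h3, hj, R.da]

theorem bm_dh_out (ho : IsSw G o) (hj : o j = j) (y : R.BX) :
    R.bmD o j (R.bmH o j y) + R.bmH o j (R.bmD o j y) = ∑ k, R.bmA o k j (R.bmA o j k y) := by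
  have (k : V) : R.bmA o k j (R.bmA o j k y) = (R.a k j (R.a j k y.1), 0) := by
    by_cases hk : G.Adj j k
    swap
    · simp [R.bmA_zero ho hk, R.a_zero hk, Prod.ext_iff]
    by_cases hk' : o k = k
    · rw [R.bmA_out _ hj hk', R.bmA_out _ hk' hj]
    · rw [R.bmA_to _ hj hk' hk, R.bmA_from _ hk' hj,
        R.bp_single hk' fun h => ((ho.spec hk').2.2 j).2 (Or.inr h) hj]
  simp only [this, R.bmH_out _ hj, R.bmD_out _ hj]
  ext
  · simp [Prod.fst_sum, R.dh]
  · simp [Prod.snd_sum]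

theorem bm_dh_in (ho : IsSw G o) (hr : o r ≠ r) (y : R.BX) :
    R.bmD o r (R.bmH o r y) + R.bmH o r (R.bmD o r y) = ∑ k, R.bmA o k r (R.bmA o r k y) := by
  obtain ⟨h1, -, h3⟩ := ho.spec hr
  have ht : o (o r) ≠ o r := by rw [h1]; exact hr.symm
  have h4 (k : V) : (if k ≠ o r then R.bmA o k r (R.bmA o r k y) else 0) =
      (0, Pi.single r (Pi.single k (if k ≠ o r then R.a r k (R.bp o r y) else 0))) := by
    by_cases hk : k = o r
    · simp [hk, Prod.ext_iff]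
    rw [if_pos hk, if_pos hk]
    by_cases ha : G.Adj r k
    · have hk' : o k = k := by_contra fun h => hk (DBm_both ho ha hr h)
      rw [R.bmA_from _ hr hk', R.bmA_to _ hk' hr ha.symm]
    · simp [R.bmA_zero ho ha, R.a_zero ha, Prod.ext_iff]
  rw [DBm_split _ (o r), Finset.sum_congr rfl fun k _ => h4 k, R.bmH_in _ hr, R.bmH_in _ hr,
    R.bg_d hr, R.bmD_in _ hr, R.bmA_in _ ht hr h1.symm, R.bp_eq hr h1]
  generalize R.bg o (o r) (R.bmA o r (o r) y) = u
  rw [R.bmA_in _ hr ht rfl]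
  refine Prod.ext ?_ (funext fun r' => funext fun k => ?_)
  · simp [Prod.fst_sum, add_self_left2]
  · by_cases a1 : r' = r
    · by_cases a2 : k = o r <;>
        simp [Prod.snd_sum, Finset.sum_apply, Pi.single_apply, a1, a2, hr.symm, add_self_left2]
    · by_cases a3 : r' = o r <;> by_cases a2 : k = r <;>
        simp [Prod.snd_sum, Finset.sum_apply, a1, a2, a3, hr]

theorem DBm_sum_gr (hr : o r ≠ r) {y : R.BX} (hy : y ∈ R.bmG o j n) (hj : o j ≠ j) :
    (∑ k, if k ≠ o r then R.a k r (y.2 r k) else 0) ∈ R.gr r n := by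
  refine Submodule.sum_mem _ fun k _ => ?_
  split_ifs with h
  · by_cases ha : G.Adj r k
    · exact R.a_gr _ _ _ _ ((((R.bmG_in y hj).1 hy).2 r k).1 ⟨hr, ha, h⟩)
    · rw [R.a_zero fun h' => ha h'.symm]
      exact zero_mem _
  · exact zero_mem _

theorem bg_gr (ho : IsSw G o) (hr : o r ≠ r) {y : R.BX} (hy : y ∈ R.bmG o r n) :
    R.bg o r y ∈ R.gr (o r) n := by
  have h1 := (ho.spec hr).1
  have h2 := R.DBm_sum_gr (r := o r) (by rw [h1]; exact hr.symm) hy hr
  rw [h1] at h2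
  rw [bg_apply]
  exact add_mem (R.h_gr _ _ _ ((R.bmG_in y hr).1 hy).1) h2

theorem bp_gr (ho : IsSw G o) (hr : o r ≠ r) {y : R.BX} (hy : y ∈ R.bmG o r n) :
    R.bp o r y ∈ R.gr r n := by
  rw [bp_apply]
  exact add_mem (add_mem (R.h_gr _ _ _ (R.a_gr _ _ _ _ ((R.bmG_in y hr).1 hy).1))
    (R.DBm_sum_gr hr hy hr)) (R.a_gr _ _ _ _ (R.bg_gr ho hr hy))

theorem DBm_ite {c P : Prop} [Decidable c] {x : R.X} (h1 : c → x ∈ R.gr k n)
    (h2 : c → ¬P → x = 0) : (P → (if c then x else 0) ∈ R.gr k n) ∧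
      (¬P → (if c then x else 0) = 0) := by
  split_ifs with h
  · exact ⟨fun _ => h1 h, h2 h⟩
  · exact ⟨fun _ => zero_mem _, fun _ => rfl⟩

theorem DBm_add {P : Prop} {x x' : R.X} (h1 : (P → x ∈ R.gr k n) ∧ (¬P → x = 0))
    (h2 : (P → x' ∈ R.gr k n) ∧ (¬P → x' = 0)) :
    (P → x + x' ∈ R.gr k n) ∧ (¬P → x + x' = 0) :=
  ⟨fun h => add_mem (h1.1 h) (h2.1 h), fun h => by rw [h1.2 h, h2.2 h, add_zero]⟩

theorem bm_d_gr (ho : IsSw G o) (j : V) (n : ℤ) (y : R.BX) (hy : y ∈ R.bmG o j n) :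
    R.bmD o j y ∈ R.bmG o j (n + 1) := by
  by_cases h : o j = j
  · rw [R.bmG_out _ h] at hy ⊢
    rw [R.bmD_out _ h]
    exact ⟨R.d_gr _ _ _ hy.1, rfl⟩
  obtain ⟨h1, -, -⟩ := ho.spec h
  rw [R.bmG_in _ h] at hy ⊢
  rw [R.bmD_in _ h]
  refine ⟨R.d_gr _ _ _ hy.1, fun r' k => R.DBm_add (R.DBm_add ⟨fun hp => R.d_gr _ _ _
    ((hy.2 r' k).1 hp), fun hp => by rw [(hy.2 r' k).2 hp, map_zero]⟩ (R.DBm_ite
    (fun _ => R.a_gr _ _ _ _ (R.a_gr _ _ _ _ hy.1)) ?_)) (R.DBm_ite (fun _ => R.a_gr _ _ _ _ hy.1) ?_)⟩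
  · rintro ⟨rfl, a⟩ hp
    exact R.a_zero (fun b => hp ⟨h, b, a⟩) _
  · rintro ⟨rfl, a⟩ hp
    exact R.a_zero (fun b => hp ⟨by rw [h1]; exact Ne.symm h, b, by rwa [h1]⟩) _

theorem bm_a_gr (ho : IsSw G o) (j k : V) (n : ℤ) (y : R.BX) (hy : y ∈ R.bmG o j n) :
    R.bmA o j k y ∈ R.bmG o k n := by
  by_cases hjk : G.Adj j k
  swap
  · simp [R.bmA_zero ho hjk]
  by_cases hj : o j = j <;> by_cases hk : o k = k
  · rw [R.bmA_out _ hj hk, R.bmG_out _ hk]
    exact ⟨R.a_gr _ _ _ _ ((R.bmG_out _ hj).1 hy).1, rfl⟩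
  · rw [R.bmA_to _ hj hk hjk, R.bmG_in _ hk]
    refine ⟨zero_mem _, fun r' k' => ?_⟩
    by_cases h1 : r' = k ∧ k' = j
    · obtain ⟨rfl, rfl⟩ := h1
      simp only [Pi.single_eq_same]
      exact ⟨fun _ => ((R.bmG_out _ hj).1 hy).1, fun h => absurd
        ⟨hk, hjk.symm, fun h' => ((ho.spec hk).2.2 _).2 (Or.inr h') hj⟩ h⟩
    · have : (Pi.single k (Pi.single j y.1) : V → V → R.X) r' k' = 0 := by
        by_cases h2 : r' = k
        · simp [h2, show k' ≠ j from fun h => h1 ⟨h2, h⟩]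
        · simp [h2]
      exact ⟨fun _ => this.symm ▸ zero_mem (R.gr k' n), fun _ => this⟩
  · rw [R.bmA_from _ hj hk, R.bmG_out _ hk]
    exact ⟨R.a_gr _ _ _ _ (R.bp_gr ho hj hy), rfl⟩
  · obtain rfl := DBm_both ho hjk hj hk
    have h1 := (ho.spec hj).1
    have h2 := (R.bmG_in _ hj).1 hy
    rw [R.bmA_in _ hj hk rfl, R.bmG_in _ hk, h1]
    refine ⟨R.a_gr _ _ _ _ h2.1, fun r' k' => R.DBm_add ?_
      (R.DBm_ite (fun _ => R.a_gr _ _ _ _ (R.bg_gr ho hj hy)) ?_)⟩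
    · split_ifs with h
      · exact h.1 ▸ h2.2 j k'
      · exact ⟨fun _ => zero_mem _, fun _ => rfl⟩
    · rintro ⟨rfl, a⟩ hp
      exact R.a_zero (fun b => hp ⟨hk, b, by rwa [h1]⟩) _

end Rep

/-- The symmetric model. -/
def Rep.bm (R : Rep G) (o : V → V) (ho : IsSw G o) : Rep G where
  X := R.BX
  d := R.bmD o
  a := R.bmA o
  h := R.bmH o
  gr := R.bmG o
  a_adj _ _ h := R.bmA_adj ho h
  dd i y := by
    by_cases h : o i = i
    · simp [R.bmD_out _ h, R.dd]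
    · rw [R.bmD_in _ h, R.bmD_in _ h]
      refine Prod.ext (R.dd _ _) (funext fun r' => funext fun k => ?_)
      simp only [map_add, R.dd, apply_ite (R.d k), map_zero, R.da, zero_add, Prod.snd_zero,
        Pi.zero_apply]
      rw [add_assoc, add_self2]
  da := R.bm_da ho
  dh i y := by
    by_cases h : o i = i
    · exact R.bm_dh_out ho h y
    · exact R.bm_dh_in ho h y
  d_gr := R.bm_d_gr ho
  a_gr := R.bm_a_gr ho
  h_gr i n y hy := by
    by_cases h : o i = i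
    · rw [R.bmG_out _ h] at hy ⊢
      rw [R.bmH_out _ h]
      exact ⟨R.h_gr _ _ _ hy.1, rfl⟩
    · rw [R.bmH_in _ h, R.bmG_in _ h]
      exact ⟨R.bg_gr ho h hy, fun _ _ => ⟨fun _ => zero_mem _, fun _ => rfl⟩⟩
  fin i n := by
    unfold Rep.bmG
    by_cases h : o i = i
    · rw [if_pos h]; infer_instance
    · rw [if_neg h]
      refine Module.Finite.iff_fg.2 ((Module.Finite.iff_fg.1 inferInstance).prod
        (Submodule.fg_pi fun r' => Submodule.fg_pi fun k => ?_))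
      split_ifs
      · exact Module.Finite.iff_fg.1 inferInstance
      · exact Submodule.fg_bot
  bdd := by
    obtain ⟨N, hN⟩ := R.bdd
    refine ⟨N, fun i n hn => ?_⟩
    unfold Rep.bmG
    simp [hN _ n hn, hN _ (n + 1) (by omega), Submodule.pi_univ_bot]

end Vale.Agent.P203
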