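import Vale.Agent.P203.DRep

/-!
# P203 DBm0: data of the symmetric model for the braid relation (done)
`o` is the swap of two adjacent vertices. For `r` with `o r ≠ r` the new space at `r` is
`X (o r) [1] ⊕ A ⊕ B`, where the component `v r' k` lives at vertex `k` (a neighbour of `r'`, `k ≠ o r'`).
-/

namespace Vale.Agent.P203

variable {V : Type} [Fintype V] [DecidableEq V] {G : SimpleGraph V} [DecidableRel G.Adj]

theorem ite_app {X Y : Type} [AddCommGroup X] [Module kk X] [AddCommGroup Y] [Module kk Y]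
    (c : Prop) [Decidable c] (f : X →ₗ[kk] Y) (x : X) :
    (if c then f else 0) x = if c then f x else 0 := by
  split_ifs <;> rfl

namespace Rep

variable (R : Rep G) (o : V → V)

/-- The ambient space. -/
abbrev BX := R.X × (V → V → R.X)

/-- Coordinates. -/
def bc (r k : V) : R.BX →ₗ[kk] R.X :=
  LinearMap.proj k ∘ₗ LinearMap.proj r ∘ₗ LinearMap.snd kk R.X (V → V → R.X)

/-- First coordinate. -/
def b1 : R.BX →ₗ[kk] R.X := LinearMap.fst kk R.X (V → V → R.X)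

/-- The map to vertex `o r`. -/
def bg (r : V) : R.BX →ₗ[kk] R.X :=
  R.h (o r) ∘ₗ R.b1 + ∑ k, if k ≠ r then R.a k (o r) ∘ₗ R.bc (o r) k else 0

/-- The chain map to vertex `r`. -/
def bp (r : V) : R.BX →ₗ[kk] R.X :=
  R.h r ∘ₗ R.a (o r) r ∘ₗ R.b1 + (∑ k, if k ≠ o r then R.a k r ∘ₗ R.bc r k else 0) +
    R.a (o r) r ∘ₗ R.bg o r

/-- Differential. -/
def bmD (r : V) : R.BX →ₗ[kk] R.BX :=
  if o r = r then LinearMap.inl _ _ _ ∘ₗ R.d r ∘ₗ R.b1
  else (R.d (o r) ∘ₗ R.b1).prod (LinearMap.pi fun r' => LinearMap.pi fun k =>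
    R.d k ∘ₗ R.bc r' k + (if r' = r ∧ k ≠ o r then R.a r k ∘ₗ R.a (o r) r ∘ₗ R.b1 else 0) +
      (if r' = o r ∧ k ≠ r then R.a (o r) k ∘ₗ R.b1 else 0))

/-- Arrows. -/
def bmA (j k : V) : R.BX →ₗ[kk] R.BX :=
  if o j = j then
    (if o k = k then LinearMap.inl _ _ _ ∘ₗ R.a j k ∘ₗ R.b1
    else if G.Adj j k then LinearMap.inr _ _ _ ∘ₗ LinearMap.single kk (fun _ => V → R.X) k ∘ₗ
      LinearMap.single kk (fun _ => R.X) j ∘ₗ R.b1 else 0)
  else if o k = k then LinearMap.inl _ _ _ ∘ₗ R.a j k ∘ₗ R.bp o j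
  else if k = o j then (R.a k j ∘ₗ R.b1).prod (LinearMap.pi fun r' => LinearMap.pi fun k' =>
    (if r' = j ∧ k' ≠ k then R.bc j k' else 0) +
      (if r' = k ∧ k' ≠ j then R.a k k' ∘ₗ R.bg o j else 0))
  else 0

/-- Homotopies. -/
def bmH (j : V) : R.BX →ₗ[kk] R.BX :=
  if o j = j then LinearMap.inl _ _ _ ∘ₗ R.h j ∘ₗ R.b1 else LinearMap.inl _ _ _ ∘ₗ R.bg o j

/-- Grading. -/
def bmG (j : V) (n : ℤ) : Submodule kk R.BX :=
  if o j = j then (R.gr j n).prod ⊥
  else (R.gr (o j) (n + 1)).prod (Submodule.pi Set.univ fun r' => Submodule.pi Set.univ fun k =>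
    if o r' ≠ r' ∧ G.Adj r' k ∧ k ≠ o r' then R.gr k n else ⊥)

variable {o} {j k : V} {n : ℤ} (y : R.BX)

omit [DecidableRel G.Adj] in
theorem bg_apply (r : V) :
    R.bg o r y = R.h (o r) y.1 + ∑ k, if k ≠ r then R.a k (o r) (y.2 (o r) k) else 0 := by
  simp only [bg, LinearMap.add_apply, LinearMap.sum_apply, ite_app]; rfl

omit [DecidableRel G.Adj] in
theorem bp_apply (r : V) : R.bp o r y = R.h r (R.a (o r) r y.1) +
    (∑ k, if k ≠ o r then R.a k r (y.2 r k) else 0) + R.a (o r) r (R.bg o r y) := by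
  simp only [bp, LinearMap.add_apply, LinearMap.sum_apply, ite_app]; rfl

omit [DecidableRel G.Adj] in
theorem bmD_out (h : o j = j) : R.bmD o j y = (R.d j y.1, 0) := by
  rw [bmD, if_pos h]; rfl

omit [DecidableRel G.Adj] in
theorem bmD_in (h : o j ≠ j) : R.bmD o j y = (R.d (o j) y.1, fun r' k => R.d k (y.2 r' k) +
    (if r' = j ∧ k ≠ o j then R.a j k (R.a (o j) j y.1) else 0) +
    (if r' = o j ∧ k ≠ j then R.a (o j) k y.1 else 0)) := by
  rw [bmD, if_neg h]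
  refine Prod.ext rfl (funext fun r' => funext fun k => ?_)
  simp only [LinearMap.prod_apply, Function.prod, LinearMap.pi_apply, LinearMap.add_apply,
    ite_app]
  rfl

theorem bmA_out (h : o j = j) (h' : o k = k) : R.bmA o j k y = (R.a j k y.1, 0) := by
  rw [bmA, if_pos h, if_pos h']; rfl

theorem bmA_to (h : o j = j) (h' : o k ≠ k) (h'' : G.Adj j k) :
    R.bmA o j k y = (0, Pi.single k (Pi.single j y.1)) := by
  rw [bmA, if_pos h, if_neg h', if_pos h'']; rfl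

theorem bmA_from (h : o j ≠ j) (h' : o k = k) : R.bmA o j k y = (R.a j k (R.bp o j y), 0) := by
  rw [bmA, if_neg h, if_pos h']; rfl

theorem bmA_in (h : o j ≠ j) (h' : o k ≠ k) (h'' : k = o j) :
    R.bmA o j k y = (R.a k j y.1, fun r' k' => (if r' = j ∧ k' ≠ k then y.2 j k' else 0) +
      (if r' = k ∧ k' ≠ j then R.a k k' (R.bg o j y) else 0)) := by
  rw [bmA, if_neg h, if_neg h', if_pos h'']
  refine Prod.ext rfl (funext fun r' => funext fun k' => ?_)
  simp only [LinearMap.prod_apply, Function.prod, LinearMap.pi_apply, LinearMap.add_apply,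
    ite_app]
  rfl

omit [DecidableRel G.Adj] in
theorem bmH_out (h : o j = j) : R.bmH o j y = (R.h j y.1, 0) := by
  rw [bmH, if_pos h]; rfl

omit [DecidableRel G.Adj] in
theorem bmH_in (h : o j ≠ j) : R.bmH o j y = (R.bg o j y, 0) := by
  rw [bmH, if_neg h]; rfl

theorem bmG_out (h : o j = j) : y ∈ R.bmG o j n ↔ y.1 ∈ R.gr j n ∧ y.2 = 0 := by
  rw [bmG, if_pos h]; rfl

theorem bmG_in (h : o j ≠ j) : y ∈ R.bmG o j n ↔ y.1 ∈ R.gr (o j) (n + 1) ∧ ∀ r' k,
    ((o r' ≠ r' ∧ G.Adj r' k ∧ k ≠ o r') → y.2 r' k ∈ R.gr k n) ∧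
      (¬ (o r' ≠ r' ∧ G.Adj r' k ∧ k ≠ o r') → y.2 r' k = 0) := by
  rw [bmG, if_neg h, Submodule.mem_prod]
  simp only [Submodule.mem_pi, Set.mem_univ, true_implies]
  refine and_congr_right fun _ => forall_congr' fun r' => forall_congr' fun k => ?_
  by_cases hc : o r' ≠ r' ∧ G.Adj r' k ∧ k ≠ o r'
  · rw [if_pos hc]; exact ⟨fun h => ⟨fun _ => h, fun h' => absurd hc h'⟩, fun h => h.1 hc⟩
  · rw [if_neg hc]; exact ⟨fun h => ⟨fun h' => absurd h' hc, fun _ => h⟩, fun h => h.2 hc⟩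

end Rep

/-- `o` swaps two adjacent vertices. -/
def IsSw (G : SimpleGraph V) (o : V → V) : Prop := ∃ s t, G.Adj s t ∧ o = Equiv.swap s t

omit [Fintype V] [DecidableRel G.Adj] in
theorem IsSw.spec {o : V → V} (ho : IsSw G o) {r : V} (hr : o r ≠ r) :
    o (o r) = r ∧ G.Adj r (o r) ∧ ∀ k, o k ≠ k ↔ k = r ∨ k = o r := by
  obtain ⟨s, t, h, rfl⟩ := ho
  have h1 (k : V) : Equiv.swap s t k ≠ k ↔ k = s ∨ k = t := by
    by_cases h2 : k = s
    · simp [h2, h.ne']
    by_cases h3 : k = t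
    · simp [h3, h.ne]
    · simp [h2, h3, Equiv.swap_apply_of_ne_of_ne h2 h3]
  refine ⟨Equiv.swap_apply_self _ _ _, ?_, fun k => ?_⟩
  · rcases (h1 r).1 hr with rfl | rfl
    · simpa using h
    · simpa using h.symm
  · rw [h1]
    rcases (h1 r).1 hr with rfl | rfl
    · simp
    · simp [or_comm]

end Vale.Agent.P203
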