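import Vale.Agent.P203.DBm

/-!
# P203 DBr0: mutation at one vertex on unbundled data (used by `DBraid`)
-/

namespace Vale.Agent.P203

variable {V : Type} [Fintype V] [DecidableEq V]

/-- Unbundled data of a representation. -/
structure Raw (V Y : Type) [AddCommGroup Y] [Module kk Y] where
  d : V → Y →ₗ[kk] Y
  a : V → V → Y →ₗ[kk] Y
  h : V → Y →ₗ[kk] Y
  gr : V → ℤ → Submodule kk Y

/-- The data of a representation. -/
def Rep.raw {G : SimpleGraph V} (R : Rep G) : Raw V R.X := ⟨R.d, R.a, R.h, R.gr⟩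

/-- Additive maps are linear. -/
def lin {A B : Type} [AddCommGroup A] [Module kk A] [AddCommGroup B] [Module kk B] (f : A → B)
    (hf : ∀ x y, f (x + y) = f x + f y) : A →ₗ[kk] B :=
  (AddMonoidHom.mk' f hf).toZModLinearMap 2

namespace Raw

variable {Y : Type} [AddCommGroup Y] [Module kk Y] (D : Raw V Y)

/-- Same as `Rep.it`. -/
def it (i : V) : Y × (V → Y) →ₗ[kk] Y :=
  D.h i ∘ₗ LinearMap.fst _ _ _ + (∑ k, D.a k i ∘ₗ LinearMap.proj k) ∘ₗ LinearMap.snd _ _ _

omit [DecidableEq V] in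
theorem it_apply (i : V) (y : Y × (V → Y)) : D.it i y = D.h i y.1 + ∑ k, D.a k i (y.2 k) := by
  simp [it, LinearMap.sum_apply]

variable (G : SimpleGraph V) [DecidableRel G.Adj]

/-- Same as `Rep.tau {s}`. -/
def mu (s : V) : Raw V (Y × (V → Y)) where
  d j := if j ∈ ({s} : Finset V) then (D.d j ∘ₗ LinearMap.fst _ _ _).prod
      ((LinearMap.pi fun k => D.d k ∘ₗ LinearMap.proj k) ∘ₗ LinearMap.snd _ _ _ +
        (LinearMap.pi fun k => D.a j k) ∘ₗ LinearMap.fst _ _ _)
    else LinearMap.inl _ _ _ ∘ₗ D.d j ∘ₗ LinearMap.fst _ _ _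
  a j k := if k ∈ ({s} : Finset V) then (if G.Adj j k then
      LinearMap.inr _ _ _ ∘ₗ LinearMap.single kk (fun _ => Y) j ∘ₗ LinearMap.fst _ _ _ else 0)
    else if j ∈ ({s} : Finset V) then LinearMap.inl _ _ _ ∘ₗ D.a j k ∘ₗ D.it j
    else LinearMap.inl _ _ _ ∘ₗ D.a j k ∘ₗ LinearMap.fst _ _ _
  h j := if j ∈ ({s} : Finset V) then LinearMap.inl _ _ _ ∘ₗ D.it j
    else LinearMap.inl _ _ _ ∘ₗ D.h j ∘ₗ LinearMap.fst _ _ _
  gr j n := if j ∈ ({s} : Finset V) then (D.gr j (n + 1)).prod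
      (Submodule.pi Set.univ fun k => if G.Adj j k then D.gr k n else ⊥)
    else (D.gr j n).prod ⊥

variable {G} {s t : V} (j k : V) (n : ℤ) (y : Y × (V → Y))

theorem mu_d : (D.mu G s).d j y = if j = s then
    (D.d j y.1, fun k => D.d k (y.2 k) + D.a j k y.1) else (D.d j y.1, 0) := by
  simp only [mu, Finset.mem_singleton]
  split_ifs <;> rfl

theorem mu_a : (D.mu G s).a j k y = if k = s then (0, if G.Adj j k then Pi.single j y.1 else 0)
    else if j = s then (D.a j k (D.it j y), 0) else (D.a j k y.1, 0) := by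
  simp only [mu, Finset.mem_singleton]
  split_ifs <;> rfl

theorem mu_h : (D.mu G s).h j y = if j = s then (D.it j y, 0) else (D.h j y.1, 0) := by
  simp only [mu, Finset.mem_singleton]
  split_ifs <;> rfl

theorem mu_gr_in : y ∈ (D.mu G s).gr s n ↔ y.1 ∈ D.gr s (n + 1) ∧
    ∀ k, (G.Adj s k → y.2 k ∈ D.gr k n) ∧ (¬G.Adj s k → y.2 k = 0) := by
  simp only [mu, Finset.mem_singleton, if_true, Submodule.mem_prod, Submodule.mem_pi, Set.mem_univ,
    true_implies]
  refine and_congr_right fun _ => forall_congr' fun k => ?_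
  by_cases h : G.Adj s k <;> simp [h]

variable {j} in
theorem mu_gr_out (h : j ≠ s) : y ∈ (D.mu G s).gr j n ↔ y.1 ∈ D.gr j n ∧ y.2 = 0 := by
  simp only [mu, Finset.mem_singleton, if_neg h]
  rfl

theorem it2 (h : t ≠ s) (z : (Y × (V → Y)) × (V → Y × (V → Y))) : (D.mu G s).it t z =
    (D.h t z.1.1 + D.a s t (D.it s (z.2 s)) + ∑ k, if k ≠ s then D.a k t (z.2 k).1 else 0, 0) := by
  have h1 (k : V) : (if k ≠ s then (D.mu G s).a k t (z.2 k) else 0) =
      (if k ≠ s then D.a k t (z.2 k).1 else 0, 0) := by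
    by_cases hk : k = s <;> simp [hk, mu_a, h, Prod.ext_iff]
  rw [it_apply, DBm_split _ s, Finset.sum_congr rfl fun k _ => h1 k]
  simp [mu_h, mu_a, h, Prod.ext_iff, Prod.fst_sum, Prod.snd_sum, add_assoc]

theorem it3 (h : G.Adj s t) (z : ((Y × (V → Y)) × (V → Y × (V → Y))) ×
    (V → (Y × (V → Y)) × (V → Y × (V → Y)))) : ((D.mu G s).mu G t).it s z =
    ((D.it s z.1.1, fun k => if k = t then ((D.mu G s).it t (z.2 t)).1
      else if G.Adj s k then (z.2 k).1.1 else 0), 0) := by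
  have h1 (k : V) : ((D.mu G s).mu G t).a k s (z.2 k) = ((0, Pi.single k (if k = t then
      ((D.mu G s).it t (z.2 t)).1 else if G.Adj s k then (z.2 k).1.1 else 0)), 0) := by
    by_cases hk : k = t
    · simp [hk, mu_a, h.ne, h.symm]
    · by_cases ha : G.Adj s k <;> simp [hk, mu_a, h.ne, ha, G.adj_comm k s]
  rw [it_apply, Finset.sum_congr rfl fun k _ => h1 k]
  simp [mu_h, h.ne, Prod.ext_iff, Prod.fst_sum, Prod.snd_sum, funext_iff, Finset.sum_apply,
    Pi.single_apply]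

end Raw

theorem Rep.raw_tau {G : SimpleGraph V} [DecidableRel G.Adj] (R : Rep G) (s : V) (h : Ind G {s}) :
    (R.tau {s} h).raw = R.raw.mu G s := rfl

end Vale.Agent.P203
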