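import Vale.Agent.P203.DRep

/-!
# P203 DMod: modules over the preprojective algebra and cohomology of a representation (done)
-/

namespace Vale.Agent.P203

variable {V : Type} [Fintype V] [DecidableEq V]

/-- Finite dimensional modules. -/
structure Mod (G : SimpleGraph V) where
  H : V → Type
  [acg : ∀ i, AddCommGroup (H i)]
  [mod : ∀ i, Module kk (H i)]
  [fin : ∀ i, FiniteDimensional kk (H i)]
  a : ∀ i j, H i →ₗ[kk] H j
  a_adj : ∀ i j, ¬ G.Adj i j → a i j = 0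
  rel : ∀ i x, ∑ j, a j i (a i j x) = 0

attribute [instance] Mod.acg Mod.mod Mod.fin

variable {G : SimpleGraph V}

namespace Mod

/-- Dimension at a vertex. -/
noncomputable def dim (M : Mod G) (i : V) : ℕ := Module.finrank kk (M.H i)

/-- The simple module at `i` is not a quotient. -/
def NTop (M : Mod G) (i : V) : Prop := ∀ y : M.H i, ∃ v : ∀ j, M.H j, y = ∑ j, M.a j i (v j)

/-- `N` is a quotient of `M`. -/
def Dom (M N : Mod G) : Prop := ∃ ψ : ∀ i, M.H i →ₗ[kk] N.H i,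
  (∀ i, Function.Surjective (ψ i)) ∧ ∀ i j x, ψ j (M.a i j x) = N.a i j (ψ i x)

/-- `M'` is a reflection of `M` at `I`: unchanged outside `I`, and contains the cokernel of the
arrows out of `i` at `i ∈ I`. -/
def IsPhi (I : Finset V) (M M' : Mod G) : Prop := ∃ e : ∀ j, M.H j →ₗ[kk] M'.H j,
  (∀ j, j ∉ I → Function.Bijective (e j)) ∧
  (∀ j k x, j ∉ I → k ∉ I → e k (M.a j k x) = M'.a j k (e j x)) ∧
  (∀ i ∈ I, ∀ v : ∀ j, M.H j,
    ∑ j, M'.a j i (e j (v j)) = 0 ↔ ∃ x, ∀ j, G.Adj i j → v j = M.a i j x) ∧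
  ∀ i ∈ I, ∀ k, k ∉ I → ∀ v : ∀ j, M.H j,
    M'.a i k (∑ j, M'.a j i (e j (v j))) = e k (M.a i k (∑ j, M.a j i (v j)))

theorem Dom.trans {M N P : Mod G} (h : M.Dom N) (h' : N.Dom P) : M.Dom P := by
  obtain ⟨ψ, h1, h2⟩ := h
  obtain ⟨χ, h3, h4⟩ := h'
  exact ⟨fun i => χ i ∘ₗ ψ i, fun i => (h3 i).comp (h1 i), fun i j x => by simp [h2, h4]⟩

theorem Dom.refl (M : Mod G) : M.Dom M :=
  ⟨fun _ => LinearMap.id, fun _ => Function.surjective_id, fun _ _ _ => rfl⟩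

theorem Dom.dim_le {M N : Mod G} (h : M.Dom N) (i : V) : N.dim i ≤ M.dim i := by
  obtain ⟨ψ, h1, -⟩ := h
  exact LinearMap.finrank_le_finrank_of_surjective (h1 i)

theorem Dom.ntop {M N : Mod G} (h : M.Dom N) {i : V} (hi : M.NTop i) : N.NTop i := by
  obtain ⟨ψ, h1, h2⟩ := h
  intro y
  obtain ⟨x, rfl⟩ := h1 i y
  obtain ⟨v, rfl⟩ := hi x
  exact ⟨fun j => ψ j (v j), by simp [map_sum, h2]⟩

theorem dim_eq_zero {M : Mod G} {i : V} : M.dim i = 0 ↔ ∀ x : M.H i, x = 0 :=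
  finrank_zero_iff_forall_zero

theorem ntop_of_dim {M : Mod G} {i : V} (h : M.dim i = 0) : M.NTop i :=
  fun y => ⟨0, by simp [dim_eq_zero.1 h y]⟩

end Mod

namespace Rep

variable (R : Rep G)

/-- Cocycles. -/
def Zc (i : V) (n : ℤ) : Submodule kk R.X := R.gr i n ⊓ LinearMap.ker (R.d i)

/-- Coboundaries. -/
def Bc (i : V) (n : ℤ) : Submodule kk R.X := (R.gr i (n - 1)).map (R.d i)

theorem mem_Zc {i : V} {n : ℤ} {x : R.X} : x ∈ R.Zc i n ↔ x ∈ R.gr i n ∧ R.d i x = 0 := Iff.rfl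

theorem mem_Bc {i : V} {n : ℤ} {x : R.X} : x ∈ R.Bc i n ↔ ∃ y ∈ R.gr i (n - 1), R.d i y = x :=
  Iff.rfl

instance (i : V) (n : ℤ) : FiniteDimensional kk (R.Zc i n) :=
  Submodule.finiteDimensional_of_le inf_le_left

/-- Cohomology. -/
abbrev Hc (i : V) (n : ℤ) : Type := R.Zc i n ⧸ (R.Bc i n).comap (R.Zc i n).subtype

/-- The class of a cocycle. -/
def cl {i : V} {n : ℤ} (x : R.X) (hx : x ∈ R.Zc i n) : R.Hc i n := Submodule.Quotient.mk ⟨x, hx⟩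

theorem cl_surj {i : V} {n : ℤ} (c : R.Hc i n) : ∃ x hx, c = R.cl x hx := by
  obtain ⟨x, rfl⟩ := Submodule.Quotient.mk_surjective _ c
  exact ⟨x.1, x.2, rfl⟩

theorem cl_eq_zero {i : V} {n : ℤ} {x : R.X} {hx : x ∈ R.Zc i n} :
    R.cl x hx = 0 ↔ x ∈ R.Bc i n := Submodule.Quotient.mk_eq_zero _

theorem cl_add {i : V} {n : ℤ} {x y : R.X} (hx : x ∈ R.Zc i n) (hy : y ∈ R.Zc i n) :
    R.cl x hx + R.cl y hy = R.cl (x + y) (add_mem hx hy) := rfl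

theorem cl_eq {i : V} {n : ℤ} {x y : R.X} {hx : x ∈ R.Zc i n} {hy : y ∈ R.Zc i n} :
    R.cl x hx = R.cl y hy ↔ x + y ∈ R.Bc i n := by
  rw [← R.cl_eq_zero (hx := add_mem hx hy), ← R.cl_add hx hy]
  exact ⟨fun h => by rw [h, add_self2], eq_of_add2⟩

theorem cl_sum {ι : Type} (s : Finset ι) {i : V} {n : ℤ} (x : ι → R.X)
    (hx : ∀ k, x k ∈ R.Zc i n) :
    ∑ k ∈ s, R.cl (x k) (hx k) = R.cl (∑ k ∈ s, x k) (Submodule.sum_mem _ fun k _ => hx k) := by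
  unfold cl
  rw [← Submodule.mkQ_apply]
  simp only [← Submodule.mkQ_apply, ← map_sum]
  congr 1
  exact Subtype.ext (by simp)

/-- The map induced on cohomology by a map preserving cocycles and coboundaries. -/
def ind {R R' : Rep G} {i j : V} {n m : ℤ} (f : R.X →ₗ[kk] R'.X)
    (hz : ∀ x ∈ R.Zc i n, f x ∈ R'.Zc j m) (hb : ∀ x ∈ R.Bc i n, f x ∈ R'.Bc j m) :
    R.Hc i n →ₗ[kk] R'.Hc j m :=
  Submodule.mapQ _ _ (f.restrict hz) fun x hx => hb x.1 hx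

theorem ind_cl {R R' : Rep G} {i j : V} {n m : ℤ} (f : R.X →ₗ[kk] R'.X)
    (hz : ∀ x ∈ R.Zc i n, f x ∈ R'.Zc j m) (hb : ∀ x ∈ R.Bc i n, f x ∈ R'.Bc j m) (x : R.X)
    (hx : x ∈ R.Zc i n) : ind f hz hb (R.cl x hx) = R'.cl (f x) (hz x hx) := rfl

theorem a_Zc (i j : V) (n : ℤ) : ∀ x ∈ R.Zc i n, R.a i j x ∈ R.Zc j n := fun x hx =>
  R.mem_Zc.2 ⟨R.a_gr _ _ _ _ hx.1, by rw [R.da, (R.mem_Zc.1 hx).2, map_zero]⟩

theorem a_Bc (i j : V) (n : ℤ) : ∀ x ∈ R.Bc i n, R.a i j x ∈ R.Bc j n := by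
  rintro _ ⟨y, hy, rfl⟩
  exact ⟨R.a i j y, R.a_gr _ _ _ _ hy, R.da _ _ _⟩

/-- The cohomology module in degree `n`. -/
def coh (n : ℤ) : Mod G where
  H i := R.Hc i n
  a i j := ind (R.a i j) (R.a_Zc i j n) (R.a_Bc i j n)
  a_adj i j h := by
    refine LinearMap.ext fun c => ?_
    obtain ⟨x, hx, rfl⟩ := R.cl_surj c
    rw [ind_cl, LinearMap.zero_apply, cl_eq_zero, R.a_zero h]
    exact zero_mem _
  rel i c := by
    obtain ⟨x, hx, rfl⟩ := R.cl_surj c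
    simp only [ind_cl]
    rw [R.cl_sum, cl_eq_zero, ← R.dh, (R.mem_Zc.1 hx).2, map_zero, add_zero]
    exact ⟨_, R.h_gr _ _ _ (by simpa using hx.1), rfl⟩

theorem coh_a (n : ℤ) (i j : V) (x : R.X) (hx : x ∈ R.Zc i n) :
    (R.coh n).a i j (R.cl x hx) = R.cl (R.a i j x) (R.a_Zc i j n x hx) := rfl

end Rep

end Vale.Agent.P203
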