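import Vale.Agent.P203.DMod

/-!
# P203 DMod1: reflections of modules (TASK, linear algebra)
For `i ∈ I` let `W i = ∀ j : {j // G.Adj i j}, M.H j`, `out : M.H i → W i`, `inn : W i → M.H i`
(`inn ∘ out = 0` by `M.rel`), `π : W i → M'.H i`, `v ↦ ∑ j, M'.a j i (e j (v j))` (extend `v` by zero).
`IsPhi` says `ker π = range out`; neighbours of `i` are outside `I`, so `M'.NTop i` iff `π` is onto.
* `phi_sub`: `dim W = dim ker π + dim range π`. `phi_ge`: `inn` is onto and kills `ker π`.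
* `dom_del`: `ψ i` is `inn` factored through the surjection `π` (for `i ∈ I`), `(e j)⁻¹` outside.
* `dom_phi`: `ψ' i` is `π_N ∘ ψ` factored through `π_M`, `e_N ∘ ψ ∘ e_M⁻¹` outside.
* `dom_inert`: for `i ∈ I`, `rank out ≥ dim W - dim M' i ≥ dim M i`, so `out` is injective; `ker inn` has dimension
  `dim W - dim M i`, and `dim W ≤ dim M i + dim M' i ≤ 2 dim M i`, so `ker inn = range out`. For `x : P.H i` the vector
  `j ↦ e j (P.a i j x)` is killed by `inn`, so it is `out (ψ x)` for a unique `ψ x`. Onto: if `y = π v` then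
  `ψ (∑ j, P.a j i (v j)) = y` by the last clause of `IsPhi I P M`. Outside `I` take `ψ = e`.
A factorization through a surjection: `LinearMap.exists_rightInverse_of_surjective`.
-/

namespace Vale.Agent.P203.Mod

variable {V : Type} [Fintype V] [DecidableEq V] {G : SimpleGraph V} [DecidableRel G.Adj]
  {I : Finset V} {M M' N N' P : Mod G}

/-- the sum of the arrows into `i` -/
def dm1Sm (M M' : Mod G) (e : ∀ j, M.H j →ₗ[kk] M'.H j) (i : V) :
    (∀ j, M.H j) →ₗ[kk] M'.H i := ∑ j, (M'.a j i ∘ₗ e j) ∘ₗ LinearMap.proj j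

/-- the arrows out of `i` -/
def dm1Out (M : Mod G) (i : V) : M.H i →ₗ[kk] ∀ j, M.H j := LinearMap.pi fun j => M.a i j

/-- restriction to the neighbours -/
def dm1Res (M : Mod G) (i : V) : (∀ j, M.H j) →ₗ[kk] ∀ j : {j // G.Adj i j}, M.H j :=
  LinearMap.pi fun j => LinearMap.proj j.1

/-- extension by zero -/
def dm1Ext (M : Mod G) (i : V) : (∀ j : {j // G.Adj i j}, M.H j) →ₗ[kk] ∀ j, M.H j :=
  LinearMap.pi fun j => if h : G.Adj i j then LinearMap.proj (⟨j, h⟩ : {j // G.Adj i j}) else 0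

section
omit [DecidableRel G.Adj]

omit [DecidableEq V] in
theorem dm1Sm_apply (e : ∀ j, M.H j →ₗ[kk] M'.H j) (i : V) (v : ∀ j, M.H j) :
    dm1Sm M M' e i v = ∑ j, M'.a j i (e j (v j)) := by
  simp only [dm1Sm, LinearMap.sum_apply, LinearMap.comp_apply, LinearMap.proj_apply]

theorem dm1Sm_single (M M' : Mod G) (e : ∀ j, M.H j →ₗ[kk] M'.H j) (i j : V) (x : M.H j) :
    dm1Sm M M' e i (Pi.single j x) = M'.a j i (e j x) := by
  rw [dm1Sm_apply, Finset.sum_eq_single j, Pi.single_eq_same]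
  · intro k _ hk
    rw [Pi.single_eq_of_ne hk, map_zero, map_zero]
  · exact fun h => absurd (Finset.mem_univ j) h

omit [DecidableEq V] in
theorem dm1_a (M : Mod G) {i j : V} (h : ¬ G.Adj i j) (x : M.H j) : M.a j i x = 0 := by
  rw [M.a_adj j i fun h' => h h'.symm, LinearMap.zero_apply]

omit [DecidableEq V] in
theorem dm1_inn {i : V} {v : ∀ j, M.H j} (h : ∃ x, ∀ j, G.Adj i j → v j = M.a i j x) :
    ∑ j, M.a j i (LinearMap.id (R := kk) (v j)) = 0 := by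
  obtain ⟨x, hx⟩ := h
  rw [← M.rel i x]
  refine Finset.sum_congr rfl fun j _ => ?_
  by_cases hj : G.Adj i j
  · rw [hx j hj, LinearMap.id_apply]
  · rw [dm1_a M hj, dm1_a M hj]

omit [DecidableEq V] in
theorem dm1_inn_surj {i : V} (h : M.NTop i) :
    Function.Surjective (dm1Sm M M (fun _ => LinearMap.id) i) := fun y => by
  obtain ⟨v, rfl⟩ := h y
  exact ⟨v, dm1Sm_apply _ _ _⟩

theorem dm1_surj (hI : Ind G I) {e : ∀ j, M.H j →ₗ[kk] M'.H j}
    (he : ∀ j, j ∉ I → Function.Bijective (e j)) {i : V} (hi : i ∈ I) (h : M'.NTop i) :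
    Function.Surjective (dm1Sm M M' e i) := fun y => by
  obtain ⟨w, rfl⟩ := h y
  have key : ∀ j, ∃ x : M.H j, M'.a j i (e j x) = M'.a j i (w j) := fun j => by
    by_cases hj : j ∈ I
    · exact ⟨0, by rw [dm1_a M' (hI i hi j hj), dm1_a M' (hI i hi j hj)]⟩
    · obtain ⟨x, hx⟩ := (he j hj).2 (w j)
      exact ⟨x, by rw [hx]⟩
  choose v hv using key
  exact ⟨v, by simp only [dm1Sm_apply, hv]⟩

theorem dm1_fac {U A B : Type} [AddCommGroup U] [Module kk U] [AddCommGroup A] [Module kk A]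
    [AddCommGroup B] [Module kk B] (p : U →ₗ[kk] A) (q : U →ₗ[kk] B)
    (hp : Function.Surjective p) (h : ∀ v, p v = 0 → q v = 0) :
    ∃ ψ : A →ₗ[kk] B, ∀ v, ψ (p v) = q v := by
  obtain ⟨s, hs⟩ := p.exists_rightInverse_of_surjective (LinearMap.range_eq_top.2 hp)
  refine ⟨q ∘ₗ s, fun v => ?_⟩
  have h1 : p (s (p v)) = p v := LinearMap.congr_fun hs (p v)
  rw [LinearMap.comp_apply, ← sub_eq_zero, ← map_sub]
  exact h _ (by rw [map_sub, h1, sub_self])

end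

omit [DecidableEq V] in
theorem dm1Ext_adj {i j : V} (h : G.Adj i j) (w : ∀ j : {j // G.Adj i j}, M.H j) :
    dm1Ext M i w j = w ⟨j, h⟩ := by
  rw [dm1Ext, LinearMap.pi_apply, dif_pos h, LinearMap.proj_apply]

omit [DecidableEq V] in
theorem dm1Sm_ext (e : ∀ j, M.H j →ₗ[kk] M'.H j) (i : V) (v : ∀ j, M.H j) :
    dm1Sm M M' e i (dm1Ext M i (dm1Res M i v)) = dm1Sm M M' e i v := by
  rw [dm1Sm_apply, dm1Sm_apply]
  refine Finset.sum_congr rfl fun j _ => ?_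
  by_cases hj : G.Adj i j
  · rw [dm1Ext_adj hj]
    rfl
  · rw [dm1_a M' hj, dm1_a M' hj]

omit [DecidableEq V] in
theorem dm1_rank (M : Mod G) (i : V) : Module.finrank kk (∀ j : {j // G.Adj i j}, M.H j) =
    ∑ j, (if G.Adj i j then M.dim j else 0) := by
  rw [Module.finrank_pi_fintype, ← Finset.sum_filter]
  exact (Finset.sum_subtype _ (by simp) fun j => M.dim j).symm

omit [DecidableEq V] in
theorem dm1_count (e : ∀ j, M.H j →ₗ[kk] M'.H j) {i : V} (h : ∀ v : ∀ j, M.H j,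
    ∑ j, M'.a j i (e j (v j)) = 0 ↔ ∃ x, ∀ j, G.Adj i j → v j = M.a i j x) :
    ∑ j, (if G.Adj i j then M.dim j else 0) ≤
      Module.finrank kk (LinearMap.range (dm1Res M i ∘ₗ dm1Out M i)) + M'.dim i := by
  have h1 := (dm1Sm M M' e i ∘ₗ dm1Ext M i).finrank_range_add_finrank_ker
  have h2 : LinearMap.ker (dm1Sm M M' e i ∘ₗ dm1Ext M i) ≤
      LinearMap.range (dm1Res M i ∘ₗ dm1Out M i) := fun w hw => by
    rw [LinearMap.mem_ker, LinearMap.comp_apply, dm1Sm_apply] at hw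
    obtain ⟨x, hx⟩ := (h _).1 hw
    refine ⟨x, funext fun j => ?_⟩
    rw [← dm1Ext_adj j.2 w, hx j j.2]
    rfl
  have h3 := Submodule.finrank_mono h2
  have h4 := Submodule.finrank_le (LinearMap.range (dm1Sm M M' e i ∘ₗ dm1Ext M i))
  rw [dm1_rank] at h1
  unfold dim at h1 ⊢
  omega

omit [DecidableEq V] in
theorem dm1_exact (e : ∀ j, M.H j →ₗ[kk] M'.H j) {i : V} (h : ∀ v : ∀ j, M.H j,
    ∑ j, M'.a j i (e j (v j)) = 0 ↔ ∃ x, ∀ j, G.Adj i j → v j = M.a i j x) (hM : M.NTop i)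
    (h1 : M'.dim i ≤ M.dim i) (h2 : 2 * M.dim i ≤ ∑ j, (if G.Adj i j then M.dim j else 0)) :
    Function.Injective (dm1Out M i) ∧ ∀ v : ∀ j, M.H j, ∑ j, M.a j i (v j) = 0 →
      (∀ j, ¬ G.Adj i j → v j = 0) → ∃ x, v = dm1Out M i x := by
  have a1 := dm1_count e h
  have a2 := (dm1Res M i ∘ₗ dm1Out M i).finrank_range_add_finrank_ker
  have a3 := (dm1Sm M M (fun _ => LinearMap.id) i ∘ₗ dm1Ext M i).finrank_range_add_finrank_ker
  have a4 : LinearMap.range (dm1Sm M M (fun _ => LinearMap.id) i ∘ₗ dm1Ext M i) = ⊤ := by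
    refine LinearMap.range_eq_top.2 fun y => ?_
    obtain ⟨v, rfl⟩ := dm1_inn_surj hM y
    exact ⟨_, dm1Sm_ext _ i v⟩
  have a5 : LinearMap.range (dm1Res M i ∘ₗ dm1Out M i) ≤
      LinearMap.ker (dm1Sm M M (fun _ => LinearMap.id) i ∘ₗ dm1Ext M i) := by
    rintro _ ⟨x, rfl⟩
    rw [LinearMap.mem_ker, LinearMap.comp_apply, LinearMap.comp_apply, dm1Sm_ext, dm1Sm_apply]
    exact dm1_inn ⟨x, fun _ _ => rfl⟩
  rw [a4, finrank_top, dm1_rank] at a3
  unfold dim at a1 a3 h1 h2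
  refine ⟨?_, fun v hv h0 => ?_⟩
  · have a6 : LinearMap.ker (dm1Res M i ∘ₗ dm1Out M i) = ⊥ :=
      Submodule.finrank_eq_zero.1 (by omega)
    exact Function.Injective.of_comp (f := dm1Res M i) (LinearMap.ker_eq_bot.1 a6)
  · have a6 := Submodule.eq_of_le_of_finrank_le a5 (by omega)
    have a7 : dm1Res M i v ∈ LinearMap.range (dm1Res M i ∘ₗ dm1Out M i) := by
      rw [a6, LinearMap.mem_ker, LinearMap.comp_apply, dm1Sm_ext, dm1Sm_apply]
      exact hv
    obtain ⟨x, hx⟩ := a7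
    refine ⟨x, funext fun j => ?_⟩
    by_cases hj : G.Adj i j
    · exact (congrFun hx ⟨j, hj⟩).symm
    · rw [h0 j hj]
      exact (LinearMap.congr_fun (M.a_adj i j hj) x).symm

theorem phi_dim (h : IsPhi I M M') {j : V} (hj : j ∉ I) : M'.dim j = M.dim j := by
  obtain ⟨e, h1, -⟩ := h
  exact (LinearEquiv.ofBijective (e j) (h1 j hj)).finrank_eq.symm

theorem phi_sub (hI : Ind G I) (h : IsPhi I M M') {i : V} (hi : i ∈ I) :
    ∑ j, (if G.Adj i j then M.dim j else 0) ≤ M.dim i + M'.dim i := by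
  obtain ⟨e, -, -, h3, -⟩ := h
  have h1 := dm1_count e (h3 i hi)
  have h2 := LinearMap.finrank_range_le (dm1Res M i ∘ₗ dm1Out M i)
  exact h1.trans (Nat.add_le_add_right h2 _)

theorem phi_ge (hI : Ind G I) (h : IsPhi I M M') {i : V} (hi : i ∈ I) (hM : M.NTop i) :
    M.dim i ≤ M'.dim i := by
  obtain ⟨e, -, -, h3, -⟩ := h
  have h1 := (dm1Sm M M' e i).finrank_range_add_finrank_ker
  have h2 := (dm1Sm M M (fun _ => LinearMap.id) i).finrank_range_add_finrank_ker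
  have h4 : LinearMap.ker (dm1Sm M M' e i) ≤
      LinearMap.ker (dm1Sm M M (fun _ => LinearMap.id) i) := fun v hv => by
    rw [LinearMap.mem_ker, dm1Sm_apply] at hv ⊢
    exact dm1_inn ((h3 i hi v).1 hv)
  have h5 := Submodule.finrank_mono h4
  have h6 := Submodule.finrank_le (LinearMap.range (dm1Sm M M' e i))
  rw [LinearMap.range_eq_top.2 (dm1_inn_surj hM), finrank_top] at h2
  unfold dim
  omega

theorem phi_zero (hI : Ind G I) (h : IsPhi I M M') {i : V} (hi : i ∈ I) (hM' : M'.NTop i)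
    (h0 : ∀ j, G.Adj i j → M.dim j = 0) : M'.dim i = 0 := by
  obtain ⟨e, h1, -⟩ := h
  refine dim_eq_zero.2 fun y => ?_
  obtain ⟨v, rfl⟩ := dm1_surj hI h1 hi hM' y
  rw [dm1Sm_apply]
  refine Finset.sum_eq_zero fun j _ => ?_
  by_cases hj : G.Adj i j
  · rw [dim_eq_zero.1 (h0 j hj) (v j), map_zero, map_zero]
  · rw [dm1_a M' hj]

theorem dom_del (hI : Ind G I) (h : IsPhi I M M') (hM : ∀ i ∈ I, M.NTop i)
    (hM' : ∀ i ∈ I, M'.NTop i) : M'.Dom M := by
  obtain ⟨e, h1, h2, h3, h4⟩ := h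
  have key : ∀ i, ∃ ψ : M'.H i →ₗ[kk] M.H i,
      (i ∈ I → ∀ v, ψ (dm1Sm M M' e i v) = dm1Sm M M (fun _ => LinearMap.id) i v) ∧
      (i ∉ I → ∀ x, ψ (e i x) = x) := by
    intro i
    by_cases hi : i ∈ I
    · obtain ⟨ψ, hψ⟩ := dm1_fac _ (dm1Sm M M (fun _ => LinearMap.id) i)
        (dm1_surj hI h1 hi (hM' i hi)) fun v hv => by
          rw [dm1Sm_apply] at hv ⊢
          exact dm1_inn ((h3 i hi v).1 hv)
      exact ⟨ψ, fun _ => hψ, fun h => absurd hi h⟩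
    · obtain ⟨ψ, hψ⟩ := dm1_fac _ LinearMap.id (h1 i hi).2 fun v hv =>
        (h1 i hi).1 (hv.trans (map_zero _).symm)
      exact ⟨ψ, fun h => absurd h hi, fun _ => hψ⟩
  choose ψ k1 k2 using key
  refine ⟨ψ, fun i y => ?_, fun i j x => ?_⟩
  · by_cases hi : i ∈ I
    · obtain ⟨v, rfl⟩ := dm1_inn_surj (hM i hi) y
      exact ⟨_, k1 i hi v⟩
    · exact ⟨_, k2 i hi y⟩
  · by_cases hi : i ∈ I
    · by_cases hj : j ∈ I
      · rw [M.a_adj i j (hI i hi j hj), M'.a_adj i j (hI i hi j hj), LinearMap.zero_apply,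
          LinearMap.zero_apply, map_zero]
      · obtain ⟨v, rfl⟩ := dm1_surj hI h1 hi (hM' i hi) x
        rw [k1 i hi, dm1Sm_apply, h4 i hi j hj, k2 j hj, dm1Sm_apply]
        rfl
    · obtain ⟨x, rfl⟩ := (h1 i hi).2 x
      by_cases hj : j ∈ I
      · rw [k2 i hi, ← dm1Sm_single, k1 j hj, dm1Sm_single]
        rfl
      · rw [k2 i hi, ← h2 i j x hi hj, k2 j hj]

theorem dom_phi (hI : Ind G I) (hd : M.Dom N) (h : IsPhi I M M') (h' : IsPhi I N N')
    (hM' : ∀ i ∈ I, M'.NTop i) (hN' : ∀ i ∈ I, N'.NTop i) : M'.Dom N' := by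
  obtain ⟨φ, d1, d2⟩ := hd
  obtain ⟨e, h1, h2, h3, h4⟩ := h
  obtain ⟨e', g1, g2, g3, g4⟩ := h'
  have key : ∀ i, ∃ ψ : M'.H i →ₗ[kk] N'.H i,
      (i ∈ I → ∀ v, ψ (dm1Sm M M' e i v) = dm1Sm M N' (fun j => e' j ∘ₗ φ j) i v) ∧
      (i ∉ I → ∀ x, ψ (e i x) = e' i (φ i x)) := by
    intro i
    by_cases hi : i ∈ I
    · obtain ⟨ψ, hψ⟩ := dm1_fac _ (dm1Sm M N' (fun j => e' j ∘ₗ φ j) i)
        (dm1_surj hI h1 hi (hM' i hi)) fun v hv => by
          rw [dm1Sm_apply] at hv ⊢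
          obtain ⟨x, hx⟩ := (h3 i hi v).1 hv
          exact (g3 i hi fun j => φ j (v j)).2 ⟨φ i x, fun j hj => by rw [hx j hj, d2]⟩
      exact ⟨ψ, fun _ => hψ, fun h => absurd hi h⟩
    · obtain ⟨ψ, hψ⟩ := dm1_fac _ (e' i ∘ₗ φ i) (h1 i hi).2 fun v hv => by
        rw [(h1 i hi).1 (hv.trans (map_zero _).symm), map_zero]
      exact ⟨ψ, fun h => absurd h hi, fun _ => hψ⟩
  choose ψ k1 k2 using key
  refine ⟨ψ, fun i y => ?_, fun i j x => ?_⟩
  · by_cases hi : i ∈ I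
    · obtain ⟨w, rfl⟩ := dm1_surj hI g1 hi (hN' i hi) y
      choose v hv using fun j => d1 j (w j)
      refine ⟨_, (k1 i hi v).trans ?_⟩
      simp only [dm1Sm_apply, LinearMap.comp_apply, hv]
    · obtain ⟨w, rfl⟩ := (g1 i hi).2 y
      obtain ⟨v, rfl⟩ := d1 i w
      exact ⟨_, k2 i hi v⟩
  · by_cases hi : i ∈ I
    · by_cases hj : j ∈ I
      · rw [N'.a_adj i j (hI i hi j hj), M'.a_adj i j (hI i hi j hj), LinearMap.zero_apply,
          LinearMap.zero_apply, map_zero]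
      · obtain ⟨v, rfl⟩ := dm1_surj hI h1 hi (hM' i hi) x
        have h5 := g4 i hi j hj fun k => φ k (v k)
        rw [k1 i hi, dm1Sm_apply, h4 i hi j hj, k2 j hj, dm1Sm_apply, d2, map_sum (φ i)]
        simp only [d2]
        exact h5.symm
    · obtain ⟨x, rfl⟩ := (h1 i hi).2 x
      by_cases hj : j ∈ I
      · rw [k2 i hi, ← dm1Sm_single, k1 j hj, dm1Sm_single]
        rfl
      · rw [k2 i hi, ← h2 i j x hi hj, k2 j hj, d2, g2 i j _ hi hj]

theorem dom_inert (hI : Ind G I) (hP : IsPhi I P M) (h : IsPhi I M M') (hM : ∀ i ∈ I, M.NTop i)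
    (h1 : ∀ i ∈ I, M'.dim i ≤ M.dim i)
    (h2 : ∀ i ∈ I, 2 * M.dim i ≤ ∑ j, (if G.Adj i j then M.dim j else 0)) : P.Dom M := by
  obtain ⟨e, g1, g2, g3, g4⟩ := hP
  obtain ⟨e', -, -, h3, -⟩ := h
  have key : ∀ i, ∃ ψ : P.H i →ₗ[kk] M.H i,
      (i ∈ I → (∀ x j, M.a i j (ψ x) = e j (P.a i j x)) ∧
        ∀ v, ψ (dm1Sm P P (fun _ => LinearMap.id) i v) = dm1Sm P M e i v) ∧
      (i ∉ I → ∀ x, ψ x = e i x) := by
    intro i
    by_cases hi : i ∈ I
    · obtain ⟨a1, a2⟩ := dm1_exact e' (h3 i hi) (hM i hi) (h1 i hi) (h2 i hi)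
      obtain ⟨l, hl⟩ := (dm1Out M i).exists_leftInverse_of_injective (LinearMap.ker_eq_bot.2 a1)
      have b1 : ∀ x j, M.a i j ((l ∘ₗ LinearMap.pi fun j => e j ∘ₗ P.a i j) x) =
          e j (P.a i j x) := by
        intro x j
        obtain ⟨y, hy⟩ := a2 (fun j => e j (P.a i j x))
          ((g3 i hi fun j => P.a i j x).2 ⟨x, fun _ _ => rfl⟩) fun j hj => by
            rw [P.a_adj i j hj, LinearMap.zero_apply, map_zero]
        have c1 : (LinearMap.pi fun j => e j ∘ₗ P.a i j) x = dm1Out M i y := hy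
        have c2 : l (dm1Out M i y) = y := LinearMap.congr_fun hl y
        rw [LinearMap.comp_apply, c1, c2]
        exact (congrFun hy j).symm
      refine ⟨_, fun _ => ⟨b1, fun v => a1 (funext fun j => ?_)⟩, fun h => absurd hi h⟩
      change M.a i j _ = M.a i j _
      by_cases hj : j ∈ I
      · rw [M.a_adj i j (hI i hi j hj), LinearMap.zero_apply, LinearMap.zero_apply]
      · rw [b1, dm1Sm_apply, dm1Sm_apply, g4 i hi j hj]
        rfl
    · exact ⟨e i, fun h => absurd h hi, fun _ _ => rfl⟩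
  choose ψ k1 k2 using key
  refine ⟨ψ, fun i y => ?_, fun i j x => ?_⟩
  · by_cases hi : i ∈ I
    · obtain ⟨v, rfl⟩ := dm1_surj hI g1 hi (hM i hi) y
      exact ⟨_, (k1 i hi).2 v⟩
    · obtain ⟨v, rfl⟩ := (g1 i hi).2 y
      exact ⟨_, k2 i hi v⟩
  · by_cases hi : i ∈ I
    · by_cases hj : j ∈ I
      · rw [M.a_adj i j (hI i hi j hj), P.a_adj i j (hI i hi j hj), LinearMap.zero_apply,
          LinearMap.zero_apply, map_zero]
      · rw [(k1 i hi).1, k2 j hj]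
    · by_cases hj : j ∈ I
      · rw [k2 i hi, ← dm1Sm_single P M e, ← (k1 j hj).2, dm1Sm_single]
        rfl
      · rw [k2 i hi, k2 j hj, g2 i j x hi hj]

end Vale.Agent.P203.Mod
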