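import Vale.Agent.P203.DMod

/-!
# P203 DMod2: tops of modules (TASK, linear algebra)
* `dom_simple`: the range of `v ↦ ∑ j, M.a j i (v j)` is a proper subspace, take a nonzero functional
  killing it (`Submodule.exists_le_ker_of_lt_top`), compose with `kk ≃ N.H i`; zero at the other vertices.
* `zero_of_ntop`: consider all families `K j : Submodule kk (M.H j)`
  with `M.a j k (K j) ≤ K k` for `j, k ∈ T` and `K i ≠ ⊤` for some
  `i ∈ T` (if `M` is nonzero on `T`, `K = ⊥` is one). Take one with `∑ j ∈ T, finrank (K j)` maximal. For `i ∈ T` put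
  `K' = {x | ∀ j ∈ T, M.a i j x ∈ K j} ≥ K i`; `Function.update K i K'` is stable. If it were `⊤` on `T` then
  `K j = ⊤` for `j ≠ i`, so `NTop` (neighbours outside `T` are zero) gives `K i = ⊤`, absurd. So `K' = K i` by maximality.
  With `c j = dim M j - finrank (K j)`: `2 c i ≤ ∑ j ∈ T adjacent to i, c j` (the complex
  `M i / K i → ∏ M j / K j → M i / K i` is injective, onto, composite zero). Multiply by `θ i`, sum over `T`,
  use symmetry of `Adj` and `hθ`: all `c i = 0`, absurd.
-/

namespace Vale.Agent.P203.Mod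

variable {V : Type} [Fintype V] [DecidableEq V] {G : SimpleGraph V} [DecidableRel G.Adj]
  {M N : Mod G}

theorem dom_simple {i : V} (h : ¬ M.NTop i) (h1 : N.dim i = 1) (h0 : ∀ j, j ≠ i → N.dim j = 0) :
    M.Dom N := by
  let S : (∀ j, M.H j) →ₗ[kk] M.H i := ∑ j, M.a j i ∘ₗ LinearMap.proj j
  have hS : ∀ v, S v = ∑ j, M.a j i (v j) := fun v => by simp [S, LinearMap.sum_apply]
  have hlt : LinearMap.range S < ⊤ := by
    refine lt_top_iff_ne_top.2 fun ht => h fun y => ?_
    obtain ⟨v, hv⟩ := LinearMap.range_eq_top.1 ht y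
    exact ⟨v, by rw [← hv, hS]⟩
  obtain ⟨f, hf0, hf⟩ := Submodule.exists_le_ker_of_lt_top _ hlt
  obtain ⟨w, -, hw⟩ := finrank_eq_one_iff'.1 h1
  refine ⟨Function.update 0 i (f.smulRight w), fun j y => ?_, fun j k x => ?_⟩
  · by_cases hj : j = i
    · subst hj
      obtain ⟨c, rfl⟩ := hw y
      obtain ⟨x, hx⟩ := LinearMap.surjective_of_ne_zero hf0 c
      exact ⟨x, by simp [hx]⟩
    · exact ⟨0, by rw [dim_eq_zero.1 (h0 j hj) y, map_zero]⟩
  · by_cases hk : k = i
    · subst hk
      have h2 : f (M.a j k x) = 0 := by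
        refine hf ⟨Pi.single j x, ?_⟩
        rw [hS, Finset.sum_eq_single j (fun l _ hl => by simp [hl]) (by simp)]
        simp
      rw [Function.update_self, LinearMap.smulRight_apply, h2, zero_smul]
      by_cases hj : j = k
      · subst hj
        rw [N.a_adj j j G.irrefl, LinearMap.zero_apply]
      · rw [dim_eq_zero.1 (h0 j hj) (Function.update (0 : ∀ j, M.H j →ₗ[kk] N.H j) k _ j x),
          map_zero]
    · rw [dim_eq_zero.1 (h0 k hk) (N.a j k _), dim_eq_zero.1 (h0 k hk) (Function.update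
        (0 : ∀ j, M.H j →ₗ[kk] N.H j) i _ k _)]

theorem dmod2_ineq (K : ∀ j, Submodule kk (M.H j)) (hK : ∀ j k, ∀ x ∈ K j, M.a j k x ∈ K k)
    {i : V} (hi : M.NTop i) (hs : ∀ x, (∀ j, M.a i j x ∈ K j) → x ∈ K i) :
    2 * Module.finrank kk (M.H i ⧸ K i) ≤
      ∑ j, if G.Adj i j then Module.finrank kk (M.H j ⧸ K j) else 0 := by
  let L : ∀ j, Submodule kk (M.H j) := fun j => if G.Adj i j then K j else ⊤
  have hL : ∀ j, L j ≤ (K i).comap (M.a j i) := fun j x hx => by
    by_cases h : G.Adj i j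
    · exact hK j i x (by simpa [L, h] using hx)
    · rw [Submodule.mem_comap, M.a_adj j i fun h' => h h'.symm]
      exact zero_mem _
  have hL' : ∀ j, K i ≤ (L j).comap (M.a i j) := fun j x hx => by
    by_cases h : G.Adj i j
    · simpa [L, h] using hK i j x hx
    · simp [L, h]
  let α : (M.H i ⧸ K i) →ₗ[kk] ∀ j, M.H j ⧸ L j :=
    LinearMap.pi fun j => Submodule.mapQ _ _ (M.a i j) (hL' j)
  let β : (∀ j, M.H j ⧸ L j) →ₗ[kk] M.H i ⧸ K i :=
    ∑ j, Submodule.mapQ _ _ (M.a j i) (hL j) ∘ₗ LinearMap.proj j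
  have hβ : ∀ v : ∀ j, M.H j, β (fun j => Submodule.Quotient.mk (v j)) =
      Submodule.Quotient.mk (∑ j, M.a j i (v j)) := fun v => by
    rw [← Submodule.mkQ_apply, map_sum]
    simp [β, LinearMap.sum_apply]
  have h1 : Function.Injective α := by
    refine (injective_iff_map_eq_zero α).2 fun c hc => ?_
    obtain ⟨x, rfl⟩ := Submodule.Quotient.mk_surjective _ c
    refine (Submodule.Quotient.mk_eq_zero _).2 (hs x fun j => ?_)
    have h2 : M.a i j x ∈ L j := (Submodule.Quotient.mk_eq_zero _).1 (congrFun hc j)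
    by_cases h : G.Adj i j
    · simpa [L, h] using h2
    · rw [M.a_adj i j h]
      exact zero_mem _
  have h2 : LinearMap.range β = ⊤ := by
    refine LinearMap.range_eq_top.2 fun c => ?_
    obtain ⟨y, rfl⟩ := Submodule.Quotient.mk_surjective _ c
    obtain ⟨v, rfl⟩ := hi y
    exact ⟨_, hβ v⟩
  have h3 : LinearMap.range α ≤ LinearMap.ker β := by
    rintro _ ⟨c, rfl⟩
    obtain ⟨x, rfl⟩ := Submodule.Quotient.mk_surjective _ c
    have := hβ fun j => M.a i j x
    rw [M.rel, Submodule.Quotient.mk_zero] at this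
    exact this
  have h4 := LinearMap.finrank_range_add_finrank_ker β
  have h5 := Submodule.finrank_mono h3
  rw [LinearMap.finrank_range_of_inj h1] at h5
  rw [h2, finrank_top, Module.finrank_pi_fintype] at h4
  have h6 : ∀ j, Module.finrank kk (M.H j ⧸ L j) =
      if G.Adj i j then Module.finrank kk (M.H j ⧸ K j) else 0 := fun j => by
    by_cases h : G.Adj i j
    · rw [if_pos h, show L j = K j from if_pos h]
    · rw [if_neg h, show L j = ⊤ from if_neg h]
      exact Module.finrank_zero_of_subsingleton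
  rw [← Finset.sum_congr rfl fun j _ => h6 j]
  omega

theorem dmod2_num (T : Finset V) (θ : V → ℝ) (h0 : ∀ i ∈ T, 0 < θ i)
    (hθ : ∀ i ∈ T, ∑ j ∈ T, (if G.Adj i j then θ j else 0) < 2 * θ i) (c : V → ℕ)
    (hc : ∀ j, j ∉ T → c j = 0) (h : ∀ i ∈ T, 2 * c i ≤ ∑ j, if G.Adj i j then c j else 0) :
    ∀ i, c i = 0 := by
  by_contra hne
  push Not at hne
  obtain ⟨i, hi⟩ := hne
  have hiT : i ∈ T := by
    by_contra h'
    exact hi (hc i h')
  have h1 : ∑ i ∈ T, θ i * (2 * c i) ≤ ∑ i ∈ T, ∑ j ∈ T, if G.Adj i j then θ i * c j else 0 := by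
    refine Finset.sum_le_sum fun k hk => ?_
    have h2 : (∑ j, if G.Adj k j then c j else 0) = ∑ j ∈ T, if G.Adj k j then c j else 0 :=
      (Finset.sum_subset (Finset.subset_univ T) fun j _ hj => by simp [hc j hj]).symm
    have h3 := h k hk
    rw [h2] at h3
    have h4 : (2 * c k : ℝ) ≤ ∑ j ∈ T, if G.Adj k j then (c j : ℝ) else 0 := by exact_mod_cast h3
    refine (mul_le_mul_of_nonneg_left h4 (h0 k hk).le).trans (le_of_eq ?_)
    rw [Finset.mul_sum]
    exact Finset.sum_congr rfl fun j _ => by split_ifs <;> simp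
  have h2 : ∑ j ∈ T, ∑ i ∈ T, (if G.Adj i j then θ i * c j else 0) < ∑ j ∈ T, θ j * (2 * c j) := by
    have h3 : ∀ j, ∑ i ∈ T, (if G.Adj i j then θ i * c j else 0) =
        (∑ i ∈ T, if G.Adj j i then θ i else 0) * c j := fun j => by
      rw [Finset.sum_mul]
      exact Finset.sum_congr rfl fun k _ => by
        simp only [G.adj_comm k j]
        split_ifs <;> simp
    refine Finset.sum_lt_sum (fun j hj => ?_) ⟨i, hiT, ?_⟩
    · rw [h3]
      nlinarith [hθ j hj, (Nat.cast_nonneg (c j) : (0 : ℝ) ≤ c j)]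
    · rw [h3]
      have : (0 : ℝ) < c i := by exact_mod_cast Nat.pos_of_ne_zero hi
      nlinarith [hθ i hiT]
  rw [Finset.sum_comm] at h2
  linarith

theorem zero_of_ntop (T : Finset V) (θ : V → ℝ) (h0 : ∀ i ∈ T, 0 < θ i)
    (hθ : ∀ i ∈ T, ∑ j ∈ T, (if G.Adj i j then θ j else 0) < 2 * θ i)
    (hM : ∀ i ∈ T, M.NTop i) (hout : ∀ i ∈ T, ∀ j, j ∉ T → G.Adj i j → M.dim j = 0) :
    ∀ i ∈ T, M.dim i = 0 := by
  have hwf : WellFoundedGT (∀ j, Submodule kk (M.H j)) :=
    Pi.wellFoundedLT (α := fun j => (Submodule kk (M.H j))ᵒᵈ)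
  have key : ∀ K : ∀ j, Submodule kk (M.H j), (∀ j k, ∀ x ∈ K j, M.a j k x ∈ K k) →
      (∀ j, j ∉ T → K j = ⊤) → ∀ j, K j = ⊤ := by
    intro K
    induction K using WellFoundedGT.induction with
    | ind K ih =>
      intro hK hT
      by_cases hs : ∀ i ∈ T, ∀ x, (∀ j, M.a i j x ∈ K j) → x ∈ K i
      · have h1 := dmod2_num T θ h0 hθ (fun j => Module.finrank kk (M.H j ⧸ K j))
          (fun j hj => by
            rw [hT j hj]
            exact Module.finrank_zero_of_subsingleton)
          fun i hi => dmod2_ineq K hK (hM i hi) (hs i hi)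
        intro j
        refine eq_top_iff.2 fun x _ => (Submodule.Quotient.mk_eq_zero _).1 ?_
        exact finrank_zero_iff_forall_zero.1 (h1 j) _
      · push Not at hs
        obtain ⟨i, hi, x, hx, hxi⟩ := hs
        let K' : Submodule kk (M.H i) := ⨅ j, (K j).comap (M.a i j)
        have hK' : ∀ y, y ∈ K' ↔ ∀ j, M.a i j y ∈ K j := fun y => by simp [K']
        have hle : K i ≤ K' := fun y hy => (hK' y).2 fun j => hK i j y hy
        have hle' : K ≤ Function.update K i K' := le_update_iff.2 ⟨hle, fun _ _ => le_rfl⟩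
        have h1 := ih (Function.update K i K') (lt_update_self_iff.2
          (lt_of_le_of_ne hle fun e => hxi (e ▸ (hK' x).2 hx))) (fun j k y hy => by
            refine hle' k ?_
            by_cases hj : j = i
            · subst hj
              rw [Function.update_self] at hy
              exact (hK' y).1 hy k
            · rw [Function.update_of_ne hj] at hy
              exact hK j k y hy) fun j hj => eq_top_iff.2 ((hT j hj).ge.trans (hle' j))
        have h2 : ∀ j, j ≠ i → K j = ⊤ := fun j hj => by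
          rw [← h1 j, Function.update_of_ne hj]
        intro j
        by_cases hj : j = i
        · subst hj
          refine eq_top_iff.2 fun y _ => ?_
          obtain ⟨v, rfl⟩ := hM j hi y
          refine Submodule.sum_mem _ fun k _ => ?_
          by_cases hk : k = j
          · subst hk
            rw [M.a_adj k k G.irrefl]
            exact zero_mem _
          · exact hK k j _ ((h2 k hk).ge Submodule.mem_top)
        · exact h2 j hj
  intro i hi
  have h1 := key (fun j => if j ∈ T then ⊥ else ⊤) (fun j k x hx => by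
    by_cases hk : k ∈ T
    · rw [if_pos hk, Submodule.mem_bot]
      by_cases hj : j ∈ T
      · rw [if_pos hj, Submodule.mem_bot] at hx
        rw [hx, map_zero]
      · by_cases h : G.Adj j k
        · rw [dim_eq_zero.1 (hout k hk j hj h.symm) x, map_zero]
        · rw [M.a_adj j k h, LinearMap.zero_apply]
    · rw [if_neg hk]
      exact Submodule.mem_top) (fun j hj => if_neg hj) i
  rw [if_pos hi] at h1
  exact dim_eq_zero.2 fun x => (Submodule.mem_bot kk).1 (h1.ge Submodule.mem_top)

end Vale.Agent.P203.Mod
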