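import Vale.Agent.P203.DRep

/-!
# P203 DMorV: components of a morphism summed over the neighbours (used by DTau and DSig)
-/

namespace Vale.Agent.P203

variable {V : Type} [Fintype V] [DecidableEq V] {G : SimpleGraph V}

theorem one2_dmv {X : Type*} [AddCommGroup X] [Module kk X] {a b : X}
    (h : (1 : kk) • a = (1 : kk) • b) : a = b := by simpa using h

namespace Mor

variable {R R' : Rep G} (φ : Mor R R')

/-- Sum of the `p1` into `i`. -/
def p1in (i : V) : (V → R.X) →ₗ[kk] R'.X := ∑ k, φ.p1 k i ∘ₗ LinearMap.proj k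

/-- The `p1` out of `i`. -/
def p1out (i : V) : R.X →ₗ[kk] (V → R'.X) := LinearMap.pi fun k => φ.p1 i k

/-- The diagonal `p0`. -/
def p0V : (V → R.X) →ₗ[kk] (V → R'.X) := LinearMap.pi fun k => φ.p0 k ∘ₗ LinearMap.proj k

theorem p1in_apply (i : V) (v : V → R.X) : φ.p1in i v = ∑ k, φ.p1 k i (v k) := by
  simp [p1in, LinearMap.sum_apply]

@[simp] theorem p1out_apply (i : V) (x : R.X) (k : V) : φ.p1out i x k = φ.p1 i k x := rfl

@[simp] theorem p0V_apply (v : V → R.X) (k : V) : φ.p0V v k = φ.p0 k (v k) := rfl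

theorem p1_zero {i j : V} (h : ¬ G.Adj i j) (x : R.X) : φ.p1 i j x = 0 := by
  rw [φ.p1_adj i j h]; rfl

theorem p1in_single (i j : V) (x : R.X) : φ.p1in i (Pi.single j x) = φ.p1 j i x := by
  rw [p1in_apply, Finset.sum_eq_single j (fun k _ hk => by simp [hk]) (by simp)]
  simp

theorem p0V_single (j : V) (x : R.X) : φ.p0V (Pi.single j x) = Pi.single j (φ.p0 j x) := by
  ext k
  by_cases h : k = j
  · subst h; simp
  · simp [h]

theorem p1in_d (i : V) (v : V → R.X) :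
    R'.d i (φ.p1in i v) + φ.p1in i (R.dV v) = R'.inn i (φ.p0V v) + φ.p0 i (R.inn i v) := by
  simp only [p1in_apply, Rep.inn_apply, map_sum, ← Finset.sum_add_distrib]
  exact Finset.sum_congr rfl fun k _ => φ.p1_d k i (v k)

theorem p1out_d (i : V) (x : R.X) :
    R'.dV (φ.p1out i x) + φ.p1out i (R.d i x) = R'.out i (φ.p0 i x) + φ.p0V (R.out i x) :=
  funext fun k => φ.p1_d i k x

theorem p2_d' (i : V) (x : R.X) : R'.d i (φ.p2 i x) + φ.p2 i (R.d i x) =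
    R'.h i (φ.p0 i x) + φ.p0 i (R.h i x) + (R'.inn i (φ.p1out i x) + φ.p1in i (R.out i x)) := by
  rw [φ.p2_d, Finset.sum_add_distrib, Rep.inn_apply, p1in_apply]; rfl

theorem p0V_d (v : V → R.X) : R'.dV (φ.p0V v) = φ.p0V (R.dV v) :=
  funext fun k => φ.p0_d k (v k)

variable [DecidableRel G.Adj]

theorem p0V_vg {i : V} {n : ℤ} {v : V → R.X} (h : v ∈ R.vg i n) : φ.p0V v ∈ R'.vg i n :=
  R'.mem_vg.2 fun k => ⟨fun hk => φ.p0_gr _ _ _ ((R.mem_vg.1 h k).1 hk),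
    fun hk => by simp [(R.mem_vg.1 h k).2 hk]⟩

theorem p1out_vg {i : V} {n : ℤ} {x : R.X} (h : x ∈ R.gr i (n + 1)) : φ.p1out i x ∈ R'.vg i n :=
  R'.mem_vg.2 fun k => ⟨fun _ => φ.p1_gr _ _ _ _ h, fun hk => φ.p1_zero hk x⟩

theorem p1in_vg {i : V} {n : ℤ} {v : V → R.X} (h : v ∈ R.vg i (n + 1)) :
    φ.p1in i v ∈ R'.gr i n := by
  rw [p1in_apply]
  refine Submodule.sum_mem _ fun k _ => ?_
  by_cases hk : G.Adj i k
  · exact φ.p1_gr _ _ _ _ ((R.mem_vg.1 h k).1 hk)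
  · simp [(R.mem_vg.1 h k).2 hk]

theorem qisV (hφ : φ.Qis) {i : V} {n : ℤ} {v : V → R.X} {w : V → R'.X}
    (hv : v ∈ R.vg i (n + 1 + 1)) (hw : w ∈ R'.vg i (n + 1)) (h1 : R.dV v = 0)
    (h2 : R'.dV w = φ.p0V v) :
    ∃ v' ∈ R.vg i (n + 1), ∃ w' ∈ R'.vg i n, v = R.dV v' ∧ w = φ.p0V v' + R'.dV w' := by
  have key : ∀ k, ∃ (x' : R.X) (y' : R'.X),
      ((G.Adj i k → x' ∈ R.gr k (n + 1)) ∧ (¬ G.Adj i k → x' = 0)) ∧
      ((G.Adj i k → y' ∈ R'.gr k n) ∧ (¬ G.Adj i k → y' = 0)) ∧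
      v k = R.d k x' ∧ w k = φ.p0 k x' + R'.d k y' := by
    intro k
    by_cases hk : G.Adj i k
    · obtain ⟨x', hx', y', hy', e1, e2⟩ := hφ k n (v k) (w k) ((R.mem_vg.1 hv k).1 hk)
        ((R'.mem_vg.1 hw k).1 hk) (congrFun h1 k) (congrFun h2 k)
      exact ⟨x', y', ⟨fun _ => hx', fun h => absurd hk h⟩, ⟨fun _ => hy', fun h => absurd hk h⟩,
        e1, e2⟩
    · refine ⟨0, 0, ⟨fun h => absurd h hk, fun _ => rfl⟩, ⟨fun h => absurd h hk, fun _ => rfl⟩,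
        ?_, ?_⟩
      · simp [(R.mem_vg.1 hv k).2 hk]
      · simp [(R'.mem_vg.1 hw k).2 hk]
  choose v' w' a b c d using key
  exact ⟨v', R.mem_vg.2 a, w', R'.mem_vg.2 b, funext c, funext d⟩

end Mor

end Vale.Agent.P203
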