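import Mathlib

/-!
# P203 DRep: dg representations of a graph over `ZMod 2`, A-infinity morphisms, mutations (done)

All graded pieces `gr i n` are subspaces of one ambient space `X`; the identities hold on all of `X`.
`a i j` goes from vertex `i` to vertex `j`.
-/

namespace Vale.Agent.P203

/-- The ground field. -/
abbrev kk := ZMod 2

variable {V : Type} [Fintype V] [DecidableEq V]

/-- dg representations. -/
structure Rep (G : SimpleGraph V) where
  X : Type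
  [acg : AddCommGroup X]
  [mod : Module kk X]
  d : V → X →ₗ[kk] X
  a : V → V → X →ₗ[kk] X
  h : V → X →ₗ[kk] X
  gr : V → ℤ → Submodule kk X
  a_adj : ∀ i j, ¬ G.Adj i j → a i j = 0
  dd : ∀ i x, d i (d i x) = 0
  da : ∀ i j x, d j (a i j x) = a i j (d i x)
  dh : ∀ i x, d i (h i x) + h i (d i x) = ∑ j, a j i (a i j x)
  d_gr : ∀ i n x, x ∈ gr i n → d i x ∈ gr i (n + 1)
  a_gr : ∀ i j n x, x ∈ gr i n → a i j x ∈ gr j n
  h_gr : ∀ i n x, x ∈ gr i (n + 1) → h i x ∈ gr i n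
  fin : ∀ i n, FiniteDimensional kk (gr i n)
  bdd : ∃ N, ∀ i n, N < n → gr i n = ⊥

attribute [instance] Rep.acg Rep.mod Rep.fin

variable {G : SimpleGraph V}

/-- Characteristic two. -/
@[simp] theorem add_self2 {X : Type*} [AddCommGroup X] [Module kk X] (x : X) : x + x = 0 :=
  ZModModule.add_self x

theorem add_self_left2 {X : Type*} [AddCommGroup X] [Module kk X] (x y : X) : x + (x + y) = y := by
  rw [← add_assoc, add_self2, zero_add]

theorem eq_of_add2 {X : Type*} [AddCommGroup X] [Module kk X] {x y : X} (h : x + y = 0) :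
    x = y := by
  rw [← add_self_left2 y x, add_comm y x, h, add_zero]

theorem two_nsmul2 {X : Type*} [AddCommGroup X] [Module kk X] (x : X) : 2 • x = 0 := by
  rw [two_nsmul, add_self2]

theorem two_zsmul2 {X : Type*} [AddCommGroup X] [Module kk X] (x : X) : (2 : ℤ) • x = 0 := by
  rw [two_zsmul, add_self2]

/-- A-infinity morphisms. -/
structure Mor (R R' : Rep G) where
  p0 : V → R.X →ₗ[kk] R'.X
  p1 : V → V → R.X →ₗ[kk] R'.X
  p2 : V → R.X →ₗ[kk] R'.X
  p1_adj : ∀ i j, ¬ G.Adj i j → p1 i j = 0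
  p0_d : ∀ i x, R'.d i (p0 i x) = p0 i (R.d i x)
  p1_d : ∀ i j x, R'.d j (p1 i j x) + p1 i j (R.d i x) = R'.a i j (p0 i x) + p0 j (R.a i j x)
  p2_d : ∀ i x, R'.d i (p2 i x) + p2 i (R.d i x) = R'.h i (p0 i x) + p0 i (R.h i x) +
    ∑ j, (R'.a j i (p1 i j x) + p1 j i (R.a i j x))
  p0_gr : ∀ i n x, x ∈ R.gr i n → p0 i x ∈ R'.gr i n
  p1_gr : ∀ i j n x, x ∈ R.gr i (n + 1) → p1 i j x ∈ R'.gr j n
  p2_gr : ∀ i n x, x ∈ R.gr i (n + 1 + 1) → p2 i x ∈ R'.gr i n

/-- Quasi-isomorphism: the cone of `p0 i` is acyclic. -/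
def Mor.Qis {R R' : Rep G} (φ : Mor R R') : Prop :=
  ∀ i n x y, x ∈ R.gr i (n + 1 + 1) → y ∈ R'.gr i (n + 1) → R.d i x = 0 → R'.d i y = φ.p0 i x →
    ∃ x' ∈ R.gr i (n + 1), ∃ y' ∈ R'.gr i n, x = R.d i x' ∧ y = φ.p0 i x' + R'.d i y'

/-- There is a quasi-isomorphism. -/
def Rel (R R' : Rep G) : Prop := ∃ φ : Mor R R', φ.Qis

/-- Classes of representations. -/
abbrev Cls (G : SimpleGraph V) := Quot (Rel (G := G))

/-- A strict morphism. -/
def Mor.strict {R R' : Rep G} (p : V → R.X →ₗ[kk] R'.X)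
    (hd : ∀ i x, R'.d i (p i x) = p i (R.d i x))
    (ha : ∀ i j x, R'.a i j (p i x) = p j (R.a i j x))
    (hh : ∀ i x, R'.h i (p i x) = p i (R.h i x))
    (hg : ∀ i n x, x ∈ R.gr i n → p i x ∈ R'.gr i n) : Mor R R' where
  p0 := p
  p1 := 0
  p2 := 0
  p1_adj _ _ _ := rfl
  p0_d := hd
  p1_d i j x := by simp [ha]
  p2_d i x := by simp [hh]
  p0_gr := hg
  p1_gr _ _ _ _ _ := Submodule.zero_mem _
  p2_gr _ _ _ _ := Submodule.zero_mem _

/-- A vertexwise homotopy equivalence is a quasi-isomorphism. -/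
theorem Mor.qis_of_htpy {R R' : Rep G} (φ : Mor R R')
    (H : ∀ i, ∃ (r : R'.X →ₗ[kk] R.X) (K : R.X →ₗ[kk] R.X) (K' : R'.X →ₗ[kk] R'.X),
      (∀ n y, y ∈ R'.gr i n → r y ∈ R.gr i n ∧ R.d i (r y) = r (R'.d i y)) ∧
      (∀ n x, x ∈ R.gr i (n + 1) → K x ∈ R.gr i n) ∧
      (∀ n y, y ∈ R'.gr i (n + 1) → K' y ∈ R'.gr i n) ∧
      (∀ n x, x ∈ R.gr i n → r (φ.p0 i x) + x = R.d i (K x) + K (R.d i x)) ∧
      ∀ n y, y ∈ R'.gr i n → φ.p0 i (r y) + y = R'.d i (K' y) + K' (R'.d i y)) : φ.Qis := by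
  intro i n x y hx hy hdx hdy
  obtain ⟨r, K, K', hr, hK, hK', h1, h2⟩ := H i
  have hx1 : r y + K x ∈ R.gr i (n + 1) := add_mem (hr _ y hy).1 (hK _ x hx)
  have e1 : R.d i (r y + K x) = x := by
    have := h1 _ x hx
    rw [hdx, map_zero, add_zero] at this
    rw [map_add, (hr _ y hy).2, hdy, ← this, add_self_left2]
  have hz : y + φ.p0 i (r y + K x) ∈ R'.gr i (n + 1) := add_mem hy (φ.p0_gr _ _ _ hx1)
  have e2 : R'.d i (y + φ.p0 i (r y + K x)) = 0 := by
    rw [map_add, φ.p0_d, e1, hdy, add_self2]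
  have e3 := h2 _ _ hz
  rw [e2, map_zero, add_zero] at e3
  refine ⟨r y + K x + r (y + φ.p0 i (r y + K x)), add_mem hx1 (hr _ _ hz).1, _, hK' _ _ hz, ?_, ?_⟩
  · rw [map_add, e1, (hr _ _ hz).2, e2, map_zero, add_zero]
  · rw [← e3, map_add (φ.p0 i) (r y + K x)]
    generalize φ.p0 i (r (y + φ.p0 i (r y + K x))) = u
    generalize φ.p0 i (r y + K x) = w
    rw [add_assoc, add_self_left2, add_comm y, add_self_left2]

/-- Pairwise non adjacent vertices. -/
def Ind (G : SimpleGraph V) (I : Finset V) : Prop := ∀ i ∈ I, ∀ j ∈ I, ¬ G.Adj i j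

namespace Rep

variable (R : Rep G)

/-- Sum of the arrows into `i`. -/
def inn (i : V) : (V → R.X) →ₗ[kk] R.X := ∑ k, R.a k i ∘ₗ LinearMap.proj k

/-- The arrows out of `i`. -/
def out (i : V) : R.X →ₗ[kk] (V → R.X) := LinearMap.pi fun k => R.a i k

/-- The diagonal differential. -/
def dV : (V → R.X) →ₗ[kk] (V → R.X) := LinearMap.pi fun k => R.d k ∘ₗ LinearMap.proj k

/-- The chain map from the cone of `out i` to vertex `i`. -/
def it (i : V) : R.X × (V → R.X) →ₗ[kk] R.X :=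
  R.h i ∘ₗ LinearMap.fst _ _ _ + R.inn i ∘ₗ LinearMap.snd _ _ _

/-- The chain map from vertex `i` to the cocone of `inn i`. -/
def ot (i : V) : R.X →ₗ[kk] R.X × (V → R.X) := (R.h i).prod (R.out i)

theorem inn_apply (i : V) (v : V → R.X) : R.inn i v = ∑ k, R.a k i (v k) := by
  simp [inn, LinearMap.sum_apply]

@[simp] theorem out_apply (i : V) (x : R.X) (k : V) : R.out i x k = R.a i k x := rfl

@[simp] theorem dV_apply (v : V → R.X) (k : V) : R.dV v k = R.d k (v k) := rfl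

theorem it_apply (i : V) (y : R.X × (V → R.X)) : R.it i y = R.h i y.1 + R.inn i y.2 := rfl

theorem ot_apply (i : V) (x : R.X) : R.ot i x = (R.h i x, R.out i x) := rfl

theorem a_zero {i j : V} (h : ¬ G.Adj i j) (x : R.X) : R.a i j x = 0 := by
  rw [R.a_adj i j h]; rfl

theorem inn_single (i j : V) (x : R.X) : R.inn i (Pi.single j x) = R.a j i x := by
  rw [inn_apply, Finset.sum_eq_single j (fun k _ hk => by simp [hk]) (by simp)]
  simp

theorem inn_dV (i : V) (v : V → R.X) : R.inn i (R.dV v) = R.d i (R.inn i v) := by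
  simp [inn_apply, map_sum, R.da]

theorem dV_out (i : V) (x : R.X) : R.dV (R.out i x) = R.out i (R.d i x) := by
  ext k; simp [R.da]

theorem dV_dV (v : V → R.X) : R.dV (R.dV v) = 0 := by
  ext k; simp [R.dd]

theorem dV_single (j : V) (x : R.X) : R.dV (Pi.single j x) = Pi.single j (R.d j x) := by
  ext k
  by_cases h : k = j
  · subst h; simp
  · simp [h]

theorem inn_out (i : V) (x : R.X) : R.inn i (R.out i x) = R.d i (R.h i x) + R.h i (R.d i x) := by
  rw [R.dh, inn_apply]; rfl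

theorem it_d (i : V) (x : R.X) (v : V → R.X) :
    R.it i (R.d i x, R.dV v + R.out i x) = R.d i (R.it i (x, v)) := by
  simp only [it_apply, map_add, inn_dV, inn_out]
  rw [add_comm (R.d i (R.h i x)) (R.h i _), add_left_comm, add_self_left2, add_comm]

variable [DecidableRel G.Adj]

/-- The graded piece of the sum of the neighbours of `i`. -/
def vg (i : V) (n : ℤ) : Submodule kk (V → R.X) :=
  Submodule.pi Set.univ fun k => if G.Adj i k then R.gr k n else ⊥

theorem mem_vg {i : V} {n : ℤ} {v : V → R.X} :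
    v ∈ R.vg i n ↔ ∀ k, (G.Adj i k → v k ∈ R.gr k n) ∧ (¬ G.Adj i k → v k = 0) := by
  simp only [vg, Submodule.mem_pi, Set.mem_univ, true_implies]
  refine forall_congr' fun k => ?_
  by_cases h : G.Adj i k <;> simp [h]

theorem dV_vg {i : V} {n : ℤ} {v : V → R.X} (h : v ∈ R.vg i n) : R.dV v ∈ R.vg i (n + 1) :=
  R.mem_vg.2 fun k => ⟨fun hk => R.d_gr _ _ _ ((R.mem_vg.1 h k).1 hk),
    fun hk => by simp [(R.mem_vg.1 h k).2 hk]⟩

theorem out_vg {i : V} {n : ℤ} {x : R.X} (h : x ∈ R.gr i n) : R.out i x ∈ R.vg i n :=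
  R.mem_vg.2 fun k => ⟨fun _ => R.a_gr _ _ _ _ h, fun hk => R.a_zero hk x⟩

theorem inn_vg {i : V} {n : ℤ} {v : V → R.X} (h : v ∈ R.vg i n) : R.inn i v ∈ R.gr i n := by
  rw [inn_apply]
  refine Submodule.sum_mem _ fun k _ => ?_
  by_cases hk : G.Adj i k
  · exact R.a_gr _ _ _ _ ((R.mem_vg.1 h k).1 hk)
  · simp [(R.mem_vg.1 h k).2 hk]

theorem single_vg {i j : V} {n : ℤ} {x : R.X} (hij : G.Adj i j) (h : x ∈ R.gr j n) :
    Pi.single j x ∈ R.vg i n := R.mem_vg.2 fun k => by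
  by_cases hk : k = j
  · subst hk; simp [h, hij]
  · simp [hk]

instance (i : V) (n : ℤ) : FiniteDimensional kk (R.vg i n) := by
  have (k : V) : FiniteDimensional kk (if G.Adj i k then R.gr k n else ⊥ : Submodule kk R.X) := by
    by_cases h : G.Adj i k
    · rw [if_pos h]; infer_instance
    · rw [if_neg h]; infer_instance
  let f : R.vg i n →ₗ[kk] ∀ k, (if G.Adj i k then R.gr k n else ⊥ : Submodule kk R.X) :=
    LinearMap.pi fun k => ((LinearMap.proj k) ∘ₗ (R.vg i n).subtype).codRestrict _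
      fun v => v.2 k (Set.mem_univ k)
  exact Module.Finite.of_injective f fun v w h =>
    Subtype.ext (funext fun k => congrArg Subtype.val (congrFun h k))

theorem vg_bot {i : V} {n : ℤ} (h : ∀ k, R.gr k n = ⊥) : R.vg i n = ⊥ := by
  refine eq_bot_iff.2 fun v hv => funext fun k => ?_
  by_cases hk : G.Adj i k
  · simpa [h k] using (R.mem_vg.1 hv k).1 hk
  · exact (R.mem_vg.1 hv k).2 hk

instance finProd {X Y : Type} [AddCommGroup X] [Module kk X] [AddCommGroup Y] [Module kk Y]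
    (p : Submodule kk X) (q : Submodule kk Y) [FiniteDimensional kk p] [FiniteDimensional kk q] :
    FiniteDimensional kk (p.prod q) :=
  Module.Finite.iff_fg.2 ((Module.Finite.iff_fg.1 inferInstance).prod
    (Module.Finite.iff_fg.1 inferInstance))

/-- Differential of `tau`. -/
def tauD (I : Finset V) (j : V) : R.X × (V → R.X) →ₗ[kk] R.X × (V → R.X) :=
  if j ∈ I then (R.d j ∘ₗ LinearMap.fst _ _ _).prod
    (R.dV ∘ₗ LinearMap.snd _ _ _ + R.out j ∘ₗ LinearMap.fst _ _ _)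
  else LinearMap.inl _ _ _ ∘ₗ R.d j ∘ₗ LinearMap.fst _ _ _

/-- Arrows of `tau`. -/
def tauA (I : Finset V) (j k : V) : R.X × (V → R.X) →ₗ[kk] R.X × (V → R.X) :=
  if k ∈ I then (if G.Adj j k then
    LinearMap.inr _ _ _ ∘ₗ LinearMap.single kk (fun _ => R.X) j ∘ₗ LinearMap.fst _ _ _ else 0)
  else if j ∈ I then LinearMap.inl _ _ _ ∘ₗ R.a j k ∘ₗ R.it j
  else LinearMap.inl _ _ _ ∘ₗ R.a j k ∘ₗ LinearMap.fst _ _ _

/-- Homotopies of `tau`. -/
def tauH (I : Finset V) (j : V) : R.X × (V → R.X) →ₗ[kk] R.X × (V → R.X) :=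
  if j ∈ I then LinearMap.inl _ _ _ ∘ₗ R.it j
  else LinearMap.inl _ _ _ ∘ₗ R.h j ∘ₗ LinearMap.fst _ _ _

/-- Grading of `tau`. -/
def tauG (I : Finset V) (j : V) (n : ℤ) : Submodule kk (R.X × (V → R.X)) :=
  if j ∈ I then (R.gr j (n + 1)).prod (R.vg j n) else (R.gr j n).prod ⊥

section
variable {I : Finset V} {j k : V} {n : ℤ} (y : R.X × (V → R.X))

omit [DecidableRel G.Adj] in
theorem tauD_in (h : j ∈ I) : R.tauD I j y = (R.d j y.1, R.dV y.2 + R.out j y.1) := by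
  rw [tauD, if_pos h]; rfl
omit [DecidableRel G.Adj] in
theorem tauD_out (h : j ∉ I) : R.tauD I j y = (R.d j y.1, 0) := by
  rw [tauD, if_neg h]; rfl
theorem tauA_to (h : k ∈ I) (h' : G.Adj j k) : R.tauA I j k y = (0, Pi.single j y.1) := by
  rw [tauA, if_pos h, if_pos h']; rfl
theorem tauA_from (h : k ∉ I) (h' : j ∈ I) : R.tauA I j k y = (R.a j k (R.it j y), 0) := by
  rw [tauA, if_neg h, if_pos h']; rfl
theorem tauA_out (h : k ∉ I) (h' : j ∉ I) : R.tauA I j k y = (R.a j k y.1, 0) := by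
  rw [tauA, if_neg h, if_neg h']; rfl
theorem tauA_adj (h : ¬ G.Adj j k) : R.tauA I j k = 0 := by
  rw [tauA, if_neg h, R.a_adj j k h]
  split_ifs <;> simp
theorem tauA_zero (h : ¬ G.Adj j k) : R.tauA I j k y = 0 := by rw [R.tauA_adj h]; rfl
omit [DecidableRel G.Adj] in
theorem tauH_in (h : j ∈ I) : R.tauH I j y = (R.it j y, 0) := by
  rw [tauH, if_pos h]; rfl
omit [DecidableRel G.Adj] in
theorem tauH_out (h : j ∉ I) : R.tauH I j y = (R.h j y.1, 0) := by
  rw [tauH, if_neg h]; rfl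
theorem tauG_in (h : j ∈ I) : y ∈ R.tauG I j n ↔ y.1 ∈ R.gr j (n + 1) ∧ y.2 ∈ R.vg j n := by
  rw [tauG, if_pos h]; rfl
theorem tauG_out (h : j ∉ I) : y ∈ R.tauG I j n ↔ y.1 ∈ R.gr j n ∧ y.2 = 0 := by
  rw [tauG, if_neg h]; rfl
theorem it_gr {y : R.X × (V → R.X)} (h1 : y.1 ∈ R.gr j (n + 1)) (h2 : y.2 ∈ R.vg j n) :
    R.it j y ∈ R.gr j n := add_mem (R.h_gr _ _ _ h1) (R.inn_vg h2)
end

/-- Mutation at an independent set: vertex `i ∈ I` becomes the cone of `out i`. -/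
def tau (I : Finset V) (hI : Ind G I) : Rep G where
  X := R.X × (V → R.X)
  d := R.tauD I
  a := R.tauA I
  h := R.tauH I
  gr := R.tauG I
  a_adj _ _ h := R.tauA_adj h
  dd i y := by
    by_cases h : i ∈ I
    · simp [R.tauD_in _ h, R.dd, R.dV_dV, R.dV_out]
    · simp [R.tauD_out _ h, R.dd]
  da j k y := by
    by_cases hjk : G.Adj j k
    swap
    · simp [R.tauA_zero _ hjk]
    by_cases hk : k ∈ I
    · have hj : j ∉ I := fun hj => hI j hj k hk hjk
      simp [R.tauA_to _ hk hjk, R.tauD_in _ hk, R.tauD_out _ hj, R.dV_single]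
    by_cases hj : j ∈ I
    · simp [R.tauA_from _ hk hj, R.tauD_in _ hj, R.tauD_out _ hk, R.it_d, R.da]
    · simp [R.tauA_out _ hk hj, R.tauD_out _ hj, R.tauD_out _ hk, R.da]
  dh i y := by
    by_cases h : i ∈ I
    · have (k : V) : R.tauA I k i (R.tauA I i k y) = (0, Pi.single k (R.a i k (R.it i y))) := by
        by_cases hk : G.Adj i k
        · rw [R.tauA_from _ (fun hk' => hI i h k hk' hk) h, R.tauA_to _ h hk.symm]
        · simp [R.tauA_zero _ hk, R.a_zero hk, Prod.ext_iff]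
      simp only [this, R.tauH_in _ h, R.tauD_in _ h, R.it_d]
      ext
      · simp [Prod.fst_sum]
      · simp [Prod.snd_sum, Finset.sum_apply, Pi.single_apply]
    · have (k : V) : R.tauA I k i (R.tauA I i k y) = (R.a k i (R.a i k y.1), 0) := by
        by_cases hk : G.Adj i k
        swap
        · simp [R.tauA_zero _ hk, R.a_zero hk, Prod.ext_iff]
        by_cases hk' : k ∈ I
        · simp [R.tauA_to _ hk' hk, R.tauA_from _ h hk', it_apply, inn_single]
        · rw [R.tauA_out _ hk' h, R.tauA_out _ h hk']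
      simp only [this, R.tauH_out _ h, R.tauD_out _ h]
      ext
      · simp [Prod.fst_sum, R.dh]
      · simp [Prod.snd_sum]
  d_gr i n y hy := by
    by_cases h : i ∈ I
    · rw [R.tauG_in _ h] at hy ⊢
      rw [R.tauD_in _ h]
      exact ⟨R.d_gr _ _ _ hy.1, add_mem (R.dV_vg hy.2) (R.out_vg hy.1)⟩
    · rw [R.tauG_out _ h] at hy ⊢
      rw [R.tauD_out _ h]
      exact ⟨R.d_gr _ _ _ hy.1, rfl⟩
  a_gr j k n y hy := by
    by_cases hjk : G.Adj j k
    swap
    · simp [R.tauA_zero _ hjk]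
    by_cases hk : k ∈ I
    · have hj : j ∉ I := fun hj => hI j hj k hk hjk
      rw [R.tauG_out _ hj] at hy
      rw [R.tauA_to _ hk hjk, R.tauG_in _ hk]
      exact ⟨zero_mem _, R.single_vg hjk.symm hy.1⟩
    by_cases hj : j ∈ I
    · rw [R.tauG_in _ hj] at hy
      rw [R.tauA_from _ hk hj, R.tauG_out _ hk]
      exact ⟨R.a_gr _ _ _ _ (R.it_gr hy.1 hy.2), rfl⟩
    · rw [R.tauG_out _ hj] at hy
      rw [R.tauA_out _ hk hj, R.tauG_out _ hk]
      exact ⟨R.a_gr _ _ _ _ hy.1, rfl⟩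
  h_gr i n y hy := by
    by_cases h : i ∈ I
    · rw [R.tauG_in _ h] at hy ⊢
      rw [R.tauH_in _ h]
      exact ⟨R.it_gr hy.1 hy.2, zero_mem _⟩
    · rw [R.tauG_out _ h] at hy ⊢
      rw [R.tauH_out _ h]
      exact ⟨R.h_gr _ _ _ hy.1, rfl⟩
  fin i n := by
    unfold tauG
    by_cases h : i ∈ I
    · rw [if_pos h]; infer_instance
    · rw [if_neg h]; infer_instance
  bdd := by
    obtain ⟨N, hN⟩ := R.bdd
    refine ⟨N, fun i n hn => ?_⟩
    unfold tauG
    rw [hN i n hn, hN i (n + 1) (by omega), R.vg_bot fun k => hN k n hn]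
    simp

/-- Differential of `sig`. -/
def sigD (I : Finset V) (j : V) : R.X × (V → R.X) →ₗ[kk] R.X × (V → R.X) :=
  if j ∈ I then (R.d j ∘ₗ LinearMap.fst _ _ _ + R.inn j ∘ₗ LinearMap.snd _ _ _).prod
    (R.dV ∘ₗ LinearMap.snd _ _ _)
  else LinearMap.inl _ _ _ ∘ₗ R.d j ∘ₗ LinearMap.fst _ _ _

/-- Arrows of `sig`. -/
def sigA (I : Finset V) (j k : V) : R.X × (V → R.X) →ₗ[kk] R.X × (V → R.X) :=
  if j ∈ I then (if G.Adj j k then
    LinearMap.inl _ _ _ ∘ₗ LinearMap.proj k ∘ₗ LinearMap.snd _ _ _ else 0)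
  else if k ∈ I then R.ot k ∘ₗ R.a j k ∘ₗ LinearMap.fst _ _ _
  else LinearMap.inl _ _ _ ∘ₗ R.a j k ∘ₗ LinearMap.fst _ _ _

/-- Homotopies of `sig`. -/
def sigH (I : Finset V) (j : V) : R.X × (V → R.X) →ₗ[kk] R.X × (V → R.X) :=
  if j ∈ I then R.ot j ∘ₗ LinearMap.fst _ _ _
  else LinearMap.inl _ _ _ ∘ₗ R.h j ∘ₗ LinearMap.fst _ _ _

/-- Grading of `sig`. -/
def sigG (I : Finset V) (j : V) (n : ℤ) : Submodule kk (R.X × (V → R.X)) :=
  if j ∈ I then (R.gr j (n - 1)).prod (R.vg j n) else (R.gr j n).prod ⊥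

section
variable {I : Finset V} {j k : V} {n : ℤ} (y : R.X × (V → R.X))

omit [DecidableRel G.Adj] in
theorem sigD_in (h : j ∈ I) : R.sigD I j y = (R.d j y.1 + R.inn j y.2, R.dV y.2) := by
  rw [sigD, if_pos h]; rfl
omit [DecidableRel G.Adj] in
theorem sigD_out (h : j ∉ I) : R.sigD I j y = (R.d j y.1, 0) := by
  rw [sigD, if_neg h]; rfl
theorem sigA_from (h : j ∈ I) (h' : G.Adj j k) : R.sigA I j k y = (y.2 k, 0) := by
  rw [sigA, if_pos h, if_pos h']; rfl
theorem sigA_to (h : j ∉ I) (h' : k ∈ I) : R.sigA I j k y = R.ot k (R.a j k y.1) := by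
  rw [sigA, if_neg h, if_pos h']; rfl
theorem sigA_out (h : j ∉ I) (h' : k ∉ I) : R.sigA I j k y = (R.a j k y.1, 0) := by
  rw [sigA, if_neg h, if_neg h']; rfl
theorem sigA_adj (h : ¬ G.Adj j k) : R.sigA I j k = 0 := by
  rw [sigA, if_neg h, R.a_adj j k h]
  split_ifs <;> simp
theorem sigA_zero (h : ¬ G.Adj j k) : R.sigA I j k y = 0 := by rw [R.sigA_adj h]; rfl
omit [DecidableRel G.Adj] in
theorem sigH_in (h : j ∈ I) : R.sigH I j y = R.ot j y.1 := by
  rw [sigH, if_pos h]; rfl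
omit [DecidableRel G.Adj] in
theorem sigH_out (h : j ∉ I) : R.sigH I j y = (R.h j y.1, 0) := by
  rw [sigH, if_neg h]; rfl
theorem sigG_in (h : j ∈ I) : y ∈ R.sigG I j n ↔ y.1 ∈ R.gr j (n - 1) ∧ y.2 ∈ R.vg j n := by
  rw [sigG, if_pos h]; rfl
theorem sigG_out (h : j ∉ I) : y ∈ R.sigG I j n ↔ y.1 ∈ R.gr j n ∧ y.2 = 0 := by
  rw [sigG, if_neg h]; rfl
omit [DecidableRel G.Adj] in
theorem sigD_ot (h : j ∈ I) (x : R.X) : R.sigD I j (R.ot j x) = R.ot j (R.d j x) := by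
  rw [R.sigD_in _ h, ot_apply, ot_apply, inn_out, add_self_left2, dV_out]
theorem ot_gr (h : j ∈ I) {x : R.X} (hx : x ∈ R.gr j n) : R.ot j x ∈ R.sigG I j n :=
  (R.sigG_in _ h).2 ⟨R.h_gr _ _ _ (by simpa using hx), R.out_vg hx⟩
end

/-- The inverse mutation: vertex `i ∈ I` becomes the cocone of `inn i`. -/
def sig (I : Finset V) (hI : Ind G I) : Rep G where
  X := R.X × (V → R.X)
  d := R.sigD I
  a := R.sigA I
  h := R.sigH I
  gr := R.sigG I
  a_adj _ _ h := R.sigA_adj h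
  dd i y := by
    by_cases h : i ∈ I
    · simp [R.sigD_in _ h, R.dd, R.dV_dV, R.inn_dV]
    · simp [R.sigD_out _ h, R.dd]
  da j k y := by
    by_cases hjk : G.Adj j k
    swap
    · simp [R.sigA_zero _ hjk]
    by_cases hj : j ∈ I
    · have hk : k ∉ I := fun hk => hI j hj k hk hjk
      simp [R.sigA_from _ hj hjk, R.sigD_in _ hj, R.sigD_out _ hk]
    by_cases hk : k ∈ I
    · simp [R.sigA_to _ hj hk, R.sigD_ot hk, R.sigD_out _ hj, R.da]
    · simp [R.sigA_out _ hj hk, R.sigD_out _ hj, R.sigD_out _ hk, R.da]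
  dh i y := by
    by_cases h : i ∈ I
    · have (k : V) : R.sigA I k i (R.sigA I i k y) = R.ot i (R.a k i (y.2 k)) := by
        by_cases hk : G.Adj i k
        · rw [R.sigA_from _ h hk, R.sigA_to _ (fun hk' => hI i h k hk' hk) h]
        · simp [R.sigA_zero _ hk, R.a_zero fun h' : G.Adj k i => hk h'.symm]
      simp only [this, R.sigH_in _ h, R.sigD_ot h, R.sigD_in y h, map_add, add_self_left2,
        ← map_sum, inn_apply]
    · have (k : V) : R.sigA I k i (R.sigA I i k y) = (R.a k i (R.a i k y.1), 0) := by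
        by_cases hk : G.Adj i k
        swap
        · simp [R.sigA_zero _ hk, R.a_zero hk, Prod.ext_iff]
        by_cases hk' : k ∈ I
        · simp [R.sigA_to _ h hk', R.sigA_from _ hk' hk.symm, ot_apply]
        · rw [R.sigA_out _ h hk', R.sigA_out _ hk' h]
      simp only [this, R.sigH_out _ h, R.sigD_out _ h]
      ext
      · simp [Prod.fst_sum, R.dh]
      · simp [Prod.snd_sum]
  d_gr i n y hy := by
    by_cases h : i ∈ I
    · rw [R.sigG_in _ h] at hy ⊢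
      rw [R.sigD_in _ h]
      refine ⟨add_mem ?_ ?_, R.dV_vg hy.2⟩
      · simpa using R.d_gr _ _ _ hy.1
      · simpa using R.inn_vg hy.2
    · rw [R.sigG_out _ h] at hy ⊢
      rw [R.sigD_out _ h]
      exact ⟨R.d_gr _ _ _ hy.1, rfl⟩
  a_gr j k n y hy := by
    by_cases hjk : G.Adj j k
    swap
    · simp [R.sigA_zero _ hjk]
    by_cases hj : j ∈ I
    · have hk : k ∉ I := fun hk => hI j hj k hk hjk
      rw [R.sigG_in _ hj] at hy
      rw [R.sigA_from _ hj hjk, R.sigG_out _ hk]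
      exact ⟨(R.mem_vg.1 hy.2 k).1 hjk, rfl⟩
    rw [R.sigG_out _ hj] at hy
    by_cases hk : k ∈ I
    · rw [R.sigA_to _ hj hk]
      exact R.ot_gr hk (R.a_gr _ _ _ _ hy.1)
    · rw [R.sigA_out _ hj hk, R.sigG_out _ hk]
      exact ⟨R.a_gr _ _ _ _ hy.1, rfl⟩
  h_gr i n y hy := by
    by_cases h : i ∈ I
    · rw [R.sigG_in _ h] at hy
      rw [R.sigH_in _ h]
      exact R.ot_gr h (by simpa using hy.1)
    · rw [R.sigG_out _ h] at hy ⊢
      rw [R.sigH_out _ h]
      exact ⟨R.h_gr _ _ _ hy.1, rfl⟩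
  fin i n := by
    unfold sigG
    by_cases h : i ∈ I
    · rw [if_pos h]; infer_instance
    · rw [if_neg h]; infer_instance
  bdd := by
    obtain ⟨N, hN⟩ := R.bdd
    refine ⟨N + 1, fun i n hn => ?_⟩
    unfold sigG
    rw [hN i n (by omega), hN i (n - 1) (by omega), R.vg_bot fun k => hN k n (by omega)]
    simp

end Rep

end Vale.Agent.P203
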