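import Vale.Agent.P203.DMorV

/-!
# P203 DTau: `tau` preserves quasi-isomorphisms (TASK)
Given `φ : Mor R R'` define `φ'` on `y = (x, v)` (characteristic two, use `add_self2`):
* `ψ i y = φ.p2 i x + ∑ k, φ.p1 k i (v k)`; it satisfies
  `d (ψ y) + ψ (tauD y) = p0 i (it i y) + it i (φ'.p0 i y)` for `i ∈ I` (prove this first).
* `φ'.p0 j y = (p0 j x, fun k => p0 k (v k) + p1 j k x)` for `j ∈ I`, `(p0 j x, 0)` otherwise.
* `φ'.p1 j k y = 0` if `k ∈ I`; `(p1 j k (it j y) + a j k (ψ j y), 0)` if `j ∈ I`, `k ∉ I`;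
  `(p1 j k x, 0)` if both are outside.
* `φ'.p2 j y = (ψ j y, 0)` for `j ∈ I`, `(p2 j x, 0)` otherwise.
The `p2_d` identity at `j ∉ I` is termwise the old one (the `k ∈ I` term is
`p1 k j (a j k x) + a k j (p1 j k x)`, use `inn_single`). At `j ∈ I` the second components cancel.
`Qis` at `j ∈ I` (five lemma by hand): let `y = (x, v)` be a cycle, `z = (u, w)`, `d z = φ' y`. `Qis φ` at `j`
gives `x = d x'`, `u = p0 x' + d u'`. Subtract `tauD (x', 0)` from `y` and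
`φ'.p0 (x', 0) + tauD (u', 0)` from `z`: first components vanish. Then use `Qis φ` at each neighbour `k`
(choose; `0` at non neighbours, `mem_vg`).
-/

namespace Vale.Agent.P203

variable {V : Type} [Fintype V] [DecidableEq V] {G : SimpleGraph V} [DecidableRel G.Adj]

namespace Mor

variable {R R' : Rep G} (φ : Mor R R') {I : Finset V} {j k : V}

/-- The homotopy `ψ` for `tau`. -/
def tPsi (i : V) : R.X × (V → R.X) →ₗ[kk] R'.X :=
  φ.p2 i ∘ₗ LinearMap.fst _ _ _ + φ.p1in i ∘ₗ LinearMap.snd _ _ _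

/-- `p0` for `tau`. -/
def tP0 (I : Finset V) (j : V) : R.X × (V → R.X) →ₗ[kk] R'.X × (V → R'.X) :=
  if j ∈ I then (φ.p0 j ∘ₗ LinearMap.fst _ _ _).prod
    (φ.p0V ∘ₗ LinearMap.snd _ _ _ + φ.p1out j ∘ₗ LinearMap.fst _ _ _)
  else LinearMap.inl _ _ _ ∘ₗ φ.p0 j ∘ₗ LinearMap.fst _ _ _

/-- `p1` for `tau`. -/
def tP1 (I : Finset V) (j k : V) : R.X × (V → R.X) →ₗ[kk] R'.X × (V → R'.X) :=
  if k ∈ I then 0 else if j ∈ I then
    LinearMap.inl _ _ _ ∘ₗ (φ.p1 j k ∘ₗ R.it j + R'.a j k ∘ₗ φ.tPsi j)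
  else LinearMap.inl _ _ _ ∘ₗ φ.p1 j k ∘ₗ LinearMap.fst _ _ _

/-- `p2` for `tau`. -/
def tP2 (I : Finset V) (j : V) : R.X × (V → R.X) →ₗ[kk] R'.X × (V → R'.X) :=
  if j ∈ I then LinearMap.inl _ _ _ ∘ₗ φ.tPsi j
  else LinearMap.inl _ _ _ ∘ₗ φ.p2 j ∘ₗ LinearMap.fst _ _ _

section
omit [DecidableRel G.Adj]
variable (y : R.X × (V → R.X))

theorem tPsi_apply (i : V) : φ.tPsi i y = φ.p2 i y.1 + φ.p1in i y.2 := rfl
theorem tP0_in (h : j ∈ I) : φ.tP0 I j y = (φ.p0 j y.1, φ.p0V y.2 + φ.p1out j y.1) := by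
  rw [tP0, if_pos h]; rfl
theorem tP0_out (h : j ∉ I) : φ.tP0 I j y = (φ.p0 j y.1, 0) := by
  rw [tP0, if_neg h]; rfl
theorem tP1_to (h : k ∈ I) : φ.tP1 I j k y = 0 := by
  rw [tP1, if_pos h]; rfl
theorem tP1_from (h : k ∉ I) (h' : j ∈ I) :
    φ.tP1 I j k y = (φ.p1 j k (R.it j y) + R'.a j k (φ.tPsi j y), 0) := by
  rw [tP1, if_neg h, if_pos h']; rfl
theorem tP1_out (h : k ∉ I) (h' : j ∉ I) : φ.tP1 I j k y = (φ.p1 j k y.1, 0) := by
  rw [tP1, if_neg h, if_neg h']; rfl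
theorem tP1_adj (h : ¬ G.Adj j k) : φ.tP1 I j k = 0 := by
  rw [tP1, φ.p1_adj j k h, R'.a_adj j k h]
  split_ifs <;> simp
theorem tP1_zero (h : ¬ G.Adj j k) : φ.tP1 I j k y = 0 := by rw [φ.tP1_adj h]; rfl
theorem tP2_in (h : j ∈ I) : φ.tP2 I j y = (φ.tPsi j y, 0) := by
  rw [tP2, if_pos h]; rfl
theorem tP2_out (h : j ∉ I) : φ.tP2 I j y = (φ.p2 j y.1, 0) := by
  rw [tP2, if_neg h]; rfl

theorem tPsi_d (i : V) : R'.d i (φ.tPsi i y) + φ.tPsi i (R.d i y.1, R.dV y.2 + R.out i y.1) =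
    φ.p0 i (R.it i y) + R'.it i (φ.p0 i y.1, φ.p0V y.2 + φ.p1out i y.1) := by
  simp only [tPsi_apply, Rep.it_apply, map_add]
  linear_combination (norm := (apply one2_dmv; match_scalars <;> decide))
    φ.p2_d' i y.1 + φ.p1in_d i y.2
end

theorem tPsi_gr {n : ℤ} {y : R.X × (V → R.X)} (h1 : y.1 ∈ R.gr j (n + 1 + 1))
    (h2 : y.2 ∈ R.vg j (n + 1)) : φ.tPsi j y ∈ R'.gr j n :=
  add_mem (φ.p2_gr _ _ _ h1) (φ.p1in_vg h2)

theorem tP1_d (hI : Ind G I) (j k : V) (y : R.X × (V → R.X)) :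
    R'.tauD I k (φ.tP1 I j k y) + φ.tP1 I j k (R.tauD I j y) =
      R'.tauA I j k (φ.tP0 I j y) + φ.tP0 I k (R.tauA I j k y) := by
  by_cases hjk : G.Adj j k
  swap
  · simp [φ.tP1_zero _ hjk, Rep.tauA_zero _ _ hjk]
  by_cases hk : k ∈ I
  · have hj : j ∉ I := fun hj => hI j hj k hk hjk
    simp [φ.tP1_to _ hk, Rep.tauA_to _ _ hk hjk, φ.tP0_in _ hk, φ.tP0_out _ hj, φ.p0V_single]
  by_cases hj : j ∈ I
  · rw [φ.tP1_from _ hk hj, φ.tP1_from _ hk hj, R'.tauA_from _ hk hj, R.tauA_from _ hk hj,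
      R'.tauD_out _ hk, R.tauD_in _ hj, φ.tP0_in _ hj, φ.tP0_out _ hk, R.it_d]
    refine Prod.ext ?_ rfl
    have h1 := congrArg (R'.a j k) (φ.tPsi_d y j)
    simp only [map_add, Prod.fst_add, R'.da] at h1 ⊢
    linear_combination (norm := (apply one2_dmv; match_scalars <;> decide))
      h1 + φ.p1_d j k (R.it j y)
  · rw [φ.tP1_out _ hk hj, φ.tP1_out _ hk hj, R'.tauA_out _ hk hj, R.tauA_out _ hk hj,
      R'.tauD_out _ hk, R.tauD_out _ hj, φ.tP0_out _ hj, φ.tP0_out _ hk]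
    exact Prod.ext (φ.p1_d j k y.1) rfl

theorem tP2_d (hI : Ind G I) (j : V) (y : R.X × (V → R.X)) :
    R'.tauD I j (φ.tP2 I j y) + φ.tP2 I j (R.tauD I j y) =
      R'.tauH I j (φ.tP0 I j y) + φ.tP0 I j (R.tauH I j y) +
        ∑ k, (R'.tauA I k j (φ.tP1 I j k y) + φ.tP1 I k j (R.tauA I j k y)) := by
  by_cases hj : j ∈ I
  · have (k : V) : R'.tauA I k j (φ.tP1 I j k y) + φ.tP1 I k j (R.tauA I j k y) =
        (0, Pi.single k (φ.p1 j k (R.it j y) + R'.a j k (φ.tPsi j y))) := by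
      rw [φ.tP1_to _ hj, add_zero]
      by_cases hk : G.Adj j k
      · rw [φ.tP1_from _ (fun hk' => hI j hj k hk' hk) hj, R'.tauA_to _ hj hk.symm]
      · simp [φ.tP1_zero _ hk, φ.p1_zero hk, R'.a_zero hk, Prod.ext_iff]
    simp only [this, φ.tP2_in _ hj, R'.tauD_in _ hj, R.tauD_in _ hj, R'.tauH_in _ hj,
      R.tauH_in _ hj, φ.tP0_in _ hj]
    ext
    · simp only [Prod.fst_add, φ.tPsi_d]
      simp [Prod.fst_sum, add_comm]
    · simp [Prod.snd_sum, Finset.sum_apply, Pi.single_apply, add_self_left2]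
  · have (k : V) : R'.tauA I k j (φ.tP1 I j k y) + φ.tP1 I k j (R.tauA I j k y) =
        (R'.a k j (φ.p1 j k y.1) + φ.p1 k j (R.a j k y.1), 0) := by
      by_cases hk : G.Adj j k
      swap
      · simp [φ.tP1_zero _ hk, φ.p1_zero hk, R.a_zero hk, R.tauA_zero _ hk, Prod.ext_iff]
      by_cases hk' : k ∈ I
      · simp [φ.tP1_to _ hk', R.tauA_to _ hk' hk, φ.tP1_from _ hj hk', Rep.it_apply,
          Rep.inn_single, tPsi_apply, p1in_single, add_comm]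
      · rw [φ.tP1_out _ hk' hj, R.tauA_out _ hk' hj, φ.tP1_out _ hj hk', R'.tauA_out _ hj hk']
        simp
    simp only [this, φ.tP2_out _ hj, R'.tauD_out _ hj, R.tauD_out _ hj, R'.tauH_out _ hj,
      R.tauH_out _ hj, φ.tP0_out _ hj]
    ext
    · simp [Prod.fst_sum, φ.p2_d]
    · simp [Prod.snd_sum]

omit [DecidableRel G.Adj] in
theorem tP0_d (j : V) (y : R.X × (V → R.X)) :
    R'.tauD I j (φ.tP0 I j y) = φ.tP0 I j (R.tauD I j y) := by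
  by_cases hj : j ∈ I
  · rw [φ.tP0_in _ hj, φ.tP0_in _ hj, R'.tauD_in _ hj, R.tauD_in _ hj]
    refine Prod.ext (φ.p0_d _ _) ?_
    simp only [map_add, φ.p0V_d]
    linear_combination (norm := (apply one2_dmv; match_scalars <;> decide)) φ.p1out_d j y.1
  · rw [φ.tP0_out _ hj, φ.tP0_out _ hj, R'.tauD_out _ hj, R.tauD_out _ hj]
    exact Prod.ext (φ.p0_d _ _) rfl

theorem tP0_gr (j : V) (n : ℤ) (y : R.X × (V → R.X)) (hy : y ∈ R.tauG I j n) :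
    φ.tP0 I j y ∈ R'.tauG I j n := by
  by_cases hj : j ∈ I
  · rw [Rep.tauG_in _ _ hj] at hy ⊢
    rw [φ.tP0_in _ hj]
    exact ⟨φ.p0_gr _ _ _ hy.1, add_mem (φ.p0V_vg hy.2) (φ.p1out_vg hy.1)⟩
  · rw [Rep.tauG_out _ _ hj] at hy ⊢
    rw [φ.tP0_out _ hj]
    exact ⟨φ.p0_gr _ _ _ hy.1, rfl⟩

theorem tP1_gr (j k : V) (n : ℤ) (y : R.X × (V → R.X)) (hy : y ∈ R.tauG I j (n + 1)) :
    φ.tP1 I j k y ∈ R'.tauG I k n := by
  by_cases hk : k ∈ I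
  · rw [φ.tP1_to _ hk]; exact zero_mem _
  by_cases hj : j ∈ I
  · rw [Rep.tauG_in _ _ hj] at hy
    rw [φ.tP1_from _ hk hj, Rep.tauG_out _ _ hk]
    exact ⟨add_mem (φ.p1_gr _ _ _ _ (R.it_gr hy.1 hy.2))
      (R'.a_gr _ _ _ _ (φ.tPsi_gr hy.1 hy.2)), rfl⟩
  · rw [Rep.tauG_out _ _ hj] at hy
    rw [φ.tP1_out _ hk hj, Rep.tauG_out _ _ hk]
    exact ⟨φ.p1_gr _ _ _ _ hy.1, rfl⟩

theorem tP2_gr (j : V) (n : ℤ) (y : R.X × (V → R.X)) (hy : y ∈ R.tauG I j (n + 1 + 1)) :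
    φ.tP2 I j y ∈ R'.tauG I j n := by
  by_cases hj : j ∈ I
  · rw [Rep.tauG_in _ _ hj] at hy ⊢
    rw [φ.tP2_in _ hj]
    exact ⟨φ.tPsi_gr hy.1 hy.2, zero_mem _⟩
  · rw [Rep.tauG_out _ _ hj] at hy ⊢
    rw [φ.tP2_out _ hj]
    exact ⟨φ.p2_gr _ _ _ hy.1, rfl⟩

/-- The morphism induced on `tau`. -/
def tau (hI : Ind G I) : Mor (R.tau I hI) (R'.tau I hI) where
  p0 := φ.tP0 I
  p1 := φ.tP1 I
  p2 := φ.tP2 I
  p1_adj _ _ h := φ.tP1_adj h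
  p0_d := φ.tP0_d
  p1_d := φ.tP1_d hI
  p2_d := φ.tP2_d hI
  p0_gr := φ.tP0_gr
  p1_gr := φ.tP1_gr
  p2_gr := φ.tP2_gr

theorem tau_qis (hI : Ind G I) (hφ : φ.Qis) : (φ.tau hI).Qis := by
  rintro j n ⟨x, v⟩ ⟨u, w⟩ hy hz h1 h2
  change (x, v) ∈ R.tauG I j (n + 1 + 1) at hy
  change (u, w) ∈ R'.tauG I j (n + 1) at hz
  change R.tauD I j (x, v) = 0 at h1
  change R'.tauD I j (u, w) = φ.tP0 I j (x, v) at h2
  change ∃ y' ∈ R.tauG I j (n + 1), ∃ z' ∈ R'.tauG I j n,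
    (x, v) = R.tauD I j y' ∧ (u, w) = φ.tP0 I j y' + R'.tauD I j z'
  by_cases hj : j ∈ I
  · simp only [Rep.tauG_in _ _ hj, Rep.tauD_in _ _ hj, φ.tP0_in _ hj, Prod.mk_eq_zero,
      Prod.mk.injEq] at hy hz h1 h2
    obtain ⟨x', hx', u', hu', e1, e2⟩ := hφ j (n + 1) x u hy.1 hz.1 h1.1 h2.1
    obtain ⟨v', hv', w', hw', e3, e4⟩ := φ.qisV hφ (add_mem hy.2 (R.out_vg hx'))
      (add_mem (add_mem hz.2 (φ.p1out_vg hx')) (R'.out_vg hu'))
      (by rw [map_add, R.dV_out, ← e1, h1.2]) (by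
        have h3 := φ.p1out_d j x'
        have h4 := congrArg (R'.out j) e2
        rw [← e1] at h3
        simp only [map_add, R'.dV_out] at h4 ⊢
        linear_combination (norm := (apply one2_dmv; match_scalars <;> decide)) h2.2 + h3 + h4)
    refine ⟨(x', v'), (R.tauG_in _ hj).2 ⟨hx', hv'⟩, (u', w'), (R'.tauG_in _ hj).2 ⟨hu', hw'⟩,
      ?_, ?_⟩
    · rw [R.tauD_in _ hj]
      refine Prod.ext e1 ?_
      dsimp only
      linear_combination (norm := (apply one2_dmv; match_scalars <;> decide)) e3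
    · rw [R'.tauD_in _ hj, φ.tP0_in _ hj]
      refine Prod.ext e2 ?_
      simp only [Prod.snd_add]
      linear_combination (norm := (apply one2_dmv; match_scalars <;> decide)) e4
  · simp only [Rep.tauG_out _ _ hj, Rep.tauD_out _ _ hj, φ.tP0_out _ hj, Prod.mk_eq_zero,
      Prod.mk.injEq] at hy hz h1 h2
    obtain ⟨x', hx', u', hu', e1, e2⟩ := hφ j n x u hy.1 hz.1 h1.1 h2.1
    refine ⟨(x', 0), (R.tauG_out _ hj).2 ⟨hx', rfl⟩, (u', 0), (R'.tauG_out _ hj).2 ⟨hu', rfl⟩,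
      ?_, ?_⟩
    · rw [R.tauD_out _ hj]
      exact Prod.ext e1 hy.2
    · rw [R'.tauD_out _ hj, φ.tP0_out _ hj]
      exact Prod.ext e2 (hz.2.trans (add_zero _).symm)

end Mor

theorem tau_rel {I : Finset V} (hI : Ind G I) {R R' : Rep G} (h : Rel R R') :
    Rel (R.tau I hI) (R'.tau I hI) := by
  obtain ⟨φ, hφ⟩ := h
  exact ⟨φ.tau hI, φ.tau_qis hI hφ⟩

end Vale.Agent.P203
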