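import Mathlib

/-!
# P203: the definitions used in the final statement

`M` is a Coxeter matrix on `B` (Mathlib writes `m = ∞` as `M s t = 0`), and `cs` is a Coxeter system
of type `M` on the group `W`.
-/

namespace Vale.Agent.P203

variable {B : Type} {W : Type*} [Group W] {M : CoxeterMatrix B}

/-- The braid relators: for `s ≠ t` with `m = M s t` finite, the two alternating words of
length `m` in `s`, `t` are equal. -/
def braidRels (M : CoxeterMatrix B) : Set (FreeGroup B) :=
  {r | ∃ s t, s ≠ t ∧ M s t ≠ 0 ∧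
    r = ((CoxeterSystem.alternatingWord s t (M s t)).map FreeGroup.of).prod *
      ((CoxeterSystem.alternatingWord t s (M s t)).map FreeGroup.of).prod⁻¹}

/-- The Artin group of `M`. -/
abbrev Art (M : CoxeterMatrix B) : Type := PresentedGroup (braidRels M)

/-- The standard parabolic subgroup `W_T`. -/
def WP (cs : CoxeterSystem M W) (T : Finset B) : Subgroup W :=
  Subgroup.closure (cs.simple '' (T : Set B))

/-- `T` is spherical: `W_T` is finite. -/
def Sph (cs : CoxeterSystem M W) (T : Finset B) : Prop := Finite (WP cs T)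

/-- The elements `(u, T)` of the Salvetti poset: `u ∈ W` and `T` spherical. -/
abbrev SalV (cs : CoxeterSystem M W) := W × {T : Finset B // Sph cs T}

/-- The order of the Salvetti poset: `(u, T) ≤ (v, R)` iff `T ⊆ R`, `v⁻¹ u ∈ W_R` and `v⁻¹ u` has
minimal length in its coset `v⁻¹ u W_T`. -/
def SalLe (cs : CoxeterSystem M W) (p q : SalV cs) : Prop :=
  p.2.1 ⊆ q.2.1 ∧ q.1⁻¹ * p.1 ∈ WP cs q.2.1 ∧
    ∀ w ∈ WP cs p.2.1, cs.length (q.1⁻¹ * p.1) ≤ cs.length (q.1⁻¹ * p.1 * w)

/-- The closed geometric simplex with vertex set `σ`, in barycentric coordinates. -/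
def simplex {Q : Type*} (σ : Finset Q) : Set (Q → ℝ) :=
  {x | (∀ q, 0 ≤ x q) ∧ (∀ q, q ∉ σ → x q = 0) ∧ ∑ q ∈ σ, x q = 1}

/-- The geometric realization of the order complex of `(Q, le)`: the union of the simplices
spanned by the finite chains. -/
def Geo {Q : Type*} (le : Q → Q → Prop) : Type _ :=
  {x : Q → ℝ // ∃ σ : Finset Q, IsChain le (σ : Set Q) ∧ x ∈ simplex σ}

/-- The weak (CW) topology: a set is open iff its trace on each closed simplex is open in the
Euclidean topology of that simplex. -/
instance {Q : Type*} (le : Q → Q → Prop) : TopologicalSpace (Geo le) :=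
  ⨆ σ : {σ : Finset Q // IsChain le (σ : Set Q)},
    TopologicalSpace.coinduced (fun x : simplex σ.1 => (⟨x.1, σ.1, σ.2, x.2⟩ : Geo le))
      inferInstance

/-- `y = w • x` for some `w ∈ W`, where `W` acts on the poset by `w • (u, T) = (w u, T)`. -/
def SalOrbit (cs : CoxeterSystem M W) (x y : Geo (SalLe cs)) : Prop :=
  ∃ w : W, ∀ p : SalV cs, y.1 (w * p.1, p.2) = x.1 p

/-- The Salvetti complex `X(W, S)`: the realization of the Salvetti poset modulo `W`, with the
quotient topology. -/
abbrev Salvetti (cs : CoxeterSystem M W) := Quot (SalOrbit cs)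

end Vale.Agent.P203
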