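import Vale.Agent.P203.Bth

/-!
# P203 Gar: Garside's lemma in spherical type and directedness (done)
* `pos_of_inB`: here `E.st 1` has a top at every `t`. Strong induction on `len p` (`len_nonneg`), for all `q`. If `q = 1` done. Write
  `q = q' σ_t`. If `p = 1`: `q⁻¹ * q' = σ_t⁻¹` is in `InB` by `InB.down`, so
  `E.ntop_tau` gives `ntop 0 (st 1) t`, absurd. Else `p = p' σ_s`. If `s = t` use induction for `p'`, `q'`. Else `p σ_s⁻¹ = p'` and
  `p σ_t⁻¹ = p q⁻¹ q'` are in `InB`, so by `up` (with `R = {s, t}`, `Sph.mono`) `p Δ_R⁻¹ = p' * (lift (w0 R * s s))⁻¹` is in `InB`, hence positive by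
  induction; so `p σ_t⁻¹ = p Δ_R⁻¹ * lift (w0 R * s t)` is positive, shorter than `p`, and induction applies to it and `q'`.
* `garside`: build `E` from `S.x1` and `S.ex_st x 1`; `up` and `pos_of_inB`.
* `directed`: `ore_right` gives a common lower bound `e = c p = c b q`; `ore_left` gives a top `z` with `z⁻¹ c`, `z⁻¹ c b` positive.
  Newman type induction on `len (z⁻¹ e)`: for `e` with `z⁻¹ e ∈ Pos U` and `c₁`, `c₂` in `InB` with `z⁻¹ cᵢ`, `cᵢ⁻¹ e ∈ Pos U` there is `d` in `InB` with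
  `z⁻¹ d`, `d⁻¹ cᵢ ∈ Pos U`. If `cᵢ = e` trivial. Else `cᵢ⁻¹ e = pᵢ σ_tᵢ`; `eᵢ = e σ_tᵢ⁻¹` is in `InB`; `e' = e Δ_{t₁,t₂}⁻¹` is in `InB` (`up`) and below `z`
  (`garside`). Apply induction at `e₁` to `c₁`, `e'` (get `d₁`), then at `e₂` to `d₁`, `c₂`.
-/

namespace Vale.Agent.P203

variable {B : Type} [Fintype B] [DecidableEq B] {W : Type*} [Group W] {M : CoxeterMatrix B}
  (cs : CoxeterSystem M W) {T U R : Finset B} {J : ℤ} {b c p q : Art M}

theorem Dl_div {t : B} (hR : Sph cs R) (ht : t ∈ R) :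
    ∃ x ∈ Pos M R, Dl cs R = x * sg M t :=
  ⟨_, lift_mem_Pos cs (mul_mem (w0_mem cs R) (inv_mem (simple_mem cs ht))), by
    rw [Dl_right cs hR (simple_mem cs ht), lift_simple]⟩

include cs in
theorem St.pos_of_inB {E : St M} (hT : Sph cs T) (ho : E.Out T 0 1) (h1 : E.InB T 0 1)
    (ht : ∀ t, ¬ E.ntop 0 (E.st 1) t) (hp : p ∈ Pos M T) (hq : q ∈ Pos M T)
    (h : E.InB T 0 (p * q⁻¹)) : p * q⁻¹ ∈ Pos M T := by
  induction hn : (len p).toNat using Nat.strong_induction_on generalizing p q with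
  | _ n ih =>
  have hO (a : Art M) (ha : a ∈ AP M T) : E.Out T 0 a := by
    simpa using ho.coset (Closed.refl T) ha
  rcases Pos_cases hq with rfl | ⟨q', hq', t, htT, rfl⟩
  · simpa using hp
  have h2 : E.InB T 0 (p * (sg M t)⁻¹) := by
    have := h.down (hO _ (mul_mem (AP_of_Pos hp) (inv_mem (AP_of_Pos hq)))) hq'
    rwa [mul_inv_rev, ← mul_assoc, inv_mul_cancel_right] at this
  rw [mul_inv_rev, ← mul_assoc] at h ⊢
  rcases Pos_cases hp with rfl | ⟨p', hp', s, hsT, rfl⟩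
  · refine absurd (E.ntop_tau 0 _ t (h2 t htT)) ?_
    rw [St.st_sg_inv]; exact ht t
  have hl : (len p').toNat < n := by
    have := len_nonneg hp'
    rw [len_mul, len_sg] at hn
    omega
  have hR : ({s, t} : Finset B) ⊆ T := by simp [Finset.insert_subset_iff, hsT, htT]
  have hS := hT.mono hR
  have hB : E.InB T 0 (p' * sg M s) := by simpa using h1.down ho hp
  have h3 := St.up cs hS hR (hO _ (AP_of_Pos hp)) hB (by
    intro r hr
    rcases Finset.mem_insert.1 hr with rfl | hr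
    · rw [mul_inv_cancel_right]
      simpa using h1.down ho hp' r hsT
    · rw [Finset.mem_singleton.1 hr]; exact h2 t htT)
  obtain ⟨x, hx, ex⟩ := Dl_div cs hS (Finset.mem_insert_self s {t})
  obtain ⟨y, hy, ey⟩ := Dl_div cs hS (t := t) (by simp)
  have e1 : p' * sg M s * (Dl cs {s, t})⁻¹ = p' * x⁻¹ := by rw [ex]; group
  have h4 := ih _ hl hp' (Pos_mono hR hx) (e1 ▸ h3) rfl
  have e2 : p' * sg M s * (sg M t)⁻¹ = p' * x⁻¹ * y := by rw [← e1, ey]; group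
  refine ih _ ?_ (e2 ▸ mul_mem h4 (Pos_mono hR hy)) hq' h rfl
  rw [len_mul, len_mul, len_inv, len_sg, len_sg]
  simpa using hl

theorem garside (S : Sys M) (hT : Sph cs T) (hR : R ⊆ T) (hp : p ∈ Pos M T)
    (h : ∀ t ∈ R, p * (sg M t)⁻¹ ∈ Pos M T) : p * (Dl cs R)⁻¹ ∈ Pos M T := by
  obtain ⟨x, h1, h2, h3⟩ := S.x1
  obtain ⟨st, e, hst⟩ := S.ex_st x 1
  let E : St M := ⟨S, st, hst⟩
  have e' : E.st 1 = x := e
  have ho : E.Out T 0 1 := ⟨by unfold St.Fr; rw [e']; exact h2,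
    fun s _ _ => by unfold St.Lv St.F; rw [e']; exact h1 s⟩
  have hB : E.InB T 0 1 := fun s _ => by unfold St.Lv St.F; rw [e']; exact h1 s
  have hD (a : Art M) (ha : a ∈ Pos M T) : E.InB T 0 a := by simpa using hB.down ho ha
  refine St.pos_of_inB cs hT ho hB (by rw [e']; exact h3) hp (Pos_mono hR (Dl_mem cs R)) ?_
  exact St.up cs (hT.mono hR) hR (by simpa using ho.coset (Closed.refl T) (AP_of_Pos hp))
    (hD p hp) fun t ht => hD _ (h t ht) t (hR ht)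

include cs in
theorem St.newman {E : St M} (hU : Sph cs U) {z : Art M} (ho : E.Out U J z) (e : Art M)
    (he : z⁻¹ * e ∈ Pos M U) (c₁ c₂ : Art M) (h₁ : E.InB U J c₁) (h₂ : E.InB U J c₂)
    (k₁ : z⁻¹ * c₁ ∈ Pos M U) (k₂ : z⁻¹ * c₂ ∈ Pos M U) (l₁ : c₁⁻¹ * e ∈ Pos M U)
    (l₂ : c₂⁻¹ * e ∈ Pos M U) : ∃ d, E.InB U J d ∧ z⁻¹ * d ∈ Pos M U ∧ d⁻¹ * c₁ ∈ Pos M U ∧
      d⁻¹ * c₂ ∈ Pos M U := by
  induction hn : (len (z⁻¹ * e)).toNat using Nat.strong_induction_on generalizing e c₁ c₂ with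
  | _ n ih =>
  have hO (a : Art M) (ha : z⁻¹ * a ∈ Pos M U) : E.Out U J a := by
    simpa using ho.coset (Closed.refl U) (AP_of_Pos ha)
  rcases Pos_cases l₁ with e₁ | ⟨p₁, hp₁, s, hs, e₁⟩
  · obtain rfl : c₁ = e := inv_mul_eq_one.1 e₁
    exact ⟨c₂, h₂, k₂, l₂, by simp⟩
  rcases Pos_cases l₂ with e₂ | ⟨p₂, hp₂, t, ht, e₂⟩
  · obtain rfl : c₂ = e := inv_mul_eq_one.1 e₂
    exact ⟨c₁, h₁, k₁, by simp, l₁⟩
  have f₁ : e * (sg M s)⁻¹ = c₁ * p₁ := by rw [← mul_inv_cancel_left c₁ e, e₁]; group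
  have f₂ : e * (sg M t)⁻¹ = c₂ * p₂ := by rw [← mul_inv_cancel_left c₂ e, e₂]; group
  have g₁ : z⁻¹ * (e * (sg M s)⁻¹) ∈ Pos M U := by rw [f₁, ← mul_assoc]; exact mul_mem k₁ hp₁
  have g₂ : z⁻¹ * (e * (sg M t)⁻¹) ∈ Pos M U := by rw [f₂, ← mul_assoc]; exact mul_mem k₂ hp₂
  have hl (r : B) (hr : z⁻¹ * (e * (sg M r)⁻¹) ∈ Pos M U) :
      (len (z⁻¹ * (e * (sg M r)⁻¹))).toNat < n := by
    have := len_nonneg hr
    rw [← mul_assoc, len_mul, len_inv (sg M r), len_sg] at this ⊢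
    omega
  have hR : ({s, t} : Finset B) ⊆ U := by simp [Finset.insert_subset_iff, hs, ht]
  have hS := hU.mono hR
  have hB : E.InB U J e := by simpa using h₁.down (hO _ k₁) l₁
  have h3 := St.up cs hS hR (hO _ he) hB (by
    intro r hr
    rcases Finset.mem_insert.1 hr with rfl | hr
    · rw [f₁]; exact h₁.down (hO _ k₁) hp₁ r hs
    · rw [Finset.mem_singleton.1 hr, f₂]; exact h₂.down (hO _ k₂) hp₂ t ht)
  have h4 := garside cs E.toSys hU hR he (by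
    intro r hr
    rcases Finset.mem_insert.1 hr with rfl | hr
    · rwa [mul_assoc]
    · rwa [Finset.mem_singleton.1 hr, mul_assoc])
  rw [mul_assoc] at h4
  have h5 (r : B) (hr : r ∈ ({s, t} : Finset B)) :
      (e * (Dl cs {s, t})⁻¹)⁻¹ * (e * (sg M r)⁻¹) ∈ Pos M U := by
    obtain ⟨x, hx, ex⟩ := Dl_div cs hS hr
    have : (e * (Dl cs {s, t})⁻¹)⁻¹ * (e * (sg M r)⁻¹) = x := by rw [ex]; group
    rw [this]; exact Pos_mono hR hx
  obtain ⟨d₁, a1, a2, a3, a4⟩ := ih _ (hl s g₁) _ g₁ c₁ _ h₁ h3 k₁ h4 (by rw [f₁]; simpa using hp₁)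
    (h5 s (by simp)) rfl
  obtain ⟨d, b1, b2, b3, b4⟩ := ih _ (hl t g₂) _ g₂ d₁ c₂ a1 h₂ a2 k₂
    (by simpa [mul_assoc] using mul_mem a4 (h5 t (by simp))) (by rw [f₂]; simpa using hp₂) rfl
  exact ⟨d, b1, b2, by simpa [mul_assoc] using mul_mem b3 a3, b4⟩

include cs in
theorem St.directed {E : St M} (hU : Sph cs U) (ho : E.Out U J c) (hb : b ∈ AP M U)
    (h : E.InB U J c) (h' : E.InB U J (c * b)) :
    ∃ d, E.InB U J d ∧ d⁻¹ * c ∈ Pos M U ∧ d⁻¹ * (c * b) ∈ Pos M U := by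
  obtain ⟨p, hp, q, hq, e₁⟩ := ore_right cs hU hb
  obtain ⟨p', hp', q', hq', e₂⟩ := ore_left cs hU hb
  obtain ⟨d, h1, -, h2⟩ := St.newman cs hU (ho.coset (Closed.refl U) (inv_mem (AP_of_Pos hp')))
    (c * p) (by simpa [mul_assoc] using mul_mem hp' hp) c (c * b) h h' (by simpa using hp')
    (by rw [e₂]; simpa [mul_assoc] using hq') (by simpa using hp)
    (by rw [e₁]; simpa [mul_assoc] using hq)
  exact ⟨d, h1, h2⟩

end Vale.Agent.P203
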