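import Vale.Agent.P203.TG

/-!
# P203 TTr: cones, directed unions, the Morse lemma (TASK)
* `wc_Iic`: straight line homotopy to the vertex `Pi.single q 1` (insert `q` in the chain).
* `wc_directed`: `compact_fin`; a finite set lies in one member of the directed family.
* `morse_lin`: put `Lt i = L0 ∪ ⋃ j < i, L j`, `Le i = Lt i ∪ L i`. Forward: by well-founded induction `WC (Le i)` (`Lt i` is the directed union of `L0` and the `Le j`, `j < i`;
  `wc_union`). Backward: a null-homotopy of a compact `C ⊆ GS L0` has compact image, so lies in `L0` or some `Le i`; by well-founded induction on `i`, `Null C (GS (Le i))` implies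
  `Null C (GS L0)` (`null_of_union`, then compactness again). For `C = ∅` use `hne` (a vertex is a point of `GS L0`).
* `morse`: order `ι` lexicographically by `ht` and an arbitrary well-order (`WellOrderingRel`, or `exists_wellOrder`), and apply `morse_lin` with `S = {j | j < i}`.
-/

namespace Vale.Agent.P203

open Set

variable {Q : Type*} [PartialOrder Q]

theorem wc_Iic (q : Q) : WC (Iic q) := by
  classical
  intro C hC _
  have hy : (Pi.single q 1 : Q → ℝ) ∈ GS (Iic q) := by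
    refine ⟨{q}, by simp, by simp, fun p => ?_, fun p hp => ?_, by simp⟩
    · by_cases h : p = q
      · subst h; simp
      · simp [h]
    · have h : p ≠ q := by simpa using hp
      simp [h]
  refine ⟨Pi.single q 1, hy, fun z => (1 - z.2) • z.1 + z.2 • (Pi.single q 1 : Q → ℝ), ?_, ?_, ?_, ?_⟩
  · exact Continuous.continuousOn (by fun_prop)
  · rintro ⟨x, t⟩ ⟨hx, ht0, ht1⟩
    obtain ⟨σ, h1, h2, h3, h4, h5⟩ := hC hx
    dsimp only at h3 h4 h5 ht0 ht1
    refine ⟨insert q σ, ?_, ?_, fun p => ?_, fun p hp => ?_, ?_⟩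
    · rw [Finset.coe_insert]
      exact h1.insert fun b hb _ => Or.inr (h2 hb)
    · rw [Finset.coe_insert]
      exact insert_subset (mem_Iic.2 le_rfl) h2
    · have h6 : (0 : ℝ) ≤ (Pi.single q 1 : Q → ℝ) p := by
        by_cases h : p = q
        · subst h; simp
        · simp [h]
      have h7 := h3 p
      simp only [Pi.add_apply, Pi.smul_apply, smul_eq_mul]
      exact add_nonneg (mul_nonneg (sub_nonneg.2 ht1) h7) (mul_nonneg ht0 h6)
    · rw [Finset.mem_insert, not_or] at hp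
      simp [hp.1, h4 p hp.2]
    · have h6 : ∑ p ∈ insert q σ, x p = 1 := by
        by_cases h : q ∈ σ
        · rw [Finset.insert_eq_of_mem h]; exact h5
        · rw [Finset.sum_insert h, h4 q h, zero_add]; exact h5
      have h7 : ∑ p ∈ insert q σ, (Pi.single q 1 : Q → ℝ) p = 1 := by
        rw [Finset.sum_pi_single']; simp
      simp only [Pi.add_apply, Pi.smul_apply, smul_eq_mul, Finset.sum_add_distrib,
        ← Finset.mul_sum, h6, h7]
      ring
  · intro x _; simp
  · intro x _; simp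

theorem wc_directed (hQ : LocFin Q) {ι : Type*} [Nonempty ι] {L : ι → Set Q}
    (hL : ∀ i, IsLowerSet (L i)) (hd : Directed (· ⊆ ·) L) (h : ∀ i, WC (L i)) : WC (⋃ i, L i) := by
  intro C hC hc
  obtain ⟨K, hK, -, h1, h2⟩ := compact_fin hQ (isLowerSet_iUnion hL) hc hC
  have key : ∃ i, K ⊆ L i := by
    clear h2
    induction K, hK using Set.Finite.induction_on with
    | empty => exact ⟨Classical.arbitrary ι, empty_subset _⟩
    | @insert a s _ _ ih =>
      obtain ⟨i, hi⟩ := ih ((subset_insert a s).trans h1)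
      obtain ⟨j, hj⟩ := mem_iUnion.1 (h1 (mem_insert a s))
      obtain ⟨k, hik, hjk⟩ := hd i j
      exact ⟨k, insert_subset (hjk hj) (hi.trans hik)⟩
  obtain ⟨i, hi⟩ := key
  exact (h i C (h2.trans (GS_mono hi)) hc).mono subset_rfl (GS_mono (subset_iUnion L i))

omit [PartialOrder Q] in
theorem ttr_fin_sub {ι : Type*} [LinearOrder ι] {L0 : Set Q} {L : ι → Set Q} (S : Set ι)
    {K : Set Q} (hK : K.Finite) (h : K ⊆ L0 ∪ ⋃ j ∈ S, L j) :
    K ⊆ L0 ∨ ∃ j ∈ S, K ⊆ (L0 ∪ ⋃ k < j, L k) ∪ L j := by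
  have mono : ∀ i j : ι, i ≤ j → (L0 ∪ ⋃ k < i, L k) ∪ L i ⊆ (L0 ∪ ⋃ k < j, L k) ∪ L j := by
    intro i j hij
    rcases hij.eq_or_lt with rfl | hlt
    · exact subset_rfl
    · rintro x ((hx | hx) | hx)
      · exact Or.inl (Or.inl hx)
      · obtain ⟨k, hk, hx⟩ := mem_iUnion₂.1 hx
        exact Or.inl (Or.inr (mem_iUnion₂.2 ⟨k, lt_trans hk hlt, hx⟩))
      · exact Or.inl (Or.inr (mem_iUnion₂.2 ⟨i, hlt, hx⟩))
  induction K, hK using Set.Finite.induction_on with
  | empty => exact Or.inl (empty_subset _)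
  | @insert a s _ _ ih =>
    have h1 := ih ((subset_insert a s).trans h)
    rcases h (mem_insert a s) with ha | ha
    · rcases h1 with h1 | ⟨j, hj, h1⟩
      · exact Or.inl (insert_subset ha h1)
      · exact Or.inr ⟨j, hj, insert_subset (Or.inl (Or.inl ha)) h1⟩
    · obtain ⟨i, hi, ha⟩ := mem_iUnion₂.1 ha
      rcases h1 with h1 | ⟨j, hj, h1⟩
      · exact Or.inr ⟨i, hi, insert_subset (Or.inr ha) fun x hx => Or.inl (Or.inl (h1 hx))⟩
      · rcases le_total i j with hij | hij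
        · exact Or.inr ⟨j, hj, insert_subset (mono i j hij (Or.inr ha)) h1⟩
        · exact Or.inr ⟨i, hi, insert_subset (Or.inr ha) (h1.trans (mono j i hij))⟩

theorem ttr_null_fin (hQ : LocFin Q) {L : Set Q} (hL : IsLowerSet L) {C : Set (Q → ℝ)}
    (hC : IsCompact C) (h : Null C (GS L)) : ∃ K, K.Finite ∧ K ⊆ L ∧ Null C (GS K) := by
  obtain ⟨y, hy, H, h1, h2, h3, h4⟩ := h
  have hc : IsCompact (insert y (H '' (C ×ˢ Icc (0 : ℝ) 1))) :=
    ((hC.prod isCompact_Icc).image_of_continuousOn h1).insert y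
  obtain ⟨K, hK, -, h5, h6⟩ := compact_fin hQ hL hc (insert_subset hy h2.image_subset)
  exact ⟨K, hK, h5, y, h6 (mem_insert _ _), H, h1,
    fun z hz => h6 (mem_insert_of_mem _ (mem_image_of_mem H hz)), h3, h4⟩

theorem morse_lin (hQ : LocFin Q) {ι : Type*} [LinearOrder ι] [WellFoundedLT ι] {L0 : Set Q}
    {L : ι → Set Q} (h0 : IsLowerSet L0) (hL : ∀ i, IsLowerSet (L i)) (hne : L0.Nonempty)
    (hw : ∀ i, WC (L i)) (hI : ∀ i, WC (L i ∩ (L0 ∪ ⋃ j < i, L j))) :
    WC L0 ↔ WC (L0 ∪ ⋃ i, L i) := by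
  have _ := hne
  have hlow : ∀ S : Set ι, IsLowerSet (L0 ∪ ⋃ j ∈ S, L j) := fun S =>
    h0.union (isLowerSet_iUnion₂ fun j _ => hL j)
  have huniv : (L0 ∪ ⋃ i, L i) = L0 ∪ ⋃ j ∈ (univ : Set ι), L j := by simp
  constructor
  · intro hw0
    have step : ∀ S : Set ι, IsLowerSet S → (∀ j ∈ S, WC ((L0 ∪ ⋃ k < j, L k) ∪ L j)) →
        WC (L0 ∪ ⋃ j ∈ S, L j) := by
      intro S hS h C hC hc
      obtain ⟨K, hK, -, h1, h2⟩ := compact_fin hQ (hlow S) hc hC
      rcases ttr_fin_sub S hK h1 with h3 | ⟨j, hj, h3⟩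
      · exact (hw0 C (h2.trans (GS_mono h3)) hc).mono subset_rfl (GS_mono subset_union_left)
      · refine (h j hj C (h2.trans (GS_mono h3)) hc).mono subset_rfl (GS_mono ?_)
        rintro x ((hx | hx) | hx)
        · exact Or.inl hx
        · obtain ⟨k, hk, hx⟩ := mem_iUnion₂.1 hx
          exact Or.inr (mem_iUnion₂.2 ⟨k, hS (le_of_lt hk) hj, hx⟩)
        · exact Or.inr (mem_iUnion₂.2 ⟨j, hj, hx⟩)
    have hle : ∀ i, WC ((L0 ∪ ⋃ k < i, L k) ∪ L i) := by
      intro i
      induction i using WellFoundedLT.induction with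
      | ind i ih =>
        have h1 : WC (L0 ∪ ⋃ k < i, L k) := step (Iio i) (isLowerSet_Iio i) fun j hj => ih j hj
        refine wc_union hQ (hlow (Iio i)) (hL i) h1 (hw i) ?_
        rw [inter_comm]
        exact hI i
    rw [huniv]
    exact step univ isLowerSet_univ fun j _ => hle j
  · intro hwU C hC hc
    have step : ∀ S : Set ι, (∀ j ∈ S, Null C (GS ((L0 ∪ ⋃ k < j, L k) ∪ L j)) → Null C (GS L0)) →
        Null C (GS (L0 ∪ ⋃ j ∈ S, L j)) → Null C (GS L0) := by
      intro S h hN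
      obtain ⟨K, hK, h1, h2⟩ := ttr_null_fin hQ (hlow S) hc hN
      rcases ttr_fin_sub S hK h1 with h3 | ⟨j, hj, h3⟩
      · exact h2.mono subset_rfl (GS_mono h3)
      · exact h j hj (h2.mono subset_rfl (GS_mono h3))
    have hle : ∀ i, Null C (GS ((L0 ∪ ⋃ k < i, L k) ∪ L i)) → Null C (GS L0) := by
      intro i
      induction i using WellFoundedLT.induction with
      | ind i ih =>
        intro hN
        refine step (Iio i) (fun j hj => ih j hj) ?_
        refine null_of_union hQ (hlow (Iio i)) (hL i) ?_ hc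
          (hC.trans (GS_mono subset_union_left)) hN
        rw [inter_comm]
        exact hI i
    refine step univ (fun j _ => hle j) ?_
    rw [← huniv]
    exact hwU C (hC.trans (GS_mono subset_union_left)) hc

theorem ttr_exists_lex {ι H : Type*} [LinearOrder H] (ht : ι → H) (hwf : (range ht).IsWF) :
    ∃ o : LinearOrder ι, @WellFoundedLT ι o.toLT ∧
      (∀ i j, ht i < ht j → o.lt i j) ∧ ∀ i j, o.lt i j → ht i ≤ ht j := by
  obtain ⟨wo, hwo⟩ := exists_wellFoundedLT ι
  have : WellFoundedLT (range ht) := ⟨hwf⟩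
  let f : ι → Lex (range ht × ι) := fun i => toLex (⟨ht i, mem_range_self i⟩, i)
  have hf : Function.Injective f := fun i j h => congrArg (fun p => (ofLex p).2) h
  refine ⟨LinearOrder.lift' f hf, ⟨InvImage.wf f wellFounded_lt⟩, fun i j h => ?_, fun i j h => ?_⟩
  · show f i < f j
    exact Prod.Lex.toLex_lt_toLex.2 (Or.inl h)
  · have h' : f i < f j := h
    rcases Prod.Lex.toLex_lt_toLex.1 h' with h1 | ⟨h1, -⟩
    · exact le_of_lt h1
    · exact le_of_eq (congrArg Subtype.val h1)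

theorem morse (hQ : LocFin Q) {ι H : Type*} [LinearOrder H] (ht : ι → H) (hwf : (range ht).IsWF)
    {L0 : Set Q} {L : ι → Set Q} (h0 : IsLowerSet L0) (hL : ∀ i, IsLowerSet (L i))
    (hne : L0.Nonempty) (hw : ∀ i, WC (L i))
    (hI : ∀ i (S : Set ι), (∀ j, ht j < ht i → j ∈ S) → (∀ j ∈ S, ht j ≤ ht i) → i ∉ S →
      WC (L i ∩ (L0 ∪ ⋃ j ∈ S, L j))) : WC L0 ↔ WC (L0 ∪ ⋃ i, L i) := by
  obtain ⟨o, h1, h2, h3⟩ := ttr_exists_lex ht hwf
  refine morse_lin hQ h0 hL hne hw fun i => ?_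
  exact hI i (Iio i) (fun j hj => h2 j i hj) (fun j hj => h3 j i hj) (lt_irrefl i)

end Vale.Agent.P203
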