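import Vale.Agent.P203.PPo
import Vale.Agent.P203.Gar
import Vale.Agent.P203.TTr

/-!
# P203 Deligne: the spherical case (TASK)
* `wc_filt`: `morse` with `ι = {g // g ∈ Γ ∧ g ≠ d}`, `ht = len`, `L g = Iic (cellB g (D g) _)`, `L0 = Iic (cellB d (D d) _)` (`wc_Iic`). For `S` as in `morse`,
  `L g ∩ (L0 ∪ ⋃ S) = Bd (cellB g ..)`: a face `p` with `p.bot ≠ g` has `len p.bot < len g` (`bot_le`, `len_nonneg`, `eq_one_of_len`) and lies in `L p.bot` (`hcl`, `cell_le`, `cellB_bot`);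
  conversely `p ≤ cellB g'`, `p.bot = g` gives `len g ≤ len g'` with equality only if `g = g'` (for `g' = d` use `hd`). The union is the set in the statement.
* `wc_bd`: strong induction on `q.R.card`; `Γ = {q.a * lift w | w ∈ W_R, w ≠ w0 R}`, `D g` = right descents of `pr (q.a⁻¹ * g)` (a proper subset of `R` by `rdesc_mem`, `w0_unique`; nonempty if `w ≠ 1`),
  `d = q.a`. The faces of `q` are the `⟨q.a * lift u, R'⟩`, `u` `RMin`, with bottom `q.a * lift (u * w0 R')` (`RMin.desc_mul_w0`, `rmin_mul_w0`).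
* `wc_cone`: `Γ = d * Pos T`, `D g = {t ∈ T | d⁻¹ * g * σ_t⁻¹ ∈ Pos T}`; `garside` shows that `cellB g (D g)` has its top in `d * Pos T`; `Pos_cases`.
* `deligne`: `wc_directed` over `d ∈ c A_T`, directed by `ore_left`.
-/

namespace Vale.Agent.P203

variable {B : Type} [Fintype B] [DecidableEq B] {W : Type*} [Group W] {M : CoxeterMatrix B}
  {cs : CoxeterSystem M W}

/-- The faces of `q` not containing its bottom vertex. -/
def Bd (q : PP cs) : Set (PP cs) := {p | p ≤ q ∧ p.bot ≠ q.bot}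

theorem del_len_le {T : Finset B} {a b : Art M} (h : a⁻¹ * b ∈ Pos M T) : len a ≤ len b := by
  have := len_nonneg h
  rw [len_mul, len_inv] at this
  omega

theorem del_eq {T : Finset B} {a b : Art M} (h : a⁻¹ * b ∈ Pos M T) (h' : len b ≤ len a) :
    a = b := by
  refine inv_mul_eq_one.1 (eq_one_of_len h ?_)
  rw [len_mul, len_inv]
  omega

theorem del_le_cell (p : PP cs) {R : Finset B} (hR : Sph cs R) (h : p.R ⊆ R) :
    p ≤ cellB p.bot R hR := by
  have := cell_le p.bot p.hR hR h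
  rwa [cellB_bot] at this

theorem del_bot_le {p : PP cs} {g : Art M} {R : Finset B} {hR : Sph cs R}
    (h : p ≤ cellB g R hR) : p.bot⁻¹ * g ∈ Pos M R := by
  have := bot_le h
  rwa [bot_cellB] at this

theorem wc_filt (Γ : Set (Art M)) (D : Art M → Finset B) (hD : ∀ g, Sph cs (D g)) {d : Art M}
    (hd : d ∈ Γ ∧ ∀ g ∈ Γ, g ≠ d → len d < len g)
    (hcl : ∀ g ∈ Γ, ∀ p, p ≤ cellB g (D g) (hD g) → p.bot ∈ Γ ∧ p.R ⊆ D p.bot)
    (hw : ∀ g ∈ Γ, g ≠ d → WC (Bd (cellB g (D g) (hD g)))) :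
    WC {p : PP cs | p.bot ∈ Γ ∧ p.R ⊆ D p.bot} := by
  have key := morse (locFin cs) (ι := {g // g ∈ Γ ∧ g ≠ d}) (fun g => len g.1)
    (BddBelow.wellFoundedOn_lt ⟨len d, by
      rintro _ ⟨g, rfl⟩
      exact (hd.2 g.1 g.2.1 g.2.2).le⟩)
    (L0 := Set.Iic (cellB d (D d) (hD d))) (L := fun g => Set.Iic (cellB g.1 (D g.1) (hD g.1)))
    (isLowerSet_Iic _) (fun _ => isLowerSet_Iic _) Set.nonempty_Iic (fun _ => wc_Iic _) ?_
  · convert key.1 (wc_Iic _) using 1
    ext p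
    simp only [Set.mem_ofPred_eq, Set.mem_union, Set.mem_iUnion, Set.mem_Iic]
    constructor
    · rintro ⟨h1, h2⟩
      by_cases h : p.bot = d
      · subst h
        exact Or.inl (del_le_cell p _ h2)
      · exact Or.inr ⟨⟨p.bot, h1, h⟩, del_le_cell p _ h2⟩
    · rintro (h | ⟨g, h⟩)
      · exact hcl d hd.1 p h
      · exact hcl g.1 g.2.1 p h
  · intro g S hS1 hS2 hS3
    convert hw g.1 g.2.1 g.2.2 using 1
    ext p
    simp only [Bd, Set.mem_ofPred_eq, Set.mem_union, Set.mem_iUnion, Set.mem_Iic, Set.mem_inter_iff,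
      bot_cellB]
    refine and_congr_right fun hp => ⟨?_, fun h => ?_⟩
    · rintro (h | ⟨j, hj, h⟩) he
      · have h1 := del_len_le (del_bot_le h)
        have h2 := hd.2 g.1 g.2.1 g.2.2
        rw [he] at h1
        omega
      · have h1 := del_bot_le h
        rw [he] at h1
        exact hS3 (Subtype.ext (del_eq h1 (hS2 j hj)) ▸ hj)
    · obtain ⟨h1, h2⟩ := hcl g.1 g.2.1 p hp
      by_cases h3 : p.bot = d
      · subst h3
        exact Or.inl (del_le_cell p _ h2)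
      · refine Or.inr ⟨⟨p.bot, h1, h3⟩, hS1 _ ?_, del_le_cell p _ h2⟩
        by_contra h4
        exact h (del_eq (del_bot_le hp) (not_lt.1 h4))

theorem del_face_bot {p q : PP cs} (h : p ≤ q) : ∃ w ∈ WP cs q.R, p.bot = q.a * lift cs w ∧
    ∀ t ∈ p.R, cs.IsRightDescent w t := by
  obtain ⟨h1, u, hu, h2, h3⟩ := h
  refine ⟨u * w0 cs p.R, mul_mem hu (WP_mono cs h1 (w0_mem cs _)), ?_,
    fun t ht => RMin.desc_mul_w0 cs p.hR h2 ht⟩
  rw [PP.bot, h3, Dl, lift_mul cs (RMin.length_mul cs h2 (w0_mem cs _)), mul_assoc]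

theorem del_face_of {p q : PP cs} {w : W} (hw : w ∈ WP cs q.R) (h : p.bot = q.a * lift cs w)
    (hd : ∀ t ∈ p.R, cs.IsRightDescent w t) : p ≤ q := by
  have h1 : p.R ⊆ q.R := fun t ht => rdesc_mem cs hw (hd t ht)
  have h2 := rmin_mul_w0 cs hd
  refine ⟨h1, w * w0 cs p.R, mul_mem hw (WP_mono cs h1 (w0_mem cs _)), h2, ?_⟩
  have h3 := lift_mul cs (RMin.length_mul cs h2 (w0_mem cs p.R))
  have h4 : w * w0 cs p.R * w0 cs p.R = w := by
    nth_rewrite 2 [← w0_inv cs p.hR]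
    exact mul_inv_cancel_right _ _
  rw [h4] at h3
  rw [h3, PP.bot, Dl, ← mul_assoc] at h
  exact mul_right_cancel h

theorem wc_bd (q : PP cs) (h : q.R.Nonempty) : WC (Bd q) := by
  classical
  induction hn : q.R.card using Nat.strong_induction_on generalizing q with
  | _ n ih =>
  have hpr : ∀ w : W, pr cs (q.a⁻¹ * (q.a * lift cs w)) = w := fun w => by
    rw [inv_mul_cancel_left, pr_lift]
  have hset : {p : PP cs | p.bot ∈ {g | ∃ w ∈ WP cs q.R, w ≠ w0 cs q.R ∧ g = q.a * lift cs w} ∧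
      p.R ⊆ Finset.univ.filter fun t => cs.IsRightDescent (pr cs (q.a⁻¹ * p.bot)) t} = Bd q := by
    ext p
    simp only [Bd, Set.mem_ofPred_eq]
    constructor
    · rintro ⟨⟨w, hw, h1, h2⟩, h3⟩
      rw [h2, hpr] at h3
      refine ⟨del_face_of hw h2 fun t ht => (Finset.mem_filter.1 (h3 ht)).2, fun he => h1 ?_⟩
      rw [← hpr w, ← h2, he, PP.bot, Dl, hpr]
    · rintro ⟨h1, h2⟩
      obtain ⟨w, hw, h3, h4⟩ := del_face_bot h1
      refine ⟨⟨w, hw, fun he => h2 ?_, h3⟩, fun t ht => ?_⟩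
      · rw [h3, he, PP.bot, Dl]
      · rw [h3, hpr]
        exact Finset.mem_filter.2 ⟨Finset.mem_univ _, h4 t ht⟩
  rw [← hset]
  refine wc_filt (cs := cs) {g | ∃ w ∈ WP cs q.R, w ≠ w0 cs q.R ∧ g = q.a * lift cs w}
    (fun g => Finset.univ.filter fun t => cs.IsRightDescent (pr cs (q.a⁻¹ * g)) t)
    (fun g => sph_of_desc cs fun t ht => (Finset.mem_filter.1 ht).2) (d := q.a) ⟨?_, ?_⟩ ?_ ?_
  · obtain ⟨t, ht⟩ := h
    refine ⟨1, one_mem _, fun he => cs.not_isRightDescent_one t ?_, by rw [lift_one, mul_one]⟩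
    rw [he]
    exact w0_rdesc cs q.hR ht
  · rintro _ ⟨w, hw, -, rfl⟩ h2
    by_contra h3
    refine h2 (del_eq (T := q.R) ?_ (not_lt.1 h3)).symm
    rw [inv_mul_cancel_left]
    exact lift_mem_Pos cs hw
  · intro g hg p hp
    have h1 : cellB g (Finset.univ.filter fun t => cs.IsRightDescent (pr cs (q.a⁻¹ * g)) t)
        (sph_of_desc cs fun t ht => (Finset.mem_filter.1 ht).2) ∈ Bd q := by
      rw [← hset, Set.mem_ofPred_eq, bot_cellB]
      exact ⟨hg, subset_rfl⟩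
    have h2 : p ∈ Bd q := by
      refine ⟨hp.trans h1.1, fun he => h1.2 ?_⟩
      have h3 := del_len_le (bot_le hp)
      rw [he] at h3
      exact del_eq (bot_le h1.1) h3
    rwa [← hset] at h2
  · rintro _ ⟨w, hw, h1, rfl⟩ h2
    refine ih _ ?_ _ ?_ rfl
    · rw [← hn]
      refine Finset.card_lt_card ⟨fun t ht => ?_, fun hs => h1 (w0_unique cs hw fun t ht => ?_)⟩
      · have := (Finset.mem_filter.1 ht).2
        rw [hpr] at this
        exact rdesc_mem cs hw this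
      · have := (Finset.mem_filter.1 (hs ht)).2
        rwa [hpr] at this
    · obtain ⟨t, ht⟩ := cs.exists_rightDescent_of_ne_one (w := w) fun he =>
        h2 (by rw [he, lift_one, mul_one])
      refine ⟨t, Finset.mem_filter.2 ⟨Finset.mem_univ _, ?_⟩⟩
      rwa [hpr]

theorem del_lower_cone (T : Finset B) (d : Art M) :
    IsLowerSet {p : PP cs | p.R ⊆ T ∧ d⁻¹ * p.a ∈ Pos M T} := by
  rintro q p ⟨h1, w, hw, -, h2⟩ ⟨h3, h4⟩
  refine ⟨h1.trans h3, ?_⟩
  rw [h2, ← mul_assoc]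
  exact mul_mem h4 (Pos_mono h3 (lift_mem_Pos cs hw))

theorem wc_cone (S : Sys M) {T : Finset B} (hT : Sph cs T) (d : Art M) :
    WC {p : PP cs | p.R ⊆ T ∧ d⁻¹ * p.a ∈ Pos M T} := by
  classical
  have hset : {p : PP cs | p.bot ∈ {g | d⁻¹ * g ∈ Pos M T} ∧
      p.R ⊆ T.filter fun t => d⁻¹ * p.bot * (sg M t)⁻¹ ∈ Pos M T} =
      {p : PP cs | p.R ⊆ T ∧ d⁻¹ * p.a ∈ Pos M T} := by
    ext p
    simp only [Set.mem_ofPred_eq]
    constructor
    · rintro ⟨h1, h2⟩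
      have h3 : p.R ⊆ T := h2.trans (Finset.filter_subset _ _)
      have h4 := garside cs S hT h3 h1 fun t ht => (Finset.mem_filter.1 (h2 ht)).2
      rw [PP.bot, ← mul_assoc, mul_inv_cancel_right] at h4
      exact ⟨h3, h4⟩
    · rintro ⟨h1, h2⟩
      refine ⟨?_, fun t ht => Finset.mem_filter.2 ⟨h1 ht, ?_⟩⟩
      · rw [PP.bot, ← mul_assoc]
        exact mul_mem h2 (Pos_mono h1 (Dl_mem cs _))
      · rw [PP.bot, ← mul_assoc, mul_assoc _ (Dl cs p.R), Dl, ← lift_down cs (w0_rdesc cs p.hR ht)]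
        exact mul_mem h2 (Pos_mono h1 (lift_mem_Pos cs (mul_mem (w0_mem cs _) (simple_mem cs ht))))
  rw [← hset]
  refine wc_filt (cs := cs) {g | d⁻¹ * g ∈ Pos M T}
    (fun g => T.filter fun t => d⁻¹ * g * (sg M t)⁻¹ ∈ Pos M T)
    (fun g => hT.mono (Finset.filter_subset _ _)) (d := d) ⟨?_, ?_⟩ ?_ ?_
  · rw [Set.mem_ofPred_eq, inv_mul_cancel]
    exact one_mem _
  · intro g hg h2
    by_contra h3
    exact h2 (del_eq hg (not_lt.1 h3)).symm
  · intro g hg p hp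
    have h1 : cellB g (T.filter fun t => d⁻¹ * g * (sg M t)⁻¹ ∈ Pos M T)
        (hT.mono (Finset.filter_subset _ _)) ∈
        {p : PP cs | p.R ⊆ T ∧ d⁻¹ * p.a ∈ Pos M T} := by
      rw [← hset, Set.mem_ofPred_eq, bot_cellB]
      exact ⟨hg, subset_rfl⟩
    have h2 := del_lower_cone T d hp h1
    rwa [← hset] at h2
  · intro g hg h2
    refine wc_bd _ ?_
    rcases Pos_cases hg with h3 | ⟨b, hb, t, ht, h3⟩
    · exact absurd (inv_mul_eq_one.1 h3).symm h2
    · refine ⟨t, Finset.mem_filter.2 ⟨ht, ?_⟩⟩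
      rwa [h3, mul_inv_cancel_right]

theorem deligne (S : Sys M) {T : Finset B} (hT : Sph cs T) (c : Art M) : WC (PC cs T c) := by
  have : Nonempty {e // c⁻¹ * e ∈ AP M T} := ⟨⟨c, by rw [inv_mul_cancel]; exact one_mem _⟩⟩
  have key := wc_directed (locFin cs) (ι := {e // c⁻¹ * e ∈ AP M T})
    (L := fun e => {p : PP cs | p.R ⊆ T ∧ e.1⁻¹ * p.a ∈ Pos M T})
    (fun e => del_lower_cone T e.1) ?_ fun e => wc_cone S hT e.1
  · convert key using 1
    ext p
    simp only [PC, Set.mem_ofPred_eq, Set.mem_iUnion]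
    constructor
    · rintro ⟨h1, h2⟩
      exact ⟨⟨p.a, h2⟩, h1, by rw [inv_mul_cancel]; exact one_mem _⟩
    · rintro ⟨e, h1, h2⟩
      have := mul_mem e.2 (AP_of_Pos h2)
      rw [mul_assoc, mul_inv_cancel_left] at this
      exact ⟨h1, this⟩
  · intro e1 e2
    have h1 : e1.1⁻¹ * e2.1 ∈ AP M T := by
      have := mul_mem (inv_mem e1.2) e2.2
      rwa [mul_inv_rev, inv_inv, mul_assoc, mul_inv_cancel_left] at this
    obtain ⟨p, hp, q, hq, h2⟩ := ore_left cs hT h1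
    refine ⟨⟨e1.1 * p⁻¹, ?_⟩, fun x hx => ⟨hx.1, ?_⟩, fun x hx => ⟨hx.1, ?_⟩⟩
    · rw [← mul_assoc]
      exact mul_mem e1.2 (inv_mem (AP_of_Pos hp))
    · have := mul_mem hp hx.2
      rwa [← mul_assoc, show p * e1.1⁻¹ = (e1.1 * p⁻¹)⁻¹ by group] at this
    · have := mul_mem hq hx.2
      have h3 : q * e2.1⁻¹ = (e1.1 * p⁻¹)⁻¹ := by
        rw [show q = p * (e1.1⁻¹ * e2.1) by rw [h2]; group]
        group
      rwa [← mul_assoc, h3] at this

end Vale.Agent.P203
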