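import Vale.Agent.P203.SphB1

/-!
# P203 SphB2: property (b) in spherical type (done)
Notation as in `SphB1`. `cor u (ee u) = 2`, `cor u (ee u') = -aa u u'`, `cor u (rho (s u) v) = -cor u v`. A negative value `rho w⁻¹ (ee u) t < 0` means that
`u` is a left descent of `w` (`rho_ee_nonneg`, `isRightDescent_inv_iff`).
* `inert`: here the apartment is that of `e₁ = e σ_u`. `u` is a left descent of `w`, so `(s u * w, t)` is a zero vertex (`refl_zero`) with functional
  `ν * cor u`. `ApF.convex` at these two vertices towards the chamber `1` gives `cor u (hh e₁) = 0`, at `(w, t)` towards the chamber `s u` gives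
  `cor u (hh (e₁ σ_u)) ≤ 0`. So `F (e₁ σ_u) u J ≤ F e₁ u J` and `2 * F e₁ u J ≤ ∑ aa * F e₁ + Fr` (use `Adm`), and `E.dom_inert` applies. Then
  `dom_pos`, `dom_le` give `hh (e₁ * lift x) ≤ hh (e * lift x)`, and `e₁ * lift (s u * w) = e * lift w`.
* `route`: `y' = (s u * w, t)` and `z = (s u' * s u * w, t)` are zero vertices of the apartment of `e₁` (`refl_zero` twice), the functional of `z` is
  `ν * (cor u v + a * cor u' v)`, `a = aa u u'`, `0 < a < 2` (`aa_lt_two`, `sph_ne_zero`). `(w, t)`, `z` are not antipodal (test on `ee u'`), `z`, `y'` are not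
  antipodal (test on `ee u'`, then `ee u`). `iso_pass` twice.
* `chain`: induction on `k`. First `Wk (e σ^k) u → Wk e u ∧ ∀ u', ntop J (st e) u' → ntop J (st (e σ^k)) u'` (`inert`, `ntop_dom`); `Ak → Wk` by `iso_nonneg`;
  `lv_of_ntop` (with `st_sg_inv`, `loc`) turns `ntop` into `InB (e σ^(k+1) σ_u'⁻¹)`; then `route`.
* `inv_up`: cases `u' = u`; `u' ≠ u`, `aa u u' = 0` (`sg_comm`, `iso_up` at `e σ_u^k`; `Apex` for `u'` is impossible, test on `ee u'`); `aa u u' ≠ 0`
  (`ntop_tau`, `chain`, `iso_up`; again `Apex` for `u'` is impossible).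
* `sphB`: strong induction on `U.card`. If `(c, t)` is isolated: `exists_inB'`, `directed`, go up along the positive word (`Pos_indL` or a list induction) from
  `Inv (c b₁)` (`w = 1`) to `Inv d`, so `hh (d * lift w) ≥ 0` for all `w`, against `neg_top`.
-/

namespace Vale.Agent.P203.St

variable {B : Type} [Fintype B] [DecidableEq B] {W : Type*} [Group W] {M : CoxeterMatrix B}
  (cs : CoxeterSystem M W)

/-- The apartment of `e` is nonnegative with a zero at the apex of `u`. -/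
def Wk (E : St M) (U : Finset B) (J : ℤ) (μ : B → ℝ) (e : Art M) (u : B) : Prop :=
  (∀ w ∈ WP cs U, 0 ≤ E.hh U J μ (e * lift cs w)) ∧
    ∃ w ∈ WP cs U, ∃ t ∈ U, E.hh U J μ (e * lift cs w) t = 0 ∧ Apex cs U w t u

/-- The apartment of `e` has an isolated zero at the apex of `u`. -/
def Ak (E : St M) (U : Finset B) (J : ℤ) (μ : B → ℝ) (e : Art M) (u : B) : Prop :=
  ∃ w ∈ WP cs U, ∃ t ∈ U, E.Iso U J μ (e * lift cs w) t ∧ Apex cs U w t u

/-- The invariant. -/
def Inv (E : St M) (U : Finset B) (J : ℤ) (μ : B → ℝ) (e : Art M) : Prop :=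
  (∃ w ∈ WP cs U, ∃ t ∈ U, E.Iso U J μ (e * lift cs w) t) ∨
    ∃ u ∈ U, ∃ k : ℕ, Ak cs E U J μ (e * sg M u ^ k) u

variable {E : St M} {U : Finset B} {J : ℤ} {μ : B → ℝ} {e : Art M} {u u' : B}

theorem ldesc_of_neg {w : W} {t : B} (h : rho cs w⁻¹ (ee u) t < 0) : cs.IsLeftDescent w u := by
  by_contra hd
  exact absurd (rho_ee_nonneg cs (fun h' => hd (cs.isRightDescent_inv_iff.1 h')) t) (not_le.2 h)

theorem cor_rho_self (u : B) (v : B → ℝ) : cor M u (rho cs (cs.simple u) v) = -cor M u v := by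
  rw [rho_simple, cor_sub, cor_smul, cor_ee_self]; ring

theorem cor_rho_ne (h : u ≠ u') (v : B → ℝ) :
    cor M u (rho cs (cs.simple u') v) = cor M u v + aa M u u' * cor M u' v := by
  rw [rho_simple, cor_sub, cor_smul, cor_ee h]; ring

theorem rho_sinv (u : B) (w : W) (v : B → ℝ) :
    rho cs (cs.simple u * w)⁻¹ v = rho cs w⁻¹ (rho cs (cs.simple u) v) := by
  rw [mul_inv_rev, cs.inv_simple, rho_mul]

theorem apex_desc {w : W} {t : B} (hu : u ∈ U) (h : Apex cs U w t u) : cs.IsLeftDescent w u := by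
  obtain ⟨ν, hν, hy⟩ := h
  exact ldesc_of_neg cs (t := t) (by rw [hy _ (supp_ee hu), cor_ee_self]; linarith)

theorem F_sg_ne {s : B} (h : s ≠ u) (c : Art M) : E.F (c * sg M u) s = E.F c s :=
  F_coset (T := {u}) (sg_mem_AP (Finset.mem_singleton_self u)) (by simpa using h) c

theorem inert (h : E.Adm U J μ e) (he : E.InB U J e) (hu : u ∈ U)
    (hw : Wk cs E U J μ (e * sg M u) u) :
    E.dom J (E.st e) (E.st (e * sg M u)) ∧ Wk cs E U J μ e u := by
  obtain ⟨hg, w, hwU, t, ht, h0, hap⟩ := hw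
  have hd := apex_desc cs hu hap
  obtain ⟨ν, hν, hy⟩ := hap
  have hA1 : E.Adm U J μ (e * sg M u) := h.coset (Closed.refl U) (sg_mem_AP hu)
  have h1 := refl_zero cs hA1 hu (by rwa [mul_inv_cancel_right]) hg hwU ht h0 hd
  have hF := apF cs hA1
  have hs := simple_mem cs hu
  have hsw : cs.simple u * w ∈ WP cs U := mul_mem hs hwU
  have c1 := hF.convex hwU (inv_mem hwU) t
  have c2 := hF.convex hsw (inv_mem hsw) t
  have c3 := hF.convex hwU (mul_mem (inv_mem hwU) hs) t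
  simp only [mul_inv_cancel, lift_one, mul_one, mul_inv_cancel_left, lift_simple] at c1 c2 c3
  rw [hy _ supp_hh, h0] at c1
  rw [rho_sinv, hy _ (supp_hh.rho cs hs), cor_rho_self, h1] at c2
  rw [rho_mul, hy _ (supp_hh.rho cs hs), cor_rho_self, h0] at c3
  have k1 : cor M u (E.hh U J μ (e * sg M u)) = 0 := by nlinarith
  have k2 : cor M u (E.hh U J μ (e * sg M u * sg M u)) ≤ 0 := by nlinarith
  have e1 : ∑ s, aa M u s * E.hh U J μ (e * sg M u * sg M u) s =
      ∑ s, aa M u s * E.hh U J μ (e * sg M u) s := by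
    refine Finset.sum_congr rfl fun s _ => ?_
    by_cases hsu : s = u
    · rw [hsu, aa_self, zero_mul, zero_mul]
    · simp only [hh, F_sg_ne hsu (e * sg M u)]
  have e2 : ∑ s, aa M u s * E.hh U J μ (e * sg M u) s + ∑ s, aa M u s * μ s ≤
      ∑ s, aa M u s * E.F (e * sg M u) s J := by
    rw [← Finset.sum_add_distrib]
    refine Finset.sum_le_sum fun s _ => ?_
    by_cases hsU : s ∈ U
    · rw [hh_mem hsU]; linarith
    · rw [supp_hh s hsU, mul_zero, zero_add]
      by_cases ha : aa M u s = 0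
      · simp [ha]
      · exact mul_le_mul_of_nonneg_left (hA1.2.2 s hsU ⟨u, hu, ha⟩) (aa_nonneg _ _)
  have e3 := hA1.2.1 u hu
  simp only [cor, hh_mem hu] at k1 k2 e3
  have hdom : E.dom J (E.st e) (E.st (e * sg M u)) := by
    rw [E.st_sg]
    refine E.dom_inert J _ u (he u hu) ?_ ?_
    · rw [← E.st_sg, ← E.st_sg]
      change E.F _ u J ≤ E.F _ u J
      linarith
    · rw [← E.st_sg]
      change 2 * E.F _ u J ≤ ∑ s, aa M u s * E.F (e * sg M u) s J + E.Fr _ J
      linarith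
  refine ⟨hdom, fun x hx s => ?_, w, hwU, t, ht, ?_, ν, hν, hy⟩
  · have := E.dom_le J _ _ s (dom_pos hdom h.1 hA1.1 he (he.down h.1 (sg_mem_Pos hu))
      (lift_mem_Pos cs hx))
    have h2 := hg x hx s
    by_cases hsU : s ∈ U
    · rw [Pi.zero_apply, hh_mem hsU] at h2 ⊢
      change E.F _ s J ≤ E.F _ s J at this
      linarith
    · rw [supp_hh s hsU]; exact le_rfl
  · rwa [lift_downL cs hd, ← mul_assoc]

theorem route (hU : Sph cs U) (IH : ∀ t ∈ U, E.PB (U.erase t) (U.erase t)) (h : E.Adm U J μ e)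
    (he : E.InB U J e) (hu : u ∈ U) (hu' : u' ∈ U) (ha : aa M u u' ≠ 0)
    (he' : E.InB U J (e * sg M u * (sg M u')⁻¹)) (hw : Ak cs E U J μ (e * sg M u) u) :
    Ak cs E U J μ e u := by
  obtain ⟨w, hwU, t, ht, hi, hap⟩ := hw
  have hd := apex_desc cs hu hap
  obtain ⟨ν, hν, hy⟩ := hap
  have hne : u ≠ u' := fun h' => ha (by rw [h', aa_self])
  have ha0 : 0 < aa M u u' := lt_of_le_of_ne (aa_nonneg _ _) (Ne.symm ha)
  have ha2 : aa M u u' < 2 := aa_lt_two (sph_ne_zero cs hU hu hu')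
  have hA1 : E.Adm U J μ (e * sg M u) := h.coset (Closed.refl U) (sg_mem_AP hu)
  have he1 := he.down h.1 (sg_mem_Pos hu)
  have hg : ∀ w ∈ WP cs U, 0 ≤ E.hh U J μ (e * sg M u * lift cs w) := fun _ hx =>
    iso_nonneg cs hA1 he1 hwU ht hi hx
  have hs := simple_mem cs hu
  have hs' := simple_mem cs hu'
  have hsw : cs.simple u * w ∈ WP cs U := mul_mem hs hwU
  have h0 : E.hh U J μ (e * sg M u * lift cs w) t = 0 := by rw [hh_mem ht, hi.1.2, sub_self]
  have h1 := refl_zero cs hA1 hu (by rwa [mul_inv_cancel_right]) hg hwU ht h0 hd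
  have y1 : ∀ v, Supp U v → rho cs (cs.simple u * w)⁻¹ v t = ν * cor M u v := fun v hv => by
    rw [rho_sinv, hy _ (hv.rho cs hs), cor_rho_self]; ring
  have y2 : ∀ v, Supp U v → rho cs (cs.simple u' * (cs.simple u * w))⁻¹ v t =
      ν * (cor M u v + aa M u u' * cor M u' v) := fun v hv => by
    rw [rho_sinv, y1 _ (hv.rho cs hs'), cor_rho_ne cs hne]
  have hd' : cs.IsLeftDescent (cs.simple u * w) u' := ldesc_of_neg cs (t := t) (by
    rw [y1 _ (supp_ee hu'), cor_ee hne]; nlinarith)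
  have h2 := refl_zero cs hA1 hu' he' hg hsw ht h1 hd'
  have hνa := mul_pos hν ha0
  have i2 := iso_pass cs IH hA1 he1 hwU (mul_mem hs' hsw) ht ht hi h2 (by
    rintro ⟨m, hm, hz⟩
    have := hz _ (supp_ee hu')
    rw [y2 _ (supp_ee hu'), hy _ (supp_ee hu'), cor_ee hne, cor_ee_self] at this
    nlinarith)
  have i1 := iso_pass cs IH hA1 he1 (mul_mem hs' hsw) hsw ht ht i2 h1 (by
    rintro ⟨m, hm, hz⟩
    have z1 := hz _ (supp_ee hu')
    have z2 := hz _ (supp_ee hu)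
    rw [y2 _ (supp_ee hu'), y1 _ (supp_ee hu'), cor_ee hne, cor_ee_self] at z1
    rw [y2 _ (supp_ee hu), y1 _ (supp_ee hu), cor_ee hne.symm, cor_ee_self, aa_symm u' u] at z2
    have hm1 : m = -1 := by
      have : (m + 1) * (ν * aa M u u') = 0 := by linarith
      rcases mul_eq_zero.1 this with h | h <;> linarith
    rw [hm1] at z2
    have : ν * (4 - aa M u u' * aa M u u') = 0 := by linarith
    rcases mul_eq_zero.1 this with h | h <;> nlinarith)
  refine ⟨w, hwU, t, ht, ?_, ν, hν, hy⟩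
  rwa [lift_downL cs hd, ← mul_assoc]

theorem wk_of_ak (h : E.Adm U J μ e) (he : E.InB U J e) (hw : Ak cs E U J μ e u) :
    Wk cs E U J μ e u := by
  obtain ⟨w, hwU, t, ht, hi, hap⟩ := hw
  exact ⟨fun _ hx => iso_nonneg cs h he hwU ht hi hx, w, hwU, t, ht,
    by rw [hh_mem ht, hi.1.2, sub_self], hap⟩

theorem wk_chain (h : E.Adm U J μ e) (he : E.InB U J e) (hu : u ∈ U) (k : ℕ)
    (hw : Wk cs E U J μ (e * sg M u ^ k) u) :
    Wk cs E U J μ e u ∧ ∀ r, E.ntop J (E.st e) r → E.ntop J (E.st (e * sg M u ^ k)) r := by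
  induction k with
  | zero => exact ⟨by simpa using hw, fun r hr => by simpa using hr⟩
  | succ k ih =>
    have hk : sg M u ^ k ∈ Pos M U := pow_mem (sg_mem_Pos hu) k
    rw [pow_succ, ← mul_assoc] at hw ⊢
    obtain ⟨h1, h2⟩ := inert cs (h.coset (Closed.refl U) (AP_of_Pos hk)) (he.down h.1 hk) hu hw
    exact ⟨(ih h2).1, fun r hr => E.ntop_dom J _ _ r h1 ((ih h2).2 r hr)⟩

theorem inB_of_ntop (ho : E.Out U J e) (he : E.InB U J e) (hu : u ∈ U)
    (hn : E.ntop J (E.st e) u) : E.InB U J (e * (sg M u)⁻¹) := by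
  have h1 (s : B) (hs : s ≠ u) : E.F (e * (sg M u)⁻¹) s = E.F e s := by
    rw [← F_sg_ne hs (e * (sg M u)⁻¹), inv_mul_cancel_right]
  have h2 : ∀ s ∈ U, s ≠ u → E.Lv (e * (sg M u)⁻¹) s J := fun s hs hne => by
    rw [Lv, h1 s hne]; exact he s hs
  have ho' := ho.coset (Closed.refl U) (inv_mem (sg_mem_AP hu))
  intro s hs
  by_cases hne : s = u
  · subst hne
    exact E.lv_of_ntop J _ s (loc ho' h2 hs) ho'.1 (by rw [st_sg_inv]; exact he s hs)
      (by rwa [st_sg_inv])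
  · exact h2 s hs hne

theorem chain (hU : Sph cs U) (IH : ∀ t ∈ U, E.PB (U.erase t) (U.erase t)) (h : E.Adm U J μ e)
    (he : E.InB U J e) (hu : u ∈ U) (hu' : u' ∈ U) (ha : aa M u u' ≠ 0)
    (hn : E.ntop J (E.st e) u') (k : ℕ) (hw : Ak cs E U J μ (e * sg M u ^ k) u) :
    Ak cs E U J μ e u := by
  induction k with
  | zero => simpa using hw
  | succ k ih =>
    have hk : sg M u ^ k ∈ Pos M U := pow_mem (sg_mem_Pos hu) k
    have hk' : sg M u ^ (k + 1) ∈ Pos M U := pow_mem (sg_mem_Pos hu) _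
    have hA := h.coset (Closed.refl U) (AP_of_Pos hk')
    have h1 := (wk_chain cs h he hu _ (wk_of_ak cs hA (he.down h.1 hk') hw)).2 u' hn
    have h2 := inB_of_ntop hA.1 (he.down h.1 hk') hu' h1
    rw [pow_succ, ← mul_assoc] at hw h2
    exact ih (route cs hU IH (h.coset (Closed.refl U) (AP_of_Pos hk)) (he.down h.1 hk) hu hu' ha
      h2 hw)

theorem inv_up (hU : Sph cs U) (IH : ∀ t ∈ U, E.PB (U.erase t) (U.erase t)) (h : E.Adm U J μ e)
    (he : E.InB U J e) (hu' : u' ∈ U) (hw : Inv cs E U J μ (e * sg M u')) : Inv cs E U J μ e := by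
  rcases hw with ⟨w, hwU, t, ht, hi⟩ | ⟨u, hu, k, hw⟩
  · rcases iso_up cs IH h he hu' hwU ht hi with h1 | ⟨w', hw', h1, -⟩
    · exact Or.inr ⟨u', hu', 1, w, hwU, t, ht, by rwa [pow_one], h1⟩
    · exact Or.inl ⟨w', hw', t, ht, h1⟩
  by_cases hne : u = u'
  · subst hne
    exact Or.inr ⟨u, hu, k + 1, by rwa [pow_succ', ← mul_assoc]⟩
  by_cases ha : aa M u u' = 0
  · have hk : sg M u ^ k ∈ Pos M U := pow_mem (sg_mem_Pos hu) k
    have hc : Commute (sg M u) (sg M u') := sg_comm ha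
    rw [mul_assoc, ← (hc.pow_left k).eq, ← mul_assoc] at hw
    obtain ⟨w, hwU, t, ht, hi, ν, hν, hy⟩ := hw
    have y0 : rho cs w⁻¹ (ee u') t = 0 := by rw [hy _ (supp_ee hu'), cor_ee hne, ha]; ring
    rcases iso_up cs IH (h.coset (Closed.refl U) (AP_of_Pos hk)) (he.down h.1 hk) hu' hwU ht hi with
      ⟨ν', hν', hy'⟩ | ⟨w', hw', h1, h2⟩
    · rw [hy' _ (supp_ee hu'), cor_ee_self] at y0
      linarith
    · exact Or.inr ⟨u, hu, k, w', hw', t, ht, h1, ν, hν, fun v hv => by rw [h2 y0 v hv, hy v hv]⟩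
  · have hn : E.ntop J (E.st (e * sg M u')) u' := by
      rw [E.st_sg]; exact E.ntop_tau J _ u' (he u' hu')
    obtain ⟨w, hwU, t, ht, hi, ν, hν, hy⟩ := chain cs hU IH
      (h.coset (Closed.refl U) (sg_mem_AP hu')) (he.down h.1 (sg_mem_Pos hu')) hu hu' ha hn k hw
    rcases iso_up cs IH h he hu' hwU ht hi with ⟨ν', hν', hy'⟩ | ⟨w', hw', h1, -⟩
    · have := hy _ (supp_ee hu')
      rw [hy' _ (supp_ee hu'), cor_ee_self, cor_ee hne] at this
      nlinarith [aa_nonneg (M := M) u u']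
    · exact Or.inl ⟨w', hw', t, ht, h1⟩

theorem inv_nonneg (h : E.Adm U J μ e) (he : E.InB U J e) (hw : Inv cs E U J μ e) :
    ∀ w ∈ WP cs U, 0 ≤ E.hh U J μ (e * lift cs w) := by
  rcases hw with ⟨w, hwU, t, ht, hi⟩ | ⟨u, hu, k, hw⟩
  · exact fun _ hx => iso_nonneg cs h he hwU ht hi hx
  · have hk : sg M u ^ k ∈ Pos M U := pow_mem (sg_mem_Pos hu) k
    exact (wk_chain cs h he hu k (wk_of_ak cs (h.coset (Closed.refl U) (AP_of_Pos hk))
      (he.down h.1 hk) hw)).1.1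

include cs in
theorem sphB (hU : Sph cs U) : E.PB U U := by
  induction hn : U.card using Nat.strong_induction_on generalizing U with
  | _ n ih =>
  have IH : ∀ t ∈ U, E.PB (U.erase t) (U.erase t) := fun t ht =>
    ih _ (hn ▸ Finset.card_erase_lt_of_mem ht) (hU.mono (Finset.erase_subset t U)) rfl
  intro J μ c b t u h hb ht hu hz hneg
  by_contra hc
  have hA (a : Art M) (ha : a ∈ AP M U) := h.coset (Closed.refl U) ha
  obtain ⟨b₁, hb₁, h1⟩ := exists_inB' cs hU h.1 hz.1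
  obtain ⟨b₂, hb₂, h2⟩ := exists_inB' cs hU (hA b hb).1 hneg.1
  have hb₁' := AP_mono (Finset.erase_subset t U) hb₁
  have hb₂' := AP_mono (Finset.erase_subset u U) hb₂
  have e1 : c * b₁ * (b₁⁻¹ * b * b₂) = c * b * b₂ := by group
  obtain ⟨d, hd, hp, hq⟩ := directed cs hU (hA b₁ hb₁').1
    (mul_mem (mul_mem (inv_mem hb₁') hb) hb₂') h1 (e1 ▸ h2)
  rw [e1] at hq
  have hAd : E.Adm U J μ d := by
    have := (hA b₁ hb₁').coset (Closed.refl U) (inv_mem (AP_of_Pos hp))
    rwa [mul_inv_rev, inv_inv, mul_inv_cancel_left] at this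
  have hi : E.Iso U J μ (c * b₁) t := ⟨(Zer_erase hb₁).2 hz, fun b' hb' u' hu' hne hn' =>
    hc ⟨b₁ * b', mul_mem hb₁ hb', u', hu', hne, by rwa [← mul_assoc]⟩⟩
  have key : ∀ p ∈ Pos M U, Inv cs E U J μ (d * p) → Inv cs E U J μ d := by
    intro p hp
    refine Pos_ind (p := fun p => Inv cs E U J μ (d * p) → Inv cs E U J μ d)
      (fun h => by rwa [mul_one] at h) (fun a s ha hs ih h' => ih ?_) hp
    rw [← mul_assoc] at h'
    exact inv_up cs hU IH (hAd.coset (Closed.refl U) (AP_of_Pos ha)) (hd.down hAd.1 ha) hs h'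
  have h3 := inv_nonneg cs hAd hd (key _ hp (Or.inl ⟨1, one_mem _, t, ht, by
    rwa [lift_one, mul_one, mul_inv_cancel_left]⟩))
  obtain ⟨w, hw, h4, -⟩ := neg_top cs hAd hd hq hu (by
    rw [mul_inv_cancel_left]; exact (Neg_erase hb₂).2 hneg)
  have h5 := h3 w hw u
  rw [Pi.zero_apply, hh_mem hu] at h5
  linarith [h4.2]

end Vale.Agent.P203.St
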