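import Vale.Agent.P203.Th
import Vale.Agent.P203.SphB2

/-!
# P203 NonSph: properties (a) and (b) in general (TASK)
* `pab_sph`: write `b = p q` by `join`; `q ∈ AP (T \ U) ≤ AP (T.erase u)`, so `(c p, u)` is the same vertex as `(c b, u)`; `sphA`, `sphB`, `Conn.mono`.
* `pab_delta`: take `ht` from `fam_delta`. For vertices of `AV` say `q` is lower than `p ∉ NV` if `q ∈ NV` or `ht q < ht p`; by `Fam.thr` (and `Adm.coset`, `Adm.erase`) these
  are the negative vertices for the threshold of `p`. Fix a vertex `x₀ ∈ NV`. Let `Q` be the inductive predicate: `Q p` if `p ∈ NV` and `Conn x₀ p`; `Q (a, t)` if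
  `(a, t) ∉ NV` and `Q (a b, u)` for some lower `(a b, u)`, `b ∈ AP (T.erase t)`, `u ∈ U`, `u ≠ t`. `Q` only depends on the vertex. Claim `S (a, t)` for `(a, t) ∉ NV`:
  if `Q (a, t)` and `(a, t')` is lower then `Q (a, t')`. Well-founded induction on the height (`Fam.wf`): the lower neighbour given by `Q` and `(a, t')` are joined by a `Conn` chain for
  `T.erase t` (`IH`, part (a)) of vertices lower than `(a, t)`. A step in one chamber between lower `r`, `r'` preserves `Q`: both in `NV` (extend `Conn`); `r` lower than `r'` (definition);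
  `r'` lower than `r` (`S r`); equal heights: `r'` is a zero vertex for the threshold of `r`, `r` has a lower neighbour, so `IH` part (b) in the link of `r` gives a common lower neighbour
  `x'` in a chamber containing `r` and `r'`; `S r` gives `Q x'`, so `Q r'`. Hence `Q` is constant on chambers; moving by `σ_s` or its inverse keep a type `u ≠ s` (`IsDelta.two`), so
  by `AP_ind` `Q` holds everywhere. (a) and (b) follow by inversion of `Q` (for (b) take `x₀` the given negative vertex and use the last part of `fam_delta`).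
* `pab`: strong induction on `T.card`. `pf_split M U` gives `D`; `D` and `U \ D` are closed in `T`. If `t`, `u` are both in `D` or both in `U \ D` use `pab_delta` or `pab_sph`
  (`sph_of_theta`, `Adm.closed`, `Conn.mono`). Otherwise, say `t ∈ U'`, `u ∉ U'` with `U'` closed in `T`: `b = p q` by `join` for `T \ U'`, `p ∈ AP (T.erase t)`, `q ∈ AP (T.erase u)`, and the
  chamber `c p` contains both vertices.
-/

namespace Vale.Agent.P203.St

variable {B : Type} [Fintype B] [DecidableEq B] {W : Type*} [Group W] {M : CoxeterMatrix B}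
  (cs : CoxeterSystem M W) {E : St M} {T U : Finset B} {δ : B → ℝ}

include cs in
theorem pab_sph (h : Closed M T U) (hU : Sph cs U) : E.PA T U ∧ E.PB T U := by
  have key : ∀ b u, b ∈ AP M T → u ∈ U → ∃ p ∈ AP M U, ∃ q ∈ AP M (T.erase u), b = p * q := by
    intro b u hb hu
    obtain ⟨p, hp, q, hq, e⟩ := join h hb
    exact ⟨p, hp, q, AP_mono (fun s hs => Finset.mem_erase.2
      ⟨fun e => (Finset.mem_sdiff.1 hs).2 (e ▸ hu), (Finset.mem_sdiff.1 hs).1⟩) hq, e⟩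
  refine ⟨fun J μ c b t u hA hb ht hu h1 h2 => ?_, fun J μ c b t u hA hb ht hu h1 h2 => ?_⟩
  · obtain ⟨p, hp, q, hq, rfl⟩ := key b u hb hu
    rw [← mul_assoc] at h2 ⊢
    exact ((sphA cs hU J μ c p t u hA hp ht hu h1 ((Neg_erase hq).1 h2)).mono h.1 subset_rfl).tail
      ⟨hu, h2, Or.inr ⟨rfl, by dsimp only; rwa [inv_mul_cancel_left]⟩⟩
  · obtain ⟨p, hp, q, hq, rfl⟩ := key b u hb hu
    rw [← mul_assoc] at h2
    obtain ⟨b', hb', h3⟩ := sphB cs hU J μ c p t u hA hp ht hu h1 ((Neg_erase hq).1 h2)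
    exact ⟨b', AP_mono (Finset.erase_subset_erase t h.1) hb', h3⟩

/-- Vertices below the height `y`. -/
def NsLow (E : St M) (T U : Finset B) (J : ℤ) (μ : B → ℝ) (c : Art M) (ht : Art M → B → ℤ ×ₗ ℝ)
    (y : ℤ ×ₗ ℝ) (a : Art M) (t : B) : Prop :=
  E.NV T U J μ c a t ∨ (AV M T U c a t ∧ ht a t < y)

/-- Vertices from which a descending path leads to the component of `x`. -/
inductive NsQ (E : St M) (T U : Finset B) (J : ℤ) (μ : B → ℝ) (c : Art M)
    (ht : Art M → B → ℤ ×ₗ ℝ) (x : Art M × B) : Art M → B → Prop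
  | base {a : Art M} {t : B} : E.NV T U J μ c a t → E.Conn T U J μ x (a, t) →
      NsQ E T U J μ c ht x a t
  | step {a : Art M} {t : B} {b : Art M} {u : B} : AV M T U c a t → ¬ E.NV T U J μ c a t →
      b ∈ AP M (T.erase t) → u ∈ U → u ≠ t → NsLow E T U J μ c ht (ht a t) (a * b) u →
      NsQ E T U J μ c ht x (a * b) u → NsQ E T U J μ c ht x a t

/-- The property passes to lower vertices of the same chamber. -/
def NsS (E : St M) (T U : Finset B) (J : ℤ) (μ : B → ℝ) (c : Art M) (ht : Art M → B → ℤ ×ₗ ℝ)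
    (x : Art M × B) (y : ℤ ×ₗ ℝ) : Prop :=
  ∀ a t, AV M T U c a t → ¬ E.NV T U J μ c a t → ht a t = y → NsQ E T U J μ c ht x a t →
    ∀ t', NsLow E T U J μ c ht y a t' → NsQ E T U J μ c ht x a t'

section ns

variable {J : ℤ} {μ : B → ℝ} {c a b e : Art M} {ht : Art M → B → ℤ ×ₗ ℝ} {x : Art M × B}
  {s s' t : B}

theorem NsQ.conn (h : NsQ E T U J μ c ht x a t) (hn : E.NV T U J μ c a t) :
    E.Conn T U J μ x (a, t) := by
  cases h with
  | base _ h => exact h
  | step _ h => exact absurd hn h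

theorem NsQ.inv (h : NsQ E T U J μ c ht x a t) (hn : ¬ E.NV T U J μ c a t) :
    ∃ b ∈ AP M (T.erase t), ∃ u ∈ U, u ≠ t ∧ NsLow E T U J μ c ht (ht a t) (a * b) u ∧
      NsQ E T U J μ c ht x (a * b) u := by
  cases h with
  | base h => exact absurd h hn
  | step _ _ h1 h2 h3 h4 h5 => exact ⟨_, h1, _, h2, h3, h4, h5⟩

theorem ns_not_NV (hn : ¬ E.NV T U J μ c a t) (hb : b ∈ AP M (T.erase t)) :
    ¬ E.NV T U J μ c (a * b) t := fun h => hn (by
  have := vinv_NV E T U J μ c _ t _ (inv_mem hb) h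
  rwa [mul_inv_cancel_right] at this)

theorem NsQ.move (hF : E.Fam T U c (E.NV T U J μ c) (AV M T U c) ht)
    (h : NsQ E T U J μ c ht x a t) (hb : b ∈ AP M (T.erase t)) :
    NsQ E T U J μ c ht x (a * b) t := by
  cases h with
  | base h1 h2 =>
    have h3 := hF.inv0 a t b hb h1
    exact NsQ.base h3 (h2.tail ⟨h3.1.2, h3.2, Or.inr ⟨rfl, by simpa using hb⟩⟩)
  | @step _ _ b' u h1 h2 h3 h4 h5 h6 h7 =>
    refine NsQ.step (b := b⁻¹ * b') (hF.inv1 a t b hb h1) (ns_not_NV h2 hb)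
      (mul_mem (inv_mem hb) h3) h4 h5 ?_ ?_
    · rwa [hF.ht_inv a t b hb, mul_assoc, mul_inv_cancel_left]
    · rwa [mul_assoc, mul_inv_cancel_left]

theorem ns_adm {L : ℤ} {ν : B → ℝ} (h : Closed M T U) (hA : E.Adm U L ν c) (ha : AV M T U c a t)
    (hz : E.Zer L ν a t) : E.Adm (U.erase t) L ν a := by
  have := hA.coset h ha.1
  rw [mul_inv_cancel_left] at this
  exact this.erase hz

theorem NsLow.av {y : ℤ ×ₗ ℝ} (h : NsLow E T U J μ c ht y a t) : AV M T U c a t :=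
  h.elim (fun h => h.1) fun h => h.1

theorem ns_chamber (h : Closed M T U)
    (IH : ∀ t ∈ U, E.PA (T.erase t) (U.erase t) ∧ E.PB (T.erase t) (U.erase t))
    (hF : E.Fam T U c (E.NV T U J μ c) (AV M T U c) ht) (hs : AV M T U c e s) (hs' : s' ∈ U)
    (hS : ¬ E.NV T U J μ c e s → NsS E T U J μ c ht x (ht e s))
    (hQ : NsQ E T U J μ c ht x e s) : NsQ E T U J μ c ht x e s' := by
  have hv : AV M T U c e s' := ⟨hs.1, hs'⟩
  by_cases e0 : s = s'
  · rwa [← e0]
  have up : ¬ E.NV T U J μ c e s' → NsLow E T U J μ c ht (ht e s') e s →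
      NsQ E T U J μ c ht x e s' := fun h1 h2 =>
    NsQ.step (b := 1) hv h1 (one_mem _) hs.2 e0 (by rwa [mul_one]) (by rwa [mul_one])
  by_cases n1 : E.NV T U J μ c e s
  · by_cases n2 : E.NV T U J μ c e s'
    · exact NsQ.base n2 ((hQ.conn n1).tail ⟨hs', n2.2, Or.inl rfl⟩)
    · exact up n2 (Or.inl n1)
  by_cases n2 : E.NV T U J μ c e s'
  · exact hS n1 e s hs n1 rfl hQ s' (Or.inl n2)
  rcases lt_trichotomy (ht e s) (ht e s') with h1 | h1 | h1
  · exact up n2 (Or.inr ⟨hs, h1⟩)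
  · obtain ⟨L, ν, hA, hz, hneg, hzer⟩ := hF.thr e s hs n1
    obtain ⟨b, hb, u, hu, hus, hl, -⟩ := hQ.inv n1
    obtain ⟨b', hb', u', hu', hus', hn⟩ := (IH s hs.2).2 L ν e b s' u (ns_adm h hA hs hz) hb
      (Finset.mem_erase.2 ⟨Ne.symm e0, hs'⟩) (Finset.mem_erase.2 ⟨hus, hu⟩)
      (hzer e s' hv n2 h1.symm) ((hneg _ _ hl.av).2 hl)
    have b1 : b' ∈ AP M (T.erase s) := AP_mono (Finset.erase_subset _ _) hb'
    have b2 : b' ∈ AP M (T.erase s') :=
      AP_mono (Finset.erase_subset_erase _ (Finset.erase_subset _ _)) hb'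
    have a1 := hF.inv1 e s b' b1 hs
    have l1 : NsLow E T U J μ c ht (ht e s) (e * b') u' :=
      (hneg _ _ ⟨a1.1, Finset.mem_of_mem_erase hu'⟩).1 hn
    exact NsQ.step hv n2 b2 (Finset.mem_of_mem_erase hu') hus' (h1 ▸ l1)
      (hS n1 _ s a1 (ns_not_NV n1 b1) (hF.ht_inv e s b' b1) (hQ.move hF b1) u' l1)
  · exact hS n1 e s hs n1 rfl hQ s' (Or.inr ⟨hv, h1⟩)

theorem ns_S (h : Closed M T U)
    (IH : ∀ t ∈ U, E.PA (T.erase t) (U.erase t) ∧ E.PB (T.erase t) (U.erase t))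
    (hF : E.Fam T U c (E.NV T U J μ c) (AV M T U c) ht) (ha : AV M T U c a t)
    (hn : ¬ E.NV T U J μ c a t) : NsS E T U J μ c ht x (ht a t) := by
  refine Set.WellFoundedOn.induction hF.wf (P := NsS E T U J μ c ht x) ⟨a, t, ha, hn, rfl⟩ ?_
  rintro y - ih a t ha hn rfl hQ t' hl'
  obtain ⟨L, ν, hA, hz, hneg, -⟩ := hF.thr a t ha hn
  obtain ⟨b, hb, u, hu, hut, hl, hQ'⟩ := hQ.inv hn
  have n1 := (hneg _ _ hl'.av).2 hl'
  have n2 := (hneg _ _ hl.av).2 hl
  have m1 : t' ∈ U.erase t := Finset.mem_erase.2 ⟨fun e => n1.2.ne (e ▸ hz.2), hl'.av.2⟩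
  have hc := ((IH t ha.2).1 L ν a b t' u (ns_adm h hA ha hz) hb m1
    (Finset.mem_erase.2 ⟨hut, hu⟩) n1 n2).symm m1 n1
  have key : ∀ q : Art M × B, E.Conn (T.erase t) (U.erase t) L ν (a * b, u) q →
      NsLow E T U J μ c ht (ht a t) q.1 q.2 ∧ NsQ E T U J μ c ht x q.1 q.2 := by
    intro q hq
    induction hq with
    | refl => exact ⟨hl, hQ'⟩
    | @tail p q _ hs ih' =>
      obtain ⟨h1, h2, h3 | ⟨h3, h4⟩⟩ := hs
      · have h5 := Finset.mem_of_mem_erase h1
        refine ⟨(hneg _ _ ⟨h3 ▸ ih'.1.av.1, h5⟩).1 h2, ?_⟩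
        rw [h3]
        exact ns_chamber h IH hF ih'.1.av h5
          (fun h6 => ih _ ⟨_, _, ih'.1.av, h6, rfl⟩ (ih'.1.resolve_left h6).2) ih'.2
      · have h5 : p.1⁻¹ * q.1 ∈ AP M (T.erase p.2) :=
          AP_mono (Finset.erase_subset_erase _ (Finset.erase_subset _ _)) h4
        have h6 := hF.inv1 _ _ _ h5 ih'.1.av
        have h7 := ih'.2.move hF h5
        rw [mul_inv_cancel_left, ← h3] at h6 h7
        exact ⟨(hneg _ _ h6).1 h2, h7⟩
  exact (key _ hc).2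

theorem ns_all (h : Closed M T U) (hδ : IsDelta M U δ)
    (IH : ∀ t ∈ U, E.PA (T.erase t) (U.erase t) ∧ E.PB (T.erase t) (U.erase t))
    (hF : E.Fam T U c (E.NV T U J μ c) (AV M T U c) ht) (hx : E.NV T U J μ c x.1 x.2)
    (hb : b ∈ AP M T) (hs : s ∈ U) : NsQ E T U J μ c ht x (x.1 * b) s := by
  have ch : ∀ e s s', AV M T U c e s → s' ∈ U → NsQ E T U J μ c ht x e s →
      NsQ E T U J μ c ht x e s' := fun e s s' h1 h2 =>
    ns_chamber h IH hF h1 h2 (ns_S h IH hF h1)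
  have mv : ∀ a g r, a ∈ AP M T → (∀ u, u ≠ r → g ∈ AP M (T.erase u)) →
      (∀ s ∈ U, NsQ E T U J μ c ht x (x.1 * a) s) →
      ∀ s ∈ U, NsQ E T U J μ c ht x (x.1 * (a * g)) s := by
    intro a g r ha hg ih s hs
    obtain ⟨u, hu, hur⟩ := hδ.two r
    rw [← mul_assoc]
    refine ch _ u s (hF.inv1 _ u g (hg u hur) ⟨?_, hu⟩) hs ((ih u hu).move hF (hg u hur))
    rw [← mul_assoc]
    exact mul_mem hx.1.1 ha
  refine AP_ind (p := fun b => ∀ s ∈ U, NsQ E T U J μ c ht x (x.1 * b) s) ?_ ?_ ?_ hb s hs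
  · intro s hs
    rw [mul_one]
    exact ch _ _ s hx.1 hs (NsQ.base hx Relation.ReflTransGen.refl)
  · exact fun a r ha hr => mv a _ r ha fun u hu => sg_mem_AP (Finset.mem_erase.2 ⟨hu.symm, hr⟩)
  · exact fun a r ha hr => mv a _ r ha fun u hu =>
      inv_mem (sg_mem_AP (Finset.mem_erase.2 ⟨hu.symm, hr⟩))

end ns

theorem pab_delta (h : Closed M T U) (hδ : IsDelta M U δ)
    (IH : ∀ t ∈ U, E.PA (T.erase t) (U.erase t) ∧ E.PB (T.erase t) (U.erase t)) :
    E.PA T U ∧ E.PB T U := by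
  refine ⟨fun J μ c b t u hA hb ht hu h1 h2 => ?_, fun J μ c b t u hA hb ht hu h1 h2 => ?_⟩
  · obtain ⟨ht', hF, -⟩ := fam_delta (T := T) hδ hA
    have h3 : AV M T U c c t := ⟨by rw [inv_mul_cancel]; exact one_mem _, ht⟩
    exact (ns_all h hδ IH hF (x := (c, t)) ⟨h3, h1⟩ hb hu).conn
      ⟨⟨by rwa [inv_mul_cancel_left], hu⟩, h2⟩
  · obtain ⟨ht', hF, hl⟩ := fam_delta (T := T) hδ hA
    have h3 : AV M T U c c t := ⟨by rw [inv_mul_cancel]; exact one_mem _, ht⟩
    have h4 := ns_all h hδ IH hF (x := (c * b, u)) ⟨⟨by rwa [inv_mul_cancel_left], hu⟩, h2⟩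
      (inv_mem hb) ht
    rw [mul_inv_cancel_right] at h4
    obtain ⟨b', hb', u', hu', h5, h6, -⟩ := h4.inv fun h5 => h5.2.2.ne h1.2
    exact ⟨b', hb', u', hu', h5, h6.elim (fun h7 => h7.2) fun h7 => hl c t h3 h1 _ _ h7.1 h7.2⟩

include cs in
theorem pab (h : Closed M T U) : E.PA T U ∧ E.PB T U := by
  induction hn : T.card using Nat.strong_induction_on generalizing T U with
  | _ n ih =>
    obtain ⟨D, hD, h1, θ, hθ⟩ := pf_split M U
    have p1 : E.PA T D ∧ E.PB T D := by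
      rcases h1 with rfl | ⟨δ, hδ⟩
      · exact ⟨fun J μ c b t u _ _ ht => absurd ht (Finset.notMem_empty t),
          fun J μ c b t u _ _ ht => absurd ht (Finset.notMem_empty t)⟩
      · exact pab_delta (h.trans hD) hδ fun t ht =>
          ih _ (hn ▸ Finset.card_erase_lt_of_mem (h.1 (hD.1 ht))) ((h.trans hD).erase t) rfl
    have p2 := pab_sph cs (E := E) (h.trans hD.sdiff) (sph_of_theta cs hθ)
    have key : ∀ b t u, b ∈ AP M T → t ∈ U → u ∈ U →
        (∃ U', Closed M U U' ∧ t ∈ U' ∧ u ∈ U' ∧ E.PA T U' ∧ E.PB T U') ∨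
        u ≠ t ∧ ∃ p ∈ AP M (T.erase t), ∃ q ∈ AP M (T.erase u), b = p * q := by
      intro b t u hb ht hu
      have k : ∀ U', Closed M U U' → t ∈ U' → u ∉ U' →
          u ≠ t ∧ ∃ p ∈ AP M (T.erase t), ∃ q ∈ AP M (T.erase u), b = p * q := by
        intro U' h2 h3 h4
        obtain ⟨p, hp, q, hq, e⟩ := join (h.trans h2).sdiff hb
        refine ⟨fun e => h4 (e ▸ h3), p, AP_mono (fun s hs => ?_) hp, q,
          AP_mono (fun s hs => ?_) hq, e⟩
        · exact Finset.mem_erase.2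
            ⟨fun e => (Finset.mem_sdiff.1 hs).2 (e ▸ h3), (Finset.mem_sdiff.1 hs).1⟩
        · exact Finset.mem_erase.2 ⟨fun e => (Finset.mem_sdiff.1 hs).2
            (Finset.mem_sdiff.2 ⟨(Finset.mem_sdiff.1 hs).1, e ▸ h4⟩), (Finset.mem_sdiff.1 hs).1⟩
      by_cases h2 : t ∈ D <;> by_cases h3 : u ∈ D
      · exact Or.inl ⟨D, hD, h2, h3, p1⟩
      · exact Or.inr (k D hD h2 h3)
      · exact Or.inr (k _ hD.sdiff (Finset.mem_sdiff.2 ⟨ht, h2⟩)
          fun h4 => (Finset.mem_sdiff.1 h4).2 h3)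
      · exact Or.inl ⟨_, hD.sdiff, Finset.mem_sdiff.2 ⟨ht, h2⟩, Finset.mem_sdiff.2 ⟨hu, h3⟩, p2⟩
    refine ⟨fun J μ c b t u hA hb ht hu h1 h2 => ?_, fun J μ c b t u hA hb ht hu h1 h2 => ?_⟩
    · rcases key b t u hb ht hu with ⟨U', k1, k2, k3, k4, -⟩ | ⟨-, p, hp, q, hq, rfl⟩
      · exact (k4 J μ c b t u (hA.closed k1) hb k2 k3 h1 h2).mono subset_rfl k1.1
      · rw [← mul_assoc] at h2 ⊢
        have s1 : E.Step T U J μ (c, t) (c * p, t) :=
          ⟨ht, (Neg_erase hp).2 h1, Or.inr ⟨rfl, by simpa using hp⟩⟩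
        have s2 : E.Step T U J μ (c * p, t) (c * p, u) := ⟨hu, (Neg_erase hq).1 h2, Or.inl rfl⟩
        have s3 : E.Step T U J μ (c * p, u) (c * p * q, u) :=
          ⟨hu, h2, Or.inr ⟨rfl, by dsimp only; rwa [inv_mul_cancel_left]⟩⟩
        exact ((Relation.ReflTransGen.single s1).tail s2).tail s3
    · rcases key b t u hb ht hu with ⟨U', k1, k2, k3, -, k4⟩ | ⟨k, p, hp, q, hq, rfl⟩
      · obtain ⟨b', hb', u', hu', h3⟩ := k4 J μ c b t u (hA.closed k1) hb k2 k3 h1 h2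
        exact ⟨b', hb', u', k1.1 hu', h3⟩
      · rw [← mul_assoc] at h2
        exact ⟨p, hp, u, hu, k, (Neg_erase hq).1 h2⟩

end Vale.Agent.P203.St
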