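import Vale.Agent.P203.Morse
import Vale.Agent.P203.Deligne
import Vale.Agent.P203.NonSph

/-!
# P203 Main: the induction on the rank (TASK)
* `wc_single`: by (a) (`pab`) all negative vertices are joined by `Conn` chains, which stay in the coset `a₀ A_{T - t₀}`; so `PV T NV = PC (T.erase t₀) a₀`.
* `pv_all`: a spherical `R` does not contain `D` (`not_sph_of_delta`, `Sph.mono`).
* `sa_step`: `pf_split M T`. If `D = ∅` then `T` is spherical (`sph_of_theta`), `deligne`. Else build `E : St M` from `S.x0` and `S.ex_st x c`; `single_delta`, `wc_single`, `fam_delta`,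
  `morse_fam`, `pv_all`.
* `sc_step`: let `(a, t)` be negative; `pf_split M U`; `U' = D` if `t ∈ D`, else `U \ D`; `Good T U' J μ c V` (`Adm.closed`). By `morse_fill` it suffices to treat `NV T U'`. For `U' = D`:
  `fam_delta`, `morse_fam` backwards, `pv_all`, `hT`. For `U \ D`: `single_theta`, `wc_single`, `fam_conv`, `morse_fam`.
* `main_ind`: strong induction on `T.card` for `SA cs T ∧ ∀ E, SC cs E T`.
-/

namespace Vale.Agent.P203

variable {B : Type} [Fintype B] [DecidableEq B] {W : Type*} [Group W] {M : CoxeterMatrix B}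
  {cs : CoxeterSystem M W} {T U D : Finset B} {J : ℤ} {μ δ : B → ℝ} {c : Art M}

theorem wc_single {E : St M} (hU : Closed M T U) (h : E.Adm U J μ c) {t₀ : B}
    (h1 : ∃ a, E.NV T U J μ c a t₀) (h2 : ∀ a t, E.NV T U J μ c a t → t = t₀)
    (hA : ∀ t ∈ T, SA cs (T.erase t)) : WC (PV cs T (E.NV T U J μ c)) := by
  obtain ⟨a₀, h0⟩ := h1
  have ht : t₀ ∈ T := hU.1 h0.1.2
  have key : ∀ q : Art M × B, E.Conn T U J μ (a₀, t₀) q →
      a₀⁻¹ * q.1 ∈ AP M (T.erase t₀) ∧ q.2 = t₀ := by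
    intro q hq
    induction hq with
    | refl => exact ⟨by simp, rfl⟩
    | tail _ hs ih =>
      obtain ⟨k1, k2, k3 | ⟨k3, k4⟩⟩ := hs
      · refine ⟨k3 ▸ ih.1, h2 _ _ ⟨⟨?_, k1⟩, k2⟩⟩
        rw [k3]
        simpa [mul_assoc] using mul_mem h0.1.1 (AP_mono (Finset.erase_subset t₀ T) ih.1)
      · rw [ih.2] at k4
        exact ⟨by simpa [mul_assoc] using mul_mem ih.1 k4, k3.trans ih.2⟩
  have e : PV cs T (E.NV T U J μ c) = PC cs (T.erase t₀) a₀ := by
    ext p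
    constructor
    · rintro ⟨k1, t, -, k3, k4⟩
      obtain rfl := h2 _ _ k4
      refine ⟨Finset.subset_erase.2 ⟨k1, k3⟩, ?_⟩
      have k5 := (St.pab cs hU).1 J μ a₀ (a₀⁻¹ * p.a) t t (by simpa using h.coset hU h0.1.1)
        (by simpa [mul_assoc] using mul_mem (inv_mem h0.1.1) k4.1.1) h0.1.2 h0.1.2 h0.2
        (by simpa using k4.2)
      simpa using (key _ k5).1
    · rintro ⟨k1, k2⟩
      exact ⟨k1.trans (Finset.erase_subset _ _), t₀, ht, fun k => Finset.notMem_erase t₀ T (k1 k),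
        by simpa using E.vinv_NV T U J μ c a₀ t₀ _ k2 h0⟩
  rw [e]
  exact hA t₀ ht a₀

theorem pv_all (hD : D ⊆ T) (hδ : IsDelta M D δ) : PV cs T (AV M T D c) = PC cs T c := by
  ext p
  constructor
  · rintro ⟨k1, t, -, -, k4⟩
    exact ⟨k1, k4.1⟩
  · rintro ⟨k1, k2⟩
    obtain ⟨t, k3, k4⟩ := Finset.not_subset.1 fun k : D ⊆ p.R =>
      not_sph_of_delta cs hδ (p.hR.mono k)
    exact ⟨k1, t, hD k3, k4, k2, k3⟩

theorem sa_step (S : Sys M) (hA : ∀ t ∈ T, SA cs (T.erase t))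
    (hC : ∀ E : St M, ∀ t ∈ T, SC cs E (T.erase t)) : SA cs T := by
  intro c
  obtain ⟨D, hD, rfl | ⟨δ, hδ⟩, θ, hθ⟩ := pf_split M T
  · rw [Finset.sdiff_empty] at hθ
    exact deligne S (sph_of_theta cs hθ) c
  · obtain ⟨x, x1, x2, x3⟩ := S.x0
    obtain ⟨st, s1, s2⟩ := S.ex_st x c
    let E : St M := ⟨S, st, s2⟩
    have e1 : ∀ s, E.F c s = S.f x s := fun s => by
      rw [← s1]
      rfl
    have e2 : E.Fr c = S.fr x := by
      rw [← s1]
      rfl
    obtain ⟨μ₀, t₀, k1, k2, k3⟩ := St.single_delta (E := E) (T := T) (c := c) hδ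
      (fun s => by rw [St.Lv, e1]; exact x1 s) (by rw [e2]; exact x2) (by rw [e2]; exact x3)
    obtain ⟨ht, k4, -⟩ := St.fam_delta (T := T) hδ k1
    rw [← pv_all hD.1 hδ]
    exact (morse_fam hD k4 (k2.imp fun a ha => ⟨t₀, ha⟩) (St.pab cs hD).2 hA (hC E)).1
      (wc_single hD k1 k2 k3 hA)

theorem sc_step (E : St M) (hT : SA cs T) (hA : ∀ t ∈ T, SA cs (T.erase t))
    (hC : ∀ t ∈ T, SC cs E (T.erase t)) : SC cs E T := by
  intro U J μ c V hG
  obtain ⟨a, t, hn⟩ := hG.ne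
  have red : ∀ U', Closed M U U' → t ∈ U' →
      (Closed M T U' → E.Adm U' J μ c → (∃ a t, E.NV T U' J μ c a t) →
        WC (PV cs T (E.NV T U' J μ c))) → WC (PV cs T V) := by
    intro U' h1 h2 h3
    have h4 := hG.closed.trans h1
    have h5 := hG.adm.closed h1
    have h6 : ∃ a t, E.NV T U' J μ c a t := ⟨a, t, ⟨hn.1.1, h2⟩, hn.2⟩
    exact (morse_fill ⟨h4, h5, hG.inv, hG.mem, fun a t h ht => hG.sign a t h (h1.1 ht),
      fun a t h => hG.neg a t ⟨⟨h.1.1, h1.1 h.1.2⟩, h.2⟩, h6⟩ (St.pab cs h4).2 hA hC).1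
      (h3 h4 h5 h6)
  obtain ⟨D, hD, hδ, θ, hθ⟩ := pf_split M U
  by_cases htD : t ∈ D
  · obtain ⟨δ, hδ⟩ := hδ.resolve_left (Finset.ne_empty_of_mem htD)
    refine red D hD htD fun h1 h2 h3 => ?_
    obtain ⟨ht, k4, -⟩ := St.fam_delta (T := T) hδ h2
    refine (morse_fam h1 k4 h3 (St.pab cs h1).2 hA hC).2 ?_
    rw [pv_all h1.1 hδ]
    exact hT c
  · refine red (U \ D) hD.sdiff (Finset.mem_sdiff.2 ⟨hn.1.2, htD⟩) fun h1 h2 h3 => ?_
    obtain ⟨μ₀, t₀, k1, k2, k3, k4⟩ := St.single_theta hθ h2 h3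
    obtain ⟨ht, k5⟩ := St.fam_conv (T := T) k1 h2 k2
    exact (morse_fam h1 k5 (k3.imp fun a ha => ⟨t₀, ha⟩) (St.pab cs h1).2 hA hC).1
      (wc_single h1 k1 k3 k4 hA)

theorem main_ind (cs : CoxeterSystem M W) (S : Sys M) (T : Finset B) : SA cs T := by
  suffices h : ∀ n, ∀ T : Finset B, T.card = n → SA cs T ∧ ∀ E : St M, SC cs E T from
    (h _ T rfl).1
  intro n
  induction n using Nat.strong_induction_on with
  | _ n ih =>
    intro T hT
    have h1 : ∀ t ∈ T, SA cs (T.erase t) ∧ ∀ E : St M, SC cs E (T.erase t) := fun t ht =>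
      ih _ (hT ▸ Finset.card_erase_lt_of_mem ht) _ rfl
    have h2 := sa_step S (fun t ht => (h1 t ht).1) fun E t ht => (h1 t ht).2 E
    exact ⟨h2, fun E => sc_step E h2 (fun t ht => (h1 t ht).1) fun t ht => (h1 t ht).2 E⟩

theorem wc_univ (cs : CoxeterSystem M W) (S : Sys M) : WC (Set.univ : Set (PP cs)) := by
  have := main_ind cs S Finset.univ 1
  rwa [show PC cs Finset.univ 1 = Set.univ from
    Set.eq_univ_of_forall fun p => ⟨Finset.subset_univ _, mem_AP_univ _⟩] at this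

end Vale.Agent.P203
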