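import Vale.Agent.P203.SalCov0

/-!
# P203 SalCov: the realization of the cover is a quotient covering of the Salvetti complex (TASK)
Let `Y = GS univ` with the subspace topology, `π : Y → Geo (SalLe cs)`, `π x = pushF x`.
* `continuous_push`: near `x ∈ Y` (on the open set `0 < y p₀`, `p₀` in the support of `x`) only finitely many chains `τ` occur (`locFin`, `mem_GS`). On each closed `simplex τ` the map factors
  through the continuous map to `simplex (τ.image prj)` (`pushF_prj`, `pushF_zero`) and the inclusion in `Geo`, which is continuous (`continuous_iSup_rng`, `continuous_coinduced_rng`);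
  a finite union of closed sets (`Finset` induction or `LocallyFinite.continuousOn_iUnion`, `Set.Finite`), which is a neighbourhood of `x`.
* `isOpenMap_push`: by `isOpen_iSup_iff`, `isOpen_coinduced`, for `O` open in `Y` and a chain `σ` show that `{z : simplex σ | z ∈ π '' O}` is open: if `z = π x`, `x ∈ O` with support `τ`,
  `lift_chain` gives `ℓ`; the map `s : simplex σ → Y`, `s z' p = if p ∈ σ.image ℓ then z' (prj p) else 0` is continuous, `π (s z') = z'`, `s z = x`. The same `s` (with `τ = ∅`) gives surjectivity.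
* `Quot.mk` is open: the saturation of an open set is the union of its translates; a translation by `w` of `Geo` is continuous (`continuous_iSup_dom`, `continuous_coinduced_dom`).
  `SalOrbit` is an equivalence relation (`Equivalence.eqvGen_iff`, `Quot.eq`).
* Fibres: if `π x' = w • π x`, lift `w` to `g₀` (`pr_lift`); the top elements `p`, `p'` of the supports of `g₀ • x`, `x'` have the same projection, `g = p'.a * p.a⁻¹` has `pr g = 1`;
  `prj_inj_below` shows `x' = g • g₀ • x`. Disjointness: `U = {y | 0 < y p₀ ∧ ..}`: if `y` and `g • y` are in `U = {y | 0 < y p₀}` then `p₀` and `g⁻¹ • p₀` are in the support of `y`; `act_fix`.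
-/

namespace Vale.Agent.P203

variable {B : Type} [Fintype B] [DecidableEq B] {W : Type*} [Group W] {M : CoxeterMatrix B}
  (cs : CoxeterSystem M W)

section general

variable {Q : Type*}

theorem sc_equiv (e : Q ≃ Q) {σ : Finset Q} {x : Q → ℝ} (hx : x ∈ simplex σ) :
    (fun p => x (e p)) ∈ simplex (σ.map e.symm.toEmbedding) := by
  refine ⟨fun q => hx.1 _, fun q hq => hx.2.1 _ fun h => hq ?_, ?_⟩
  · exact Finset.mem_map.2 ⟨e q, h, e.symm_apply_apply q⟩
  · rw [Finset.sum_map]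
    simpa using hx.2.2

theorem sc_chain (e : Q ≃ Q) {le : Q → Q → Prop} (he : ∀ p q, le p q → le (e.symm p) (e.symm q))
    {σ : Finset Q} (hσ : IsChain le (σ : Set Q)) :
    IsChain le ((σ.map e.symm.toEmbedding : Finset Q) : Set Q) := by
  intro a ha b hb hab
  obtain ⟨p, hp, rfl⟩ := Finset.mem_map.1 ha
  obtain ⟨q, hq, rfl⟩ := Finset.mem_map.1 hb
  exact (hσ hp hq fun h => hab (by rw [h])).imp (he p q) (he q p)

theorem sc_mem {σ : Finset Q} {x : Q → ℝ} (hx : x ∈ simplex σ) {p : Q} (hp : 0 < x p) : p ∈ σ := by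
  by_contra h
  exact hp.ne' (hx.2.1 p h)

theorem sc_nonempty {σ : Finset Q} {x : Q → ℝ} (hx : x ∈ simplex σ) : σ.Nonempty := by
  rw [Finset.nonempty_iff_ne_empty]
  rintro rfl
  simpa using hx.2.2

theorem sc_top [PartialOrder Q] {σ : Finset Q} (hσ : IsChain (· ≤ ·) (σ : Set Q))
    (hne : σ.Nonempty) : ∃ p ∈ σ, ∀ r ∈ σ, r ≤ p := by
  obtain ⟨m, hm⟩ := σ.exists_maximal hne
  exact ⟨m, hm.1, fun r hr => (hσ.total hr hm.1).elim id (hm.2 hr)⟩

/-- The inclusion of a closed simplex. -/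
def scIn (le : Q → Q → Prop) (σ : Finset Q) (hσ : IsChain le (σ : Set Q)) (x : simplex σ) :
    Geo le := ⟨x.1, σ, hσ, x.2⟩

theorem sc_cont_in (le : Q → Q → Prop) (σ : Finset Q) (hσ : IsChain le (σ : Set Q)) :
    Continuous (scIn le σ hσ) :=
  continuous_iSup_rng (i := (⟨σ, hσ⟩ : {σ : Finset Q // IsChain le (σ : Set Q)}))
    continuous_coinduced_rng

theorem sc_cont_dom {le : Q → Q → Prop} {Z : Type*} [TopologicalSpace Z] {f : Geo le → Z}
    (h : ∀ σ hσ, Continuous fun x => f (scIn le σ hσ x)) : Continuous f :=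
  continuous_iSup_dom.2 fun σ => continuous_coinduced_dom.2 (h σ.1 σ.2)

theorem sc_open {le : Q → Q → Prop} {U : Set (Geo le)}
    (h : ∀ σ hσ, IsOpen (scIn le σ hσ ⁻¹' U)) : IsOpen U :=
  isOpen_iSup_iff.2 fun σ => isOpen_coinduced.2 (h σ.1 σ.2)

end general

/-- The realization of the cover. -/
abbrev YY := ↥(GS (Set.univ : Set (PP cs)))

theorem smul_mem_GS (g : Art M) {x : PP cs → ℝ} (hx : x ∈ GS (Set.univ : Set (PP cs))) :
    (fun p => x (g⁻¹ • p)) ∈ GS (Set.univ : Set (PP cs)) := by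
  obtain ⟨σ, h1, -, h2⟩ := hx
  exact ⟨_, sc_chain (MulAction.toPerm g⁻¹) (fun p q h => (act_le _).2 h) h1, Set.subset_univ _,
    sc_equiv (MulAction.toPerm g⁻¹) h2⟩

instance : MulAction (Art M) (YY cs) where
  smul g x := ⟨fun p => x.1 (g⁻¹ • p), smul_mem_GS cs g x.2⟩
  one_smul x := Subtype.ext (funext fun p => by
    change x.1 ((1 : Art M)⁻¹ • p) = x.1 p
    rw [inv_one, one_smul])
  mul_smul g g' x := Subtype.ext (funext fun p => by
    change x.1 ((g * g')⁻¹ • p) = x.1 (g'⁻¹ • g⁻¹ • p)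
    rw [mul_inv_rev, mul_smul])

/-- The projection of realizations. -/
noncomputable def push (x : YY cs) : Geo (SalLe cs) := ⟨pushF x.1, pushF_mem x.2⟩

theorem sc_inj {τ : Finset (PP cs)} (hτ : IsChain (· ≤ ·) (τ : Set (PP cs))) :
    Set.InjOn prj (τ : Set (PP cs)) := fun _ hp _ hq h =>
  (hτ.total hp hq).elim (fun h' => prj_inj_below h' le_rfl h) fun h' => prj_inj_below le_rfl h' h

open Classical in
theorem sc_im_chain {τ : Finset (PP cs)} (hτ : IsChain (· ≤ ·) (τ : Set (PP cs))) :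
    IsChain (SalLe cs) ((τ.image prj : Finset (SalV cs)) : Set (SalV cs)) := by
  intro a ha b hb _
  obtain ⟨p, hp, rfl⟩ := Finset.mem_image.1 ha
  obtain ⟨q, hq, rfl⟩ := Finset.mem_image.1 hb
  exact (hτ.total hp hq).imp prj_le prj_le

open Classical in
theorem sc_im_mem {τ : Finset (PP cs)} (hτ : IsChain (· ≤ ·) (τ : Set (PP cs))) {x : PP cs → ℝ}
    (hx : x ∈ simplex τ) : pushF x ∈ simplex (τ.image prj) := by
  have h0 : ∀ q, q ∉ τ.image prj → pushF x q = 0 := fun q hq =>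
    pushF_zero hx fun p hp h => hq (Finset.mem_image.2 ⟨p, hp, h⟩)
  refine ⟨fun q => ?_, h0, ?_⟩
  · by_cases hq : q ∈ τ.image prj
    · obtain ⟨p, hp, rfl⟩ := Finset.mem_image.1 hq
      rw [pushF_prj hτ hx hp]
      exact hx.1 p
    · rw [h0 q hq]
  · rw [Finset.sum_image (sc_inj cs hτ), ← hx.2.2]
    exact Finset.sum_congr rfl fun p hp => pushF_prj hτ hx hp

theorem sc_contOn {τ : Finset (PP cs)} (hτ : IsChain (· ≤ ·) (τ : Set (PP cs))) :
    ContinuousOn (push cs) {y | y.1 ∈ simplex τ} := by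
  classical
  rw [continuousOn_iff_continuous_restrict]
  have h : Continuous fun y : {y : YY cs | y.1 ∈ simplex τ} =>
      (⟨pushF y.1.1, sc_im_mem cs hτ y.2⟩ : simplex (τ.image prj)) := by
    refine Continuous.subtype_mk (continuous_pi fun q => ?_) _
    by_cases hq : ∃ p ∈ τ, prj p = q
    · obtain ⟨p, hp, rfl⟩ := hq
      refine Continuous.congr (f := fun y => y.1.1 p) ?_ fun y => (pushF_prj hτ y.2 hp).symm
      exact (continuous_apply p).comp (continuous_subtype_val.comp continuous_subtype_val)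
    · refine Continuous.congr (f := fun _ => 0) continuous_const fun y => ?_
      exact (pushF_zero y.2 fun p hp h => hq ⟨p, hp, h⟩).symm
  exact (sc_cont_in (SalLe cs) _ (sc_im_chain cs hτ)).comp h

theorem sc_star_open (p : PP cs) : IsOpen {y : YY cs | 0 < y.1 p} :=
  isOpen_lt continuous_const ((continuous_apply p).comp continuous_subtype_val)

theorem continuous_push : Continuous (push cs) := by
  refine continuous_iff_continuousAt.2 fun x => ?_
  obtain ⟨τ₀, -, -, h2, h3⟩ := mem_GS.1 x.2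
  obtain ⟨p₀, hp₀⟩ := sc_nonempty h2
  have hK := locFin cs p₀
  have hT : {τ : Finset (PP cs) | IsChain (· ≤ ·) (τ : Set (PP cs)) ∧
      (τ : Set (PP cs)) ⊆ {p | p ≤ p₀ ∨ p₀ ≤ p}}.Finite :=
    (hK.finite_subsets.preimage Finset.coe_injective.injOn).subset fun τ hτ => hτ.2
  have := hT.to_subtype
  have hc := (locallyFinite_of_finite fun τ : {τ : Finset (PP cs) |
      IsChain (· ≤ ·) (τ : Set (PP cs)) ∧ (τ : Set (PP cs)) ⊆ {p | p ≤ p₀ ∨ p₀ ≤ p}} =>
      {y : YY cs | y.1 ∈ simplex τ.1}).continuousOn_iUnion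
    (fun τ => (isCompact_simplex τ.1).isClosed.preimage continuous_subtype_val)
    fun τ => sc_contOn cs τ.2.1
  refine hc.continuousAt (Filter.mem_of_superset
    ((sc_star_open cs p₀).mem_nhds (h3 p₀ hp₀)) fun y hy => ?_)
  obtain ⟨τ, k1, -, k2⟩ := y.2
  exact Set.mem_iUnion.2 ⟨⟨τ, k1, fun p hp => k1.total hp (sc_mem k2 hy)⟩, k2⟩

/-- Local sections over a closed simplex. -/
theorem sc_section {σ : Finset (SalV cs)} (hσ : IsChain (SalLe cs) (σ : Set (SalV cs)))
    {τ : Finset (PP cs)} (hτ : IsChain (· ≤ ·) (τ : Set (PP cs))) (h : ∀ p ∈ τ, prj p ∈ σ) :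
    ∃ s : simplex σ → YY cs, Continuous s ∧ (∀ z, push cs (s z) = scIn _ σ hσ z) ∧
      ∀ (z : simplex σ) (x : YY cs), x.1 ∈ simplex τ → pushF x.1 = z.1 → s z = x := by
  classical
  obtain ⟨ℓ, l1, l2, l3⟩ := lift_chain hσ hτ h
  have hc : IsChain (· ≤ ·) ((σ.image ℓ : Finset (PP cs)) : Set (PP cs)) := by
    rw [Finset.coe_image]; exact l3
  have hm : ∀ z : simplex σ, (fun p => if prj p ∈ σ ∧ ℓ (prj p) = p then z.1 (prj p) else 0) ∈
      simplex (σ.image ℓ) := by
    intro z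
    refine ⟨fun p => ?_, fun p hp => ?_, ?_⟩
    · dsimp only
      split_ifs
      exacts [z.2.1 _, le_rfl]
    · exact if_neg fun k => hp (Finset.mem_image.2 ⟨_, k.1, k.2⟩)
    · rw [Finset.sum_image fun a ha b hb e => by rw [← l1 a ha, e, l1 b hb], ← z.2.2.2]
      refine Finset.sum_congr rfl fun q hq => ?_
      rw [l1 q hq, if_pos ⟨hq, rfl⟩]
  refine ⟨fun z => ⟨_, _, hc, Set.subset_univ _, hm z⟩, ?_, fun z => ?_, fun z x hx e => ?_⟩
  · refine Continuous.subtype_mk (continuous_pi fun p => ?_) _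
    by_cases k : prj p ∈ σ ∧ ℓ (prj p) = p
    · simp only [if_pos k]
      exact (continuous_apply _).comp continuous_subtype_val
    · simp only [if_neg k]
      exact continuous_const
  · refine Subtype.ext (funext fun q => ?_)
    change pushF _ q = z.1 q
    by_cases hq : q ∈ σ
    · have k := pushF_prj hc (hm z) (Finset.mem_image_of_mem ℓ hq)
      rw [l1 q hq, if_pos ⟨hq, rfl⟩] at k
      exact k
    · rw [z.2.2.1 q hq]
      refine pushF_zero (hm z) fun p hp e => hq ?_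
      obtain ⟨a, ha, rfl⟩ := Finset.mem_image.1 hp
      rw [← e, l1 a ha]
      exact ha
  · refine Subtype.ext (funext fun p => ?_)
    change (if prj p ∈ σ ∧ ℓ (prj p) = p then z.1 (prj p) else 0) = x.1 p
    by_cases hp : p ∈ τ
    · rw [if_pos ⟨h p hp, l2 p hp⟩, ← e, pushF_prj hτ hx hp]
    · rw [hx.2.1 p hp]
      split_ifs with k
      · rw [← e]
        refine pushF_zero hx fun p' hp' e' => hp ?_
        rw [← k.2, ← e', l2 p' hp']
        exact hp'
      · rfl

theorem isOpenMap_push : IsOpenMap (push cs) := by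
  refine fun O hO => sc_open fun σ hσ => isOpen_iff_mem_nhds.2 fun z hz => ?_
  obtain ⟨x, hx, e⟩ := hz
  obtain ⟨τ, h1, -, h2, h3⟩ := mem_GS.1 x.2
  have e' : pushF x.1 = z.1 := congrArg Subtype.val e
  obtain ⟨s, s1, s2, s3⟩ := sc_section cs hσ h1 fun p hp => sc_mem z.2 (by
    rw [← e', pushF_prj h1 h2 hp]
    exact h3 p hp)
  refine Filter.mem_of_superset ((hO.preimage s1).mem_nhds ?_) fun z' hz' => ⟨s z', hz', s2 z'⟩
  rw [Set.mem_preimage, s3 z x h2 e']
  exact hx

theorem surjective_push : Function.Surjective (push cs) := by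
  rintro ⟨z, σ, hσ, hz⟩
  obtain ⟨s, -, s2, -⟩ := sc_section cs hσ (τ := ∅) (by simp) (by simp)
  exact ⟨s ⟨z, hz⟩, s2 _⟩

/-- Left multiplication on the Salvetti poset. -/
def scE (w : W) : SalV cs ≃ SalV cs := (Equiv.mulLeft w).prodCongr (Equiv.refl _)

theorem scE_le (w : W) (p q : SalV cs) (h : SalLe cs p q) :
    SalLe cs ((scE cs w).symm p) ((scE cs w).symm q) := by
  have e : (w⁻¹ * q.1)⁻¹ * (w⁻¹ * p.1) = q.1⁻¹ * p.1 := by group
  change SalLe cs (w⁻¹ * p.1, p.2) (w⁻¹ * q.1, q.2)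
  unfold SalLe at h ⊢
  dsimp only
  rw [e]
  exact h

/-- Translation of the realization. -/
def scT (w : W) (x : Geo (SalLe cs)) : Geo (SalLe cs) :=
  ⟨fun p => x.1 (scE cs w p), by
    obtain ⟨σ, h1, h2⟩ := x.2
    exact ⟨_, sc_chain (scE cs w) (scE_le cs w) h1, sc_equiv (scE cs w) h2⟩⟩

theorem scT_cont (w : W) : Continuous (scT cs w) := by
  refine sc_cont_dom fun σ hσ => ?_
  have h : Continuous fun z : simplex σ => (⟨fun p => z.1 (scE cs w p), sc_equiv (scE cs w) z.2⟩ :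
      simplex (σ.map (scE cs w).symm.toEmbedding)) := by
    refine Continuous.subtype_mk (continuous_pi fun p => ?_) _
    exact (continuous_apply (scE cs w p)).comp continuous_subtype_val
  exact (sc_cont_in (SalLe cs) _ (sc_chain (scE cs w) (scE_le cs w) hσ)).comp h

theorem sc_equivalence : Equivalence (SalOrbit cs) := by
  refine ⟨fun x => ⟨1, fun p => by rw [one_mul]⟩, ?_, ?_⟩
  · rintro x y ⟨w, h⟩
    refine ⟨w⁻¹, fun p => ?_⟩
    rw [← h (w⁻¹ * p.1, p.2), mul_inv_cancel_left]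
  · rintro x y z ⟨w, h⟩ ⟨w', h'⟩
    refine ⟨w' * w, fun p => ?_⟩
    rw [← h p, ← h' (w * p.1, p.2), mul_assoc]

theorem sc_mk_eq {x y : Geo (SalLe cs)} :
    (Quot.mk _ x : Salvetti cs) = Quot.mk _ y ↔ SalOrbit cs x y := by
  rw [Quot.eq, (sc_equivalence cs).eqvGen_iff]

theorem isOpenMap_mk : IsOpenMap (Quot.mk (SalOrbit cs)) := by
  intro U hU
  rw [← isQuotientMap_quot_mk.isOpen_preimage]
  have e : Quot.mk (SalOrbit cs) ⁻¹' (Quot.mk (SalOrbit cs) '' U) = ⋃ w, scT cs w ⁻¹' U := by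
    ext y
    constructor
    · rintro ⟨x, hx, e⟩
      obtain ⟨w, hw⟩ := (sc_mk_eq cs).1 e
      refine Set.mem_iUnion.2 ⟨w, ?_⟩
      have k : scT cs w y = x := Subtype.ext (funext hw)
      rw [Set.mem_preimage, k]
      exact hx
    · intro h
      obtain ⟨w, hw⟩ := Set.mem_iUnion.1 h
      exact ⟨_, hw, (sc_mk_eq cs).2 ⟨w, fun _ => rfl⟩⟩
  rw [e]
  exact isOpen_iUnion fun w => hU.preimage (scT_cont cs w)

theorem sc_push_smul (g : Art M) (x : YY cs) (q : SalV cs) :
    pushF (g • x).1 (pr cs g * q.1, q.2) = pushF x.1 q := by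
  unfold pushF
  rw [← finsum_comp_equiv (MulAction.toPerm g)]
  refine finsum_congr fun p => finsum_congr_Prop ?_ fun _ => ?_
  · change (prj (g • p) = _) = (prj p = q)
    rw [prj_smul, Prod.ext_iff, Prod.ext_iff, mul_right_inj]
  · change x.1 (g⁻¹ • g • p) = x.1 p
    rw [inv_smul_smul]

theorem sc_fibre {x x' : YY cs} (h : pushF x.1 = pushF x'.1) : ∃ g : Art M, g • x = x' := by
  have ex : ∀ {x x' : YY cs} {τ τ' : Finset (PP cs)}, pushF x.1 = pushF x'.1 →
      IsChain (· ≤ ·) (τ : Set (PP cs)) → x.1 ∈ simplex τ → (∀ q ∈ τ, 0 < x.1 q) →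
      x'.1 ∈ simplex τ' → ∀ r ∈ τ, ∃ r' ∈ τ', prj r' = prj r := by
    intro x x' τ τ' h h1 h2 h3 k2 r hr
    by_contra hn
    have k := pushF_zero k2 fun p hp e => hn ⟨p, hp, e⟩
    rw [← h, pushF_prj h1 h2 hr] at k
    exact (h3 r hr).ne' k
  obtain ⟨τ, h1, -, h2, h3⟩ := mem_GS.1 x.2
  obtain ⟨τ', k1, -, k2, k3⟩ := mem_GS.1 x'.2
  obtain ⟨p, hp, tp⟩ := sc_top h1 (sc_nonempty h2)
  obtain ⟨p', hp', tp'⟩ := sc_top k1 (sc_nonempty k2)
  have hR : ∀ {a b : PP cs}, prj a = prj b → a.R = b.R := fun e =>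
    congrArg (fun q : SalV cs => q.2.1) e
  have e : prj p = prj p' := by
    obtain ⟨a, ha, ea⟩ := ex h h1 h2 h3 k2 p hp
    obtain ⟨b, hb, eb⟩ := ex h.symm k1 k2 k3 h2 p' hp'
    have s1 : a.R ⊆ p'.R := (tp' a ha).1
    have s2 : b.R ⊆ p.R := (tp b hb).1
    rw [hR ea, ← hR eb] at s1
    rw [← eq_of_le_of_R (tp b hb) (Finset.Subset.antisymm s2 s1), eb]
  have g1 : (p'.a * p.a⁻¹) • p = p' := PP.ext (inv_mul_cancel_right _ _) (hR e : p.R = p'.R)
  have g2 : ∀ r : PP cs, prj ((p'.a * p.a⁻¹) • r) = prj r := fun r => by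
    have e1 : pr cs p.a = pr cs p'.a := congrArg Prod.fst e
    rw [prj_smul, map_mul, map_inv, e1, mul_inv_cancel, one_mul]
  have g3 : ∀ r ∈ τ, ∀ r' ∈ τ', prj r' = prj r → (p'.a * p.a⁻¹) • r = r' := fun r hr r' hr' e' =>
    prj_inj_below (p := p') (((act_le _).2 (tp r hr)).trans g1.le) (tp' r' hr')
      (by rw [g2, e'])
  refine ⟨p'.a * p.a⁻¹, Subtype.ext (funext fun r => ?_)⟩
  change x.1 ((p'.a * p.a⁻¹)⁻¹ • r) = x'.1 r
  by_cases hr : r ∈ τ'
  · obtain ⟨a, ha, ea⟩ := ex h.symm k1 k2 k3 h2 r hr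
    rw [← pushF_prj k1 k2 hr, ← h, ← ea, pushF_prj h1 h2 ha, ← g3 a ha r hr ea.symm,
      inv_smul_smul]
  · rw [k2.2.1 r hr]
    refine h2.2.1 _ fun ha => hr ?_
    obtain ⟨b, hb, eb⟩ := ex h h1 h2 h3 k2 _ ha
    have k := g3 _ ha b hb eb
    rw [smul_inv_smul] at k
    rw [k]
    exact hb

theorem sal_cover :
    IsQuotientCoveringMap (fun x : YY cs => (Quot.mk _ (push cs x) : Salvetti cs)) (Art M) where
  toIsQuotientMap := ((isOpenMap_mk cs).comp (isOpenMap_push cs)).isQuotientMap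
    (continuous_quot_mk.comp (continuous_push cs))
    (Quot.mk_surjective.comp (surjective_push cs))
  continuous_const_smul g := by
    have h : Continuous fun x : YY cs => fun p => x.1 (g⁻¹ • p) :=
      continuous_pi fun p => (continuous_apply (g⁻¹ • p)).comp continuous_subtype_val
    exact h.subtype_mk fun x => smul_mem_GS cs g x.2
  apply_eq_iff_mem_orbit {x y} := by
    rw [eq_comm, sc_mk_eq]
    constructor
    · rintro ⟨w, hw⟩
      have e : pushF (lift cs w • y).1 = pushF x.1 := by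
        funext q
        have k1 := sc_push_smul cs (lift cs w) y (w⁻¹ * q.1, q.2)
        have k2 := hw (w⁻¹ * q.1, q.2)
        rw [pr_lift] at k1
        simp only [mul_inv_cancel_left] at k1 k2
        exact k1.trans k2.symm
      obtain ⟨g, hg⟩ := sc_fibre cs e
      exact ⟨g * lift cs w, (mul_smul _ _ _).trans hg⟩
    · rintro ⟨g, rfl⟩
      exact ⟨pr cs g, sc_push_smul cs g y⟩
  disjoint x := by
    obtain ⟨τ, -, -, h2, h3⟩ := mem_GS.1 x.2
    obtain ⟨p, hp⟩ := sc_nonempty h2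
    refine ⟨_, (sc_star_open cs p).mem_nhds (h3 p hp), ?_⟩
    rintro g ⟨_, ⟨y, hy, rfl⟩, hy'⟩
    obtain ⟨σ, k1, -, k2⟩ := y.2
    have hy2 : 0 < y.1 (g⁻¹ • p) := hy'
    exact inv_eq_one.1 (act_fix (k1.total (sc_mem k2 hy2) (sc_mem k2 hy)))

end Vale.Agent.P203
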