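import Vale.Agent.P203.TCell

/-!
# P203 TCov: quotients of weakly contractible spaces (done)
* `genLoop_null`: a map `g : I ^ N → Y` sending the boundary to `y` is homotopic to the constant map relative to the boundary: apply `cube_ext` with `ι = Option N` to the map on the boundary of the
  cube which is `g` on the face `x none = 0` and `y` on the other faces (as a total function use `Set.projIcc` on the coordinates, e.g.
  `x ↦ if x none ≤ 0 then g (proj x) else y`, continuous on the boundary by gluing closed sets).
* Path connected: `cube_ext` with `ι = Unit` (or `Null {x, x'} Y`). Simply connected: `simply_connected_iff_loops_nullhomotopic`/`simply_connected_iff_paths_homotopic'` with `cube_ext` for `ι = Bool`,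
  or `genLoop_null` for `N = Fin 1` and `HomotopyGroup.pi1EquivFundamentalGroup`.
* `kpi1`: `hp.fundamentalGroupEquiv` and `MulEquiv.inv'` for the fundamental group. For `n ≥ 2` lift a loop `f : I ^ Fin n → X` through `hp.isCoveringMap`
  (`IsCoveringMap.existsUnique_continuousMap_lifts`; the cube is contractible and locally path connected). The boundary of the cube is preconnected for `n ≥ 2` (each face is convex,
  every face meets or equals a face through the origin.., e.g. show that every boundary point is joined to `0` inside the boundary), so the lift is constant on it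
  (`IsCoveringMap.const_of_comp`-type lemmas, `constOn_of_comp`). Project the homotopy of `genLoop_null`.
-/

namespace Vale.Agent.P203

open Set
open scoped unitInterval Topology.Homotopy

variable {E : Type*} [TopologicalSpace E] {Y : Set E}

theorem genLoop_null (hY : WCs Y) {N : Type} [Fintype N] {y : Y} (g : GenLoop N Y y) :
    GenLoop.Homotopic g GenLoop.const := by
  classical
  let pr : (Option N → ℝ) → (N → I) := fun x i => projIcc 0 1 zero_le_one (x (some i))
  have hpr : Continuous pr :=
    continuous_pi fun i => continuous_projIcc.comp (continuous_apply _)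
  let φ : (Option N → ℝ) → E := fun x => if x none = 0 then (g (pr x) : E) else (y : E)
  let A0 : Set (Option N → ℝ) := {x | x none = 0}
  let A1 : Set (Option N → ℝ) :=
    {x | x none = 1} ∪ ⋃ i : N, ({x | x (some i) = 0} ∪ {x | x (some i) = 1})
  have h0 : IsClosed A0 := isClosed_eq (continuous_apply _) continuous_const
  have h1 : IsClosed A1 :=
    (isClosed_eq (continuous_apply _) continuous_const).union
      (isClosed_iUnion_of_finite fun i => (isClosed_eq (continuous_apply _) continuous_const).union
        (isClosed_eq (continuous_apply _) continuous_const))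
  have e0 : ∀ x ∈ A0, φ x = g (pr x) := fun x hx => if_pos hx
  have e1 : ∀ x ∈ A1, φ x = y := by
    intro x hx
    by_cases h : x none = 0
    · rw [e0 x h]
      rcases hx with hx | hx
      · exact absurd (h.symm.trans hx) zero_ne_one
      · obtain ⟨i, hi⟩ := mem_iUnion.1 hx
        congr 1
        refine g.2 _ ⟨i, ?_⟩
        rcases hi with hi | hi
        · left
          have hi' : x (some i) = 0 := hi
          simp only [pr, hi']
          exact projIcc_left _
        · right
          have hi' : x (some i) = 1 := hi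
          simp only [pr, hi']
          exact projIcc_right _
    · exact if_neg h
  have hc : ContinuousOn φ (A0 ∪ A1) := by
    refine ContinuousOn.union_of_isClosed ?_ ?_ h0 h1
    · exact (continuous_subtype_val.comp (g.1.continuous.comp hpr)).continuousOn.congr e0
    · exact (continuousOn_const (c := (y : E))).congr e1
  have hm : ∀ x, φ x ∈ Y := fun x => by
    by_cases h : x none = 0
    · rw [e0 x h]; exact (g (pr x)).2
    · have : φ x = y := if_neg h
      rw [this]; exact y.2
  obtain ⟨G, hG, hGY, hGφ⟩ := cube_ext hY (ι := Option N) φ (hc.mono (by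
    rintro x ⟨-, o, ho⟩
    rcases o with _ | i
    · rcases ho with ho | ho
      · exact Or.inl ho
      · exact Or.inr (Or.inl ho)
    · exact Or.inr (Or.inr (mem_iUnion.2 ⟨i, ho⟩)))) (fun x _ => hm x)
  let em : I × (N → I) → (Option N → ℝ) := fun z o => o.elim (z.1 : ℝ) fun i => (z.2 i : ℝ)
  have hem : Continuous em := continuous_pi fun o => by
    rcases o with _ | i
    · exact continuous_subtype_val.comp continuous_fst
    · exact continuous_subtype_val.comp ((continuous_apply i).comp continuous_snd)
  have hmem : ∀ z, em z ∈ Set.pi univ fun _ : Option N => Icc (0 : ℝ) 1 := fun z o _ => by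
    rcases o with _ | i
    · exact z.1.2
    · exact (z.2 i).2
  have hpe : ∀ z, pr (em z) = z.2 := fun z => funext fun i => projIcc_val zero_le_one (z.2 i)
  refine ⟨⟨⟨⟨fun z => ⟨G (em z), hGY (hmem z)⟩, ?_⟩, fun s => ?_, fun s => ?_⟩, fun t s hs => ?_⟩⟩
  · exact (hG.comp_continuous hem hmem).subtype_mk _
  · refine Subtype.ext ?_
    have h : em (0, s) none = 0 := rfl
    exact (hGφ ⟨hmem _, none, Or.inl h⟩).trans ((e0 _ h).trans (by rw [hpe]; rfl))
  · refine Subtype.ext ?_
    have h : em (1, s) none = 1 := rfl
    exact (hGφ ⟨hmem _, none, Or.inr h⟩).trans (e1 _ (Or.inl h))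
  · refine Subtype.ext ?_
    have hy := g.2 s hs
    obtain ⟨i, hi⟩ := hs
    have h : em (t, s) (some i) = 0 ∨ em (t, s) (some i) = 1 := by
      rcases hi with hi | hi
      · exact Or.inl (congrArg Subtype.val hi)
      · exact Or.inr (congrArg Subtype.val hi)
    exact (hGφ ⟨hmem _, some i, h⟩).trans
      ((e1 _ (Or.inr (mem_iUnion.2 ⟨i, h⟩))).trans (congrArg Subtype.val hy).symm)

theorem tcov_pathConnected (hY : WCs Y) : PathConnectedSpace Y := by
  refine ⟨hY.nonempty.to_subtype, fun x y => ?_⟩
  obtain ⟨H⟩ := genLoop_null hY (N := Empty) (y := y)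
    ⟨ContinuousMap.const _ x, fun _ ⟨i, _⟩ => i.elim⟩
  exact ⟨⟨⟨fun t => H (t, fun _ => 0), by fun_prop⟩, H.apply_zero _, H.apply_one _⟩⟩

theorem WCs.simplyConnected (hY : WCs Y) : SimplyConnectedSpace Y := by
  refine simply_connected_iff_loops_nullhomotopic.2 ⟨tcov_pathConnected hY, fun y γ => ?_⟩
  obtain ⟨H⟩ := genLoop_null hY (N := Unit) (y := y)
    ⟨⟨fun s => γ (s ()), by fun_prop⟩, fun s ⟨i, hi⟩ => by
      rcases hi with hi | hi
      · exact (congrArg γ hi).trans γ.source
      · exact (congrArg γ hi).trans γ.target⟩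
  refine ⟨⟨⟨⟨fun z => H (z.1, fun _ => z.2), by fun_prop⟩, fun s => H.apply_zero _,
    fun s => H.apply_one _⟩, fun t s hs => ?_⟩⟩
  exact H.eq_fst t ⟨(), hs⟩

theorem tcov_lift {X Z : Type*} [TopologicalSpace X] [TopologicalSpace Z] {p : Z → X}
    (hp : IsCoveringMap p) {n : ℕ} (hn : 2 ≤ n) (e : Z) (f : GenLoop (Fin n) X (p e)) :
    ∃ F : GenLoop (Fin n) Z e, ∀ s, p (F s) = f s := by
  have i0 : Fin n := ⟨0, by omega⟩
  let H : C(I × (Fin n → I), X) := ⟨fun z => f.1 fun k => z.1 * z.2 k, by fun_prop⟩
  have H0 : ∀ s, H (0, s) = p (ContinuousMap.const _ e s) := fun s =>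
    f.2 _ ⟨i0, Or.inl (zero_mul _)⟩
  let L := hp.liftHomotopy H (ContinuousMap.const _ e) H0
  have hL : ∀ z, p (L z) = H z := congrFun (hp.liftHomotopy_lifts H _ H0)
  have hL1 : ∀ s, p (L (1, s)) = f s := fun s => (hL _).trans (by
    change f.1 _ = f.1 s
    congr 1
    exact funext fun k => one_mul _)
  have hLe : L (1, fun _ => 0) = e := by
    have := hp.const_of_comp (g := fun t : I => L (t, fun _ => 0)) (by fun_prop) (fun a a' => by
      rw [hL, hL]
      exact (f.2 _ ⟨i0, Or.inl (mul_zero _)⟩).trans (f.2 _ ⟨i0, Or.inl (mul_zero _)⟩).symm) 1 0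
    exact this.trans (hp.liftHomotopy_zero H _ H0 _)
  refine ⟨⟨⟨fun s => L (1, s), by fun_prop⟩, fun s ⟨i, hi⟩ => ?_⟩, hL1⟩
  haveI : Nontrivial (Fin n) := Fin.nontrivial_iff_two_le.2 hn
  obtain ⟨j, hj⟩ := exists_ne i
  have c1 := hp.const_of_comp (g := fun t : I => L (1, fun k => if k = i then s k else t * s k))
    (L.continuous.comp (continuous_const.prodMk (continuous_pi fun k => by
      split_ifs <;> fun_prop))) (fun a a' => by
      rw [hL1, hL1]
      exact (f.2 _ ⟨i, by simpa using hi⟩).trans (f.2 _ ⟨i, by simpa using hi⟩).symm) 1 0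
  have c2 := hp.const_of_comp
    (g := fun t : I => L (1, fun k => t * if k = i then s k else 0 * s k))
    (by fun_prop) (fun a a' => by
      rw [hL1, hL1]
      exact (f.2 _ ⟨j, by simp [hj]⟩).trans (f.2 _ ⟨j, by simp [hj]⟩).symm) 1 0
  simp only [one_mul, zero_mul, ite_self] at c1 c2
  exact c1.trans (c2.trans hLe)

theorem kpi1 (hY : WCs Y) {X G : Type*} [TopologicalSpace X] [Group G] [MulAction G Y] {p : Y → X}
    (hp : IsQuotientCoveringMap p G) : PathConnectedSpace X ∧ ∀ x : X,
      Nonempty (FundamentalGroup X x ≃* G) ∧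
        ∀ n, 2 ≤ n → Subsingleton (HomotopyGroup.Pi n X x) := by
  haveI := hY.simplyConnected
  refine ⟨hp.surjective.pathConnectedSpace hp.continuous, fun x => ?_⟩
  obtain ⟨e, rfl⟩ := hp.surjective x
  refine ⟨⟨(hp.fundamentalGroupEquiv ⟨e, rfl⟩).trans (MulEquiv.inv' G).symm⟩, fun n hn => ?_⟩
  have key : ∀ f : GenLoop (Fin n) X (p e), GenLoop.Homotopic f GenLoop.const := fun f => by
    obtain ⟨F, hF⟩ := tcov_lift hp.isCoveringMap hn e f
    obtain ⟨H⟩ := genLoop_null hY F
    refine ⟨⟨⟨⟨fun z => p (H z), hp.continuous.comp H.continuous⟩, fun s => ?_, fun s => ?_⟩,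
      fun t s hs => ?_⟩⟩
    · exact (congrArg p (H.apply_zero s)).trans (hF s)
    · exact congrArg p (H.apply_one s)
    · exact (congrArg p (H.eq_fst t hs)).trans (hF s)
  exact ⟨fun a b => Quotient.inductionOn₂ a b fun f g =>
    Quotient.sound ((key f).trans (key g).symm)⟩

end Vale.Agent.P203
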