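import Vale.Agent.P203.SysEx
import Vale.Agent.P203.Main
import Vale.Agent.P203.SalCov
import Vale.Agent.P203.TCov

/-!
# P203 Final: the Salvetti complex is an Eilenberg-MacLane space of the Artin group
-/

namespace Vale.Agent.P203

theorem final {B : Type} [Finite B] {W : Type*} [Group W] {M : CoxeterMatrix B}
    (cs : CoxeterSystem M W) : PathConnectedSpace (Salvetti cs) ∧ ∀ x : Salvetti cs,
      Nonempty (FundamentalGroup (Salvetti cs) x ≃* Art M) ∧
        ∀ n, 2 ≤ n → Subsingleton (HomotopyGroup.Pi n (Salvetti cs) x) := by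
  classical
  have := Fintype.ofFinite B
  obtain ⟨S⟩ := exists_sys M
  exact kpi1 (wc_univ cs S) (sal_cover cs)

end Vale.Agent.P203
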