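import Vale.Agent.P203.Cox1

/-!
# P203 Fold1: weights for the simply laced cover of the Coxeter graph (TASK)
* `exists_one`: `m = 0`: `D = Bool`, `η = 1`, `E = True`. `m ≥ 2`: `D = Fin (m - 1)`, `η k = sin ((k + 1) * π / m)`, `E x y` iff `x + 1 = y` or `y + 1 = x`;
  `sin (k θ) + sin ((k + 2) θ) = 2 cos θ sin ((k + 1) θ)`, and the missing terms at both ends vanish. (`m = 1` is excluded.)
* `exists_many`: induction on `K`; product `D × D'`, `η (x, x') = η x * η' x'`; for the old `m`: `E m x y ∧ x' = y'`, for the new `m`: `x = y ∧ E' x' y'`.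
* `exists_fold`: `K` = the values of `M` different from `1`; `E s t = E (M s t)`.
-/

namespace Vale.Agent.P203

open Real

/-- Folding data. -/
structure FoldD {B : Type} [DecidableEq B] (M : CoxeterMatrix B) where
  D : Type
  [fin : Fintype D]
  [dec : DecidableEq D]
  [ne : Nonempty D]
  η : D → ℝ
  E : B → B → D → D → Prop
  [decE : ∀ s t, DecidableRel (E s t)]
  pos : ∀ x, 0 < η x
  symm : ∀ s t x y, E s t x y → E t s y x
  eig : ∀ s t, s ≠ t → ∀ x, ∑ y, (if E s t x y then η y else 0) = aa M s t * η x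

attribute [instance] FoldD.fin FoldD.dec FoldD.ne FoldD.decE

open Classical in
theorem exists_one {m : ℕ} (hm : m ≠ 1) : ∃ (D : Type) (_ : Fintype D) (_ : Nonempty D) (η : D → ℝ)
    (E : D → D → Prop), (∀ x, 0 < η x) ∧ (∀ x y, E x y → E y x) ∧
      ∀ x, ∑ y, (if E x y then η y else 0) = 2 * cos (π / m) * η x := by
  rcases Nat.eq_zero_or_pos m with rfl | hm0
  · refine ⟨Bool, inferInstance, inferInstance, fun _ => 1, fun _ _ => True, fun _ => one_pos,
      fun _ _ h => h, fun x => ?_⟩
    simp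
  obtain ⟨n, rfl⟩ : ∃ n, m = n + 2 := ⟨m - 2, by omega⟩
  have hpos : (0 : ℝ) < ((n + 2 : ℕ) : ℝ) := by positivity
  set θ : ℝ := π / ((n + 2 : ℕ) : ℝ) with hθ
  have hθ0 : 0 < θ := div_pos pi_pos hpos
  have hθn : ((n : ℝ) + 2) * θ = π := by
    rw [hθ]; push_cast; field_simp
  refine ⟨Fin (n + 1), inferInstance, inferInstance, fun k => sin (((k : ℕ) + 1) * θ),
    fun x y => (x : ℕ) + 1 = y ∨ (y : ℕ) + 1 = x, fun k => ?_, fun _ _ h => h.symm, fun x => ?_⟩
  · apply sin_pos_of_pos_of_lt_pi (by positivity)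
    have h1 : ((k : ℕ) : ℝ) ≤ n := by exact_mod_cast Nat.lt_succ_iff.1 k.2
    nlinarith
  · have h1 : ∀ y : Fin (n + 1), (if ((x : ℕ) + 1 = y ∨ (y : ℕ) + 1 = x) then
        sin (((y : ℕ) + 1) * θ) else 0) =
        (if (x : ℕ) + 1 = y then sin ((((x : ℕ) : ℝ) + 2) * θ) else 0) +
          (if (y : ℕ) + 1 = x then sin (((x : ℕ) : ℝ) * θ) else 0) := by
      intro y
      by_cases a : (x : ℕ) + 1 = y
      · have b : ¬ (y : ℕ) + 1 = x := by omega
        rw [if_pos (Or.inl a), if_pos a, if_neg b, add_zero, ← a]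
        push_cast; ring_nf
      · by_cases b : (y : ℕ) + 1 = x
        · rw [if_pos (Or.inr b), if_neg a, if_pos b, zero_add, ← b]
          push_cast; ring_nf
        · rw [if_neg (not_or.2 ⟨a, b⟩), if_neg a, if_neg b, add_zero]
    have h2 : ∑ y : Fin (n + 1), (if (x : ℕ) + 1 = y then sin ((((x : ℕ) : ℝ) + 2) * θ) else 0) =
        sin ((((x : ℕ) : ℝ) + 2) * θ) := by
      by_cases a : (x : ℕ) + 1 < n + 1
      · rw [Finset.sum_eq_single ⟨(x : ℕ) + 1, a⟩, if_pos rfl]
        · intro y _ hy
          exact if_neg fun h => hy (Fin.ext h.symm)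
        · exact fun h => absurd (Finset.mem_univ _) h
      · have b : (x : ℕ) = n := by have := x.2; omega
        rw [Finset.sum_eq_zero, b, hθn, sin_pi]
        intro y _
        exact if_neg (by have := y.2; omega)
    have h3 : ∑ y : Fin (n + 1), (if (y : ℕ) + 1 = x then sin (((x : ℕ) : ℝ) * θ) else 0) =
        sin (((x : ℕ) : ℝ) * θ) := by
      by_cases a : (x : ℕ) = 0
      · rw [Finset.sum_eq_zero, a, Nat.cast_zero, zero_mul, sin_zero]
        intro y _
        exact if_neg (by omega)
      · have c : (x : ℕ) - 1 < n + 1 := by have := x.2; omega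
        rw [Finset.sum_eq_single ⟨(x : ℕ) - 1, c⟩, if_pos (by simp only; omega)]
        · intro y _ hy
          exact if_neg fun h => hy (Fin.ext (by simp only; omega))
        · exact fun h => absurd (Finset.mem_univ _) h
    have h4 : ∑ y : Fin (n + 1), (if ((x : ℕ) + 1 = y ∨ (y : ℕ) + 1 = x) then
        sin (((y : ℕ) + 1) * θ) else 0) = 2 * cos θ * sin (((x : ℕ) + 1) * θ) := by
      simp only [h1]
      rw [Finset.sum_add_distrib, h2, h3]
      have e1 : (((x : ℕ) : ℝ) + 2) * θ = (((x : ℕ) : ℝ) + 1) * θ + θ := by ring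
      have e2 : ((x : ℕ) : ℝ) * θ = (((x : ℕ) : ℝ) + 1) * θ - θ := by ring
      rw [e1, e2, sin_add, sin_sub]
      ring_nf
    convert h4

open Classical in
theorem exists_many (K : Finset ℕ) (hK : 1 ∉ K) : ∃ (D : Type) (_ : Fintype D) (_ : Nonempty D)
    (η : D → ℝ) (E : ℕ → D → D → Prop), (∀ x, 0 < η x) ∧ (∀ m x y, E m x y → E m y x) ∧
      ∀ m ∈ K, ∀ x, ∑ y, (if E m x y then η y else 0) = 2 * cos (π / m) * η x := by
  induction K using Finset.induction_on with
  | empty =>
    exact ⟨Unit, inferInstance, inferInstance, fun _ => 1, fun _ _ _ => True, fun _ => one_pos,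
      fun _ _ _ h => h, fun m hm => absurd hm (Finset.notMem_empty m)⟩
  | insert a K ha ih =>
    obtain ⟨D, iD, nD, η, E, hp, hs, he⟩ := ih fun h => hK (Finset.mem_insert_of_mem h)
    obtain ⟨D', iD', nD', η', E', hp', hs', he'⟩ :=
      exists_one (m := a) fun h => hK (h ▸ Finset.mem_insert_self a K)
    refine ⟨D × D', inferInstance, inferInstance, fun x => η x.1 * η' x.2,
      fun m x y => if m = a then x.1 = y.1 ∧ E' x.2 y.2 else E m x.1 y.1 ∧ x.2 = y.2,
      fun x => mul_pos (hp _) (hp' _), fun m x y h => ?_, fun m hm x => ?_⟩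
    · by_cases c : m = a
      · simp only [if_pos c] at h ⊢
        exact ⟨h.1.symm, hs' _ _ h.2⟩
      · simp only [if_neg c] at h ⊢
        exact ⟨hs _ _ _ h.1, h.2.symm⟩
    · rw [Fintype.sum_prod_type]
      by_cases c : m = a
      · subst c
        rw [Finset.sum_eq_single x.1, mul_left_comm, ← he' x.2, Finset.mul_sum]
        · refine Finset.sum_congr rfl fun y _ => ?_
          by_cases e : E' x.2 y <;> simp [e]
        · intro y _ hy
          refine Finset.sum_eq_zero fun z _ => ?_
          simp [hy.symm]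
        · exact fun h => absurd (Finset.mem_univ _) h
      · have hm' : m ∈ K := (Finset.mem_insert.1 hm).resolve_left c
        rw [← mul_assoc, ← he m hm' x.1, Finset.sum_mul]
        refine Finset.sum_congr rfl fun y _ => ?_
        rw [Finset.sum_eq_single x.2]
        · by_cases e : E m x.1 y <;> simp [e, c]
        · intro z _ hz
          simp [c, hz.symm]
        · exact fun h => absurd (Finset.mem_univ _) h

theorem exists_fold {B : Type} [Fintype B] [DecidableEq B] (M : CoxeterMatrix B) :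
    Nonempty (FoldD M) := by
  classical
  obtain ⟨D, iD, nD, η, E, hp, hs, he⟩ := exists_many
    ((Finset.univ.image fun p : B × B => M p.1 p.2).erase 1) (Finset.notMem_erase 1 _)
  refine ⟨{ D := D, η := η, E := fun s t => E (M s t), pos := hp
            symm := fun s t x y h => ?_, eig := fun s t hst x => ?_ }⟩
  · rw [M.symmetric t s]; exact hs _ _ _ h
  · have := he (M s t) (Finset.mem_erase.2 ⟨M.off_diagonal s t hst,
      Finset.mem_image.2 ⟨(s, t), Finset.mem_univ _, rfl⟩⟩) x
    rw [aa, if_neg hst]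
    convert this

end Vale.Agent.P203
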