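import Vale.Agent.P203.Cox3
import Vale.Agent.P203.Fold1

/-!
# P203 Fold2: folding of braid relations (TASK)
Let `M' = F.cox` on `B × D` (`aa M' i j = 1` if adjacent, else `0`), `cs' = M'.toCoxeterSystem`, `cs = M.toCoxeterSystem`, `bl s` the list of the vertices over `s`, `x s = π' (bl s)`.
* `Braid M' g` follows from `hc`, `hb` (unfold `alternatingWord` for `m = 2, 3`).
* Let `φ : (B × D → ℝ) →ₗ (B → ℝ)`, `φ v s = ∑ y, η y * v (s, y)`. The vertices over `s` are pairwise non adjacent, so for a duplicate free list `l` of vertices over `s`,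
  `rho' (π' l) v = v - ∑ i ∈ l, cor' i v • ee i`. With `F.eig`, `F.symm`: `∑ y, η y * cor' (s, y) v = cor s (φ v)`, hence `φ (rho' (x s) v) = rho (s s) (φ v)`, and
  `φ (rho' (π' (l.flatMap bl)) v) = rho (π l) (φ v)`.
* If `l` is reduced then `l.flatMap bl` is reduced: append the letters one at a time; for an initial segment `p` of `bl s` followed by `i`, `rho' (π' p) (ee i) = ee i`, and
  `φ (rho' (π' (l.flatMap bl)) (ee i)) = η • rho (π l) (ee s)` is `≥ 0` and nonzero, so the root is not `≤ 0` (`descent_iff`, `φ` is monotone).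
* For the two braid words of `s ≠ t` (reduced by `alt_reduced`, product `w0 {s, t}` by `w0_pair`) every vertex over `s` or `t` is a right descent of the product upstairs
  (same argument with `w0_rdesc`), so both products are `w0` of the set of these vertices (`w0_unique`, `wordProd_mem`). Conclude by `matsumoto`.
-/

namespace Vale.Agent.P203

variable {B : Type} [Fintype B] [DecidableEq B] {M : CoxeterMatrix B} (F : FoldD M)

/-- Adjacency in the cover. -/
def FoldD.Adj (i j : B × F.D) : Prop := i.1 ≠ j.1 ∧ F.E i.1 j.1 i.2 j.2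

instance : DecidableRel F.Adj := fun i j => by unfold FoldD.Adj; infer_instance

omit [Fintype B] in
theorem FoldD.Adj.symm {F : FoldD M} {i j : B × F.D} (h : F.Adj i j) : F.Adj j i :=
  ⟨h.1.symm, F.symm _ _ _ _ h.2⟩

/-- The simply laced Coxeter matrix of the cover. -/
def FoldD.cox : CoxeterMatrix (B × F.D) where
  M := Matrix.of fun i j => if i = j then 1 else if F.Adj i j then 3 else 2
  isSymm := by
    ext i j
    simp only [Matrix.transpose_apply, Matrix.of_apply, eq_comm (a := j),
      show F.Adj j i ↔ F.Adj i j from ⟨FoldD.Adj.symm, FoldD.Adj.symm⟩]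
  diagonal i := if_pos rfl
  off_diagonal i j h := by
    rw [Matrix.of_apply, if_neg h]
    split_ifs <;> norm_num

/-- The vertices over `s`. -/
noncomputable def FoldD.bl (s : B) : List (B × F.D) := Finset.univ.toList.map fun x => (s, x)

omit [Fintype B] in
theorem fold2_cox (i j : B × F.D) :
    F.cox i j = if i = j then 1 else if F.Adj i j then 3 else 2 := rfl

omit [Fintype B] in
theorem fold2_aa (i j : B × F.D) : aa F.cox i j = if F.Adj i j then 1 else 0 := by
  by_cases h : i = j
  · rw [h, aa_self, if_neg fun h' : F.Adj j j => h'.1 rfl]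
  · rw [aa, if_neg h, fold2_cox, if_neg h]
    split_ifs
    · simp
    · simp

omit [Fintype B] in
theorem fold2_braid {G : Type*} [Monoid G] (g : B × F.D → G)
    (hc : ∀ i j, i ≠ j → ¬ F.Adj i j → g i * g j = g j * g i)
    (hb : ∀ i j, F.Adj i j → g i * g j * g i = g j * g i * g j) : Braid F.cox g := by
  intro i j h _
  rw [fold2_cox, if_neg h]
  split_ifs with h'
  · simpa [CoxeterSystem.alternatingWord, mul_assoc] using (hb i j h').symm
  · simpa [CoxeterSystem.alternatingWord] using hc i j h h'

/-- The weighted projection. -/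
noncomputable def FoldD.phi : (B × F.D → ℝ) →ₗ[ℝ] (B → ℝ) where
  toFun v s := ∑ y, F.η y * v (s, y)
  map_add' v w := by ext s; simp [mul_add, Finset.sum_add_distrib]
  map_smul' c v := by ext s; simp [Finset.mul_sum, mul_left_comm]

omit [Fintype B] in
theorem fold2_phi (v : B × F.D → ℝ) (s : B) : F.phi v s = ∑ y, F.η y * v (s, y) := rfl

omit [Fintype B] in
theorem fold2_ee (i : B × F.D) : F.phi (ee i) = F.η i.2 • ee i.1 := by
  ext s
  by_cases h : s = i.1 <;> simp [fold2_phi, ee_apply, Prod.ext_iff, h]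

omit [Fintype B] in
theorem fold2_mono {v w : B × F.D → ℝ} (h : v ≤ w) : F.phi v ≤ F.phi w := fun s =>
  Finset.sum_le_sum fun y _ => mul_le_mul_of_nonneg_left (h (s, y)) (F.pos y).le

theorem fold2_cor (s : B) (v : B × F.D → ℝ) :
    ∑ y, F.η y * cor F.cox (s, y) v = cor M s (F.phi v) := by
  have h1 (t : B) (z : F.D) : ∑ y, F.η y * (aa F.cox (s, y) (t, z) * v (t, z)) =
      aa M s t * (F.η z * v (t, z)) := by
    by_cases h : s = t
    · simp [fold2_aa, FoldD.Adj, h, aa_self]
    · rw [← mul_assoc, aa_symm s t, ← F.eig t s (Ne.symm h) z, Finset.sum_mul]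
      refine Finset.sum_congr rfl fun y _ => ?_
      rw [aa_symm, fold2_aa]
      simp [FoldD.Adj, Ne.symm h]
  simp only [cor, mul_sub, Finset.sum_sub_distrib, fold2_phi, Finset.mul_sum,
    Fintype.sum_prod_type]
  congr 1
  · exact Finset.sum_congr rfl fun y _ => by ring
  · rw [Finset.sum_comm]
    refine Finset.sum_congr rfl fun t _ => ?_
    rw [Finset.sum_comm]
    exact Finset.sum_congr rfl fun z _ => h1 t z

theorem fold2_cor_ee {i j : B × F.D} (h : i ≠ j) (h' : i.1 = j.1) : cor F.cox i (ee j) = 0 := by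
  rw [cor_ee h, fold2_aa, if_neg fun a : F.Adj i j => a.1 h', neg_zero]

variable {W W' : Type*} [Group W] [Group W'] (cs : CoxeterSystem M W) (cs' : CoxeterSystem F.cox W')

theorem fold2_A {i : B × F.D} {l : List (B × F.D)} (hl : ∀ j ∈ l, j.1 = i.1) (hi : i ∉ l)
    (v : B × F.D → ℝ) : cor F.cox i (rho cs' (cs'.wordProd l) v) = cor F.cox i v ∧
      rho cs' (cs'.wordProd l) (ee i) = ee i := by
  induction l with
  | nil => simp [rho_one]
  | cons j l ih =>
    obtain ⟨h1, h2⟩ := ih (fun k hk => hl k (List.mem_cons_of_mem _ hk))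
      fun h => hi (List.mem_cons_of_mem _ h)
    have h3 : i ≠ j := fun h => hi (h ▸ List.mem_cons_self)
    have h4 := hl j List.mem_cons_self
    rw [cs'.wordProd_cons, rho_mul, rho_mul, h2, rho_simple, rho_simple, cor_sub, cor_smul, h1,
      fold2_cor_ee F h3 h4.symm, fold2_cor_ee F h3.symm h4]
    simp

theorem fold2_B {s : B} {l : List (B × F.D)} (hl : ∀ j ∈ l, j.1 = s) (hn : l.Nodup)
    (v : B × F.D → ℝ) : F.phi (rho cs' (cs'.wordProd l) v) =
      F.phi v - (l.map fun j => F.η j.2 * cor F.cox j v).sum • ee s := by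
  induction l with
  | nil => simp [rho_one]
  | cons j l ih =>
    have h1 := hl j List.mem_cons_self
    have h2 : ∀ k ∈ l, k.1 = s := fun k hk => hl k (List.mem_cons_of_mem _ hk)
    rw [List.nodup_cons] at hn
    rw [cs'.wordProd_cons, rho_mul, rho_simple, map_sub, map_smul, ih h2 hn.2, fold2_ee, h1,
      (fold2_A F cs' (fun k hk => (h2 k hk).trans h1.symm) hn.1 v).1, List.map_cons, List.sum_cons]
    module

omit [Fintype B] in
theorem fold2_bl (s : B) : (∀ j ∈ F.bl s, j.1 = s) ∧ (F.bl s).Nodup :=
  ⟨fun j hj => by obtain ⟨x, -, rfl⟩ := List.mem_map.1 hj; rfl,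
    (Finset.nodup_toList _).map fun _ _ h => congrArg Prod.snd h⟩

theorem fold2_word (l : List B) (v : B × F.D → ℝ) :
    F.phi (rho cs' (cs'.wordProd (l.flatMap F.bl)) v) = rho cs (cs.wordProd l) (F.phi v) := by
  induction l with
  | nil => simp [rho_one]
  | cons s l ih =>
    rw [List.flatMap_cons, cs'.wordProd_append, cs.wordProd_cons, rho_mul, rho_mul,
      fold2_B F cs' (fold2_bl F s).1 (fold2_bl F s).2, rho_simple, ← ih, ← fold2_cor, FoldD.bl,
      List.map_map, Finset.sum_map_toList]
    rfl

theorem fold2_desc (l : List B) (i : B × F.D) :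
    cs'.IsRightDescent (cs'.wordProd (l.flatMap F.bl)) i ↔
      cs.IsRightDescent (cs.wordProd l) i.1 := by
  have h := fold2_word F cs cs' l (ee i)
  rw [fold2_ee, map_smul] at h
  constructor
  · intro a
    have h1 := fold2_mono F (rho_ee_nonpos cs' a)
    rw [h, map_zero] at h1
    exact (descent_iff cs).2 fun s => nonpos_of_mul_nonpos_right (h1 s) (F.pos _)
  · refine not_imp_not.1 fun a => ?_
    have h1 := fold2_mono F (rho_ee_nonneg cs' a)
    rw [h, map_zero] at h1
    exact (not_descent_iff cs).2 fun s => nonneg_of_mul_nonneg_right (h1 s) (F.pos _)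

omit [Fintype B] [DecidableEq B] in
theorem fold2_concat {l : List B} {s : B} : cs.IsReduced (l ++ [s]) ↔
    cs.IsReduced l ∧ ¬ cs.IsRightDescent (cs.wordProd l) s := by
  have h1 := cs.length_wordProd_le l
  have h2 := cs.length_mul_simple (cs.wordProd l) s
  rw [cs.not_isRightDescent_iff, CoxeterSystem.IsReduced, CoxeterSystem.IsReduced,
    cs.wordProd_append, cs.wordProd_singleton, List.length_append, List.length_singleton]
  omega

theorem fold2_app {s : B} {q p : List (B × F.D)} (hq : cs'.IsReduced q)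
    (hd : ∀ i : B × F.D, i.1 = s → ¬ cs'.IsRightDescent (cs'.wordProd q) i)
    (hp : ∀ j ∈ p, j.1 = s) (hn : p.Nodup) : cs'.IsReduced (q ++ p) := by
  induction p using List.reverseRecOn with
  | nil => rwa [List.append_nil]
  | append_singleton p i ih =>
    have h1 : i.1 = s := hp i (by simp)
    have h2 : ∀ j ∈ p, j.1 = s := fun j hj => hp j (List.mem_append_left _ hj)
    have h3 : i ∉ p := fun h => (List.disjoint_of_nodup_append hn) h (List.mem_singleton_self i)
    rw [← List.append_assoc, fold2_concat]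
    refine ⟨ih h2 hn.of_append_left, ?_⟩
    rw [not_descent_iff, cs'.wordProd_append, rho_mul,
      (fold2_A F cs' (fun j hj => (h2 j hj).trans h1.symm) h3 0).2]
    exact rho_ee_nonneg cs' (hd i h1)

theorem fold2_red {l : List B} (hl : cs.IsReduced l) : cs'.IsReduced (l.flatMap F.bl) := by
  induction l using List.reverseRecOn with
  | nil => simp [CoxeterSystem.IsReduced]
  | append_singleton l s ih =>
    obtain ⟨h1, h2⟩ := (fold2_concat cs).1 hl
    rw [List.flatMap_append, List.flatMap_singleton]
    exact fold2_app F cs' (s := s) (ih h1) (fun i hi a => h2 (hi ▸ (fold2_desc F cs cs' l i).1 a))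
      (fold2_bl F s).1 (fold2_bl F s).2

theorem fold2_w0 {T : Finset B} (hT : Sph cs T) {l : List B} (hl : cs.IsReduced l)
    (h : cs.wordProd l = w0 cs T) :
    cs'.wordProd (l.flatMap F.bl) = w0 cs' (Finset.univ.filter fun i => i.1 ∈ T) := by
  refine w0_unique cs' (wordProd_mem cs' fun i hi => ?_) fun i hi => ?_
  · obtain ⟨s, hs, hi⟩ := List.mem_flatMap.1 hi
    rw [Finset.mem_filter, (fold2_bl F s).1 i hi]
    exact ⟨Finset.mem_univ _, reduced_mem cs hl (h ▸ w0_mem cs T) s hs⟩
  · rw [fold2_desc F cs, h]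
    exact w0_rdesc cs hT (Finset.mem_filter.1 hi).2

theorem fold_braid {G : Type*} [Monoid G] (g : B × F.D → G)
    (hc : ∀ i j, i ≠ j → ¬ F.Adj i j → g i * g j = g j * g i)
    (hb : ∀ i j, F.Adj i j → g i * g j * g i = g j * g i * g j) :
    Braid M fun s => ((F.bl s).map g).prod := by
  intro s t h hm
  have h1 (l : List B) : (l.map fun s => ((F.bl s).map g).prod).prod =
      ((l.flatMap F.bl).map g).prod := by
    induction l with
    | nil => rfl
    | cons a l ih => rw [List.map_cons, List.prod_cons, ih, List.flatMap_cons, List.map_append,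
        List.prod_append]
  obtain ⟨a1, a2⟩ := w0_pair M.toCoxeterSystem h hm
  obtain ⟨a3, -⟩ := w0_pair M.toCoxeterSystem h.symm (M.symmetric s t ▸ hm)
  rw [M.symmetric t s, Finset.pair_comm] at a3
  have r1 := alt_reduced M.toCoxeterSystem h (k := M s t) fun _ => le_rfl
  have r2 := alt_reduced M.toCoxeterSystem h.symm (k := M s t) fun _ => (M.symmetric s t).le
  rw [h1, h1]
  exact matsumoto F.cox.toCoxeterSystem (fold2_braid F g hc hb) (fold2_red F _ _ r1)
    (fold2_red F _ _ r2) ((fold2_w0 F _ _ a2 r1 a1).trans (fold2_w0 F _ _ a2 r2 a3).symm)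

end Vale.Agent.P203
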