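import Vale.Agent.P203.Sys

/-!
# P203 Th: families of thresholds (TASK, elementary real inequalities and well-foundedness)
All conditions in `Adm` are affine in `μ` (`cor_add`, `cor_smul`). The values `E.F a t j` lie in the well-founded set `E.wf`; for finitely many `t`
the images under the increasing maps `r ↦ (r - μ t) / d t` form a well-founded set (`Set.IsWF.union`/`Finset.isWF_bUnion`, or use `IsPWO`).
* `fam_conv`: `ht a t = toLex (0, (F a t J - μ₀ t) / (μ₁ t - μ₀ t))`; threshold `μ₀ + τ • (μ₁ - μ₀)`, `0 ≤ τ < 1`, at level `J`.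
* `fam_delta`: `lev a t = J + sInf {n : ℕ | Lv a t (J + n)}` (exists by `E.bdd`). If `lev = J`: `ht = toLex (J, (F a t J - μ t) / δ t)`, threshold `μ + τ • δ` at level `J`.
  If `lev = L > J`: `ht = toLex (L, F a t L / δ t)` with `0 < F a t L`, threshold `τ • δ` at level `L` (`Out.mono`, `fr_nonneg`, `f_nonneg`, `δ s = 0` off `U`).
* `single_theta`: take a vertex `(a, t₀)` of `NV μ` minimising `(F - μ) / θ = -c₀ < 0`; `μ₀ = μ - c₀ • θ + ε • ee t₀`, `0 < ε < c₀ * θ t₀`, `2 ε ≤ c₀ * cor t₀ θ`.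
* `single_delta`: take a vertex `(a, t₀)` of level `≤ 0` in the coset (`(c, t)` is one) minimising `F a t 0 / δ t = c₀ ≥ 0`; `μ₀ = c₀ • δ + ε • ee t₀`, `2 ε = Fr c 0`.
-/

namespace Vale.Agent.P203

variable {B : Type} [Fintype B] [DecidableEq B] {M : CoxeterMatrix B}

/-- A set of vertices of the Artin complex of `T`. -/
def VInv (M : CoxeterMatrix B) (T : Finset B) (V : Art M → B → Prop) : Prop :=
  ∀ a t b, b ∈ AP M (T.erase t) → V a t → V (a * b) t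

/-- All vertices with type in `U` in the coset `c A_T`. -/
def AV (M : CoxeterMatrix B) (T U : Finset B) (c : Art M) (a : Art M) (t : B) : Prop :=
  c⁻¹ * a ∈ AP M T ∧ t ∈ U

theorem vinv_AV (T U : Finset B) (c : Art M) : VInv M T (AV M T U c) := fun a t b hb h =>
  ⟨by rw [← mul_assoc]; exact mul_mem h.1 (AP_mono (Finset.erase_subset t T) hb), h.2⟩

namespace St

variable (E : St M)

/-- The negative vertices. -/
def NV (T U : Finset B) (J : ℤ) (μ : B → ℝ) (c : Art M) (a : Art M) (t : B) : Prop :=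
  AV M T U c a t ∧ E.Neg J μ a t

theorem vinv_NV (T U : Finset B) (J : ℤ) (μ : B → ℝ) (c : Art M) : VInv M T (E.NV T U J μ c) :=
  fun a t b hb h => ⟨vinv_AV T U c a t b hb h.1, (Neg_erase hb).2 h.2⟩

/-- `V1` is obtained from `V0` by adding vertices in the order of `ht`; every added vertex is a zero
vertex for an admissible threshold whose negative vertices are the lower ones. -/
structure Fam (T U : Finset B) (c : Art M) (V0 V1 : Art M → B → Prop)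
    (ht : Art M → B → ℤ ×ₗ ℝ) : Prop where
  inv0 : VInv M T V0
  inv1 : VInv M T V1
  ht_inv : ∀ a t b, b ∈ AP M (T.erase t) → ht (a * b) t = ht a t
  le : ∀ a t, V0 a t → V1 a t
  mem : ∀ a t, V1 a t → AV M T U c a t
  wf : Set.IsWF {h | ∃ a t, V1 a t ∧ ¬ V0 a t ∧ ht a t = h}
  thr : ∀ a t, V1 a t → ¬ V0 a t → ∃ L ν, E.Adm U L ν c ∧ E.Zer L ν a t ∧
    (∀ a' t', AV M T U c a' t' → (E.Neg L ν a' t' ↔ V0 a' t' ∨ (V1 a' t' ∧ ht a' t' < ht a t))) ∧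
    ∀ a' t', V1 a' t' → ¬ V0 a' t' → ht a' t' = ht a t → E.Zer L ν a' t'

variable {E} {T U : Finset B} {J : ℤ} {μ μ₀ μ₁ θ δ : B → ℝ} {c : Art M}

omit [Fintype B] [DecidableEq B] in
theorem th_eq {d : B → ℝ} {t : B} (hd : 0 < d t) {r τ : ℝ} :
    (r - μ t) / d t = τ ↔ r = (μ + τ • d) t := by
  rw [div_eq_iff hd.ne', sub_eq_iff_eq_add', Pi.add_apply, Pi.smul_apply, smul_eq_mul]

omit [Fintype B] [DecidableEq B] in
theorem th_lt {d : B → ℝ} {t : B} (hd : 0 < d t) {r τ : ℝ} :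
    (r - μ t) / d t < τ ↔ r < (μ + τ • d) t := by
  rw [div_lt_iff₀ hd, sub_lt_iff_lt_add', Pi.add_apply, Pi.smul_apply, smul_eq_mul]

/-- The normalised heights. -/
def thS (E : St M) (U : Finset B) (μ d : B → ℝ) : Set ℝ :=
  ⋃ t ∈ U, (fun r => (r - μ t) / d t) '' {r | ∃ x s j, E.f x s j = r}

theorem th_mem (E : St M) (μ d : B → ℝ) {t : B} (ht : t ∈ U) (a : Art M) (j : ℤ) :
    (E.F a t j - μ t) / d t ∈ thS E U μ d :=
  Set.mem_biUnion ht ⟨_, ⟨_, _, _, rfl⟩, rfl⟩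

theorem th_pwo (E : St M) (μ : B → ℝ) {d : B → ℝ} (hd : ∀ t ∈ U, 0 < d t) :
    (thS E U μ d).IsPWO :=
  (Finset.isPWO_bUnion U).2 fun t ht => (Set.isPWO_iff_isWF.2 E.wf).image_of_monotone
    fun _ _ h => div_le_div_of_nonneg_right (sub_le_sub_right h _) (hd t ht).le

theorem th_lex (J : ℤ) {Y : Set ℝ} (hY : Y.IsPWO) :
    Set.IsWF ((toLex : ℤ × ℝ → ℤ ×ₗ ℝ) '' (Set.Ici J ×ˢ Y)) :=
  (((Set.isPWO_iff_isWF.2 (bddBelow_Ici (a := J)).isWF).prod hY).image_of_monotone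
    Prod.Lex.toLex_mono).isWF

theorem th_min (E : St M) (μ : B → ℝ) (J : ℤ) {d : B → ℝ} (hd : ∀ t ∈ U, 0 < d t)
    {V : Art M → B → Prop} (hV : ∀ a t, V a t → t ∈ U) (hn : ∃ a t, V a t) :
    ∃ (a₀ : Art M) (t₀ : B) (x : ℝ), V a₀ t₀ ∧ E.F a₀ t₀ J = (μ + x • d) t₀ ∧
      ∀ a t, V a t → (μ + x • d) t ≤ E.F a t J := by
  have hw : Set.IsWF {y | ∃ a t, V a t ∧ (E.F a t J - μ t) / d t = y} := by
    refine (th_pwo E μ hd).isWF.mono ?_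
    rintro _ ⟨a, t, ha, rfl⟩
    exact th_mem E μ d (hV a t ha) a J
  have hne : Set.Nonempty {y | ∃ a t, V a t ∧ (E.F a t J - μ t) / d t = y} := by
    obtain ⟨a, t, ha⟩ := hn
    exact ⟨_, a, t, ha, rfl⟩
  obtain ⟨a₀, t₀, h0, h1⟩ := hw.min_mem hne
  exact ⟨a₀, t₀, _, h0, (th_eq (hd t₀ (hV _ _ h0))).1 h1, fun a t ha => not_lt.1 fun h =>
    hw.not_lt_min hne ⟨a, t, ha, rfl⟩ ((th_lt (hd t (hV a t ha))).2 h)⟩

theorem th_bdd (E : St M) (a : Art M) (t : B) : ∃ L, LvF (E.F a t) L :=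
  (E.bdd (E.st a)).imp fun _ h => h.1 t

theorem th_lev (J : ℤ) : ∃ lev : (ℤ → ℝ) → ℤ, ∀ g, (∃ L, LvF g L) → J ≤ lev g ∧
    (∀ L, J ≤ L → (LvF g L ↔ lev g ≤ L)) ∧ (J < lev g → g (lev g) ≠ 0) := by
  have key : ∀ g : ℤ → ℝ, ∃ l : ℤ, (∃ L, LvF g L) → J ≤ l ∧
      (∀ L, J ≤ L → (LvF g L ↔ l ≤ L)) ∧ (J < l → g l ≠ 0) := by
    intro g
    by_cases hg : ∃ L, LvF g L
    · obtain ⟨L₀, h0⟩ := hg
      obtain ⟨l, ⟨h1, h2⟩, h3⟩ := Int.exists_least_of_bdd (P := fun L => J ≤ L ∧ LvF g L)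
        ⟨J, fun _ h => h.1⟩ ⟨max J L₀, le_max_left _ _, h0.mono (le_max_right _ _)⟩
      refine ⟨l, fun _ => ⟨h1, fun L hL => ⟨fun h => h3 L ⟨hL, h⟩, h2.mono⟩, fun h4 h5 => ?_⟩⟩
      have h6 := h3 (l - 1) ⟨by omega, fun j hj => by
        rcases (show l ≤ j by omega).eq_or_lt with rfl | h7
        · exact h5
        · exact h2 j h7⟩
      omega
    · exact ⟨J, fun h => absurd h hg⟩
  exact ⟨fun g => (key g).choose, fun g => (key g).choose_spec⟩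

theorem fam_conv (h0 : E.Adm U J μ₀ c) (h1 : E.Adm U J μ₁ c) (h : ∀ t ∈ U, μ₀ t < μ₁ t) :
    ∃ ht, E.Fam T U c (E.NV T U J μ₀ c) (E.NV T U J μ₁ c) ht := by
  have hd : ∀ t ∈ U, 0 < (μ₁ - μ₀) t := fun t ht => sub_pos.2 (h t ht)
  refine ⟨fun a t => toLex (0, (E.F a t J - μ₀ t) / (μ₁ - μ₀) t), vinv_NV E T U J μ₀ c,
    vinv_NV E T U J μ₁ c, fun a t b hb => by rw [F_erase hb],
    fun a t ha => ⟨ha.1, ha.2.1, ha.2.2.trans (h t ha.1.2)⟩, fun a t ha => ha.1, ?_, ?_⟩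
  · refine (th_lex 0 (th_pwo E μ₀ hd)).mono ?_
    rintro _ ⟨a, t, ha, -, rfl⟩
    exact ⟨_, ⟨Set.self_mem_Ici, th_mem E μ₀ _ ha.1.2 a J⟩, rfl⟩
  · intro a t h1' h0'
    have ht := h1'.1.2
    have e0 : μ₀ t ≤ E.F a t J := not_lt.1 fun h2 => h0' ⟨h1'.1, h1'.2.1, h2⟩
    obtain ⟨τ, hτ⟩ : ∃ τ, τ = (E.F a t J - μ₀ t) / (μ₁ - μ₀) t := ⟨_, rfl⟩
    have t0 : 0 ≤ τ := hτ ▸ div_nonneg (sub_nonneg.2 e0) (hd t ht).le
    have t1 : τ < 1 := hτ ▸ (div_lt_one (hd t ht)).2 (sub_lt_sub_right h1'.2.2 _)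
    refine ⟨J, μ₀ + τ • (μ₁ - μ₀), ⟨h0.1, fun u hu => ?_, fun s hs hs' => ?_⟩,
      ⟨h1'.2.1, (th_eq (hd t ht)).1 hτ.symm⟩, fun a' t' ha' => ?_, fun a' t' h2 _ h3 => ?_⟩
    · rw [cor_add, cor_smul, cor_sub]
      nlinarith [h0.2.1 u hu, h1.2.1 u hu]
    · simp only [Pi.add_apply, Pi.smul_apply, Pi.sub_apply, smul_eq_mul]
      nlinarith [h0.2.2 s hs hs', h1.2.2 s hs hs']
    · rw [Prod.Lex.toLex_lt_toLex, ← hτ]
      simp only [lt_irrefl, false_or, true_and, th_lt (hd t' ha'.2)]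
      have d' := hd t' ha'.2
      have p0 : μ₀ t' ≤ (μ₀ + τ • (μ₁ - μ₀)) t' := le_add_of_nonneg_right (mul_nonneg t0 d'.le)
      have p1 : (μ₀ + τ • (μ₁ - μ₀)) t' < μ₁ t' := by
        simp only [Pi.add_apply, Pi.smul_apply, Pi.sub_apply, smul_eq_mul] at d' ⊢
        nlinarith
      exact ⟨fun h2 => Or.inr ⟨⟨ha', h2.1, h2.2.trans p1⟩, h2.2⟩,
        fun h2 => h2.elim (fun h3 => ⟨h3.2.1, h3.2.2.trans_le p0⟩) fun h3 => ⟨h3.1.2.1, h3.2⟩⟩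
    · exact ⟨h2.2.1, (th_eq (hd t' h2.1.2)).1
        ((Prod.ext_iff.1 (toLex.injective h3)).2.trans hτ.symm)⟩

theorem fam_delta (hδ : IsDelta M U δ) (h : E.Adm U J μ c) :
    ∃ ht, E.Fam T U c (E.NV T U J μ c) (AV M T U c) ht ∧ ∀ a t, AV M T U c a t → E.Zer J μ a t →
      ∀ a' t', AV M T U c a' t' → ht a' t' < ht a t → E.Neg J μ a' t' := by
  have hd : ∀ t ∈ U, 0 < δ t := fun t ht => (hδ.2.2 t ht).1
  obtain ⟨lev, hlev⟩ := th_lev J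
  have l1 : ∀ a t, J ≤ lev (E.F a t) := fun a t => (hlev _ (th_bdd E a t)).1
  have l2 : ∀ a t L, J ≤ L → (E.Lv a t L ↔ lev (E.F a t) ≤ L) := fun a t =>
    (hlev _ (th_bdd E a t)).2.1
  have l3 : ∀ a t, J < lev (E.F a t) → 0 < E.F a t (lev (E.F a t)) := fun a t h1 =>
    lt_of_le_of_ne (E.f_nonneg _ _ _) (Ne.symm ((hlev _ (th_bdd E a t)).2.2 h1))
  obtain ⟨m, mJ, mL⟩ : ∃ m : ℤ → B → ℝ, m J = μ ∧ ∀ L, J < L → m L = 0 :=
    ⟨fun L => if L = J then μ else 0, if_pos rfl, fun L hL => if_neg hL.ne'⟩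
  have hm : ∀ L, J ≤ L → E.Adm U L (m L) c := by
    intro L hL
    rcases hL.eq_or_lt with rfl | hL
    · rwa [mJ]
    · rw [mL L hL]
      exact ⟨h.1.mono hL.le, fun t _ => le_trans (by simp [cor]) (E.fr_nonneg _ _),
        fun s _ _ => E.f_nonneg _ _ _⟩
  refine ⟨fun a t => toLex (lev (E.F a t),
    (E.F a t (lev (E.F a t)) - m (lev (E.F a t)) t) / δ t), ⟨vinv_NV E T U J μ c,
    vinv_AV T U c, fun a t b hb => by rw [F_erase hb], fun a t ha => ha.1, fun a t ha => ha,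
    ?_, ?_⟩, ?_⟩
  · refine (th_lex J ((th_pwo E μ hd).union (th_pwo E 0 hd))).mono ?_
    rintro _ ⟨a, t, ha, -, rfl⟩
    refine ⟨(_, _), ⟨l1 a t, ?_⟩, rfl⟩
    rcases (l1 a t).eq_or_lt with h1 | h1
    · rw [← h1, mJ]
      exact Or.inl (th_mem E μ _ ha.2 a _)
    · rw [mL _ h1]
      exact Or.inr (th_mem E 0 _ ha.2 a _)
  · intro a t h1' h0'
    have ht := h1'.2
    obtain ⟨L, hL⟩ : ∃ L, L = lev (E.F a t) := ⟨_, rfl⟩
    have hJ : J ≤ L := hL ▸ l1 a t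
    have hv : E.Lv a t L := (l2 a t L hJ).2 hL.ge
    rw [← hL]
    obtain ⟨τ, hτ⟩ : ∃ τ, τ = (E.F a t L - m L t) / δ t := ⟨_, rfl⟩
    have t1 : J < L → 0 < τ := fun h1 => by
      rw [hτ, mL L h1, Pi.zero_apply, sub_zero]
      exact div_pos (hL ▸ l3 a t (hL ▸ h1)) (hd t ht)
    have t0 : 0 ≤ τ := by
      rcases hJ.eq_or_lt with rfl | h1
      · rw [hτ, mJ]
        exact div_nonneg (sub_nonneg.2 (not_lt.1 fun h2 => h0' ⟨h1', hv, h2⟩)) (hd t ht).le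
      · exact (t1 h1).le
    have low : ∀ a' t' L', t' ∈ U → L' < L → J < L → E.Lv a' t' L' →
        E.Neg L (m L + τ • δ) a' t' := by
      intro a' t' L' h2 h3 h4 h5
      refine ⟨h5.mono h3.le, ?_⟩
      rw [h5 L h3, mL L h4, zero_add]
      exact mul_pos (t1 h4) (hd t' h2)
    refine ⟨L, m L + τ • δ, ⟨(hm L hJ).1, fun u hu => ?_, fun s hs hs' => ?_⟩,
      ⟨hv, (th_eq (hd t ht)).1 hτ.symm⟩, fun a' t' ha' => ?_, fun a' t' h2 _ h3 => ?_⟩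
    · rw [cor_add, cor_smul]
      nlinarith [(hm L hJ).2.1 u hu, (hδ.2.2 u hu).2]
    · rw [Pi.add_apply, Pi.smul_apply, hδ.2.1 s hs, smul_zero, add_zero]
      exact (hm L hJ).2.2 s hs hs'
    · rw [Prod.Lex.toLex_lt_toLex, ← hτ]
      refine ⟨fun h2 => Or.inr ⟨ha', ?_⟩, ?_⟩
      · refine ((l2 a' t' L hJ).1 h2.1).lt_or_eq.imp id fun h3 => ⟨h3, ?_⟩
        simp only at h3 ⊢
        rw [h3]
        exact (th_lt (hd t' ha'.2)).2 h2.2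
      · rintro (h2 | ⟨-, h2 | ⟨h2, h3⟩⟩)
        · rcases hJ.eq_or_lt with rfl | h1
          · rw [mJ]
            exact ⟨h2.2.1, h2.2.2.trans_le
              (le_add_of_nonneg_right (mul_nonneg t0 (hd t' ha'.2).le))⟩
          · exact low a' t' J ha'.2 h1 h1 h2.2.1
        · exact low a' t' _ ha'.2 h2 ((l1 a' t').trans_lt h2) ((l2 a' t' _ (l1 a' t')).2 le_rfl)
        · simp only at h2 h3
          rw [h2] at h3
          exact ⟨(l2 a' t' L hJ).2 h2.le, (th_lt (hd t' ha'.2)).1 h3⟩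
    · obtain ⟨h4, h5⟩ := Prod.ext_iff.1 (toLex.injective h3)
      simp only at h4 h5
      rw [h4] at h5
      exact ⟨(l2 a' t' L hJ).2 h4.le, (th_eq (hd t' h2.2)).1 (h5.trans hτ.symm)⟩
  · intro a t _ hz a' t' ha' h1
    have h2 : lev (E.F a t) = J := le_antisymm ((l2 a t J le_rfl).1 hz.1) (l1 a t)
    rw [Prod.Lex.toLex_lt_toLex, h2, mJ, hz.2, sub_self, zero_div] at h1
    rcases h1 with h1 | ⟨h1, h3⟩
    · exact absurd h1 (l1 a' t').not_gt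
    · simp only at h1 h3
      rw [h1, mJ, div_lt_iff₀ (hd t' ha'.2), zero_mul] at h3
      exact ⟨(l2 a' t' J le_rfl).2 h1.le, sub_neg.1 h3⟩

theorem single_theta (hθ : IsTheta M U θ) (h : E.Adm U J μ c) (hn : ∃ a t, E.NV T U J μ c a t) :
    ∃ μ₀ t₀, E.Adm U J μ₀ c ∧ (∀ t ∈ U, μ₀ t < μ t) ∧ (∃ a, E.NV T U J μ₀ c a t₀) ∧
      ∀ a t, E.NV T U J μ₀ c a t → t = t₀ := by
  have hd : ∀ t ∈ U, 0 < θ t := fun t ht => (hθ.2 t ht).1
  obtain ⟨a₀, t₀, x, h0, h1, h2⟩ := th_min E μ J hd (fun a t ha => ha.1.2) hn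
  have ht₀ := h0.1.2
  have hx : 0 < -x := by
    have h3 := h0.2.2
    rw [h1, Pi.add_apply, Pi.smul_apply, smul_eq_mul] at h3
    nlinarith [hd t₀ ht₀]
  obtain ⟨ε, e0, e1, e2⟩ : ∃ ε : ℝ, 0 < ε ∧ ε < -x * θ t₀ ∧ 2 * ε ≤ -x * cor M t₀ θ := by
    have p1 := mul_pos hx (hd t₀ ht₀)
    have p2 := mul_pos hx (hθ.2 t₀ ht₀).2
    exact ⟨min (-x * θ t₀ / 2) (-x * cor M t₀ θ / 2), lt_min (by linarith) (by linarith),
      (min_le_left _ _).trans_lt (by linarith),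
      by linarith [min_le_right (-x * θ t₀ / 2) (-x * cor M t₀ θ / 2)]⟩
  have hlt : ∀ t ∈ U, (μ + x • θ + ε • ee t₀) t < μ t := by
    intro t ht
    simp only [Pi.add_apply, Pi.smul_apply, smul_eq_mul, ee_apply]
    split_ifs with h3
    · rw [h3]
      linarith
    · nlinarith [hd t ht]
  refine ⟨μ + x • θ + ε • ee t₀, t₀, ⟨h.1, fun t ht => ?_, fun s hs hs' => ?_⟩, hlt,
    ⟨a₀, h0.1, h0.2.1, ?_⟩, fun a t ha => ?_⟩
  · rw [cor_add, cor_add, cor_smul, cor_smul]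
    by_cases h3 : t = t₀
    · rw [h3, cor_ee_self]
      linarith [h.2.1 t₀ ht₀]
    · rw [cor_ee h3]
      nlinarith [h.2.1 t ht, (hθ.2 t ht).2, aa_nonneg (M := M) t t₀]
  · simp only [Pi.add_apply, Pi.smul_apply, hθ.1 s hs, supp_ee ht₀ s hs, smul_zero, add_zero]
    exact h.2.2 s hs hs'
  · rw [h1, Pi.add_apply (μ + x • θ), Pi.smul_apply, ee_apply, if_pos rfl, smul_eq_mul]
    linarith
  · by_contra h3
    have h4 := (h2 a t ⟨ha.1, ha.2.1, ha.2.2.trans (hlt t ha.1.2)⟩).trans_lt ha.2.2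
    rw [Pi.add_apply (μ + x • θ), Pi.smul_apply, ee_apply, if_neg h3, smul_zero, add_zero] at h4
    exact lt_irrefl _ h4

theorem single_delta (hδ : IsDelta M U δ) (h1 : ∀ s, E.Lv c s 0) (h2 : LvF (E.Fr c) 0)
    (h3 : 0 < E.Fr c 0) : ∃ μ₀ t₀, E.Adm U 0 μ₀ c ∧ (∃ a, E.NV T U 0 μ₀ c a t₀) ∧
      ∀ a t, E.NV T U 0 μ₀ c a t → t = t₀ := by
  have hd : ∀ t ∈ U, 0 < δ t := fun t ht => (hδ.2.2 t ht).1
  obtain ⟨t1, ht1⟩ := hδ.1
  obtain ⟨a₀, t₀, x, h0, h4, h5⟩ := th_min E 0 0 hd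
    (V := fun a t => AV M T U c a t ∧ E.Lv a t 0) (fun a t ha => ha.1.2)
    ⟨c, t1, ⟨by rw [inv_mul_cancel]; exact one_mem _, ht1⟩, h1 t1⟩
  have ht₀ := h0.1.2
  rw [zero_add] at h4 h5
  have hx : 0 ≤ x := by
    have h6 : 0 ≤ E.F a₀ t₀ 0 := E.f_nonneg _ _ _
    rw [h4, Pi.smul_apply, smul_eq_mul] at h6
    exact nonneg_of_mul_nonneg_left h6 (hd t₀ ht₀)
  refine ⟨x • δ + (E.Fr c 0 / 2) • ee t₀, t₀, ⟨⟨h2, fun s _ _ => h1 s⟩, fun t ht => ?_,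
    fun s hs hs' => ?_⟩, ⟨a₀, h0.1, h0.2, ?_⟩, fun a t ha => ?_⟩
  · rw [cor_add, cor_smul, cor_smul]
    have p1 := mul_nonpos_of_nonneg_of_nonpos hx (hδ.2.2 t ht).2
    by_cases h6 : t = t₀
    · rw [← h6, cor_ee_self]
      linarith
    · rw [cor_ee h6]
      nlinarith [aa_nonneg (M := M) t t₀]
  · simp only [Pi.add_apply, Pi.smul_apply, hδ.2.1 s hs, supp_ee ht₀ s hs, smul_zero, add_zero]
    exact E.f_nonneg _ _ _
  · rw [h4, Pi.add_apply, Pi.smul_apply (E.Fr c 0 / 2), ee_apply, if_pos rfl, smul_eq_mul]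
    linarith
  · by_contra h6
    have h7 := (h5 a t ⟨ha.1, ha.2.1⟩).trans_lt ha.2.2
    rw [Pi.add_apply, Pi.smul_apply (E.Fr c 0 / 2), ee_apply, if_neg h6, smul_zero, add_zero] at h7
    exact lt_irrefl _ h7

end St

end Vale.Agent.P203
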