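import Vale.Agent.P203.PPo
import Vale.Agent.P203.Th
import Vale.Agent.P203.TTr

/-!
# P203 Morse: adding vertices of the Artin complex (done)
* `morse_v`: `morse` with `ι = {v : Set (Art M) × B // ∃ a, V1 a v.2 ∧ ¬ V0 a v.2 ∧ v.1 = {a' | a⁻¹ * a' ∈ AP (T.erase v.2)}}`, a chosen representative `a i`,
  `L i = PC (T.erase t) (a i)`, `L0 = PV T V0`. For `S` as in `morse` let `V a' t' := V0 a' t' ∨ ∃ j ∈ S, t' = j.2 ∧ a' ∈ j.1`; then `¬ V (a i) t`,
  `L i ∩ (L0 ∪ ⋃ S) = PV (T.erase t) (Lk T (a i) t V)`, and the total union is `PV T V1`.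
* `morse_fam`: apply `morse_v`. For `(a, t)` take `L`, `ν` from `Fam.thr`; `V0` has a vertex, which is negative for `ν`, so `hB` gives a negative neighbour;
  `Good (T.erase t) (U.erase t) L ν a (Lk ..)` (`Closed.erase`, `Adm.coset`, `Adm.erase`).
* `morse_fill`: apply `morse_v` with constant height. If `t ∉ U` use `Good (T.erase t) U J μ a` (`Closed.erase'`; a negative vertex in the link by `join`: every negative
  vertex `(a b, u)`, `b = p q`, equals `(a p, u)` with `p ∈ AP U`). If `t ∈ U` then `(a, t)` is a zero vertex: `hB`, `Good (T.erase t) (U.erase t) J μ a`.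
-/

namespace Vale.Agent.P203

variable {B : Type} [Fintype B] [DecidableEq B] {W : Type*} [Group W] {M : CoxeterMatrix B}

/-- The part of `V` in the link of the vertex `(a, t)`. -/
def Lk (T : Finset B) (a : Art M) (t : B) (V : Art M → B → Prop) (a' : Art M) (t' : B) : Prop :=
  V a' t' ∧ AV M (T.erase t) (T.erase t) a a' t'

/-- `V` consists of all negative vertices (there is one), some zero vertices, and some vertices
with type outside `U`. -/
structure St.Good (E : St M) (T U : Finset B) (J : ℤ) (μ : B → ℝ) (c : Art M)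
    (V : Art M → B → Prop) : Prop where
  closed : Closed M T U
  adm : E.Adm U J μ c
  inv : VInv M T V
  mem : ∀ a t, V a t → AV M T T c a t
  sign : ∀ a t, V a t → t ∈ U → E.Neg J μ a t ∨ E.Zer J μ a t
  neg : ∀ a t, E.NV T U J μ c a t → V a t
  ne : ∃ a t, E.NV T U J μ c a t

/-- Statement (A). -/
def SA (cs : CoxeterSystem M W) (T : Finset B) : Prop := ∀ c, WC (PC cs T c)

/-- Statement (C). -/
def SC (cs : CoxeterSystem M W) (E : St M) (T : Finset B) : Prop :=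
  ∀ U J μ c V, E.Good T U J μ c V → WC (PV cs T V)

variable {cs : CoxeterSystem M W} {E : St M} {T U : Finset B} {J : ℤ} {μ : B → ℝ} {c : Art M}
  {V V0 V1 : Art M → B → Prop}

theorem PC_inter {a : Art M} {t : B} (hV : VInv M T V) (h : ¬ V a t) :
    PC cs (T.erase t) a ∩ PV cs T V = PV cs (T.erase t) (Lk T a t V) := by
  ext p
  constructor
  · rintro ⟨⟨h1, h2⟩, -, u, hu, h3, h4⟩
    have hne : u ≠ t := by
      rintro rfl
      exact h (by simpa using hV _ _ _ (inv_mem h2) h4)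
    exact ⟨h1, u, Finset.mem_erase.2 ⟨hne, hu⟩, h3, h4, h2, Finset.mem_erase.2 ⟨hne, hu⟩⟩
  · rintro ⟨h1, u, hu, h3, h4, h2, -⟩
    exact ⟨⟨h1, h2⟩, h1.trans (Finset.erase_subset t T), u, Finset.mem_of_mem_erase hu, h3, h4⟩

theorem vinv_Lk {a : Art M} {t : B} (hV : VInv M T V) : VInv M (T.erase t) (Lk T a t V) :=
  fun a' u b hb h => ⟨hV a' u b (AP_mono (Finset.erase_subset_erase u (Finset.erase_subset t T)) hb)
    h.1, vinv_AV _ _ _ a' u b hb h.2⟩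

theorem morse_v {H : Type*} [LinearOrder H] (ht : Art M → B → H) (h0 : VInv M T V0)
    (h1 : VInv M T V1) (hi : ∀ a t b, b ∈ AP M (T.erase t) → ht (a * b) t = ht a t)
    (hle : ∀ a t, V0 a t → V1 a t) (hT : ∀ a t, V1 a t → t ∈ T) (hne : ∃ a t, V0 a t)
    (hwf : Set.IsWF {h | ∃ a t, V1 a t ∧ ¬ V0 a t ∧ ht a t = h})
    (hA : ∀ t ∈ T, SA cs (T.erase t))
    (hI : ∀ a t, V1 a t → ¬ V0 a t → ∀ V, VInv M T V → (∀ a' t', V0 a' t' → V a' t') →
      (∀ a' t', V1 a' t' → ht a' t' < ht a t → V a' t') →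
      (∀ a' t', V a' t' → V0 a' t' ∨ (V1 a' t' ∧ ht a' t' ≤ ht a t)) →
      WC (PV cs (T.erase t) (Lk T a t V))) :
    WC (PV cs T V0) ↔ WC (PV cs T V1) := by
  let ι := {v : Set (Art M) × B // ∃ a, V1 a v.2 ∧ ¬ V0 a v.2 ∧
    v.1 = {a' | a⁻¹ * a' ∈ AP M (T.erase v.2)}}
  choose r hr using fun i : ι => i.2
  have idx : ∀ a t, V1 a t → ¬ V0 a t → ∃ i : ι, i.1.2 = t ∧ (r i)⁻¹ * a ∈ AP M (T.erase t) := by
    intro a t h1 h2
    let i : ι := ⟨({a' | a⁻¹ * a' ∈ AP M (T.erase t)}, t), a, h1, h2, rfl⟩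
    have : a ∈ i.1.1 := by simp [i]
    rw [(hr i).2.2] at this
    exact ⟨i, rfl, this⟩
  have inj : ∀ i j : ι, j.1.2 = i.1.2 → (r j)⁻¹ * r i ∈ AP M (T.erase i.1.2) → j = i := by
    intro i j e h
    refine Subtype.ext (Prod.ext ?_ e)
    rw [(hr i).2.2, (hr j).2.2, e]
    ext a
    refine ⟨fun h' => ?_, fun h' => ?_⟩
    · simpa [mul_assoc] using mul_mem (inv_mem h) h'
    · simpa [mul_assoc] using mul_mem h h'
  let VS (S : Set ι) (a : Art M) (t : B) : Prop :=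
    V0 a t ∨ ∃ j ∈ S, j.1.2 = t ∧ (r j)⁻¹ * a ∈ AP M (T.erase t)
  have vs (j : ι) (a : Art M) (h : (r j)⁻¹ * a ∈ AP M (T.erase j.1.2)) :
      V1 a j.1.2 ∧ ¬ V0 a j.1.2 ∧ ht a j.1.2 = ht (r j) j.1.2 :=
    ⟨by simpa using h1 _ _ _ h (hr j).1, fun h' => (hr j).2.1 (by simpa using h0 _ _ _ (inv_mem h) h'),
      by simpa using hi (r j) _ _ h⟩
  have un (S : Set ι) : PV cs T V0 ∪ ⋃ j ∈ S, PC cs (T.erase j.1.2) (r j) = PV cs T (VS S) := by
    ext p
    simp only [Set.mem_union, Set.mem_iUnion]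
    constructor
    · rintro (⟨h2, t, h3, h4, h5⟩ | ⟨j, hj, h2, h3⟩)
      · exact ⟨h2, t, h3, h4, Or.inl h5⟩
      · exact ⟨h2.trans (Finset.erase_subset _ T), j.1.2, hT _ _ (hr j).1,
          fun h => Finset.notMem_erase _ T (h2 h), Or.inr ⟨j, hj, rfl, h3⟩⟩
    · rintro ⟨h2, t, h3, h4, h5 | ⟨j, hj, rfl, h5⟩⟩
      · exact Or.inl ⟨h2, t, h3, h4, h5⟩
      · exact Or.inr ⟨j, hj, Finset.subset_erase.2 ⟨h2, h4⟩, h5⟩
  have vinv (S : Set ι) : VInv M T (VS S) := fun a t b hb h => h.imp (h0 a t b hb)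
    fun ⟨j, hj, e, h⟩ => ⟨j, hj, e, by rw [← mul_assoc]; exact mul_mem h hb⟩
  have key := morse (locFin cs) (fun i : ι => ht (r i) i.1.2)
    (hwf.mono (by rintro _ ⟨i, rfl⟩; exact ⟨r i, i.1.2, (hr i).1, (hr i).2.1, rfl⟩))
    (L0 := PV cs T V0) (L := fun i => PC cs (T.erase i.1.2) (r i)) (lower_PV h0)
    (fun i => lower_PC _ _) (by
      obtain ⟨a, t, h⟩ := hne
      exact ⟨⟨a, ∅, sph_empty cs⟩, Finset.empty_subset _, t, hT a t (hle a t h),
        Finset.notMem_empty t, h⟩) (fun i => hA _ (hT _ _ (hr i).1) _) (by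
      intro i S hS1 hS2 hS3
      rw [un, PC_inter (vinv S) (by
        rintro (h | ⟨j, hj, e, h⟩)
        · exact (hr i).2.1 h
        · exact hS3 (inj i j e h ▸ hj))]
      refine hI _ _ (hr i).1 (hr i).2.1 _ (vinv S) (fun _ _ h => Or.inl h) (fun a t h2 h3 => ?_) ?_
      · by_cases h4 : V0 a t
        · exact Or.inl h4
        obtain ⟨j, rfl, h5⟩ := idx a t h2 h4
        exact Or.inr ⟨j, hS1 j (by rwa [← (vs j a h5).2.2]), rfl, h5⟩
      · rintro a t (h | ⟨j, hj, rfl, h⟩)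
        · exact Or.inl h
        · exact Or.inr ⟨(vs j a h).1, by rw [(vs j a h).2.2]; exact hS2 j hj⟩)
  have e : VS Set.univ = V1 := by
    ext a t
    constructor
    · rintro (h | ⟨j, -, rfl, h⟩)
      · exact hle a t h
      · exact (vs j a h).1
    · intro h
      by_cases h4 : V0 a t
      · exact Or.inl h4
      obtain ⟨j, h5, h6⟩ := idx a t h h4
      exact Or.inr ⟨j, trivial, h5, h6⟩
  have e' := un Set.univ
  rw [e] at e'
  rw [key, ← e']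
  simp

theorem av_of_link {a a' : Art M} {t t' : B} (h : c⁻¹ * a ∈ AP M T)
    (h' : AV M (T.erase t) U a a' t') : AV M T U c a' t' :=
  ⟨by simpa [mul_assoc] using mul_mem h (AP_mono (Finset.erase_subset t T) h'.1), h'.2⟩

/-- The link of a zero vertex. -/
theorem good_link {L : ℤ} {ν : B → ℝ} {a : Art M} {t : B} (hU : Closed M T U) (hB : E.PB T U)
    (h : E.Adm U L ν c) (ha : AV M T U c a t) (hz : E.Zer L ν a t) (hV : VInv M T V)
    (hs : ∀ a' t', V a' t' → t' ∈ U → E.Neg L ν a' t' ∨ E.Zer L ν a' t')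
    (hn : ∀ a' t', E.NV T U L ν c a' t' → V a' t') (hne : ∃ a' t', E.NV T U L ν c a' t') :
    E.Good (T.erase t) (U.erase t) L ν a (Lk T a t V) := by
  have hA : E.Adm U L ν a := by simpa using h.coset hU ha.1
  refine ⟨hU.erase t, hA.erase hz, vinv_Lk hV, fun _ _ h => h.2,
    fun a' t' h h' => hs a' t' h.1 (Finset.mem_of_mem_erase h'), fun a' t' h' => ⟨hn a' t'
      ⟨⟨(av_of_link ha.1 h'.1).1, Finset.mem_of_mem_erase h'.1.2⟩, h'.2⟩, h'.1.1,
      (hU.erase t).1 h'.1.2⟩, ?_⟩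
  obtain ⟨a', t', h1, h2⟩ := hne
  obtain ⟨b, hb, u, hu, h3, h4⟩ := hB L ν a (a⁻¹ * a') t t' hA
    (by simpa [mul_assoc] using mul_mem (inv_mem ha.1) h1.1) ha.2 h1.2 hz (by simpa using h2)
  exact ⟨a * b, u, ⟨by simpa using hb, Finset.mem_erase.2 ⟨h3, hu⟩⟩, h4⟩

theorem morse_fam {ht : Art M → B → ℤ ×ₗ ℝ} (hU : Closed M T U) (h : E.Fam T U c V0 V1 ht)
    (hne : ∃ a t, V0 a t) (hB : E.PB T U) (hA : ∀ t ∈ T, SA cs (T.erase t))
    (hC : ∀ t ∈ T, SC cs E (T.erase t)) : WC (PV cs T V0) ↔ WC (PV cs T V1) := by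
  refine morse_v ht h.inv0 h.inv1 h.ht_inv h.le (fun a t h' => hU.1 (h.mem a t h').2) hne h.wf hA ?_
  intro a t h1 h0 V hV l0 l1 l2
  obtain ⟨L, ν, k1, k2, k3, k4⟩ := h.thr a t h1 h0
  refine hC t (hU.1 (h.mem a t h1).2) _ _ _ _ _ (good_link hU hB k1 (h.mem a t h1) k2 hV ?_ ?_ ?_)
  · intro a' t' h' _
    by_cases h2 : V0 a' t'
    · exact Or.inl ((k3 a' t' (h.mem _ _ (h.le _ _ h2))).2 (Or.inl h2))
    obtain ⟨h3, h4⟩ := (l2 a' t' h').resolve_left h2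
    rcases h4.lt_or_eq with h4 | h4
    · exact Or.inl ((k3 a' t' (h.mem _ _ h3)).2 (Or.inr ⟨h3, h4⟩))
    · exact Or.inr (k4 a' t' h3 h2 h4)
  · intro a' t' h'
    exact ((k3 a' t' h'.1).1 h'.2).elim (l0 a' t') fun h2 => l1 a' t' h2.1 h2.2
  · obtain ⟨a', t', h'⟩ := hne
    have h2 := h.mem _ _ (h.le _ _ h')
    exact ⟨a', t', h2, (k3 a' t' h2).2 (Or.inl h')⟩

theorem morse_fill (h : E.Good T U J μ c V) (hB : E.PB T U) (hA : ∀ t ∈ T, SA cs (T.erase t))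
    (hC : ∀ t ∈ T, SC cs E (T.erase t)) :
    WC (PV cs T (E.NV T U J μ c)) ↔ WC (PV cs T V) := by
  refine morse_v (fun _ _ => (0 : ℕ)) (E.vinv_NV T U J μ c) h.inv (fun _ _ _ _ => rfl) h.neg
    (fun a t h' => (h.mem a t h').2) h.ne (Set.IsWF.of_wellFoundedLT _) hA ?_
  intro a t h1 h0 V' hV l0 _ l2
  have hs : ∀ a' t', V' a' t' → t' ∈ U → E.Neg J μ a' t' ∨ E.Zer J μ a' t' := fun a' t' h' =>
    h.sign a' t' ((l2 a' t' h').elim (h.neg a' t') fun h2 => h2.1)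
  have ha := h.mem a t h1
  by_cases ht : t ∈ U
  · exact hC t ha.2 _ _ _ _ _ (good_link h.closed hB h.adm ⟨ha.1, ht⟩
      ((h.sign a t h1 ht).resolve_left fun h2 => h0 ⟨⟨ha.1, ht⟩, h2⟩) hV hs l0 h.ne)
  have hc := h.closed.erase' ht
  refine hC t ha.2 U J μ a _ ⟨hc, by simpa using h.adm.coset h.closed ha.1, vinv_Lk hV,
    fun _ _ h => h.2, fun a' t' h => hs a' t' h.1, fun a' t' h' =>
      ⟨l0 a' t' ⟨av_of_link ha.1 h'.1, h'.2⟩, h'.1.1, hc.1 h'.1.2⟩, ?_⟩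
  obtain ⟨a', t', h2, h3⟩ := h.ne
  obtain ⟨p, hp, q, hq, e⟩ := join h.closed
    (show a⁻¹ * a' ∈ AP M T by simpa [mul_assoc] using mul_mem (inv_mem ha.1) h2.1)
  refine ⟨a * p, t', ⟨by simpa using AP_mono hc.1 hp, h2.2⟩, ?_⟩
  have hq' : q ∈ AP M (T.erase t') := AP_mono (Finset.subset_erase.2
    ⟨Finset.sdiff_subset, fun h => (Finset.mem_sdiff.1 h).2 h2.2⟩) hq
  rw [← St.Neg_erase hq', mul_assoc, ← e, mul_inv_cancel_left]
  exact h3

end Vale.Agent.P203
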