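import Vale.Agent.P203.Defs

/-!
# P203 TDef: weak contractibility of subsets and of lower sets of posets (done)
-/

namespace Vale.Agent.P203

open Set

/-- The inclusion of `C` in `Y` is null-homotopic. -/
def Null {E : Type*} [TopologicalSpace E] (C Y : Set E) : Prop :=
  ∃ y ∈ Y, ∃ H : E × ℝ → E, ContinuousOn H (C ×ˢ Icc 0 1) ∧ MapsTo H (C ×ˢ Icc 0 1) Y ∧
    (∀ x ∈ C, H (x, 0) = x) ∧ ∀ x ∈ C, H (x, 1) = y

/-- Weakly contractible: every compact subset (also the empty one) is null-homotopic. -/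
def WCs {E : Type*} [TopologicalSpace E] (Y : Set E) : Prop :=
  ∀ C, C ⊆ Y → IsCompact C → Null C Y

/-- Maps from `Z` to `Y` extend to `D`. -/
def Ext {E' E : Type*} [TopologicalSpace E'] [TopologicalSpace E] (D Z : Set E') (Y : Set E) : Prop :=
  ∀ g : E' → E, ContinuousOn g Z → MapsTo g Z Y →
    ∃ G : E' → E, ContinuousOn G D ∧ MapsTo G D Y ∧ EqOn G g Z

/-- The realization of the order complex of `L`. -/
def GS {Q : Type*} [PartialOrder Q] (L : Set Q) : Set (Q → ℝ) :=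
  {x | ∃ σ : Finset Q, IsChain (· ≤ ·) (σ : Set Q) ∧ (σ : Set Q) ⊆ L ∧ x ∈ simplex σ}

/-- The order complex of `L` is weakly contractible. -/
def WC {Q : Type*} [PartialOrder Q] (L : Set Q) : Prop := WCs (GS L)

/-- Locally finite posets. -/
def LocFin (Q : Type*) [PartialOrder Q] : Prop := ∀ q : Q, {p | p ≤ q ∨ q ≤ p}.Finite

theorem WCs.nonempty {E : Type*} [TopologicalSpace E] {Y : Set E} (h : WCs Y) : Y.Nonempty :=
  (h ∅ (empty_subset _) isCompact_empty).imp fun _ h => h.1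

theorem Null.mono {E : Type*} [TopologicalSpace E] {C C' Y Y' : Set E} (h : Null C Y) (hC : C' ⊆ C)
    (hY : Y ⊆ Y') : Null C' Y' := by
  obtain ⟨y, hy, H, h1, h2, h3, h4⟩ := h
  exact ⟨y, hY hy, H, h1.mono (prod_mono hC subset_rfl),
    (h2.mono (prod_mono hC subset_rfl) hY), fun x hx => h3 x (hC hx), fun x hx => h4 x (hC hx)⟩

theorem GS_mono {Q : Type*} [PartialOrder Q] {L L' : Set Q} (h : L ⊆ L') : GS L ⊆ GS L' :=
  fun _ ⟨σ, h1, h2, h3⟩ => ⟨σ, h1, h2.trans h, h3⟩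

end Vale.Agent.P203
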