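import Vale.Agent.P203.Art
import Vale.Agent.P203.TDef

/-!
# P203 PPo: the universal cover of the Salvetti poset (TASK)
* `ple_trans`: `p.a = q.a * lift w`, `q.a = r.a * lift w'`; `lift w' * lift w = lift (w' * w)` (`RMin.length_mul`, `lift_mul`), and `w' * w` is `RMin` for `p.R` by `RMin.length_mul`.
* `ple_antisymm`: lengths (`len_lift`) force `w = w' = 1`.
* `locFin`: inject into `W_R × Finset B` for finitely many spherical `R`.
* `bot_le`: `p.bot = q.a * lift (w * w0 p.R)` and `q.bot = q.a * lift (w * w0 p.R) * lift (..)` by `Dl_left`.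
* `cell_le`: `w = w0 R' * w0 R` (`rmin_mul_w0`, `Dl_right`).
-/

namespace Vale.Agent.P203

variable {B : Type} [Fintype B] [DecidableEq B] {W : Type*} [Group W] {M : CoxeterMatrix B}

/-- Cells of the universal cover: top vertex `a`, type `R`. -/
@[ext] structure PP (cs : CoxeterSystem M W) where
  a : Art M
  R : Finset B
  hR : Sph cs R

variable {cs : CoxeterSystem M W}

/-- The face relation. -/
def PLe (p q : PP cs) : Prop :=
  p.R ⊆ q.R ∧ ∃ w ∈ WP cs q.R, RMin cs p.R w ∧ p.a = q.a * lift cs w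

theorem ple_refl (p : PP cs) : PLe p p := by
  exact ⟨subset_rfl, 1, one_mem _, fun t _ => cs.not_isRightDescent_one t, by rw [lift_one, mul_one]⟩

theorem ple_trans (p q r : PP cs) (h : PLe p q) (h' : PLe q r) : PLe p r := by
  obtain ⟨h1, w, hw, hm, ha⟩ := h
  obtain ⟨h1', w', hw', hm', ha'⟩ := h'
  have hl := RMin.length_mul cs hm' hw
  refine ⟨h1.trans h1', w' * w, mul_mem hw' (WP_mono cs h1' hw), ?_, ?_⟩
  · refine (rmin_iff cs).2 fun v hv => ?_
    have h2 := RMin.length_mul cs hm' (mul_mem hw (WP_mono cs h1 hv))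
    have h3 := (rmin_iff cs).1 hm v hv
    rw [mul_assoc]
    omega
  · rw [lift_mul cs hl, ha, ha', mul_assoc]

theorem ple_antisymm (p q : PP cs) (h : PLe p q) (h' : PLe q p) : p = q := by
  obtain ⟨h1, w, -, -, ha⟩ := h
  obtain ⟨h1', w', -, -, ha'⟩ := h'
  have e1 := congrArg len ha
  have e2 := congrArg len ha'
  rw [len_mul, len_lift] at e1 e2
  have h0 : cs.length w = 0 := by omega
  rw [cs.length_eq_zero_iff.1 h0, lift_one, mul_one] at ha
  exact PP.ext ha (Finset.Subset.antisymm h1 h1')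

instance : PartialOrder (PP cs) where
  le := PLe
  le_refl := ple_refl
  le_trans := ple_trans
  le_antisymm := ple_antisymm

theorem ple_iff {p q : PP cs} :
    p ≤ q ↔ p.R ⊆ q.R ∧ ∃ w ∈ WP cs q.R, RMin cs p.R w ∧ p.a = q.a * lift cs w := Iff.rfl

theorem locFin (cs : CoxeterSystem M W) : LocFin (PP cs) := by
  intro q
  have hS : (⋃ R : {R : Finset B // Sph cs R}, (WP cs R.1 : Set W)).Finite :=
    Set.finite_iUnion fun R => Set.finite_coe_iff.1 R.2
  have hA := ((hS.image fun w => q.a * lift cs w).union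
    (hS.image fun w => q.a * (lift cs w)⁻¹)).prod (Set.finite_univ (α := Finset B))
  refine (hA.preimage (f := fun p : PP cs => (p.a, p.R)) fun p _ p' _ e =>
    PP.ext (congrArg Prod.fst e) (congrArg Prod.snd e)).subset ?_
  rintro p (⟨-, w, hw, -, ha⟩ | ⟨-, w, hw, -, ha⟩)
  · exact ⟨Or.inl ⟨w, Set.mem_iUnion.2 ⟨⟨q.R, q.hR⟩, hw⟩, ha.symm⟩, trivial⟩
  · exact ⟨Or.inr ⟨w, Set.mem_iUnion.2 ⟨⟨p.R, p.hR⟩, hw⟩, by simp only [ha, mul_inv_cancel_right]⟩,
      trivial⟩

/-- The bottom vertex of a cell. -/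
noncomputable def PP.bot (p : PP cs) : Art M := p.a * Dl cs p.R

/-- The cell of type `R` with bottom vertex `g`. -/
noncomputable def cellB (g : Art M) (R : Finset B) (hR : Sph cs R) : PP cs :=
  ⟨g * (Dl cs R)⁻¹, R, hR⟩

theorem bot_cellB (g : Art M) (R : Finset B) (hR : Sph cs R) : (cellB g R hR).bot = g :=
  inv_mul_cancel_right _ _

theorem cellB_bot (p : PP cs) : cellB p.bot p.R p.hR = p :=
  PP.ext (mul_inv_cancel_right _ _) rfl

theorem bot_le {p q : PP cs} (h : p ≤ q) : p.bot⁻¹ * q.bot ∈ Pos M q.R := by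
  obtain ⟨h1, w, hw, hm, ha⟩ := h
  have hx : w * w0 cs p.R ∈ WP cs q.R := mul_mem hw (WP_mono cs h1 (w0_mem cs _))
  have e1 : p.bot = q.a * lift cs (w * w0 cs p.R) := by
    rw [lift_mul cs (RMin.length_mul cs hm (w0_mem cs _)), PP.bot, ha, Dl, mul_assoc]
  have e2 : p.bot⁻¹ * q.bot = lift cs ((w * w0 cs p.R)⁻¹ * w0 cs q.R) := by
    rw [e1, PP.bot, Dl_left cs q.hR hx]
    group
  rw [e2]
  exact lift_mem_Pos cs (mul_mem (inv_mem hx) (w0_mem cs _))

theorem cell_le (g : Art M) {R R' : Finset B} (hR : Sph cs R) (hR' : Sph cs R') (h : R ⊆ R') :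
    cellB g R hR ≤ cellB g R' hR' := by
  have hx : w0 cs R ∈ WP cs R' := WP_mono cs h (w0_mem cs _)
  refine ⟨h, w0 cs R' * w0 cs R, mul_mem (w0_mem cs _) hx,
    rmin_mul_w0 cs fun t ht => w0_rdesc cs hR' (h ht), ?_⟩
  have e := Dl_right cs hR' hx
  rw [w0_inv cs hR] at e
  have e2 : lift cs (w0 cs R' * w0 cs R) = Dl cs R' * (Dl cs R)⁻¹ := by
    rw [e, Dl, mul_inv_cancel_right]
  simp only [cellB, e2]
  group

/-- The cells of the coset `c A_T`. -/
def PC (cs : CoxeterSystem M W) (T : Finset B) (c : Art M) : Set (PP cs) :=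
  {p | p.R ⊆ T ∧ c⁻¹ * p.a ∈ AP M T}

/-- The cells belonging to a vertex of `V`. -/
def PV (cs : CoxeterSystem M W) (T : Finset B) (V : Art M → B → Prop) : Set (PP cs) :=
  {p | p.R ⊆ T ∧ ∃ t ∈ T, t ∉ p.R ∧ V p.a t}

theorem lower_PC (T : Finset B) (c : Art M) : IsLowerSet (PC cs T c) := by
  rintro p q ⟨h1, w, hw, -, ha⟩ ⟨h2, h3⟩
  refine ⟨h1.trans h2, ?_⟩
  rw [ha, ← mul_assoc]
  exact mul_mem h3 (AP_mono h2 (AP_of_Pos (lift_mem_Pos cs hw)))

theorem lower_PV {T : Finset B} {V : Art M → B → Prop}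
    (hV : ∀ a t b, b ∈ AP M (T.erase t) → V a t → V (a * b) t) : IsLowerSet (PV cs T V) := by
  rintro p q ⟨h1, w, hw, -, ha⟩ ⟨h2, t, ht, ht', h3⟩
  refine ⟨h1.trans h2, t, ht, fun h => ht' (h1 h), ?_⟩
  rw [ha]
  refine hV _ _ _ (AP_mono (fun s hs => Finset.mem_erase.2 ⟨?_, h2 hs⟩)
    (AP_of_Pos (lift_mem_Pos cs hw))) h3
  rintro rfl
  exact ht' hs

end Vale.Agent.P203
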