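import Vale.Agent.P203.TCell

/-!
# P203 TG: gluing and retraction for lower sets (TASK)
* `mem_GS`: shrink `σ` to the support. `GS_inter`, `GS_union` follow (a finite nonempty chain has a largest element).
* `GS K` is compact for finite `K` (finite union of simplices).
* `compact_fin`: cover `C` by the open sets `{x | 0 < x q}`; take the lower closure of the elements comparable to the finitely many `q`, intersected with `L`.
* `gs_ext`, `gs_prism_ext`: `cx_ext` with `S` = the nonempty chains in `K` not contained in `K₀`, rank = cardinality, `simplex_ext`, `prism_ext`.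
* `wc_union`: `C ⊆ GS K`, `K` finite lower. A null-homotopy of `GS (K ∩ (A ∩ B))` in `GS (A ∩ B)` to `y`; define `g` on the set of `gs_prism_ext` (the homotopy, `fst` at `0`, `y` at `1`),
  extend over `GS (K ∩ A) × I` into `GS A` and over `GS (K ∩ B) × I` into `GS B`, glue.
* `null_of_union`: the image of the homotopy lies in `GS K`; extend the identity of `GS (K ∩ B ∩ A)` to `r : GS (K ∩ B) → GS (A ∩ B)` (`gs_ext`), glue with the identity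
  of `GS (K ∩ A)` and compose (if `C` is empty use `hI.nonempty`).
-/

namespace Vale.Agent.P203

open Set

variable {Q : Type*} [PartialOrder Q] {A B K K₀ L : Set Q}

omit [PartialOrder Q] in
theorem tg_pos_mem {σ : Finset Q} {x : Q → ℝ} (hx : x ∈ simplex σ) {q : Q} (hq : 0 < x q) :
    q ∈ σ := by
  by_contra h
  exact hq.ne' (hx.2.1 q h)

omit [PartialOrder Q] in
theorem tg_simplex_of {σ τ : Finset Q} {x : Q → ℝ} (hx : x ∈ simplex σ)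
    (h : ∀ q, 0 < x q → q ∈ τ) : x ∈ simplex τ := by
  classical
  have h0 : ∀ q, q ∉ τ → x q = 0 := fun q hq =>
    le_antisymm (not_lt.1 fun hh => hq (h q hh)) (hx.1 q)
  refine ⟨hx.1, h0, ?_⟩
  rw [← hx.2.2, Finset.sum_subset (Finset.subset_union_left (s₂ := σ)) fun q _ hq => h0 q hq,
    Finset.sum_subset (Finset.subset_union_right (s₁ := τ)) fun q _ hq => hx.2.1 q hq]

omit [PartialOrder Q] in
theorem tg_exists_pos {σ : Finset Q} {x : Q → ℝ} (hx : x ∈ simplex σ) : ∃ q, 0 < x q := by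
  by_contra h
  have h0 : ∀ q ∈ σ, x q = 0 := fun q _ =>
    le_antisymm (not_lt.1 fun hh => h ⟨q, hh⟩) (hx.1 q)
  have := hx.2.2
  rw [Finset.sum_eq_zero h0] at this
  exact zero_ne_one this

theorem mem_GS {x : Q → ℝ} : x ∈ GS L ↔ ∃ σ : Finset Q, IsChain (· ≤ ·) (σ : Set Q) ∧
    (σ : Set Q) ⊆ L ∧ x ∈ simplex σ ∧ ∀ q ∈ σ, 0 < x q := by
  constructor
  · rintro ⟨σ, h1, h2, h3⟩
    have hs : ((σ.filter fun q => 0 < x q : Finset Q) : Set Q) ⊆ σ :=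
      Finset.coe_subset.2 (Finset.filter_subset _ _)
    exact ⟨σ.filter fun q => 0 < x q, h1.mono hs, hs.trans h2,
      tg_simplex_of h3 fun q hq => Finset.mem_filter.2 ⟨tg_pos_mem h3 hq, hq⟩,
      fun q hq => (Finset.mem_filter.1 hq).2⟩
  · rintro ⟨σ, h1, h2, h3, -⟩
    exact ⟨σ, h1, h2, h3⟩

theorem tg_pos {x : Q → ℝ} (hx : x ∈ GS L) {q : Q} (hq : 0 < x q) : q ∈ L := by
  obtain ⟨σ, -, h2, h3⟩ := hx
  exact h2 (tg_pos_mem h3 hq)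

theorem tg_mem_of {x : Q → ℝ} (hx : x ∈ GS L) (h : ∀ q, 0 < x q → q ∈ K) : x ∈ GS K := by
  obtain ⟨σ, h1, -, h3, h4⟩ := mem_GS.1 hx
  exact ⟨σ, h1, fun q hq => h q (h4 q hq), h3⟩

theorem GS_inter (A B : Set Q) : GS (A ∩ B) = GS A ∩ GS B :=
  Subset.antisymm (subset_inter (GS_mono inter_subset_left) (GS_mono inter_subset_right))
    fun _ hx => tg_mem_of hx.1 fun _ hq => ⟨tg_pos hx.1 hq, tg_pos hx.2 hq⟩

theorem GS_union (hA : IsLowerSet A) (hB : IsLowerSet B) : GS (A ∪ B) = GS A ∪ GS B := by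
  refine Subset.antisymm ?_
    (union_subset (GS_mono subset_union_left) (GS_mono subset_union_right))
  rintro x ⟨σ, h1, h2, h3⟩
  by_cases ha : (σ : Set Q) ⊆ A
  · exact Or.inl ⟨σ, h1, ha, h3⟩
  · refine Or.inr ⟨σ, h1, fun b hb => ?_, h3⟩
    obtain ⟨a, ha1, ha2⟩ := not_subset.1 ha
    rcases h1.total ha1 hb with hab | hab
    · exact (h2 hb).resolve_left fun hh => ha2 (hA hab hh)
    · exact hB hab ((h2 ha1).resolve_left ha2)

omit [PartialOrder Q] in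
theorem tg_fin (hK : K.Finite) (P : Finset Q → Prop) :
    {σ : Finset Q | (σ : Set Q) ⊆ K ∧ P σ}.Finite :=
  (hK.finite_subsets.preimage Finset.coe_injective.injOn).subset fun _ h => h.1

theorem isCompact_GS (hK : K.Finite) : IsCompact (GS K) := by
  have e : GS K = ⋃ σ ∈ {σ : Finset Q | (σ : Set Q) ⊆ K ∧ IsChain (· ≤ ·) (σ : Set Q)},
      simplex σ := by
    ext x
    simp only [mem_iUnion, exists_prop]
    exact ⟨fun ⟨σ, h1, h2, h3⟩ => ⟨σ, ⟨h2, h1⟩, h3⟩, fun ⟨σ, h1, h3⟩ => ⟨σ, h1.2, h1.1, h3⟩⟩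
  rw [e]
  exact (tg_fin hK _).isCompact_biUnion fun σ _ => isCompact_simplex σ

theorem compact_fin (hQ : LocFin Q) (hL : IsLowerSet L) {C : Set (Q → ℝ)} (hC : IsCompact C)
    (h : C ⊆ GS L) : ∃ K, K.Finite ∧ IsLowerSet K ∧ K ⊆ L ∧ C ⊆ GS K := by
  obtain ⟨t, ht⟩ := hC.elim_finite_subcover (fun q : Q => {x : Q → ℝ | 0 < x q})
    (fun q => isOpen_lt continuous_const (continuous_apply q)) (by
      intro x hx
      obtain ⟨σ, -, -, h3⟩ := h hx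
      exact mem_iUnion.2 (tg_exists_pos h3))
  refine ⟨{r | r ∈ L ∧ ∃ q ∈ t, ∃ p, (p ≤ q ∨ q ≤ p) ∧ r ≤ p}, ?_, ?_, fun _ hr => hr.1, ?_⟩
  · refine (t.finite_toSet.biUnion fun q _ => (hQ q).biUnion fun p _ => hQ p).subset ?_
    rintro r ⟨-, q, hq, p, hp, hr⟩
    exact mem_biUnion (Finset.mem_coe.2 hq) (mem_biUnion hp (Or.inl hr))
  · rintro r r' hr ⟨h1, q, hq, p, hp, h2⟩
    exact ⟨hL hr h1, q, hq, p, hp, le_trans hr h2⟩
  · intro x hx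
    obtain ⟨q, hq, hxq⟩ := mem_iUnion₂.1 (ht hx)
    refine tg_mem_of (h hx) fun r hr => ⟨tg_pos (h hx) hr, q, hq, r, ?_, le_rfl⟩
    obtain ⟨σ, h1, -, h3⟩ := h hx
    exact h1.total (tg_pos_mem h3 hr) (tg_pos_mem h3 hxq)

/-- The chains in `K` not contained in `K₀`. -/
noncomputable def tgS (hK : K.Finite) (K₀ : Set Q) : Finset (Finset Q) :=
  (tg_fin hK fun σ => IsChain (· ≤ ·) (σ : Set Q) ∧ ¬ (σ : Set Q) ⊆ K₀).toFinset

theorem tg_mem_S (hK : K.Finite) {σ : Finset Q} : σ ∈ tgS hK K₀ ↔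
    (σ : Set Q) ⊆ K ∧ IsChain (· ≤ ·) (σ : Set Q) ∧ ¬ (σ : Set Q) ⊆ K₀ := by
  unfold tgS
  rw [Set.Finite.mem_toFinset]
  rfl

theorem tg_h1 (hK : K.Finite) {σ : Finset Q} (hσ : σ ∈ tgS hK K₀) {x : Q → ℝ}
    (hx : x ∈ simplex σ) (h : ∃ q ∈ σ, x q = 0) :
    x ∈ GS K₀ ∨ ∃ τ ∈ tgS hK K₀, τ.card < σ.card ∧ x ∈ simplex τ := by
  classical
  obtain ⟨q, hq, hxq⟩ := h
  obtain ⟨a1, a2, -⟩ := (tg_mem_S hK).1 hσ
  have hs : ((σ.erase q : Finset Q) : Set Q) ⊆ σ := Finset.coe_subset.2 (Finset.erase_subset _ _)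
  have hx' : x ∈ simplex (σ.erase q) := tg_simplex_of hx fun r hr =>
    Finset.mem_erase.2 ⟨fun hh => hr.ne' (hh ▸ hxq), tg_pos_mem hx hr⟩
  by_cases h0 : ((σ.erase q : Finset Q) : Set Q) ⊆ K₀
  · exact Or.inl ⟨_, a2.mono hs, h0, hx'⟩
  · exact Or.inr ⟨_, (tg_mem_S hK).2 ⟨hs.trans a1, a2.mono hs, h0⟩,
      Finset.card_erase_lt_of_mem hq, hx'⟩

theorem tg_h2 (hK : K.Finite) {σ : Finset Q} (hσ : σ ∈ tgS hK K₀) {x : Q → ℝ}
    (hx : x ∈ simplex σ) (h : x ∈ GS K₀) : ∃ q ∈ σ, x q = 0 := by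
  obtain ⟨q, hq, hq'⟩ := not_subset.1 ((tg_mem_S hK).1 hσ).2.2
  exact ⟨q, hq, le_antisymm (not_lt.1 fun hh => hq' (tg_pos h hh)) (hx.1 q)⟩

omit [PartialOrder Q] in
theorem tg_h3 {σ τ : Finset Q} (hne : τ ≠ σ) (hc : τ.card ≤ σ.card) {x : Q → ℝ}
    (hx : x ∈ simplex τ) : ∃ q ∈ σ, x q = 0 := by
  have : ¬ σ ⊆ τ := fun hh => hne (Finset.eq_of_subset_of_card_le hh hc).symm
  obtain ⟨q, hq, hq'⟩ := Finset.not_subset.1 this
  exact ⟨q, hq, hx.2.1 q hq'⟩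

theorem tg_cover (hK : K.Finite) {x : Q → ℝ} (hx : x ∈ GS K) :
    x ∈ GS K₀ ∨ ∃ σ ∈ tgS hK K₀, x ∈ simplex σ := by
  obtain ⟨σ, h1, h2, h3⟩ := hx
  by_cases h0 : (σ : Set Q) ⊆ K₀
  · exact Or.inl ⟨σ, h1, h0, h3⟩
  · exact Or.inr ⟨σ, (tg_mem_S hK).2 ⟨h2, h1, h0⟩, h3⟩

theorem tg_cell_sub (hK : K.Finite) {σ : Finset Q} (hσ : σ ∈ tgS hK K₀) : simplex σ ⊆ GS K :=
  fun _ hx => ⟨σ, ((tg_mem_S hK).1 hσ).2.1, ((tg_mem_S hK).1 hσ).1, hx⟩

theorem gs_ext {E : Type*} [TopologicalSpace E] {Y : Set E} (hY : WCs Y) (hK : K.Finite)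
    (h : K₀ ⊆ K) : Ext (GS K) (GS K₀) Y := by
  have key := cx_ext (Y := Y) (tgS hK K₀) (fun σ => simplex σ)
    (fun σ => {x ∈ simplex σ | ∃ q ∈ σ, x q = 0}) Finset.card
    (isCompact_GS (hK.subset h)).isClosed (fun σ _ => (isCompact_simplex σ).isClosed)
    (fun σ _ => simplex_ext hY σ) (fun σ hσ x hx => tg_h1 hK hσ hx.1 hx.2)
    (fun σ hσ x hx => ⟨hx.1, tg_h2 hK hσ hx.1 hx.2⟩)
    (fun σ _ τ _ hne hc x hx => ⟨hx.1, tg_h3 hne hc hx.2⟩)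
  have e : (GS K₀ ∪ ⋃ σ ∈ tgS hK K₀, simplex σ) = GS K := by
    refine Subset.antisymm (union_subset (GS_mono h)
      (iUnion₂_subset fun σ hσ => tg_cell_sub hK hσ)) fun x hx => ?_
    rcases tg_cover (K₀ := K₀) hK hx with h1 | ⟨σ, h1, h2⟩
    · exact Or.inl h1
    · exact Or.inr (mem_iUnion₂.2 ⟨σ, h1, h2⟩)
  rwa [e] at key

theorem gs_prism_ext {E : Type*} [TopologicalSpace E] {Y : Set E} (hY : WCs Y) (hK : K.Finite)
    (h : K₀ ⊆ K) : Ext (GS K ×ˢ Icc (0 : ℝ) 1)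
      (GS K₀ ×ˢ Icc (0 : ℝ) 1 ∪ GS K ×ˢ ({0, 1} : Set ℝ)) Y := by
  have hZ : IsClosed (GS K₀ ×ˢ Icc (0 : ℝ) 1 ∪ GS K ×ˢ ({0, 1} : Set ℝ)) :=
    ((isCompact_GS (hK.subset h)).isClosed.prod isClosed_Icc).union
      ((isCompact_GS hK).isClosed.prod (toFinite _).isClosed)
  have key := cx_ext (Y := Y) (tgS hK K₀) (fun σ => simplex σ ×ˢ Icc (0 : ℝ) 1)
    (fun σ => {z ∈ simplex σ ×ˢ Icc (0 : ℝ) 1 | (∃ q ∈ σ, z.1 q = 0) ∨ z.2 = 0 ∨ z.2 = 1})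
    Finset.card hZ (fun σ _ => (isCompact_simplex σ).isClosed.prod isClosed_Icc)
    (fun σ _ => prism_ext hY σ)
    (by
      rintro σ hσ z ⟨hz, h1 | h1⟩
      · rcases tg_h1 hK hσ hz.1 h1 with h2 | ⟨τ, h2, h3, h4⟩
        · exact Or.inl (Or.inl ⟨h2, hz.2⟩)
        · exact Or.inr ⟨τ, h2, h3, h4, hz.2⟩
      · exact Or.inl (Or.inr ⟨tg_cell_sub hK hσ hz.1, h1⟩))
    (by
      rintro σ hσ z ⟨hz, h1 | h1⟩
      · exact ⟨hz, Or.inl (tg_h2 hK hσ hz.1 h1.1)⟩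
      · exact ⟨hz, Or.inr h1.2⟩)
    (fun σ _ τ _ hne hc z hz => ⟨hz.1, Or.inl (tg_h3 hne hc hz.2.1)⟩)
  have e : ((GS K₀ ×ˢ Icc (0 : ℝ) 1 ∪ GS K ×ˢ ({0, 1} : Set ℝ)) ∪
      ⋃ σ ∈ tgS hK K₀, simplex σ ×ˢ Icc (0 : ℝ) 1) = GS K ×ˢ Icc (0 : ℝ) 1 := by
    refine Subset.antisymm (union_subset (union_subset (prod_mono (GS_mono h) subset_rfl)
      (prod_mono subset_rfl ?_))
      (iUnion₂_subset fun σ hσ => prod_mono (tg_cell_sub hK hσ) subset_rfl)) fun z hz => ?_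
    · rintro s (rfl | rfl)
      · exact ⟨le_rfl, zero_le_one⟩
      · exact ⟨zero_le_one, le_rfl⟩
    · rcases tg_cover (K₀ := K₀) hK hz.1 with h1 | ⟨σ, h1, h2⟩
      · exact Or.inl (Or.inl ⟨h1, hz.2⟩)
      · exact Or.inr (mem_iUnion₂.2 ⟨σ, h1, h2, hz.2⟩)
  rwa [e] at key

theorem tg_glue {X Y : Type*} [TopologicalSpace X] [TopologicalSpace Y] {S T : Set X}
    (hS : IsClosed S) (hT : IsClosed T) {f g : X → Y} (cf : ContinuousOn f S)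
    (cg : ContinuousOn g T) (e : EqOn f g (S ∩ T)) :
    ∃ F : X → Y, ContinuousOn F (S ∪ T) ∧ EqOn F f S ∧ EqOn F g T := by
  classical
  have e1 : EqOn (S.piecewise f g) f S := fun x hx => piecewise_eq_of_mem _ _ _ hx
  have e2 : EqOn (S.piecewise f g) g T := by
    intro x hx
    by_cases h : x ∈ S
    · rw [piecewise_eq_of_mem _ _ _ h]
      exact e ⟨h, hx⟩
    · exact piecewise_eq_of_notMem _ _ _ h
  exact ⟨S.piecewise f g, (cf.congr e1).union_of_isClosed (cg.congr e2) hS hT, e1, e2⟩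

theorem tg_side (hK : K.Finite) (h0 : K₀ ⊆ K) {Y : Set (Q → ℝ)} (hY : WCs Y) (hKY : GS K ⊆ Y)
    {y : Q → ℝ} (hy : y ∈ Y) {H : (Q → ℝ) × ℝ → Q → ℝ} (c : ContinuousOn H (GS K₀ ×ˢ Icc 0 1))
    (m : MapsTo H (GS K₀ ×ˢ Icc 0 1) Y) (e0 : ∀ x ∈ GS K₀, H (x, 0) = x)
    (e1 : ∀ x ∈ GS K₀, H (x, 1) = y) :
    ∃ G : (Q → ℝ) × ℝ → Q → ℝ, ContinuousOn G (GS K ×ˢ Icc 0 1) ∧
      MapsTo G (GS K ×ˢ Icc 0 1) Y ∧ (∀ x ∈ GS K, G (x, 0) = x) ∧ (∀ x ∈ GS K, G (x, 1) = y) ∧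
      EqOn G H (GS K₀ ×ˢ Icc 0 1) := by
  have cK := (isCompact_GS hK).isClosed
  obtain ⟨F, cF, F0, F1⟩ := tg_glue (S := GS K ×ˢ ({0} : Set ℝ)) (T := GS K ×ˢ ({1} : Set ℝ))
    (cK.prod isClosed_singleton) (cK.prod isClosed_singleton) (f := Prod.fst) (g := fun _ => y)
    continuous_fst.continuousOn continuousOn_const (by
      rintro z ⟨h1, h2⟩
      exact absurd ((mem_singleton_iff.1 h1.2).symm.trans (mem_singleton_iff.1 h2.2)) zero_ne_one)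
  have eu : GS K ×ˢ ({0} : Set ℝ) ∪ GS K ×ˢ ({1} : Set ℝ) = GS K ×ˢ ({0, 1} : Set ℝ) := by
    rw [← prod_union]
    rfl
  rw [eu] at cF
  obtain ⟨g, cg, g0, g1⟩ := tg_glue (S := GS K₀ ×ˢ Icc (0 : ℝ) 1)
    (T := GS K ×ˢ ({0, 1} : Set ℝ)) ((isCompact_GS (hK.subset h0)).isClosed.prod isClosed_Icc)
    (cK.prod (toFinite _).isClosed) c cF (by
      rintro ⟨x, s⟩ ⟨h1, h2, rfl | rfl⟩
      · rw [e0 x h1.1, F0 ⟨h2, rfl⟩]
      · rw [e1 x h1.1, F1 ⟨h2, rfl⟩])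
  obtain ⟨G, cG, mG, eG⟩ := gs_prism_ext hY hK h0 g cg (by
    rintro ⟨x, s⟩ (h1 | ⟨h2, rfl | rfl⟩)
    · rw [g0 h1]
      exact m h1
    · rw [g1 ⟨h2, Or.inl rfl⟩, F0 ⟨h2, rfl⟩]
      exact hKY h2
    · rw [g1 ⟨h2, Or.inr rfl⟩, F1 ⟨h2, rfl⟩]
      exact hy)
  refine ⟨G, cG, mG, fun x hx => ?_, fun x hx => ?_, fun z hz => ?_⟩
  · have hm : (x, (0 : ℝ)) ∈ GS K ×ˢ ({0, 1} : Set ℝ) := ⟨hx, Or.inl rfl⟩
    exact (eG (Or.inr hm)).trans ((g1 hm).trans (F0 ⟨hx, rfl⟩))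
  · have hm : (x, (1 : ℝ)) ∈ GS K ×ˢ ({0, 1} : Set ℝ) := ⟨hx, Or.inr rfl⟩
    exact (eG (Or.inr hm)).trans ((g1 hm).trans (F1 ⟨hx, rfl⟩))
  · rw [eG (Or.inl hz), g0 hz]

theorem tg_split (hA : IsLowerSet A) (hB : IsLowerSet B) (hK : IsLowerSet K) (h : K ⊆ A ∪ B) :
    GS K = GS (K ∩ A) ∪ GS (K ∩ B) := by
  rw [← GS_union (hK.inter hA) (hK.inter hB), ← inter_union_distrib_left, inter_eq_left.2 h]

theorem tg_meet {x : Q → ℝ} (h1 : x ∈ GS (K ∩ A)) (h2 : x ∈ GS (K ∩ B)) :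
    x ∈ GS (K ∩ (A ∩ B)) :=
  tg_mem_of h1 fun _ hq => ⟨(tg_pos h1 hq).1, (tg_pos h1 hq).2, (tg_pos h2 hq).2⟩

theorem wc_union (hQ : LocFin Q) (hA : IsLowerSet A) (hB : IsLowerSet B) (h1 : WC A) (h2 : WC B)
    (hI : WC (A ∩ B)) : WC (A ∪ B) := by
  intro C hCs hC
  obtain ⟨K, kf, kl, ks, kc⟩ := compact_fin hQ (hA.union hB) hC hCs
  obtain ⟨y, hy, H, c, m, e0, e1⟩ := hI (GS (K ∩ (A ∩ B))) (GS_mono inter_subset_right)
    (isCompact_GS (kf.inter_of_left _))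
  obtain ⟨GA, cA, mA, a0, a1, aH⟩ := tg_side (kf.inter_of_left A)
    (inter_subset_inter_right K inter_subset_left) h1 (GS_mono inter_subset_right)
    (GS_mono inter_subset_left hy) c (m.mono_right (GS_mono inter_subset_left)) e0 e1
  obtain ⟨GB, cB, mB, b0, b1, bH⟩ := tg_side (kf.inter_of_left B)
    (inter_subset_inter_right K inter_subset_right) h2 (GS_mono inter_subset_right)
    (GS_mono inter_subset_right hy) c (m.mono_right (GS_mono inter_subset_right)) e0 e1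
  obtain ⟨F, cF, FA, FB⟩ := tg_glue
    ((isCompact_GS (kf.inter_of_left A)).isClosed.prod isClosed_Icc)
    ((isCompact_GS (kf.inter_of_left B)).isClosed.prod isClosed_Icc) cA cB (by
      intro z hz
      have hm : z ∈ GS (K ∩ (A ∩ B)) ×ˢ Icc (0 : ℝ) 1 := ⟨tg_meet hz.1.1 hz.2.1, hz.1.2⟩
      rw [aH hm, bH hm])
  rw [tg_split hA hB kl ks] at kc
  rw [← union_prod] at cF
  refine ⟨y, GS_mono (inter_subset_left.trans subset_union_left) hy, F,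
    cF.mono (prod_mono kc subset_rfl), fun z hz => ?_, fun x hx => ?_, fun x hx => ?_⟩
  · rcases kc hz.1 with h | h
    · rw [FA ⟨h, hz.2⟩]
      exact GS_mono subset_union_left (mA ⟨h, hz.2⟩)
    · rw [FB ⟨h, hz.2⟩]
      exact GS_mono subset_union_right (mB ⟨h, hz.2⟩)
  · rcases kc hx with h | h
    · rw [FA ⟨h, left_mem_Icc.2 zero_le_one⟩, a0 x h]
    · rw [FB ⟨h, left_mem_Icc.2 zero_le_one⟩, b0 x h]
  · rcases kc hx with h | h
    · rw [FA ⟨h, right_mem_Icc.2 zero_le_one⟩, a1 x h]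
    · rw [FB ⟨h, right_mem_Icc.2 zero_le_one⟩, b1 x h]

theorem null_of_union (hQ : LocFin Q) (hA : IsLowerSet A) (hB : IsLowerSet B) (hI : WC (A ∩ B))
    {C : Set (Q → ℝ)} (hC : IsCompact C) (h : C ⊆ GS A) (hN : Null C (GS (A ∪ B))) :
    Null C (GS A) := by
  obtain ⟨y, hy, H, c, m, e0, e1⟩ := hN
  obtain ⟨K, kf, kl, ks, kc⟩ := compact_fin hQ (hA.union hB)
    (((hC.prod isCompact_Icc).image_of_continuousOn c).insert y)
    (insert_subset hy m.image_subset)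
  obtain ⟨r, cr, mr, er⟩ := gs_ext hI (kf.inter_of_left B)
    (inter_subset_inter_right K (inter_subset_right : A ∩ B ⊆ B)) id continuousOn_id
    (GS_mono inter_subset_right)
  obtain ⟨R, cR, RA, RB⟩ := tg_glue (isCompact_GS (kf.inter_of_left A)).isClosed
    (isCompact_GS (kf.inter_of_left B)).isClosed (f := id) continuousOn_id cr
    fun x hx => (er (tg_meet hx.1 hx.2)).symm
  rw [← tg_split hA hB kl ks] at cR
  have mR : MapsTo R (GS K) (GS A) := by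
    intro x hx
    rw [tg_split hA hB kl ks] at hx
    rcases hx with h1 | h1
    · rw [RA h1]
      exact GS_mono inter_subset_right h1
    · rw [RB h1]
      exact GS_mono inter_subset_left (mr h1)
  have mH : MapsTo H (C ×ˢ Icc 0 1) (GS K) := fun z hz =>
    kc (mem_insert_of_mem _ (mem_image_of_mem H hz))
  refine ⟨R y, mR (kc (mem_insert _ _)), R ∘ H, cR.comp c mH, mR.comp mH, fun x hx => ?_,
    fun x hx => ?_⟩
  · have h1 := mH (show (x, (0 : ℝ)) ∈ C ×ˢ Icc (0 : ℝ) 1 from ⟨hx, left_mem_Icc.2 zero_le_one⟩)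
    rw [e0 x hx] at h1
    rw [Function.comp_apply, e0 x hx]
    exact RA (by rw [GS_inter]; exact ⟨h1, h hx⟩)
  · rw [Function.comp_apply, e1 x hx]

end Vale.Agent.P203
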