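import Vale.Agent.P203.PPo
import Vale.Agent.P203.TG

/-!
# P203 SalCov0: the action of the Artin group on the cover and the projection (TASK)
* `act_le`: left multiplication. `prj_le`: `pr_lift`, `rmin_iff`.
* `lift_below`: `q = (pr p.a * w, R)`; take `⟨p.a * lift w, R⟩`. `prj_inj_below`: two faces of `p` with the same projection have the same `w`.
* `lift_above`: `p' = ⟨p.a * (lift w)⁻¹, R⟩`.
* `le_of_prj`: `lift_below` at `p₂`, `ple_trans` and `prj_inj_below` at `p`.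
* `prj_inj_chain`, `act_fix`: if `g • p ≤ p` or `p ≤ g • p` then the types agree, so `w` is `RMin R` and in `W_R`, so `w = 1`.
* `pushF x q = ∑ᶠ p ∈ prj⁻¹ q, x p`; for `x ∈ simplex σ`, `σ` a chain, `prj` is injective on `σ` and `pushF x (prj p) = x p` for `p ∈ σ`, `pushF x q = 0` off the image.
-/

namespace Vale.Agent.P203

variable {B : Type} [Fintype B] [DecidableEq B] {W : Type*} [Group W] {M : CoxeterMatrix B}
  {cs : CoxeterSystem M W}

instance : MulAction (Art M) (PP cs) where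
  smul g p := ⟨g * p.a, p.R, p.hR⟩
  one_smul _ := PP.ext (one_mul _) rfl
  mul_smul _ _ _ := PP.ext (mul_assoc _ _ _) rfl

theorem smul_a (g : Art M) (p : PP cs) : (g • p).a = g * p.a := rfl

theorem smul_R (g : Art M) (p : PP cs) : (g • p).R = p.R := rfl

/-- The projection to the Salvetti poset. -/
noncomputable def prj (p : PP cs) : SalV cs := (pr cs p.a, ⟨p.R, p.hR⟩)

theorem act_le (g : Art M) {p q : PP cs} : g • p ≤ g • q ↔ p ≤ q := by
  simp only [ple_iff, smul_a, smul_R, mul_assoc, mul_right_inj]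

theorem prj_smul (g : Art M) (p : PP cs) : prj (g • p) = (pr cs g * (prj p).1, (prj p).2) := by
  exact Prod.ext (map_mul (pr cs) g p.a) rfl

theorem prj_surj (q : SalV cs) : ∃ p : PP cs, prj p = q := by
  exact ⟨⟨lift cs q.1, q.2.1, q.2.2⟩, Prod.ext (pr_lift cs q.1) rfl⟩

theorem prj_le {p q : PP cs} (h : p ≤ q) : SalLe cs (prj p) (prj q) := by
  obtain ⟨h1, w, hw, hm, ha⟩ := h
  have e : (prj q).1⁻¹ * (prj p).1 = w := by
    show (pr cs q.a)⁻¹ * pr cs p.a = w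
    rw [ha, map_mul, pr_lift, inv_mul_cancel_left]
  refine ⟨h1, ?_, ?_⟩ <;> rw [e]
  · exact hw
  · exact (rmin_iff cs).1 hm

theorem lift_below {p : PP cs} {q : SalV cs} (h : SalLe cs q (prj p)) : ∃ p' ≤ p, prj p' = q := by
  refine ⟨⟨p.a * lift cs ((prj p).1⁻¹ * q.1), q.2.1, q.2.2⟩,
    ⟨h.1, _, h.2.1, (rmin_iff cs).2 h.2.2, rfl⟩, Prod.ext ?_ rfl⟩
  show pr cs (p.a * lift cs ((pr cs p.a)⁻¹ * q.1)) = q.1
  rw [map_mul, pr_lift, mul_inv_cancel_left]

theorem lift_above {p : PP cs} {q : SalV cs} (h : SalLe cs (prj p) q) :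
    ∃ p', p ≤ p' ∧ prj p' = q := by
  refine ⟨⟨p.a * (lift cs (q.1⁻¹ * (prj p).1))⁻¹, q.2.1, q.2.2⟩,
    ⟨h.1, _, h.2.1, (rmin_iff cs).2 h.2.2, (inv_mul_cancel_right _ _).symm⟩, Prod.ext ?_ rfl⟩
  show pr cs (p.a * (lift cs (q.1⁻¹ * pr cs p.a))⁻¹) = q.1
  rw [map_mul, map_inv, pr_lift, mul_inv_rev, inv_inv, mul_inv_cancel_left]

theorem prj_inj_below {p p₁ p₂ : PP cs} (h₁ : p₁ ≤ p) (h₂ : p₂ ≤ p) (h : prj p₁ = prj p₂) :
    p₁ = p₂ := by
  obtain ⟨-, w, -, -, ha⟩ := h₁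
  obtain ⟨-, w', -, -, ha'⟩ := h₂
  have e : pr cs p₁.a = pr cs p₂.a := congrArg Prod.fst h
  rw [ha, ha', map_mul, map_mul, pr_lift, pr_lift, mul_right_inj] at e
  exact PP.ext (by rw [ha, ha', e]) (congrArg (fun q : SalV cs => q.2.1) h)

theorem le_of_prj {p p₁ p₂ : PP cs} (h₁ : p₁ ≤ p) (h₂ : p₂ ≤ p)
    (h : SalLe cs (prj p₁) (prj p₂)) : p₁ ≤ p₂ := by
  obtain ⟨p', k1, k2⟩ := lift_below h
  rwa [prj_inj_below (k1.trans h₂) h₁ k2] at k1

theorem eq_of_le_of_R {p q : PP cs} (h : p ≤ q) (hR : p.R = q.R) : p = q := by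
  obtain ⟨-, w, hw, hm, ha⟩ := h
  have h1 := (rmin_iff cs).1 hm w⁻¹ (inv_mem (hR ▸ hw))
  rw [mul_inv_cancel, cs.length_one, Nat.le_zero, cs.length_eq_zero_iff] at h1
  rw [h1, lift_one, mul_one] at ha
  exact PP.ext ha hR

theorem act_fix {g : Art M} {p : PP cs} (h : g • p ≤ p ∨ p ≤ g • p) : g = 1 := by
  have e : g • p = p := h.elim (fun h => eq_of_le_of_R h rfl) fun h => (eq_of_le_of_R h rfl).symm
  exact mul_eq_right.1 (congrArg PP.a e)

theorem sal0_inj {τ : Finset (PP cs)} (hτ : IsChain (· ≤ ·) (τ : Set (PP cs))) {p p' : PP cs}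
    (hp : p ∈ τ) (hp' : p' ∈ τ) (h : prj p = prj p') : p = p' :=
  (hτ.total hp hp').elim (fun k => prj_inj_below k le_rfl h) fun k => prj_inj_below le_rfl k h

theorem sal0_top {σ : Finset (SalV cs)} (hσ : IsChain (SalLe cs) (σ : Set (SalV cs)))
    (hne : σ.Nonempty) : ∃ m, ∀ q ∈ σ, SalLe cs q m := by
  obtain ⟨m, hm, hmax⟩ := σ.exists_max_image (fun q => q.2.1.card) hne
  obtain ⟨P, rfl⟩ := prj_surj m
  refine ⟨prj P, fun q hq => ?_⟩
  by_cases e : q = prj P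
  · rw [e]
    exact prj_le le_rfl
  · refine (hσ hq hm e).resolve_right fun k => e ?_
    obtain ⟨p', k1, rfl⟩ := lift_above k
    rw [eq_of_le_of_R k1 (Finset.eq_of_subset_of_card_le k1.1 (hmax _ hq))]

/-- Every chain of the Salvetti poset lifts, through a given lift of a nonempty or empty subchain. -/
theorem lift_chain {σ : Finset (SalV cs)} (hσ : IsChain (SalLe cs) (σ : Set (SalV cs)))
    {τ : Finset (PP cs)} (hτ : IsChain (· ≤ ·) (τ : Set (PP cs))) (h : ∀ p ∈ τ, prj p ∈ σ) :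
    ∃ ℓ : SalV cs → PP cs, (∀ q ∈ σ, prj (ℓ q) = q) ∧ (∀ p ∈ τ, ℓ (prj p) = p) ∧
      IsChain (· ≤ ·) (ℓ '' (σ : Set (SalV cs))) := by
  classical
  obtain ⟨P, h1, h2⟩ : ∃ P : PP cs, (∀ q ∈ σ, SalLe cs q (prj P)) ∧ ∀ p ∈ τ, p ≤ P := by
    rcases σ.eq_empty_or_nonempty with rfl | hne
    · exact ⟨⟨1, ∅, sph_empty cs⟩, fun q hq => absurd hq (Finset.notMem_empty q),
        fun p hp => absurd (h p hp) (Finset.notMem_empty _)⟩
    obtain ⟨m, hm⟩ := sal0_top hσ hne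
    rcases τ.eq_empty_or_nonempty with rfl | hne'
    · obtain ⟨P, rfl⟩ := prj_surj m
      exact ⟨P, hm, fun p hp => absurd hp (Finset.notMem_empty p)⟩
    · obtain ⟨p0, hp0⟩ := Finset.exists_maximal hne'
      obtain ⟨P, k1, rfl⟩ := lift_above (hm _ (h p0 hp0.1))
      exact ⟨P, hm, fun p hp => ((hτ.total hp hp0.1).elim id fun k => hp0.2 hp k).trans k1⟩
  have h3 : ∀ q, ∃ p ≤ P, q ∈ σ → prj p = q := fun q => by
    by_cases hq : q ∈ σ
    · obtain ⟨p, k1, k2⟩ := lift_below (h1 q hq)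
      exact ⟨p, k1, fun _ => k2⟩
    · exact ⟨P, le_rfl, fun k => absurd k hq⟩
  choose ℓ l1 l2 using h3
  refine ⟨ℓ, l2, fun p hp => prj_inj_below (l1 _) (h2 p hp) (l2 _ (h p hp)), ?_⟩
  rintro _ ⟨q, hq, rfl⟩ _ ⟨q', hq', rfl⟩ hne
  refine (hσ hq hq' fun e => hne (by rw [e])).imp (fun k => le_of_prj (l1 q) (l1 q') ?_)
    fun k => le_of_prj (l1 q') (l1 q) ?_ <;> rwa [l2 q hq, l2 q' hq']

/-- Push forward of barycentric coordinates. -/
noncomputable def pushF (x : PP cs → ℝ) (q : SalV cs) : ℝ := ∑ᶠ p ∈ {p | prj p = q}, x p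

theorem pushF_prj {τ : Finset (PP cs)} (hτ : IsChain (· ≤ ·) (τ : Set (PP cs))) {x : PP cs → ℝ}
    (hx : x ∈ simplex τ) {p : PP cs} (hp : p ∈ τ) : pushF x (prj p) = x p := by
  classical
  rw [pushF, finsum_eq_single _ p]
  · exact finsum_eq_single _ (show p ∈ {p' | prj p' = prj p} from rfl) fun _ k => absurd rfl k
  · intro p' hne
    by_cases k : p' ∈ {p' | prj p' = prj p}
    · rw [hx.2.1 p' fun hp' => hne (sal0_inj hτ hp' hp k), finsum_zero]
    · exact finsum_eq_if.trans (if_neg k)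

theorem pushF_zero {τ : Finset (PP cs)} {x : PP cs → ℝ} (hx : x ∈ simplex τ) {q : SalV cs}
    (hq : ∀ p ∈ τ, prj p ≠ q) : pushF x q = 0 := by
  exact finsum_mem_of_eqOn_zero fun p k => hx.2.1 p fun hp => hq p hp k

theorem pushF_mem {x : PP cs → ℝ} (hx : x ∈ GS (Set.univ : Set (PP cs))) :
    ∃ σ : Finset (SalV cs), IsChain (SalLe cs) (σ : Set (SalV cs)) ∧ pushF x ∈ simplex σ := by
  classical
  obtain ⟨τ, hτ, -, hx⟩ := hx
  have h0 : ∀ q, q ∉ τ.image prj → pushF x q = 0 := fun q hq =>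
    pushF_zero hx fun p hp h => hq (Finset.mem_image.2 ⟨p, hp, h⟩)
  refine ⟨τ.image prj, ?_, fun q => ?_, h0, ?_⟩
  · rw [Finset.coe_image]
    rintro _ ⟨p, hp, rfl⟩ _ ⟨p', hp', rfl⟩ -
    exact (hτ.total hp hp').imp prj_le prj_le
  · by_cases hq : q ∈ τ.image prj
    · obtain ⟨p, hp, rfl⟩ := Finset.mem_image.1 hq
      rw [pushF_prj hτ hx hp]
      exact hx.1 p
    · exact (h0 q hq).ge
  · rw [Finset.sum_image fun p hp p' hp' k => sal0_inj hτ hp hp' k, ← hx.2.2]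
    exact Finset.sum_congr rfl fun p hp => pushF_prj hτ hx hp

end Vale.Agent.P203
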