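import Vale.Agent.P203.Gar

/-!
# P203 SphA: negative vertices are connected in spherical type (done)
Write `g w = E.hh U J μ (e * lift w)`; for `e` in `InB` all `e * lift w` are in `InB` (`InB.down`, `lift_mem_Pos`), so `Neg` means `g w t < 0`.
* `conn_apt`: `ApF.ap_neg` (`apF`) with `Q w' t' := Conn (e * lift w, t) (e * lift w', t')`; `lift (w * s)` is `lift w * σ_s` or `lift w * σ_s⁻¹`.
* `neg_top`: `b = wd l`, strong induction on `l.length`. If `l` is reduced use `lift_wordProd`. Else `l = l₁ ++ t :: l₂` with `l₂` reduced and `t :: l₂` not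
  (induction on `l`), so `t` is a left descent of `x = π l₂` and `wd l₂ = σ_t * lift (s t * x)` (`lift_downL`). With `e' = d * wd l₁`, `del_le` shows that
  `(d * wd (l₁ ++ l₂), u) = (e' σ_t * lift (s t * x), u)` is negative; it lies with `(d * wd l, u) = (e' σ_t * lift x, u)` in the apartment of `e' σ_t`.
* `sphA`: `exists_inB'` for both vertices, `directed`, `neg_top` twice, `conn_apt`, `Conn.symm`.
-/

namespace Vale.Agent.P203.St

variable {B : Type} [Fintype B] [DecidableEq B] {W : Type*} [Group W] {M : CoxeterMatrix B}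
  (cs : CoxeterSystem M W) {E : St M} {U : Finset B} {J : ℤ} {μ : B → ℝ} {b d e : Art M}
  {t t' u : B} {w w' : W}

theorem conn_apt (h : E.Adm U J μ e) (he : E.InB U J e) (hw : w ∈ WP cs U) (hw' : w' ∈ WP cs U)
    (ht : t ∈ U) (ht' : t' ∈ U) (h0 : E.Neg J μ (e * lift cs w) t)
    (h0' : E.Neg J μ (e * lift cs w') t') :
    E.Conn U U J μ (e * lift cs w, t) (e * lift cs w', t') := by
  have hN (x : W) (hx : x ∈ WP cs U) (r : B) (hr : r ∈ U) :
      E.hh U J μ (e * lift cs x) r < 0 ↔ E.Neg J μ (e * lift cs x) r := by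
    rw [hh_mem hr, sub_neg]
    exact ⟨fun h1 => ⟨he.down h.1 (lift_mem_Pos cs hx) r hr, h1⟩, fun h1 => h1.2⟩
  have key := (apF cs h).ap_neg
    (Q := fun x r => E.Conn U U J μ (e * lift cs w, t) (e * lift cs x, r)) ?_ ?_ hw
    (mul_mem (inv_mem hw) hw') ht ht' ((hN w hw t ht).2 h0)
    (by rw [mul_inv_cancel_left]; exact (hN w' hw' t' ht').2 h0') Relation.ReflTransGen.refl
  · rwa [mul_inv_cancel_left] at key
  · intro x hx r _ r' hr' _ h2 h3
    exact h3.tail ⟨hr', (hN x hx r' hr').1 h2, Or.inl rfl⟩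
  · intro x hx r hr s hs hne h2 h3
    have hb := lift_coset cs x (simple_mem cs (Finset.mem_erase.2 ⟨hne, hs⟩))
    refine h3.tail ⟨hr, ?_, Or.inr ⟨rfl, by simpa [mul_assoc] using hb⟩⟩
    have := (Neg_erase hb).2 ((hN x hx r hr).1 h2)
    rwa [mul_assoc, mul_inv_cancel_left] at this

omit [Fintype B] [DecidableEq B] in
theorem split_red {l : List B} (hl : ¬ cs.IsReduced l) :
    ∃ l₁ t l₂, l = l₁ ++ t :: l₂ ∧ cs.IsReduced l₂ ∧ cs.IsLeftDescent (cs.wordProd l₂) t := by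
  induction l with
  | nil => exact absurd (by simp [CoxeterSystem.IsReduced]) hl
  | cons t l ih =>
    by_cases h : cs.IsReduced l
    · refine ⟨[], t, l, rfl, h, ?_⟩
      by_contra hd
      rw [cs.not_isLeftDescent_iff] at hd
      exact hl (by rw [CoxeterSystem.IsReduced, cs.wordProd_cons, hd, h.eq, List.length_cons])
    · obtain ⟨l₁, r, l₂, e, h1⟩ := ih h
      exact ⟨t :: l₁, r, l₂, by rw [e]; rfl, h1⟩

theorem neg_top (h : E.Adm U J μ d) (hd : E.InB U J d) (hb : b ∈ Pos M U) (hu : u ∈ U)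
    (h0 : E.Neg J μ (d * b) u) : ∃ w ∈ WP cs U, E.Neg J μ (d * lift cs w) u ∧
      E.Conn U U J μ (d * b, u) (d * lift cs w, u) := by
  obtain ⟨l, hl, rfl⟩ := mem_Pos.1 hb
  clear hb
  induction hn : l.length using Nat.strong_induction_on generalizing l with
  | _ n ih =>
  by_cases hr : cs.IsReduced l
  · rw [← lift_wordProd cs hr] at h0 ⊢
    exact ⟨_, wordProd_mem cs hl, h0, Relation.ReflTransGen.refl⟩
  obtain ⟨l₁, t, l₂, rfl, h1, h2⟩ := split_red cs hr
  have ht : t ∈ U := hl t (by simp)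
  have p1 : wd M l₁ ∈ Pos M U := mem_Pos.2 ⟨l₁, fun r hr => hl r (by simp [hr]), rfl⟩
  have hx : cs.wordProd l₂ ∈ WP cs U := wordProd_mem cs fun r hr => hl r (by simp [hr])
  have hsx := mul_mem (simple_mem cs ht) hx
  have hA := h.coset (Closed.refl U) (AP_of_Pos p1)
  have he := hd.down h.1 p1
  have e1 : d * wd M (l₁ ++ t :: l₂) = d * wd M l₁ * sg M t * lift cs (cs.wordProd l₂) := by
    rw [wd_append, wd_cons, lift_wordProd cs h1]; group
  have e2 : d * wd M (l₁ ++ l₂) =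
      d * wd M l₁ * sg M t * lift cs (cs.simple t * cs.wordProd l₂) := by
    rw [wd_append, ← lift_wordProd cs h1, lift_downL cs h2]; group
  have hA' := hA.coset (Closed.refl U) (sg_mem_AP ht)
  have he' := he.down hA.1 (sg_mem_Pos ht)
  rw [e1] at h0 ⊢
  have h4 : E.Neg J μ (d * wd M l₁ * sg M t * lift cs (cs.simple t * cs.wordProd l₂)) u := by
    refine ⟨he'.down hA'.1 (lift_mem_Pos cs hsx) u hu, lt_of_le_of_lt ?_ h0.2⟩
    have := del_le hA.1 he ht (lift_mem_Pos cs hsx) u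
    rwa [mul_assoc (_ * sg M t) (sg M t), ← lift_downL cs h2] at this
  obtain ⟨w, hw, h5, h6⟩ := ih _ (by subst hn; simp) (l₁ ++ l₂)
    (fun r hr => hl r (by simp at hr ⊢; tauto)) (e2 ▸ h4) rfl
  exact ⟨w, hw, h5, (conn_apt cs hA' he' hx hsx hu hu h0 h4).trans (e2 ▸ h6)⟩

include cs in
theorem sphA (hU : Sph cs U) : E.PA U U := by
  intro J μ c b t u h hb ht hu h1 h2
  have hA (a : Art M) (ha : a ∈ AP M U) := h.coset (Closed.refl U) ha
  obtain ⟨b₁, hb₁, k1⟩ := exists_inB' cs hU h.1 h1.1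
  obtain ⟨b₂, hb₂, k2⟩ := exists_inB' cs hU (hA b hb).1 h2.1
  have hb₁' := AP_mono (Finset.erase_subset t U) hb₁
  have hb₂' := AP_mono (Finset.erase_subset u U) hb₂
  have e1 : c * b₁ * (b₁⁻¹ * b * b₂) = c * b * b₂ := by group
  obtain ⟨d, hd, hp, hq⟩ := directed cs hU (hA b₁ hb₁').1
    (mul_mem (mul_mem (inv_mem hb₁') hb) hb₂') k1 (e1 ▸ k2)
  rw [e1] at hq
  have hAd : E.Adm U J μ d := by
    have := (hA b₁ hb₁').coset (Closed.refl U) (inv_mem (AP_of_Pos hp))
    rwa [mul_inv_rev, inv_inv, mul_inv_cancel_left] at this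
  have n1 := (Neg_erase hb₁).2 h1
  have n2 := (Neg_erase hb₂).2 h2
  obtain ⟨w, hw, m1, c1⟩ := neg_top cs hAd hd hp ht (by rwa [mul_inv_cancel_left])
  obtain ⟨w', hw', m2, c2⟩ := neg_top cs hAd hd hq hu (by rwa [mul_inv_cancel_left])
  rw [mul_inv_cancel_left] at c1 c2
  have s1 : E.Step U U J μ (c, t) (c * b₁, t) := ⟨ht, n1, Or.inr ⟨rfl, by simpa using hb₁⟩⟩
  have s2 : E.Step U U J μ (c * b * b₂, u) (c * b, u) :=
    ⟨hu, h2, Or.inr ⟨rfl, by simpa [mul_assoc] using inv_mem hb₂⟩⟩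
  exact (((Relation.ReflTransGen.head s1 c1).trans (conn_apt cs hAd hd hw hw' ht hu m1 m2)).trans
    (c2.symm hu n2)).tail s2

end Vale.Agent.P203.St
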