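import Vale.Agent.P203.SphA

/-!
# P203 SphB1: isolated zero vertices, first part (done)
Write `g w = E.hh U J μ (e * lift w)` (an apartment function by `apF`); the position of `(w, t)` is the functional `y v = rho w⁻¹ v t`.
* `iso_nonneg`: `ApF.ap_nonneg`; `lift_coset`; chambers of the apartment are in `InB`, so not `Neg` means `0 ≤`.
* `refl_zero`: `lift w = σ_u * lift (s u * w)` (`lift_downL`); `del_le` at `e σ_u⁻¹` gives `g (s u * w) t ≤ g w t = 0`.
* `iso_pass`: `ApF.ap_zero` with `Q w t := Iso (e * lift w) t`. Same chamber `c`, `t ≠ t'`: if `(c b, u)` is a negative neighbour of `(c, t')` use `IH t'`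
  with `Adm.erase`, the zero vertex `(c, t)` and `(c b, u)`; this gives a negative neighbour of `(c, t)` (`AP_mono`, `Finset.erase_right_comm`).
* `iso_up` (below `e'` is the `e` of the statement and `e = e' σ_u`). If `u` is not a left descent of `w` then `e * lift w = e' * lift (s u * w)`: take `w' = s u * w`, whose functional is
  `v ↦ y (rho (s u) v) = y v - cor u v * y (ee u)`. Else `(s u * w, t)` is a zero vertex (`refl_zero`), and `e * lift (s u * w) = e' * lift w`. If it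
  is not antipodal to `(w, t)` use `iso_pass` and take `w' = w`. If it is, `(1 - m) * y v = cor u v * y (ee u)` with `y (ee u) ≤ 0`, and `y ≠ 0`
  (test on `rho w (ee t)`), so `Apex`.
-/

namespace Vale.Agent.P203.St

variable {B : Type} [Fintype B] [DecidableEq B] {W : Type*} [Group W] {M : CoxeterMatrix B}
  (cs : CoxeterSystem M W)

/-- A zero vertex without negative neighbour. -/
def Iso (E : St M) (U : Finset B) (J : ℤ) (μ : B → ℝ) (c : Art M) (t : B) : Prop :=
  E.Zer J μ c t ∧ ∀ b ∈ AP M (U.erase t), ∀ u ∈ U, u ≠ t → ¬ E.Neg J μ (c * b) u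

/-- The vertex `(w, t)` is on the ray of minus the coroot of `u`. -/
def Apex (U : Finset B) (w : W) (t u : B) : Prop :=
  ∃ ν : ℝ, 0 < ν ∧ ∀ v, Supp U v → rho cs w⁻¹ v t = -ν * cor M u v

variable {E : St M} {U : Finset B} {J : ℤ} {μ : B → ℝ} {e : Art M} {t t' u : B} {w w' : W}

theorem hh_zer {c : Art M} (ht : t ∈ U) (h : E.Zer J μ c t) : E.hh U J μ c t = 0 := by
  rw [hh_mem ht, h.2, sub_self]

theorem iso_nonneg (h : E.Adm U J μ e) (he : E.InB U J e) (hw : w ∈ WP cs U) (ht : t ∈ U)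
    (hi : E.Iso U J μ (e * lift cs w) t) (hw' : w' ∈ WP cs U) :
    0 ≤ E.hh U J μ (e * lift cs w') := by
  refine ApF.ap_nonneg (g := fun w => E.hh U J μ (e * lift cs w)) (apF cs h) hw (t := t)
    (hh_zer ht hi.1) (fun v hv s => ?_) hw'
  by_cases hs : s ∈ U
  swap
  · rw [supp_hh s hs]; exact le_rfl
  have hb := lift_coset cs w hv
  have e1 : e * lift cs w * ((lift cs w)⁻¹ * lift cs (w * v)) = e * lift cs (w * v) := by group
  rw [Pi.zero_apply, hh_mem hs]
  by_cases hst : s = t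
  · subst hst
    rw [← e1, F_erase hb, hi.1.2, sub_self]
  · have h1 := hi.2 _ hb s hs hst
    rw [e1] at h1
    have h2 := he.down h.1 (lift_mem_Pos cs (mul_mem hw (WP_mono cs (Finset.erase_subset t U) hv)))
    exact sub_nonneg.2 (not_lt.1 fun h3 => h1 ⟨h2 s hs, h3⟩)

theorem refl_zero (h : E.Adm U J μ e) (hu : u ∈ U) (he : E.InB U J (e * (sg M u)⁻¹))
    (hg : ∀ w ∈ WP cs U, 0 ≤ E.hh U J μ (e * lift cs w)) (hw : w ∈ WP cs U) (ht : t ∈ U)
    (h0 : E.hh U J μ (e * lift cs w) t = 0) (hd : cs.IsLeftDescent w u) :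
    E.hh U J μ (e * lift cs (cs.simple u * w)) t = 0 := by
  have hsw := mul_mem (simple_mem cs hu) hw
  have h1 := del_le (h.1.coset (Closed.refl U) (inv_mem (sg_mem_AP hu))) he hu
    (lift_mem_Pos cs hsw) t
  rw [inv_mul_cancel_right, mul_assoc e, ← lift_downL cs hd] at h1
  have h2 := hg _ hsw t
  rw [Pi.zero_apply] at h2
  rw [hh_mem ht] at h0 h2 ⊢
  linarith

theorem Iso.erase {c b : Art M} (hi : E.Iso U J μ c t) (hb : b ∈ AP M (U.erase t)) :
    E.Iso U J μ (c * b) t :=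
  ⟨(Zer_erase hb).2 hi.1, fun b' hb' u hu hne => by
    rw [mul_assoc]; exact hi.2 _ (mul_mem hb hb') u hu hne⟩

theorem iso_pass (IH : ∀ t ∈ U, E.PB (U.erase t) (U.erase t)) (h : E.Adm U J μ e)
    (he : E.InB U J e) (hw : w ∈ WP cs U) (hw' : w' ∈ WP cs U) (ht : t ∈ U) (ht' : t' ∈ U)
    (hi : E.Iso U J μ (e * lift cs w) t) (h0 : E.hh U J μ (e * lift cs w') t' = 0)
    (ha : ¬ Anti cs U w t w' t') : E.Iso U J μ (e * lift cs w') t' := by
  have key := (apF cs h).ap_zero (fun _ hx => iso_nonneg cs h he hw ht hi hx)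
    (Q := fun w t => E.Iso U J μ (e * lift cs w) t) ?_ ?_ hw (mul_mem (inv_mem hw) hw') ht ht'
    (hh_zer ht hi.1) (by rwa [mul_inv_cancel_left]) (by rwa [mul_inv_cancel_left]) hi
  · rwa [mul_inv_cancel_left] at key
  · intro x hx r hr r' hr' _ h2 h3
    by_cases hne : r = r'
    · exact hne ▸ h3
    have hp := lift_mem_Pos cs hx
    have hz : E.Zer J μ (e * lift cs x) r' := ⟨he.down h.1 hp r' hr', by
      rw [hh_mem hr'] at h2; linarith⟩
    refine ⟨hz, fun b hb u hu hu' hn => ?_⟩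
    obtain ⟨b', hb', u', hu1, hu2, hn'⟩ := IH r' hr' J μ _ b r u
      ((h.coset (Closed.refl U) (AP_of_Pos hp)).erase hz) hb (Finset.mem_erase.2 ⟨hne, hr⟩)
      (Finset.mem_erase.2 ⟨hu', hu⟩) h3.1 hn
    exact h3.2 b' (AP_mono (Finset.erase_subset_erase r (Finset.erase_subset r' U)) hb') u'
      (Finset.mem_of_mem_erase hu1) hu2 hn'
  · intro x _ r _ s hs hne h3
    have := h3.erase (lift_coset cs x (simple_mem cs (Finset.mem_erase.2 ⟨hne, hs⟩)))
    rwa [mul_assoc, mul_inv_cancel_left] at this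

theorem iso_up (IH : ∀ t ∈ U, E.PB (U.erase t) (U.erase t)) (h : E.Adm U J μ e)
    (he : E.InB U J e) (hu : u ∈ U) (hw : w ∈ WP cs U) (ht : t ∈ U)
    (hi : E.Iso U J μ (e * sg M u * lift cs w) t) :
    Apex cs U w t u ∨ ∃ w' ∈ WP cs U, E.Iso U J μ (e * lift cs w') t ∧
      (rho cs w⁻¹ (ee u) t = 0 → ∀ v, Supp U v → rho cs w'⁻¹ v t = rho cs w⁻¹ v t) := by
  have hsw := mul_mem (simple_mem cs hu) hw
  have hy (v : B → ℝ) : rho cs (cs.simple u * w)⁻¹ v t =
      rho cs w⁻¹ v t - cor M u v * rho cs w⁻¹ (ee u) t := by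
    rw [mul_inv_rev, cs.inv_simple, rho_mul, rho_simple, map_sub, map_smul]; rfl
  by_cases hd : cs.IsLeftDescent w u
  swap
  · refine Or.inr ⟨_, hsw, ?_, fun h0 v _ => by rw [hy, h0, mul_zero, sub_zero]⟩
    rwa [lift_upL cs hd, ← mul_assoc]
  have hA := h.coset (Closed.refl U) (sg_mem_AP hu)
  have he1 := he.down h.1 (sg_mem_Pos hu)
  have h1 := refl_zero cs hA hu (by rwa [mul_inv_cancel_right])
    (fun _ hx => iso_nonneg cs hA he1 hw ht hi hx) hw ht (hh_zer ht hi.1) hd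
  by_cases ha : Anti cs U w t (cs.simple u * w) t
  · obtain ⟨m, hm, hz⟩ := ha
    have h2 : rho cs w⁻¹ (ee u) t ≤ 0 := rho_ee_nonpos cs (cs.isRightDescent_inv_iff.2 hd) t
    have h3 (v : B → ℝ) (hv : Supp U v) :
        (1 - m) * rho cs w⁻¹ v t = cor M u v * rho cs w⁻¹ (ee u) t := by
      have := hz v hv
      rw [hy] at this
      linarith
    have h4 : rho cs w⁻¹ (ee u) t ≠ 0 := fun h0 => by
      have := h3 _ ((supp_ee ht).rho cs hw)
      rw [h0, rho_inv_self, ee_apply, if_pos rfl] at this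
      linarith
    have h5 : 0 < 1 - m := by linarith
    refine Or.inl ⟨-rho cs w⁻¹ (ee u) t / (1 - m), div_pos (by
      rcases h2.lt_or_eq with h | h
      · linarith
      · exact absurd h h4) h5, fun v hv => ?_⟩
    field_simp
    linarith [h3 v hv]
  · refine Or.inr ⟨w, hw, ?_, fun _ _ _ => rfl⟩
    have := iso_pass cs IH hA he1 hw hsw ht ht hi h1 ha
    rwa [mul_assoc, ← lift_downL cs hd] at this

end Vale.Agent.P203.St
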