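import Vale.Agent.P203.Art

/-!
# P203 Sys: the abstract interface given by the categorical action, and the basic notions (done)
-/

namespace Vale.Agent.P203

variable {B : Type} [Fintype B] [DecidableEq B] {W : Type*} [Group W]

/-- `g` vanishes above `J`. -/
def LvF (g : ℤ → ℝ) (J : ℤ) : Prop := ∀ j, J < j → g j = 0

theorem LvF.mono {g : ℤ → ℝ} {J L : ℤ} (h : LvF g J) (hL : J ≤ L) : LvF g L :=
  fun j hj => h j (hL.trans_lt hj)

/-- States `X`, down moves `tau t`, weighted dimensions `f x s j`, framing term `fr x j`,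
`dom J x y`: the degree `J` module of `y` is a quotient of that of `x`,
`ntop J x t`: the degree `J` module of `x` has no top at `t`. -/
structure Sys (M : CoxeterMatrix B) where
  X : Type 1
  tau : B → X → X
  f : X → B → ℤ → ℝ
  fr : X → ℤ → ℝ
  dom : ℤ → X → X → Prop
  ntop : ℤ → X → B → Prop
  ex_st : ∀ (x : X) (c : Art M), ∃ st : Art M → X, st c = x ∧ ∀ a t, st (a * sg M t) = tau t (st a)
  f_nonneg : ∀ x s j, 0 ≤ f x s j
  fr_nonneg : ∀ x j, 0 ≤ fr x j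
  wf : Set.IsWF {r | ∃ x s j, f x s j = r}
  bdd : ∀ x, ∃ J, (∀ s, LvF (f x s) J) ∧ LvF (fr x) J
  f_tau : ∀ x s t, s ≠ t → f (tau t x) s = f x s
  fr_tau : ∀ x t, fr (tau t x) = fr x
  down : ∀ x t J, (∀ s, aa M t s ≠ 0 → LvF (f x s) J) → LvF (fr x) J → LvF (f x t) J →
    LvF (f (tau t x) t) J
  sub : ∀ x t J, ∑ s, aa M t s * f x s J + fr x J ≤ f x t J + f (tau t x) t J
  dom_le : ∀ J x y s, dom J x y → f y s J ≤ f x s J
  dom_tau : ∀ J x y t, dom J x y → LvF (f x t) J → LvF (f y t) J → dom J (tau t x) (tau t y)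
  ntop_dom : ∀ J x y t, dom J x y → ntop J x t → ntop J y t
  ntop_tau : ∀ J x t, LvF (f x t) J → ntop J (tau t x) t
  lv_of_ntop : ∀ J x t, (∀ s, aa M t s ≠ 0 → LvF (f x s) J) → LvF (fr x) J →
    LvF (f (tau t x) t) J → ntop J (tau t x) t → LvF (f x t) J
  dom_del : ∀ J x t, ntop J x t → LvF (f x t) J → dom J (tau t x) x
  dom_inert : ∀ J x t, LvF (f x t) J → f (tau t (tau t x)) t J ≤ f (tau t x) t J →
    2 * f (tau t x) t J ≤ ∑ s, aa M t s * f (tau t x) s J + fr (tau t x) J → dom J x (tau t x)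
  top : ∀ J x t, ¬ ntop J x t → ∃ y, dom J x y ∧ (∀ s, LvF (f y s) J) ∧ LvF (fr y) J ∧
    0 < f y t J ∧ ∀ s, s ≠ t → f y s J = 0
  zero : ∀ J x T θ, IsTheta M T θ → (∀ t ∈ T, ntop J x t) →
    (∀ t ∈ T, ∀ s, s ∉ T → aa M t s ≠ 0 → f x s J = 0) → fr x J = 0 → ∀ t ∈ T, f x t J = 0
  x0 : ∃ x, (∀ s, LvF (f x s) 0) ∧ LvF (fr x) 0 ∧ 0 < fr x 0
  x1 : ∃ x, (∀ s, LvF (f x s) 0) ∧ LvF (fr x) 0 ∧ ∀ t, ¬ ntop 0 x t

variable {M : CoxeterMatrix B}

/-- A system together with an equivariant map from the Artin group to the states. -/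
structure St (M : CoxeterMatrix B) extends Sys M where
  st : Art M → X
  st_sg : ∀ a t, st (a * sg M t) = tau t (st a)

namespace St

variable (E : St M)

/-- Heights. -/
def F (c : Art M) (s : B) (j : ℤ) : ℝ := E.f (E.st c) s j

/-- Framing term. -/
def Fr (c : Art M) (j : ℤ) : ℝ := E.fr (E.st c) j

/-- Level at most `J`. -/
def Lv (c : Art M) (s : B) (J : ℤ) : Prop := LvF (E.F c s) J

/-- The neighbours of `U` have level at most `J`. -/
def Out (U : Finset B) (J : ℤ) (c : Art M) : Prop :=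
  LvF (E.Fr c) J ∧ ∀ s, s ∉ U → (∃ t ∈ U, aa M t s ≠ 0) → E.Lv c s J

/-- The chamber `c` has level at most `J` on `U`. -/
def InB (U : Finset B) (J : ℤ) (c : Art M) : Prop := ∀ u ∈ U, E.Lv c u J

/-- Admissible thresholds. -/
def Adm (U : Finset B) (J : ℤ) (μ : B → ℝ) (c : Art M) : Prop :=
  E.Out U J c ∧ (∀ t ∈ U, cor M t μ ≤ E.Fr c J) ∧
    ∀ s, s ∉ U → (∃ t ∈ U, aa M t s ≠ 0) → μ s ≤ E.F c s J

/-- Negative vertex. -/
def Neg (J : ℤ) (μ : B → ℝ) (c : Art M) (t : B) : Prop := E.Lv c t J ∧ E.F c t J < μ t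

/-- Zero vertex. -/
def Zer (J : ℤ) (μ : B → ℝ) (c : Art M) (t : B) : Prop := E.Lv c t J ∧ E.F c t J = μ t

/-- One step among negative vertices: same chamber, or same vertex. -/
def Step (T U : Finset B) (J : ℤ) (μ : B → ℝ) (p q : Art M × B) : Prop :=
  q.2 ∈ U ∧ E.Neg J μ q.1 q.2 ∧ (q.1 = p.1 ∨ (q.2 = p.2 ∧ p.1⁻¹ * q.1 ∈ AP M (T.erase p.2)))

/-- Connected through negative vertices. -/
def Conn (T U : Finset B) (J : ℤ) (μ : B → ℝ) : Art M × B → Art M × B → Prop :=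
  Relation.ReflTransGen (E.Step T U J μ)

/-- Property (a): the negative vertices are connected. -/
def PA (T U : Finset B) : Prop := ∀ J μ c b t u, E.Adm U J μ c → b ∈ AP M T → t ∈ U → u ∈ U →
  E.Neg J μ c t → E.Neg J μ (c * b) u → E.Conn T U J μ (c, t) (c * b, u)

/-- Property (b): a zero vertex has a negative neighbour, if there is a negative vertex. -/
def PB (T U : Finset B) : Prop := ∀ J μ c b t u, E.Adm U J μ c → b ∈ AP M T → t ∈ U → u ∈ U →
  E.Zer J μ c t → E.Neg J μ (c * b) u →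
    ∃ b' ∈ AP M (T.erase t), ∃ u' ∈ U, u' ≠ t ∧ E.Neg J μ (c * b') u'

/-- The height vector relative to the threshold. -/
def hh (U : Finset B) (J : ℤ) (μ : B → ℝ) (c : Art M) : B → ℝ :=
  fun s => if s ∈ U then E.F c s J - μ s else 0

variable {E} {T U D : Finset B} {J L : ℤ} {μ : B → ℝ} {a b c : Art M} {s t u : B}

theorem st_sg_inv (a : Art M) (t : B) : E.tau t (E.st (a * (sg M t)⁻¹)) = E.st a := by
  rw [← E.st_sg, inv_mul_cancel_right]

theorem F_coset (hb : b ∈ AP M T) (hs : s ∉ T) (c : Art M) : E.F (c * b) s = E.F c s := by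
  refine AP_ind (p := fun b => E.F (c * b) s = E.F c s) (by rw [mul_one]) ?_ ?_ hb
  · intro a t _ ht ih
    rw [← ih, ← mul_assoc]
    exact funext fun j => by
      rw [F, F, E.st_sg, E.f_tau _ s t fun h => hs (h ▸ ht)]
  · intro a t _ ht ih
    rw [← ih, ← mul_assoc]
    exact funext fun j => by
      rw [F, F, ← st_sg_inv (c * a) t, E.f_tau _ s t fun h => hs (h ▸ ht)]

theorem Fr_mul (c b : Art M) : E.Fr (c * b) = E.Fr c := by
  refine AP_ind (p := fun b => E.Fr (c * b) = E.Fr c) (by rw [mul_one]) ?_ ?_ (mem_AP_univ b)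
  · intro a t _ _ ih
    rw [← ih, ← mul_assoc]
    exact funext fun j => by rw [Fr, Fr, E.st_sg, E.fr_tau]
  · intro a t _ _ ih
    rw [← ih, ← mul_assoc]
    exact funext fun j => by rw [Fr, Fr, ← st_sg_inv (c * a) t, E.fr_tau]

theorem F_erase (hb : b ∈ AP M (T.erase t)) (c : Art M) : E.F (c * b) t = E.F c t :=
  F_coset hb (Finset.notMem_erase t T) c

theorem Lv_coset (hb : b ∈ AP M T) (hs : s ∉ T) : E.Lv (c * b) s J ↔ E.Lv c s J := by
  rw [Lv, Lv, F_coset hb hs]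

theorem Neg_erase (hb : b ∈ AP M (T.erase t)) : E.Neg J μ (c * b) t ↔ E.Neg J μ c t := by
  rw [Neg, Neg, Lv, Lv, F_erase hb]

theorem Zer_erase (hb : b ∈ AP M (T.erase t)) : E.Zer J μ (c * b) t ↔ E.Zer J μ c t := by
  rw [Zer, Zer, Lv, Lv, F_erase hb]

theorem not_mem_of_adj (h : Closed M T U) (hs : s ∉ U) (h' : ∃ t ∈ U, aa M t s ≠ 0) : s ∉ T :=
  fun hT => by
    obtain ⟨t, ht, h0⟩ := h'
    exact h0 (h.2 t ht s hT hs)

theorem Out.coset (h : E.Out U J c) (hU : Closed M T U) (hb : b ∈ AP M T) : E.Out U J (c * b) :=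
  ⟨by rw [Fr_mul]; exact h.1,
    fun s hs h' => (Lv_coset hb (not_mem_of_adj hU hs h')).2 (h.2 s hs h')⟩

theorem Adm.coset (h : E.Adm U J μ c) (hU : Closed M T U) (hb : b ∈ AP M T) :
    E.Adm U J μ (c * b) :=
  ⟨h.1.coset hU hb, by rw [Fr_mul]; exact h.2.1,
    fun s hs h' => by rw [F_coset hb (not_mem_of_adj hU hs h')]; exact h.2.2 s hs h'⟩

theorem Out.mono (h : E.Out U J c) (hL : J ≤ L) : E.Out U L c :=
  ⟨h.1.mono hL, fun s hs h' => (h.2 s hs h').mono hL⟩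

/-- Passing to a subset on whose complement the level is at most `J`. -/
theorem Out.sub (h : E.Out U J c) (hD : D ⊆ U) (h' : ∀ u ∈ U, u ∉ D → E.Lv c u J) : E.Out D J c :=
  ⟨h.1, fun s hs ⟨t, ht, h0⟩ => by
    by_cases hU : s ∈ U
    · exact h' s hU hs
    · exact h.2 s hU ⟨t, hD ht, h0⟩⟩

theorem Adm.closed (h : E.Adm U J μ c) (hD : Closed M U D) : E.Adm D J μ c :=
  have key (s : B) (hs : s ∉ D) (h' : ∃ t ∈ D, aa M t s ≠ 0) : s ∉ U ∧ ∃ t ∈ U, aa M t s ≠ 0 :=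
    ⟨not_mem_of_adj hD hs h', h'.imp fun _ ht => ⟨hD.1 ht.1, ht.2⟩⟩
  ⟨⟨h.1.1, fun s hs h' => h.1.2 s (key s hs h').1 (key s hs h').2⟩,
    fun t ht => h.2.1 t (hD.1 ht), fun s hs h' => h.2.2 s (key s hs h').1 (key s hs h').2⟩

/-- The link of a zero vertex. -/
theorem Adm.erase (h : E.Adm U J μ c) (hz : E.Zer J μ c t) : E.Adm (U.erase t) J μ c := by
  have key (s : B) (hs : s ∉ U.erase t) (h' : ∃ r ∈ U.erase t, aa M r s ≠ 0) :
      s = t ∨ s ∉ U ∧ ∃ r ∈ U, aa M r s ≠ 0 := by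
    by_cases h1 : s = t
    · exact Or.inl h1
    · exact Or.inr ⟨fun h2 => hs (Finset.mem_erase.2 ⟨h1, h2⟩),
        h'.imp fun _ hr => ⟨Finset.mem_of_mem_erase hr.1, hr.2⟩⟩
  refine ⟨⟨h.1.1, fun s hs h' => ?_⟩, fun r hr => h.2.1 r (Finset.mem_of_mem_erase hr),
    fun s hs h' => ?_⟩
  · rcases key s hs h' with rfl | h1
    · exact hz.1
    · exact h.1.2 s h1.1 h1.2
  · rcases key s hs h' with rfl | h1
    · exact hz.2.ge
    · exact h.2.2 s h1.1 h1.2

/-- All neighbours of `t ∈ U` have level at most `J`. -/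
theorem loc (h : E.Out U J c) (hB : ∀ u ∈ U, u ≠ t → E.Lv c u J) (ht : t ∈ U) :
    ∀ s, aa M t s ≠ 0 → E.Lv c s J := fun s hs => by
  by_cases hU : s ∈ U
  · exact hB s hU fun h => hs (by rw [h, aa_self])
  · exact h.2 s hU ⟨t, ht, hs⟩

theorem supp_hh : Supp U (E.hh U J μ c) := fun _ hs => if_neg hs

theorem hh_mem (hs : s ∈ U) : E.hh U J μ c s = E.F c s J - μ s := if_pos hs

theorem Conn.symm {p q : Art M × B} (h : E.Conn T U J μ p q) (hp : p.2 ∈ U)
    (hn : E.Neg J μ p.1 p.2) : E.Conn T U J μ q p := by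
  induction h using Relation.ReflTransGen.head_induction_on with
  | refl => exact Relation.ReflTransGen.refl
  | head h _ ih =>
    refine (ih h.1 h.2.1).tail ⟨hp, hn, h.2.2.imp Eq.symm fun h' => ⟨h'.1.symm, ?_⟩⟩
    rw [h'.1]
    simpa using inv_mem h'.2

theorem Conn.mono {T' U' : Finset B} {p q : Art M × B} (h : E.Conn T U J μ p q) (hT : T ⊆ T')
    (hU : U ⊆ U') : E.Conn T' U' J μ p q := by
  induction h with
  | refl => exact Relation.ReflTransGen.refl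
  | tail _ h ih => exact ih.tail ⟨hU h.1, h.2.1, h.2.2.imp_right fun h' =>
      ⟨h'.1, AP_mono (Finset.erase_subset_erase _ hT) h'.2⟩⟩

end St

end Vale.Agent.P203
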