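import Vale.Agent.P203.DAct
import Vale.Agent.P203.DMod1
import Vale.Agent.P203.DMod2
import Vale.Agent.P203.Fold2
import Vale.Agent.P203.Sys

/-!
# P203 SysEx: the interface is inhabited (TASK)
Fill the fields; do not change the data. Work with representatives (`Quot.ind`, `cdim_mk`, `cdom_mk`, `cntop_mk`, `tauP_mk`), and `isPhi_tau`, `ntop_tau`, `zero_up`, `coh_bdd`,
`exists_triv` (`DCoh`), the lemmas of `DMod1`, `DMod2`. Basic facts to prove first:
* `F.ff x s j = 0 ↔ ∀ y, cdim x (some (s, y)) j = 0`, `F.frr x j = 0 ↔ cdim x none j = 0`;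
* a neighbour of `some (t, y)` is `none` or `some (s, y')` with `aa M t s ≠ 0` (`F.eig`, `F.pos`);
* `∑ y, η y * ∑ j adjacent to some (t, y), n j = ∑ s, aa M t s * ∑ y, η y * n (some (s, y)) + (∑ y, η y) * n none` (`F.eig`, `F.symm`).
`ex_st`: `fold_braid` for `g i = tau1 (some i)` and `tauP_list` give `Braid M τ`; in the group `(Perm X)ᵐᵒᵖ` the family `op (τ s)` is braided too (the reverse of an alternating word is one of the two
alternating words); `exists_artLift` gives `φ`, `st a = (φ (c⁻¹ * a)).unop x`. `wf`: image of the partially well ordered set `D → ℕ` (`Pi.isPWO`) under a monotone map.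
`dom_inert`: `phi_ge`, `phi_sub` at each vertex over `t` turn the weighted inequalities into equalities at each vertex. `top`: `exists_triv {i} J`, `dom_simple`.
`zero`: `zero_of_ntop` with the vertices over `T` and weights `θ s * η y`. `x0`: `exists_triv {none} 0`; `x1`: `exists_triv univ 0`.
-/

namespace Vale.Agent.P203

variable {B : Type} [Fintype B] [DecidableEq B] {M : CoxeterMatrix B} (F : FoldD M)

/-- The framed cover graph. -/
def FoldD.graph : SimpleGraph (Option (B × F.D)) where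
  Adj i j := match i, j with
    | none, none => False
    | none, some _ => True
    | some _, none => True
    | some i, some j => F.Adj i j
  symm := ⟨fun i j h => match i, j, h with
    | none, some _, _ => trivial
    | some _, none, _ => trivial
    | some _, some _, h => FoldD.Adj.symm h⟩
  loopless := ⟨fun i h => match i, h with
    | some _, h => h.1 rfl⟩

noncomputable instance : DecidableRel F.graph.Adj := Classical.decRel _

/-- The vertices over `t`. -/
def FoldD.fib (t : B) : Finset (Option (B × F.D)) := Finset.univ.image fun y : F.D => some (t, y)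

omit [Fintype B] in
theorem FoldD.ind_fib (t : B) : Ind F.graph (F.fib t) := by
  intro i hi j hj h
  obtain ⟨y, -, rfl⟩ := Finset.mem_image.1 hi
  obtain ⟨y', -, rfl⟩ := Finset.mem_image.1 hj
  exact h.1 rfl

/-- Weighted dimensions. -/
noncomputable def FoldD.ff (x : Cls F.graph) (s : B) (j : ℤ) : ℝ :=
  ∑ y, F.η y * cdim x (some (s, y)) j

/-- Framing term. -/
noncomputable def FoldD.frr (x : Cls F.graph) (j : ℤ) : ℝ := (∑ y, F.η y) * cdim x none j

section classes

variable {V : Type} [Fintype V] [DecidableEq V] {G : SimpleGraph V} [DecidableRel G.Adj]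
  {I : Finset V} (hI : Ind G I) {i j : V} {n : ℤ}

theorem sx_dim_out (x : Cls G) (hj : j ∉ I) : cdim (tauP I hI x) j n = cdim x j n := by
  induction x using Quot.ind with
  | mk R => rw [tauP_mk, cdim_mk, cdim_mk]; exact Mod.phi_dim (R.isPhi_tau hI n) hj

theorem sx_ntop_tau (x : Cls G) (hi : i ∈ I) (h : cdim x i (n + 1) = 0) :
    cntop n (tauP I hI x) i := by
  induction x using Quot.ind with
  | mk R => rw [tauP_mk, cntop_mk]; rw [cdim_mk] at h; exact R.ntop_tau hI hi h

theorem sx_zero_up (x : Cls G) (hi : i ∈ I) (h : cntop n (tauP I hI x) i)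
    (h0 : ∀ j, G.Adj i j → cdim x j (n + 1) = 0) : cdim x i (n + 1) = 0 := by
  induction x using Quot.ind with
  | mk R =>
    rw [tauP_mk, cntop_mk] at h
    simp only [cdim_mk] at h0 ⊢
    exact R.zero_up hI hi h h0

theorem sx_sub (x : Cls G) (hi : i ∈ I) :
    ∑ j, (if G.Adj i j then cdim x j n else 0) ≤ cdim x i n + cdim (tauP I hI x) i n := by
  induction x using Quot.ind with
  | mk R =>
    simp only [tauP_mk, cdim_mk]
    exact Mod.phi_sub hI (R.isPhi_tau hI n) hi

theorem sx_ge (x : Cls G) (hi : i ∈ I) (h : cntop n x i) :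
    cdim x i n ≤ cdim (tauP I hI x) i n := by
  induction x using Quot.ind with
  | mk R =>
    simp only [tauP_mk, cdim_mk]
    exact Mod.phi_ge hI (R.isPhi_tau hI n) hi ((cntop_mk _ _ _).1 h)

theorem sx_zero (x : Cls G) (hi : i ∈ I) (h : cntop n (tauP I hI x) i)
    (h0 : ∀ j, G.Adj i j → cdim x j n = 0) : cdim (tauP I hI x) i n = 0 := by
  induction x using Quot.ind with
  | mk R =>
    rw [tauP_mk, cntop_mk] at h
    simp only [tauP_mk, cdim_mk] at h0 ⊢
    exact Mod.phi_zero hI (R.isPhi_tau hI n) hi h h0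

theorem sx_dom_del (x : Cls G) (h : ∀ i ∈ I, cntop n x i)
    (h' : ∀ i ∈ I, cntop n (tauP I hI x) i) : cdom n (tauP I hI x) x := by
  induction x using Quot.ind with
  | mk R =>
    simp only [tauP_mk, cntop_mk, cdom_mk] at h h' ⊢
    exact Mod.dom_del hI (R.isPhi_tau hI n) h h'

theorem sx_dom_phi (x y : Cls G) (hd : cdom n x y) (h : ∀ i ∈ I, cntop n (tauP I hI x) i)
    (h' : ∀ i ∈ I, cntop n (tauP I hI y) i) : cdom n (tauP I hI x) (tauP I hI y) := by
  induction x using Quot.ind with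
  | mk R =>
    induction y using Quot.ind with
    | mk R' =>
      simp only [tauP_mk, cntop_mk, cdom_mk] at hd h h' ⊢
      exact Mod.dom_phi hI hd (R.isPhi_tau hI n) (R'.isPhi_tau hI n) h h'

theorem sx_dom_inert (x : Cls G) (h : ∀ i ∈ I, cntop n (tauP I hI x) i)
    (h1 : ∀ i ∈ I, cdim (tauP I hI (tauP I hI x)) i n ≤ cdim (tauP I hI x) i n)
    (h2 : ∀ i ∈ I, 2 * cdim (tauP I hI x) i n ≤
      ∑ j, (if G.Adj i j then cdim (tauP I hI x) j n else 0)) : cdom n x (tauP I hI x) := by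
  induction x using Quot.ind with
  | mk R =>
    simp only [tauP_mk, cntop_mk, cdom_mk, cdim_mk] at h h1 h2 ⊢
    exact Mod.dom_inert hI (R.isPhi_tau hI n) ((R.tau I hI).isPhi_tau hI n) h h1 h2

theorem sx_bdd (x : Cls G) : ∃ N, ∀ i n, N < n → cdim x i n = 0 := x.out.coh_bdd

theorem sx_triv (G : SimpleGraph V) [DecidableRel G.Adj] (Q : Finset V) (J : ℤ) : ∃ x : Cls G,
    (∀ i n, cdim x i n = if i ∈ Q ∧ n = J then 1 else 0) ∧ ∀ i ∈ Q, ¬ cntop J x i := by
  obtain ⟨R, h1, h2⟩ := Rep.exists_triv G Q J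
  exact ⟨Quot.mk _ R, fun i n => by rw [cdim_mk, h1], fun i hi => by rw [cntop_mk]; exact h2 i hi⟩

end classes

omit [Fintype B] [DecidableEq B] in
theorem sx_rev_alt (s t : B) (m : ℕ) : (CoxeterSystem.alternatingWord s t m).reverse =
    if Even m then CoxeterSystem.alternatingWord t s m else CoxeterSystem.alternatingWord s t m := by
  induction m generalizing s t with
  | zero => simp [CoxeterSystem.alternatingWord]
  | succ m ih =>
    rw [CoxeterSystem.alternatingWord_succ, List.concat_eq_append, List.reverse_append, ih]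
    by_cases h : Even m
    · rw [if_pos h, if_neg (by simpa [Nat.even_add_one] using h), ← List.concat_eq_append,
        ← CoxeterSystem.alternatingWord_succ, CoxeterSystem.alternatingWord_succ', if_pos h]
      rfl
    · rw [if_neg h, if_pos (by simpa [Nat.even_add_one] using h),
        CoxeterSystem.alternatingWord_succ', if_neg h]
      rfl

omit [Fintype B] [DecidableEq B] in
theorem sx_braid_op {G : Type*} [Monoid G] {g : B → G} (hg : Braid M g) :
    Braid M fun s => MulOpposite.op (g s) := by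
  intro s t h hm
  have key : ∀ l : List B, (l.map fun s => MulOpposite.op (g s)).prod =
      MulOpposite.op ((l.reverse.map g).prod) := fun l => by
    rw [MulOpposite.op_list_prod, List.map_map, List.map_reverse, List.reverse_reverse]
    rfl
  rw [key, key, sx_rev_alt, sx_rev_alt]
  by_cases he : Even (M s t)
  · rw [if_pos he, if_pos he, hg s t h hm]
  · rw [if_neg he, if_neg he, hg s t h hm]

namespace FoldD

omit [Fintype B] in
theorem sx_mem_fib {t : B} {i : Option (B × F.D)} : i ∈ F.fib t ↔ ∃ y, i = some (t, y) := by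
  simp [fib, eq_comm]

omit [Fintype B] in
theorem sx_fib (t : B) (y : F.D) : some (t, y) ∈ F.fib t := F.sx_mem_fib.2 ⟨y, rfl⟩

omit [Fintype B] in
theorem sx_eig (t s : B) (y' : F.D) :
    ∑ y, (if F.Adj (t, y) (s, y') then F.η y else 0) = aa M t s * F.η y' := by
  by_cases h : t = s
  · subst h
    simp [Adj, aa_self]
  · rw [aa_symm, ← F.eig s t (Ne.symm h) y']
    refine Finset.sum_congr rfl fun y _ => ?_
    have : F.Adj (t, y) (s, y') ↔ F.E s t y' y :=
      ⟨fun h' => F.symm _ _ _ _ h'.2, fun h' => ⟨h, F.symm _ _ _ _ h'⟩⟩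
    simp only [this]

omit [Fintype B] in
theorem sx_aa {t s : B} {y y' : F.D} (h : F.Adj (t, y) (s, y')) : aa M t s ≠ 0 := by
  intro h0
  have h1 := F.sx_eig t s y'
  rw [h0, zero_mul, Finset.sum_eq_zero_iff_of_nonneg fun z _ => by
    split_ifs
    exacts [(F.pos z).le, le_rfl]] at h1
  have h2 := h1 y (Finset.mem_univ _)
  rw [if_pos h] at h2
  exact (F.pos y).ne' h2

omit [Fintype B] in
theorem sx_sum_pos : 0 < ∑ y, F.η y :=
  Finset.sum_pos (fun y _ => F.pos y) Finset.univ_nonempty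

theorem sx_ff_zero {x : Cls F.graph} {s : B} {j : ℤ} :
    F.ff x s j = 0 ↔ ∀ y, cdim x (some (s, y)) j = 0 := by
  rw [ff, Finset.sum_eq_zero_iff_of_nonneg fun y _ =>
    mul_nonneg (F.pos y).le (Nat.cast_nonneg _)]
  simp [(F.pos _).ne']

theorem sx_frr_zero {x : Cls F.graph} {j : ℤ} : F.frr x j = 0 ↔ cdim x none j = 0 := by
  simp [frr, F.sx_sum_pos.ne']

theorem sx_nbr {x : Cls F.graph} {t : B} {j : ℤ} (h1 : ∀ s, aa M t s ≠ 0 → F.ff x s j = 0)
    (h2 : F.frr x j = 0) (y : F.D) : ∀ k, F.graph.Adj (some (t, y)) k → cdim x k j = 0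
  | none, _ => F.sx_frr_zero.1 h2
  | some (s, y'), h => F.sx_ff_zero.1 (h1 s (F.sx_aa h)) y'

theorem sx_adj_sum (i : B × F.D) (n : Option (B × F.D) → ℝ) :
    ∑ k, (if F.graph.Adj (some i) k then n k else 0) =
      n none + ∑ s, ∑ y', if F.Adj i (s, y') then n (some (s, y')) else 0 := by
  rw [Fintype.sum_option, Fintype.sum_prod_type, if_pos (show F.graph.Adj (some i) none from trivial)]
  congr 1
  refine Finset.sum_congr rfl fun s _ => Finset.sum_congr rfl fun y' _ => ?_
  exact if_congr Iff.rfl rfl rfl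

theorem sx_wsum (t : B) (n : Option (B × F.D) → ℝ) :
    ∑ y, F.η y * ∑ k, (if F.graph.Adj (some (t, y)) k then n k else 0) =
      ∑ s, aa M t s * ∑ y, F.η y * n (some (s, y)) + (∑ y, F.η y) * n none := by
  simp only [sx_adj_sum, mul_add, Finset.sum_add_distrib]
  rw [add_comm, Finset.sum_mul]
  congr 1
  simp only [Finset.mul_sum]
  rw [Finset.sum_comm]
  refine Finset.sum_congr rfl fun s _ => ?_
  rw [Finset.sum_comm]
  refine Finset.sum_congr rfl fun y' _ => ?_
  rw [← mul_assoc, ← F.sx_eig, Finset.sum_mul]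
  refine Finset.sum_congr rfl fun y _ => ?_
  split_ifs <;> simp

theorem sx_wsum' (t : B) (x : Cls F.graph) (J : ℤ) :
    ∑ y, F.η y * ((∑ k, (if F.graph.Adj (some (t, y)) k then cdim x k J else 0) : ℕ) : ℝ) =
      ∑ s, aa M t s * F.ff x s J + F.frr x J := by
  rw [frr]
  simp only [ff]
  rw [← F.sx_wsum t fun k => (cdim x k J : ℝ)]
  refine Finset.sum_congr rfl fun y _ => ?_
  push_cast
  rfl

omit [Fintype B] in
theorem sx_eq_of_le {a b : F.D → ℕ} (h : ∀ y, a y ≤ b y)
    (h' : ∑ y, F.η y * (b y : ℝ) ≤ ∑ y, F.η y * (a y : ℝ)) (y : F.D) : b y ≤ a y := by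
  have h1 : ∀ z ∈ (Finset.univ : Finset F.D), F.η z * (a z : ℝ) ≤ F.η z * (b z : ℝ) := fun z _ =>
    mul_le_mul_of_nonneg_left (by exact_mod_cast h z) (F.pos z).le
  have h2 := (Finset.sum_eq_sum_iff_of_le h1).1 (le_antisymm (Finset.sum_le_sum h1) h') y
    (Finset.mem_univ _)
  have h3 := mul_left_cancel₀ (F.pos y).ne' h2
  exact_mod_cast h3.ge

theorem sx_braid : Braid M fun t => tauP (F.fib t) (F.ind_fib t) := by
  have h := fold_braid F (fun i => tau1 F.graph (some i))
    (fun i j h h' => tau1_comm (fun e => h (Option.some.inj e)) h') fun i j h => tau1_braid h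
  have e : ∀ t, tauP (F.fib t) (F.ind_fib t) =
      ((F.bl t).map fun i => tau1 F.graph (some i)).prod := fun t => by
    have h1 : ((F.bl t).map some).toFinset = F.fib t := by
      ext i
      simp [bl, fib]
    have h2 : ((F.bl t).map some).Nodup := by
      rw [bl, List.map_map]
      exact (Finset.nodup_toList _).map fun a b hab => by simpa using hab
    rw [tauP_congr (F.ind_fib t) (h1 ▸ F.ind_fib t) h1.symm, tauP_list _ h2, List.map_map]
    rfl
  simpa only [e] using h

theorem sx_ex_st (x : Cls F.graph) (c : Art M) : ∃ st : Art M → Cls F.graph, st c = x ∧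
    ∀ a t, st (a * sg M t) = tauP (F.fib t) (F.ind_fib t) (st a) := by
  obtain ⟨φ, hφ⟩ := exists_artLift (sx_braid_op F.sx_braid)
  refine ⟨fun a => (φ (c⁻¹ * a)).unop x, by simp, fun a t => ?_⟩
  simp only [← mul_assoc, map_mul _ _ (sg M t), hφ, MulOpposite.unop_mul, MulOpposite.unop_op,
    Equiv.Perm.mul_apply]

theorem sx_wf : Set.IsWF {r | ∃ x s j, F.ff x s j = r} := by
  have h : Monotone fun n : F.D → ℕ => ∑ y, F.η y * (n y : ℝ) := fun a b hab =>
    Finset.sum_le_sum fun y _ => mul_le_mul_of_nonneg_left (by exact_mod_cast hab y) (F.pos y).le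
  refine ((Set.isPWO_of_wellQuasiOrderedLE Set.univ).image_of_monotone h).isWF.mono ?_
  rintro _ ⟨x, s, j, rfl⟩
  exact ⟨fun y => cdim x (some (s, y)) j, Set.mem_univ _, rfl⟩

theorem sx_ntop_tau' {J : ℤ} {x : Cls F.graph} {t : B} (h : LvF (F.ff x t) J) :
    ∀ i ∈ F.fib t, cntop J (tauP (F.fib t) (F.ind_fib t) x) i := fun i hi => by
  obtain ⟨y, rfl⟩ := F.sx_mem_fib.1 hi
  exact sx_ntop_tau _ x hi (F.sx_ff_zero.1 (h _ (by omega)) y)

theorem sx_zero' (J : ℤ) (x : Cls F.graph) (T : Finset B) (θ : B → ℝ) (hθ : IsTheta M T θ)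
    (h1 : ∀ t ∈ T, ∀ y, cntop J x (some (t, y)))
    (h2 : ∀ t ∈ T, ∀ s, s ∉ T → aa M t s ≠ 0 → F.ff x s J = 0) (h3 : F.frr x J = 0) :
    ∀ t ∈ T, F.ff x t J = 0 := by
  let T' : Finset (Option (B × F.D)) := (T ×ˢ Finset.univ).image some
  have hT' : ∀ i, i ∈ T' ↔ ∃ t ∈ T, ∃ y, i = some (t, y) := fun i => by
    simp [T', eq_comm]
  let θ' : Option (B × F.D) → ℝ := fun i => i.elim 0 fun p => θ p.1 * F.η p.2
  have key := Mod.zero_of_ntop (M := x.out.coh J) T' θ' ?_ ?_ ?_ ?_
  · intro t ht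
    exact F.sx_ff_zero.2 fun y => key _ ((hT' _).2 ⟨t, ht, y, rfl⟩)
  · intro i hi
    obtain ⟨t, ht, y, rfl⟩ := (hT' _).1 hi
    exact mul_pos (hθ.2 t ht).1 (F.pos y)
  · intro i hi
    obtain ⟨t, ht, y, rfl⟩ := (hT' _).1 hi
    have e1 : ∑ j ∈ T', (if F.graph.Adj (some (t, y)) j then θ' j else 0) =
        ∑ j, (if F.graph.Adj (some (t, y)) j then θ' j else 0) := by
      refine Finset.sum_subset (Finset.subset_univ _) fun j _ hj => ?_
      rcases j with _ | ⟨s, y'⟩
      · simp [θ']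
      · have : s ∉ T := fun hs => hj ((hT' _).2 ⟨s, hs, y', rfl⟩)
        simp [θ', hθ.1 s this]
    have e2 : ∀ s, ∑ y', (if F.Adj (t, y) (s, y') then θ' (some (s, y')) else 0) =
        aa M t s * θ s * F.η y := fun s => by
      rw [aa_symm, mul_right_comm, ← F.sx_eig, Finset.sum_mul]
      refine Finset.sum_congr rfl fun y' _ => ?_
      have : F.Adj (t, y) (s, y') ↔ F.Adj (s, y') (t, y) := ⟨Adj.symm, Adj.symm⟩
      simp only [this, θ', Option.elim]
      split_ifs <;> ring
    rw [e1, sx_adj_sum]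
    simp only [e2]
    have h4 := (hθ.2 t ht).2
    rw [cor] at h4
    have h5 := mul_pos h4 (F.pos y)
    rw [← Finset.sum_mul]
    simp only [θ', Option.elim]
    linarith
  · intro i hi
    obtain ⟨t, ht, y, rfl⟩ := (hT' _).1 hi
    exact h1 t ht y
  · intro i hi j hj hadj
    obtain ⟨t, ht, y, rfl⟩ := (hT' _).1 hi
    rcases j with _ | ⟨s, y'⟩
    · exact F.sx_frr_zero.1 h3
    · exact F.sx_ff_zero.1 (h2 t ht s (fun hs => hj ((hT' _).2 ⟨s, hs, y', rfl⟩))
        (F.sx_aa hadj)) y'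

theorem sx_lv_triv {x : Cls F.graph} {Q : Finset (Option (B × F.D))} {J : ℤ}
    (h : ∀ i n, cdim x i n = if i ∈ Q ∧ n = J then 1 else 0) :
    (∀ s, LvF (F.ff x s) J) ∧ LvF (F.frr x) J :=
  ⟨fun _ j hj => F.sx_ff_zero.2 fun y => by rw [h, if_neg fun h' => hj.ne' h'.2],
    fun j hj => F.sx_frr_zero.2 (by rw [h, if_neg fun h' => hj.ne' h'.2])⟩

end FoldD

/-- The system. -/
noncomputable def FoldD.sys : Sys M where
  X := Cls F.graph
  tau t := tauP (F.fib t) (F.ind_fib t)
  f := F.ff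
  fr := F.frr
  dom := cdom
  ntop J x t := ∀ y, cntop J x (some (t, y))
  ex_st := F.sx_ex_st
  f_nonneg := fun _ _ _ => Finset.sum_nonneg fun y _ =>
    mul_nonneg (F.pos y).le (Nat.cast_nonneg _)
  fr_nonneg := fun _ _ => mul_nonneg F.sx_sum_pos.le (Nat.cast_nonneg _)
  wf := F.sx_wf
  bdd := fun x => by
    obtain ⟨N, hN⟩ := sx_bdd x
    exact ⟨N, fun s j hj => F.sx_ff_zero.2 fun y => hN _ j hj,
      fun j hj => F.sx_frr_zero.2 (hN _ j hj)⟩
  f_tau := fun x s t h => funext fun j => Finset.sum_congr rfl fun y _ => by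
    have h1 : some (s, y) ∉ F.fib t := fun h' => by
      obtain ⟨y', e⟩ := F.sx_mem_fib.1 h'
      exact h (congrArg Prod.fst (Option.some.inj e))
    rw [sx_dim_out _ x h1]
  fr_tau := fun x t => funext fun j => by
    rw [FoldD.frr, FoldD.frr, sx_dim_out _ x fun h' => by
      obtain ⟨y', e⟩ := F.sx_mem_fib.1 h'
      exact absurd e (by simp)]
  down := fun x t J h1 h2 h3 j hj => F.sx_ff_zero.2 fun y =>
    sx_zero _ x (F.sx_fib t y) (F.sx_ntop_tau' (h3.mono hj.le) _ (F.sx_fib t y))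
      (F.sx_nbr (fun s hs => h1 s hs j hj) (h2 j hj) y)
  sub := fun x t J => by
    rw [← F.sx_wsum', FoldD.ff, FoldD.ff, ← Finset.sum_add_distrib]
    refine Finset.sum_le_sum fun y _ => ?_
    rw [← mul_add]
    exact mul_le_mul_of_nonneg_left (by exact_mod_cast sx_sub _ x (F.sx_fib t y)) (F.pos y).le
  dom_le := fun J x y s h => Finset.sum_le_sum fun z _ =>
    mul_le_mul_of_nonneg_left (Nat.cast_le.2 (Mod.Dom.dim_le h _)) (F.pos z).le
  dom_tau := fun J x y t h h1 h2 => sx_dom_phi _ x y h (F.sx_ntop_tau' h1) (F.sx_ntop_tau' h2)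
  ntop_dom := fun J x y t h h1 z => Mod.Dom.ntop h (h1 z)
  ntop_tau := fun J x t h y => F.sx_ntop_tau' h _ (F.sx_fib t y)
  lv_of_ntop := fun J x t h1 h2 h3 h4 j hj => F.sx_ff_zero.2 fun y => by
    obtain ⟨n, rfl⟩ : ∃ n, j = n + 1 := ⟨j - 1, by ring⟩
    refine sx_zero_up (F.ind_fib t) x (F.sx_fib t y) ?_
      (F.sx_nbr (fun s hs => h1 s hs _ hj) (h2 _ hj) y)
    rcases (show J ≤ n by omega).eq_or_lt with rfl | hn
    · exact h4 y
    · exact Mod.ntop_of_dim (F.sx_ff_zero.1 (h3 n hn) y)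
  dom_del := fun J x t h1 h2 => sx_dom_del _ x (fun i hi => by
    obtain ⟨y, rfl⟩ := F.sx_mem_fib.1 hi
    exact h1 y) (F.sx_ntop_tau' h2)
  dom_inert := fun J x t h1 h2 h3 => by
    have h4 := F.sx_ntop_tau' h1
    have h5 := F.sx_eq_of_le (fun y => sx_ge (F.ind_fib t) _ (F.sx_fib t y) (h4 _ (F.sx_fib t y))) h2
    refine sx_dom_inert _ x h4 (fun i hi => ?_) fun i hi => ?_
    · obtain ⟨y, rfl⟩ := F.sx_mem_fib.1 hi
      exact h5 y
    · obtain ⟨y, rfl⟩ := F.sx_mem_fib.1 hi
      refine F.sx_eq_of_le (b := fun y => 2 * cdim (tauP (F.fib t) (F.ind_fib t) x) (some (t, y)) J)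
        (a := fun y => ∑ j, if F.graph.Adj (some (t, y)) j then
          cdim (tauP (F.fib t) (F.ind_fib t) x) j J else 0)
        (fun z => ?_) ?_ y
      · have := sx_sub (F.ind_fib t) (n := J) (tauP (F.fib t) (F.ind_fib t) x) (F.sx_fib t z)
        have := h5 z
        omega
      · rw [F.sx_wsum']
        refine le_trans (le_of_eq ?_) h3
        rw [FoldD.ff, Finset.mul_sum]
        refine Finset.sum_congr rfl fun z _ => ?_
        push_cast
        ring
  top := fun J x t h => by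
    obtain ⟨y', hy'⟩ := not_forall.1 h
    obtain ⟨y, h1, -⟩ := sx_triv F.graph {some (t, y')} J
    refine ⟨y, Mod.dom_simple hy' ((h1 _ _).trans (by simp)) fun j hj =>
      (h1 _ _).trans (by simp [hj]), (F.sx_lv_triv h1).1, (F.sx_lv_triv h1).2, ?_,
      fun s hs => F.sx_ff_zero.2 fun z => by simp [h1, hs]⟩
    refine Finset.sum_pos' (fun z _ => mul_nonneg (F.pos z).le (Nat.cast_nonneg _))
      ⟨y', Finset.mem_univ _, ?_⟩
    simp [h1, F.pos]
  zero := F.sx_zero'
  x0 := by
    obtain ⟨y, h1, -⟩ := sx_triv F.graph {none} 0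
    refine ⟨y, (F.sx_lv_triv h1).1, (F.sx_lv_triv h1).2, ?_⟩
    simp [FoldD.frr, h1, F.sx_sum_pos]
  x1 := by
    obtain ⟨y, h1, h2⟩ := sx_triv F.graph Finset.univ 0
    exact ⟨y, (F.sx_lv_triv h1).1, (F.sx_lv_triv h1).2,
      fun t h => h2 _ (Finset.mem_univ _) (h (Classical.arbitrary _))⟩

theorem exists_sys (M : CoxeterMatrix B) : Nonempty (Sys M) :=
  (exists_fold M).elim fun F => ⟨F.sys⟩

end Vale.Agent.P203
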