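import Vale.Agent.P203.TDef

/-!
# P203 TCell: extension of maps over cells and finite complexes (done)
* `cell_ext`: let `Z = {x ∈ D | t x = 0}` (compact), `H` a null-homotopy of the compact set `g '' Z` to `y`. With `p x = (1 - t x)⁻¹ • (x - t x • c)` put
  `G x = H (g (p x), 2 * t x)` if `t x ≤ 1 / 2`, `G x = y` otherwise; glue on the two closed sets `D ∩ {t ≤ 1 / 2}`, `D ∩ {1 / 2 ≤ t}`
  (`ContinuousOn.union_of_isClosed`, or `ContinuousOn.if`).
* `cx_ext`: induction on `S`, removing an index of maximal rank; glue along the boundary of the last cell (closed sets).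
* `simplex_ext`: `σ` nonempty (else trivial), `c` the barycentre, `t x = σ.card * σ.inf' _ x`.
* `prism_ext`: `c = (barycentre, 1 / 2)`, `t (x, s) = min (card * inf' x) (min (2 * s) (2 * (1 - s)))`.
* `cube_ext`: `c = fun _ => 1 / 2`, `t x = inf' of min (2 * x i) (2 * (1 - x i))`.
`simplex σ` is compact: a closed subset of `Set.pi univ fun _ => Icc 0 1`.
-/

namespace Vale.Agent.P203

open Set

variable {E E' : Type*} [TopologicalSpace E] {Y : Set E}

theorem isCompact_simplex {Q : Type*} (σ : Finset Q) : IsCompact (simplex σ) := by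
  refine (isCompact_univ_pi fun _ : Q => (isCompact_Icc : IsCompact (Icc (0 : ℝ) 1))).of_isClosed_subset
    ?_ ?_
  · have h : simplex σ = (⋂ q, {x : Q → ℝ | 0 ≤ x q}) ∩
        ((⋂ q, ⋂ _ : q ∉ σ, {x : Q → ℝ | x q = 0}) ∩ {x : Q → ℝ | ∑ q ∈ σ, x q = 1}) := by
      ext x
      simp [simplex]
    rw [h]
    refine (isClosed_iInter fun q => isClosed_le continuous_const (continuous_apply q)).inter
      ((isClosed_iInter fun q => isClosed_iInter fun _ =>
        isClosed_eq (continuous_apply q) continuous_const).inter (isClosed_eq ?_ continuous_const))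
    exact continuous_finsetSum _ fun q _ => continuous_apply q
  · rintro x ⟨h1, h2, h3⟩ q -
    refine ⟨h1 q, ?_⟩
    by_cases hq : q ∈ σ
    · exact h3 ▸ Finset.single_le_sum (fun i _ => h1 i) hq
    · rw [h2 q hq]
      exact zero_le_one

theorem cell_ext [AddCommGroup E'] [Module ℝ E'] [TopologicalSpace E'] [IsTopologicalAddGroup E']
    [ContinuousSMul ℝ E'] [T2Space E'] (hY : WCs Y) {D : Set E'} (hD : IsCompact D) (c : E')
    {t : E' → ℝ} (ht : Continuous t) (h0 : ∀ x ∈ D, 0 ≤ t x)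
    (h1 : ∀ x ∈ D, t x < 1 → (1 - t x)⁻¹ • (x - t x • c) ∈ D ∧ t ((1 - t x)⁻¹ • (x - t x • c)) = 0) :
    Ext D {x ∈ D | t x = 0} Y := by
  intro g hg hgY
  have hZ : IsCompact {x ∈ D | t x = 0} := hD.inter_right (isClosed_eq ht continuous_const)
  obtain ⟨y, hy, H, hH, hHY, hH0, hH1⟩ := hY _ hgY.image_subset (hZ.image_of_continuousOn hg)
  set p : E' → E' := fun x => (1 - t x)⁻¹ • (x - t x • c) with hp
  have hpZ : ∀ x ∈ D, t x ≤ 1 / 2 → p x ∈ {x ∈ D | t x = 0} := fun x hx h =>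
    h1 x hx (by linarith)
  have hm : MapsTo (fun x => (g (p x), 2 * t x)) (D ∩ {x | t x ≤ 1 / 2})
      ((g '' {x ∈ D | t x = 0}) ×ˢ Icc 0 1) := fun x hx =>
    ⟨mem_image_of_mem g (hpZ x hx.1 hx.2), by linarith [h0 x hx.1], by
      have : t x ≤ 1 / 2 := hx.2
      linarith⟩
  refine ⟨fun x => if t x ≤ 1 / 2 then H (g (p x), 2 * t x) else y, ?_, ?_, ?_⟩
  · have hu : D = (D ∩ {x | t x ≤ 1 / 2}) ∪ (D ∩ {x | 1 / 2 ≤ t x}) := by
      ext x
      refine ⟨fun hx => ?_, fun hx => hx.elim And.left And.left⟩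
      exact (le_total (t x) (1 / 2)).imp (fun h => ⟨hx, h⟩) fun h => ⟨hx, h⟩
    rw [hu]
    refine ContinuousOn.union_of_isClosed ?_ ?_
      (hD.isClosed.inter (isClosed_le ht continuous_const))
      (hD.isClosed.inter (isClosed_le continuous_const ht))
    · have hpc : ContinuousOn p (D ∩ {x | t x ≤ 1 / 2}) := by
        refine ContinuousOn.smul ((continuous_const.sub ht).continuousOn.inv₀ fun x hx => ?_)
          (continuous_id.sub (ht.smul continuous_const)).continuousOn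
        have : t x ≤ 1 / 2 := hx.2
        change 1 - t x ≠ 0
        linarith
      refine (hH.comp (((hg.comp hpc fun x hx => hpZ x hx.1 hx.2)).prodMk
        (continuous_const.mul ht).continuousOn) hm).congr fun x hx => ?_
      exact if_pos hx.2
    · refine (continuousOn_const (c := y)).congr fun x hx => ?_
      have h2 : 1 / 2 ≤ t x := hx.2
      beta_reduce
      split_ifs with h
      · rw [show 2 * t x = 1 by linarith]
        exact hH1 _ (mem_image_of_mem g (hpZ x hx.1 h))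
      · rfl
  · intro x hx
    beta_reduce
    split_ifs with h
    · exact hHY (hm ⟨hx, h⟩)
    · exact hy
  · intro x hx
    have h2 : t x = 0 := hx.2
    have h3 : p x = x := by simp [hp, h2]
    beta_reduce
    rw [if_pos (by rw [h2]; norm_num), h3, h2, mul_zero]
    exact hH0 _ (mem_image_of_mem g hx)

theorem cx_ext [TopologicalSpace E'] {κ : Type*} (S : Finset κ) (cell bd : κ → Set E') (rk : κ → ℕ)
    {Z : Set E'} (hZ : IsClosed Z) (hc : ∀ k ∈ S, IsClosed (cell k))
    (he : ∀ k ∈ S, Ext (cell k) (bd k) Y)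
    (h1 : ∀ k ∈ S, ∀ x ∈ bd k, x ∈ Z ∨ ∃ j ∈ S, rk j < rk k ∧ x ∈ cell j)
    (h2 : ∀ k ∈ S, cell k ∩ Z ⊆ bd k)
    (h3 : ∀ k ∈ S, ∀ j ∈ S, j ≠ k → rk j ≤ rk k → cell k ∩ cell j ⊆ bd k) :
    Ext (Z ∪ ⋃ k ∈ S, cell k) Z Y := by
  classical
  induction S using Finset.induction_on_max_value rk with
  | empty =>
    intro g hg hgY
    exact ⟨g, by simpa using hg, by simpa using hgY, fun _ _ => rfl⟩
  | insert a s ha hmax ih =>
    intro g hg hgY
    have hs : ∀ k ∈ s, k ∈ insert a s := fun k hk => Finset.mem_insert_of_mem hk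
    have ha' : a ∈ insert a s := Finset.mem_insert_self a s
    obtain ⟨G0, hG0, hG0Y, hG0e⟩ := ih (fun k hk => hc k (hs k hk)) (fun k hk => he k (hs k hk))
      (fun k hk x hx => (h1 k (hs k hk) x hx).imp id fun ⟨j, hj, h4, h5⟩ =>
        ⟨j, (Finset.mem_insert.1 hj).resolve_left fun e => by
          have := hmax k hk
          rw [e] at h4
          omega, h4, h5⟩)
      (fun k hk => h2 k (hs k hk)) (fun k hk j hj => h3 k (hs k hk) j (hs j hj)) g hg hgY
    set A := Z ∪ ⋃ k ∈ s, cell k with hA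
    have hAc : IsClosed A :=
      hZ.union (s.finite_toSet.isClosed_biUnion fun k hk => hc k (hs k hk))
    have hb : bd a ⊆ A := fun x hx => (h1 a ha' x hx).imp id fun ⟨j, hj, h4, h5⟩ =>
      mem_biUnion ((Finset.mem_insert.1 hj).resolve_left fun e => by
        rw [e] at h4
        omega) h5
    obtain ⟨G1, hG1, hG1Y, hG1e⟩ := he a ha' G0 (hG0.mono hb) (hG0Y.mono_left hb)
    have hi : ∀ x ∈ cell a, x ∈ A → x ∈ bd a := by
      rintro x hx (h | h)
      · exact h2 a ha' ⟨hx, h⟩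
      · obtain ⟨j, hj, h5⟩ := mem_iUnion₂.1 h
        exact h3 a ha' j (hs j hj) (fun e => ha (e ▸ hj)) (hmax j hj) ⟨hx, h5⟩
    have hu : Z ∪ ⋃ k ∈ insert a s, cell k = A ∪ cell a := by
      rw [Finset.set_biUnion_insert, hA, union_comm (cell a), union_assoc]
    rw [hu]
    have e0 : EqOn (fun x => if x ∈ A then G0 x else G1 x) G0 A := fun x hx => if_pos hx
    have e1 : EqOn (fun x => if x ∈ A then G0 x else G1 x) G1 (cell a) := fun x hx => by
      beta_reduce
      split_ifs with h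
      · exact (hG1e (hi x hx h)).symm
      · rfl
    refine ⟨fun x => if x ∈ A then G0 x else G1 x,
      (hG0.congr e0).union_of_isClosed (hG1.congr e1) hAc (hc a ha'), ?_, ?_⟩
    · rintro x (hx | hx)
      · rw [e0 hx]
        exact hG0Y hx
      · rw [e1 hx]
        exact hG1Y hx
    · exact fun x hx => (e0 (Or.inl hx)).trans (hG0e hx)

/-- Polyhedral cells: `t` is the minimum of finitely many affine functions. -/
theorem tcell_aff [AddCommGroup E'] [Module ℝ E'] [TopologicalSpace E'] [IsTopologicalAddGroup E']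
    [ContinuousSMul ℝ E'] [T2Space E'] (hY : WCs Y) {D : Set E'} (hD : IsCompact D) (c : E')
    {ι : Type*} (I : Finset ι) (hI : I.Nonempty) (f : ι → E' → ℝ) (hf : ∀ i, Continuous (f i))
    (h0 : ∀ x ∈ D, ∀ i ∈ I, 0 ≤ f i x)
    (ha : ∀ i ∈ I, ∀ x, ∀ s : ℝ, s < 1 → f i ((1 - s)⁻¹ • (x - s • c)) = (1 - s)⁻¹ * (f i x - s))
    (hin : ∀ x ∈ D, ∀ s : ℝ, s < 1 → (∀ i ∈ I, 0 ≤ f i ((1 - s)⁻¹ • (x - s • c))) →
      (1 - s)⁻¹ • (x - s • c) ∈ D) :
    Ext D {x ∈ D | ∃ i ∈ I, f i x = 0} Y := by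
  have hz : ∀ x, (∀ i ∈ I, 0 ≤ f i x) → ((I.inf' hI fun i => f i x) = 0 ↔ ∃ i ∈ I, f i x = 0) := by
    intro x hx
    refine ⟨fun h => ?_, fun ⟨i, hi, h⟩ => le_antisymm (h ▸ Finset.inf'_le (fun i => f i x) hi)
      (Finset.le_inf' _ _ hx)⟩
    obtain ⟨i, hi, e⟩ := Finset.exists_mem_eq_inf' hI fun i => f i x
    exact ⟨i, hi, e.symm.trans h⟩
  have h := cell_ext hY hD c (t := fun x => I.inf' hI fun i => f i x)
    (Continuous.finset_inf'_apply hI fun i _ => hf i)
    (fun x hx => Finset.le_inf' _ _ (h0 x hx)) (fun x hx hs => by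
      have hp : ∀ i ∈ I, 0 ≤ f i ((1 - I.inf' hI fun i => f i x)⁻¹ •
          (x - (I.inf' hI fun i => f i x) • c)) := fun i hi => by
        rw [ha i hi x _ hs]
        exact mul_nonneg (inv_nonneg.2 (by linarith))
          (sub_nonneg.2 (Finset.inf'_le (fun i => f i x) hi))
      refine ⟨hin x hx _ hs hp, (hz _ hp).2 ?_⟩
      obtain ⟨i, hi, e⟩ := Finset.exists_mem_eq_inf' hI fun i => f i x
      exact ⟨i, hi, by rw [ha i hi x _ hs, e, sub_self, mul_zero]⟩)
  have e : {x ∈ D | ∃ i ∈ I, f i x = 0} = {x ∈ D | (I.inf' hI fun i => f i x) = 0} := by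
    ext x
    exact and_congr_right fun hx => (hz x (h0 x hx)).symm
  rw [e]
  exact h

theorem tcell_empty {Q : Type*} : simplex (∅ : Finset Q) = ∅ := by
  ext x
  simp [simplex]

open Classical in
/-- The barycentre. -/
noncomputable def tcellC {Q : Type*} (σ : Finset Q) : Q → ℝ :=
  fun q => if q ∈ σ then (σ.card : ℝ)⁻¹ else 0

theorem tcell_coord {Q : Type*} {σ : Finset Q} {q : Q} (hq : q ∈ σ) (x : Q → ℝ) {s : ℝ}
    (_ : s < 1) : (σ.card : ℝ) * ((1 - s)⁻¹ • (x - s • tcellC σ)) q =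
      (1 - s)⁻¹ * (σ.card * x q - s) := by
  have hn : (0 : ℝ) < σ.card := by exact_mod_cast Finset.card_pos.2 ⟨q, hq⟩
  simp only [Pi.smul_apply, Pi.sub_apply, smul_eq_mul, tcellC, if_pos hq]
  field_simp

theorem tcell_mem {Q : Type*} {σ : Finset Q} (hσ : σ.Nonempty) {x : Q → ℝ} (hx : x ∈ simplex σ)
    {s : ℝ} (hs : s < 1) (h : ∀ q ∈ σ, 0 ≤ (σ.card : ℝ) * ((1 - s)⁻¹ • (x - s • tcellC σ)) q) :
    (1 - s)⁻¹ • (x - s • tcellC σ) ∈ simplex σ := by
  have hn : (0 : ℝ) < σ.card := by exact_mod_cast hσ.card_pos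
  have h2 : ∀ q, q ∉ σ → ((1 - s)⁻¹ • (x - s • tcellC σ)) q = 0 := fun q hq => by
    simp [tcellC, hq, hx.2.1 q hq]
  refine ⟨fun q => ?_, h2, ?_⟩
  · by_cases hq : q ∈ σ
    · exact nonneg_of_mul_nonneg_right (h q hq) hn
    · exact (h2 q hq).ge
  · have h3 : ∑ q ∈ σ, tcellC σ q = 1 := by
      rw [Finset.sum_congr rfl (g := fun _ => (σ.card : ℝ)⁻¹) fun q hq => by simp [tcellC, hq]]
      simp [hn.ne']
    simp only [Pi.smul_apply, Pi.sub_apply, smul_eq_mul, ← Finset.mul_sum,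
      Finset.sum_sub_distrib, hx.2.2, h3, mul_one]
    exact inv_mul_cancel₀ (by linarith)

/-- The two affine functions of the unit interval. -/
def tcellB (b : Bool) (u : ℝ) : ℝ := if b then 2 * (1 - u) else 2 * u

theorem tcellB_cont (b : Bool) : Continuous (tcellB b) := by
  unfold tcellB
  split_ifs <;> fun_prop

theorem tcellB_nonneg {u : ℝ} : u ∈ Icc (0 : ℝ) 1 ↔ ∀ b, 0 ≤ tcellB b u := by
  simp [tcellB]

theorem tcellB_aff (b : Bool) (u : ℝ) {s : ℝ} (hs : s < 1) :
    tcellB b ((1 - s)⁻¹ * (u - s * (1 / 2))) = (1 - s)⁻¹ * (tcellB b u - s) := by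
  have : 1 - s ≠ 0 := by linarith
  cases b
  · simp only [tcellB, Bool.false_eq_true, if_false]
    field_simp
  · simp only [tcellB, if_true]
    field_simp
    ring

theorem simplex_ext (hY : WCs Y) {Q : Type*} (σ : Finset Q) :
    Ext (simplex σ) {x ∈ simplex σ | ∃ q ∈ σ, x q = 0} Y := by
  classical
  rcases σ.eq_empty_or_nonempty with rfl | hσ
  · intro g _ _
    rw [tcell_empty]
    exact ⟨g, continuousOn_empty _, mapsTo_empty _ _, fun _ _ => rfl⟩
  have hn : (0 : ℝ) < σ.card := by exact_mod_cast hσ.card_pos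
  have h := tcell_aff hY (isCompact_simplex σ) (tcellC σ) σ hσ (fun q x => σ.card * x q)
    (fun q => continuous_const.mul (continuous_apply q))
    (fun x hx q _ => mul_nonneg hn.le (hx.1 q)) (fun q hq x s hs => tcell_coord hq x hs)
    (fun x hx s hs h => tcell_mem hσ hx hs h)
  simpa only [mul_eq_zero, hn.ne', false_or] using h

theorem prism_ext (hY : WCs Y) {Q : Type*} (σ : Finset Q) :
    Ext (simplex σ ×ˢ Icc (0 : ℝ) 1)
      {z ∈ simplex σ ×ˢ Icc (0 : ℝ) 1 | (∃ q ∈ σ, z.1 q = 0) ∨ z.2 = 0 ∨ z.2 = 1} Y := by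
  classical
  rcases σ.eq_empty_or_nonempty with rfl | hσ
  · intro g _ _
    rw [tcell_empty, empty_prod]
    exact ⟨g, continuousOn_empty _, mapsTo_empty _ _, fun _ _ => rfl⟩
  have hn : (0 : ℝ) < σ.card := by exact_mod_cast hσ.card_pos
  have h := tcell_aff hY ((isCompact_simplex σ).prod (isCompact_Icc : IsCompact (Icc (0 : ℝ) 1)))
    (tcellC σ, 1 / 2) (σ.disjSum (Finset.univ : Finset Bool)) ⟨Sum.inr true, by simp⟩
    (fun i z => Sum.elim (fun q => σ.card * z.1 q) (fun b => tcellB b z.2) i)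
    (by
      rintro (q | b)
      · exact continuous_const.mul ((continuous_apply q).comp continuous_fst)
      · exact (tcellB_cont b).comp continuous_snd)
    (by
      rintro z hz (q | b) _
      · exact mul_nonneg hn.le (hz.1.1 q)
      · exact tcellB_nonneg.1 hz.2 b)
    (by
      rintro (q | b) hq z s hs
      · exact tcell_coord (by simpa using hq) z.1 hs
      · exact tcellB_aff b z.2 hs)
    (fun z hz s hs h => ⟨tcell_mem hσ hz.1 hs fun q hq => h (Sum.inl q) (by simpa using hq),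
      tcellB_nonneg.2 fun b => h (Sum.inr b) (by simp)⟩)
  convert h using 4 with z
  simp [hn.ne', tcellB, sub_eq_zero, eq_comm (a := (1 : ℝ))]

theorem cube_ext (hY : WCs Y) {ι : Type*} [Fintype ι] [Nonempty ι] :
    Ext (Set.pi univ fun _ : ι => Icc (0 : ℝ) 1)
      {x ∈ Set.pi univ fun _ : ι => Icc (0 : ℝ) 1 | ∃ i, x i = 0 ∨ x i = 1} Y := by
  have h := tcell_aff hY
    (isCompact_univ_pi fun _ : ι => (isCompact_Icc : IsCompact (Icc (0 : ℝ) 1)))
    (fun _ => 1 / 2) (Finset.univ : Finset (ι × Bool)) Finset.univ_nonempty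
    (fun i x => tcellB i.2 (x i.1)) (fun i => (tcellB_cont i.2).comp (continuous_apply i.1))
    (fun x hx i _ => tcellB_nonneg.1 (hx i.1 trivial) i.2)
    (fun i _ x s hs => tcellB_aff i.2 (x i.1) hs)
    (fun x _ s _ h i _ => tcellB_nonneg.2 fun b => h (i, b) (Finset.mem_univ _))
  convert h using 4 with x
  simp [tcellB, sub_eq_zero, eq_comm (a := (1 : ℝ))]

end Vale.Agent.P203
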